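import Mathlib

/-!
Abstract facts on the continuous time semigroup `exp (t • L)` of a finite state generator.
-/

open scoped BigOperators Matrix

namespace Vale.Agent.Lib.P150

variable {Ω : Type*} [Fintype Ω] [DecidableEq Ω]

/-- The semigroup of a matrix `L`. -/
noncomputable def semi (L : Matrix Ω Ω ℝ) (t : ℝ) : Matrix Ω Ω ℝ := NormedSpace.exp (t • L)

lemma semi_zero (L : Matrix Ω Ω ℝ) : semi L 0 = 1 := by
  simp [semi]

lemma semi_add (L : Matrix Ω Ω ℝ) (s t : ℝ) : semi L (s + t) = semi L s * semi L t := by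
  unfold semi
  rw [add_smul]
  exact Matrix.exp_add_of_commute _ _ ((Commute.refl L).smul_left s |>.smul_right t)

open scoped Matrix.Norms.Operator in
lemma hasDerivAt_semi (L : Matrix Ω Ω ℝ) (t : ℝ) :
    HasDerivAt (semi L) (semi L t * L) t := by
  unfold semi
  exact hasDerivAt_exp_smul_const (𝕂 := ℝ) L t

open scoped Matrix.Norms.Operator in
lemma hasDerivAt_semi' (L : Matrix Ω Ω ℝ) (t : ℝ) :
    HasDerivAt (semi L) (L * semi L t) t := by
  unfold semi
  exact hasDerivAt_exp_smul_const' (𝕂 := ℝ) L t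

open scoped Matrix.Norms.Operator in
lemma semi_comm (L : Matrix Ω Ω ℝ) (t : ℝ) : semi L t * L = L * semi L t :=
  (hasDerivAt_semi L t).unique (hasDerivAt_semi' L t)

open scoped Matrix.Norms.Operator in
lemma hasDerivAt_semi_entry (L : Matrix Ω Ω ℝ) (t : ℝ) (x y : Ω) :
    HasDerivAt (fun s => semi L s x y) ((semi L t * L) x y) t := by
  have h := hasDerivAt_semi L t
  have hE := (LinearMap.toContinuousLinearMap
    (Matrix.entryLinearMap ℝ ℝ x y : Matrix Ω Ω ℝ →ₗ[ℝ] ℝ)).hasFDerivAt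
    (x := semi L t)
  have := hE.comp_hasDerivAt t h
  exact this

/-- Derivative of the action on a fixed vector. -/
lemma hasDerivAt_semi_mulVec (L : Matrix Ω Ω ℝ) (f : Ω → ℝ) (t : ℝ) (x : Ω) :
    HasDerivAt (fun s => (semi L s *ᵥ f) x) ((semi L t *ᵥ (L *ᵥ f)) x) t := by
  have h : HasDerivAt (fun s => ∑ y, semi L s x y * f y)
      (∑ y, (semi L t * L) x y * f y) t :=
    HasDerivAt.fun_sum fun y _ => (hasDerivAt_semi_entry L t x y).mul_const (f y)
  have h2 : (semi L t *ᵥ (L *ᵥ f)) x = ∑ y, (semi L t * L) x y * f y := by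
    rw [Matrix.mulVec_mulVec]; rfl
  rw [h2]
  exact h

lemma hasDerivAt_semi_mulVec' (L : Matrix Ω Ω ℝ) (f : Ω → ℝ) (t : ℝ) (x : Ω) :
    HasDerivAt (fun s => (semi L s *ᵥ f) x) ((L *ᵥ (semi L t *ᵥ f)) x) t := by
  have h := hasDerivAt_semi_mulVec L f t x
  have h2 : (semi L t *ᵥ (L *ᵥ f)) x = (L *ᵥ (semi L t *ᵥ f)) x := by
    rw [Matrix.mulVec_mulVec, Matrix.mulVec_mulVec, semi_comm]
  rwa [h2] at h

/-- Entrywise nonnegativity of the exponential of an entrywise nonnegative matrix. -/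
lemma exp_entry_nonneg (M : Matrix Ω Ω ℝ) (hM : ∀ x y, 0 ≤ M x y) (t : ℝ) (ht : 0 ≤ t)
    (x y : Ω) : 0 ≤ (NormedSpace.exp (t • M)) x y := by
  classical
  let _ : NormedRing (Matrix Ω Ω ℝ) := Matrix.linftyOpNormedRing
  let _ : NormedAlgebra ℝ (Matrix Ω Ω ℝ) := Matrix.linftyOpNormedAlgebra
  have hs := NormedSpace.exp_series_hasSum_exp' (𝕂 := ℝ) (t • M)
  have hE := hs.mapL (LinearMap.toContinuousLinearMap
    (Matrix.entryLinearMap ℝ ℝ x y : Matrix Ω Ω ℝ →ₗ[ℝ] ℝ))
  have hpow : ∀ k : ℕ, ∀ a b, 0 ≤ ((t • M) ^ k) a b := by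
    intro k
    induction k with
    | zero =>
      intro a b
      simp only [pow_zero, Matrix.one_apply]
      split_ifs <;> norm_num
    | succ k ih =>
      intro a b
      rw [pow_succ, Matrix.mul_apply]
      refine Finset.sum_nonneg fun c _ => mul_nonneg (ih a c) ?_
      simp only [Matrix.smul_apply, smul_eq_mul]
      exact mul_nonneg ht (hM c b)
  have := hE.nonneg (fun k => by
    simp only [LinearMap.coe_toContinuousLinearMap', Matrix.entryLinearMap_apply,
      Matrix.smul_apply, smul_eq_mul]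
    exact mul_nonneg (by positivity) (hpow k x y))
  exact this

lemma exp_algebraMap_matrix (r : ℝ) :
    NormedSpace.exp (algebraMap ℝ (Matrix Ω Ω ℝ) r) = Real.exp r • (1 : Matrix Ω Ω ℝ) := by
  have h : algebraMap ℝ (Matrix Ω Ω ℝ) r = Matrix.diagonal (fun _ => r) := by
    rw [Matrix.algebraMap_eq_diagonal]; rfl
  rw [h, Matrix.exp_diagonal]
  ext a b
  by_cases hab : a = b
  · subst hab
    simp [Real.exp_eq_exp_ℝ]
  · simp [hab]

/-- A Markov generator: nonnegative off diagonal entries. -/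
lemma semi_nonneg (L : Matrix Ω Ω ℝ) (hL : ∀ x y, x ≠ y → 0 ≤ L x y) (t : ℝ) (ht : 0 ≤ t)
    (x y : Ω) : 0 ≤ semi L t x y := by
  classical
  set Λ : ℝ := ∑ a, |L a a| with hΛ
  have hΛa : ∀ a, |L a a| ≤ Λ := fun a =>
    Finset.single_le_sum (f := fun a => |L a a|) (fun _ _ => abs_nonneg _) (Finset.mem_univ a)
  set M : Matrix Ω Ω ℝ := L + Λ • (1 : Matrix Ω Ω ℝ) with hM
  have hMn : ∀ a b, 0 ≤ M a b := by
    intro a b
    simp only [hM, Matrix.add_apply, Matrix.smul_apply, Matrix.one_apply, smul_eq_mul]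
    by_cases h : a = b
    · subst h
      simp only [if_true, mul_one]
      have := hΛa a
      have := neg_abs_le (L a a)
      linarith
    · simp only [h, if_false, mul_zero, add_zero]
      exact hL a b h
  have hsplit : t • L = t • M + (-(t * Λ)) • (1 : Matrix Ω Ω ℝ) := by
    simp only [hM, smul_add, smul_smul]
    rw [neg_smul]
    abel
  have hcomm : Commute (t • M) ((-(t * Λ)) • (1 : Matrix Ω Ω ℝ)) :=
    ((Commute.one_right M).smul_left t).smul_right _
  have hexp : semi L t = NormedSpace.exp (t • M) * (Real.exp (-(t * Λ)) • (1 : Matrix Ω Ω ℝ)) := by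
    unfold semi
    rw [hsplit, Matrix.exp_add_of_commute _ _ hcomm]
    congr 1
    have : (-(t * Λ)) • (1 : Matrix Ω Ω ℝ) = algebraMap ℝ (Matrix Ω Ω ℝ) (-(t * Λ)) := by
      rw [Algebra.algebraMap_eq_smul_one]
    rw [this]
    exact exp_algebraMap_matrix _
  rw [hexp, Matrix.mul_smul, Matrix.mul_one, Matrix.smul_apply, smul_eq_mul]
  exact mul_nonneg (Real.exp_pos _).le (exp_entry_nonneg M hMn t ht x y)

/-- Row sums. -/
lemma semi_rowsum (L : Matrix Ω Ω ℝ) (hL : ∀ x, ∑ y, L x y = 0) (t : ℝ) (x : Ω) :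
    ∑ y, semi L t x y = 1 := by
  have hzero : L *ᵥ (fun _ => (1 : ℝ)) = 0 := by
    ext a
    simp [Matrix.mulVec, dotProduct, hL a]
  have hd : ∀ s, HasDerivAt (fun s => (semi L s *ᵥ (fun _ => (1 : ℝ))) x) 0 s := by
    intro s
    have := hasDerivAt_semi_mulVec L (fun _ => (1 : ℝ)) s x
    simpa [hzero] using this
  have hconst := is_const_of_deriv_eq_zero
    (f := fun s => (semi L s *ᵥ (fun _ => (1 : ℝ))) x)
    (fun s => (hd s).differentiableAt) (fun s => (hd s).deriv) t 0
  simp only [semi_zero] at hconst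
  simpa [Matrix.mulVec, dotProduct, Matrix.one_apply] using hconst

/-- Reversibility passes to the semigroup. -/
lemma semi_reversible (L : Matrix Ω Ω ℝ) (μ : Ω → ℝ) (hμ : ∀ x, 0 < μ x)
    (hrev : ∀ x y, μ x * L x y = μ y * L y x) (t : ℝ) (x y : Ω) :
    μ x * semi L t x y = μ y * semi L t y x := by
  classical
  set U : Matrix Ω Ω ℝ := Matrix.diagonal μ with hU
  set U' : Matrix Ω Ω ℝ := Matrix.diagonal (fun a => (μ a)⁻¹) with hU'
  have hUU' : U * U' = 1 := by
    simp only [hU, hU', Matrix.diagonal_mul_diagonal]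
    rw [← Matrix.diagonal_one]
    congr 1
    ext a
    exact mul_inv_cancel₀ (hμ a).ne'
  have hU'U : U' * U = 1 := by
    simp only [hU, hU', Matrix.diagonal_mul_diagonal]
    rw [← Matrix.diagonal_one]
    congr 1
    ext a
    exact inv_mul_cancel₀ (hμ a).ne'
  have hunit : IsUnit U := ⟨⟨U, U', hUU', hU'U⟩, rfl⟩
  have hinv : U⁻¹ = U' := Matrix.inv_eq_right_inv hUU'
  have hconj : U * (t • L) * U⁻¹ = (t • L)ᵀ := by
    rw [hinv]
    ext a b
    simp only [hU, hU', Matrix.mul_diagonal, Matrix.diagonal_mul, Matrix.smul_apply, smul_eq_mul,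
      Matrix.transpose_apply]
    have := hrev a b
    have hb := (hμ b).ne'
    field_simp
    linear_combination t * this
  have hexp := Matrix.exp_conj U (t • L) hunit
  rw [hconj, Matrix.exp_transpose] at hexp
  have key : (semi L t)ᵀ * U = U * semi L t := by
    unfold semi
    rw [hexp, hinv, Matrix.mul_assoc, hU'U, Matrix.mul_one]
  have := congrFun (congrFun key y) x
  simp only [hU, Matrix.mul_diagonal, Matrix.diagonal_mul, Matrix.transpose_apply] at this
  linarith

/-- Comparison principle: a subsolution of `∂Q ≤ LQ + κ Q` is dominated by the semigroup. -/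
lemma comparison (L : Matrix Ω Ω ℝ) (hL : ∀ x y, x ≠ y → 0 ≤ L x y)
    {Q Q' : ℝ → Ω → ℝ} {κ T : ℝ} (hT : 0 ≤ T)
    (hQ : ∀ r y, HasDerivAt (fun s => Q s y) (Q' r y) r)
    (hineq : ∀ r, 0 ≤ r → r ≤ T → ∀ y, Q' r y ≤ (L *ᵥ Q r) y + κ * Q r y) (x : Ω) :
    Q T x ≤ Real.exp (κ * T) * (semi L T *ᵥ Q 0) x := by
  classical
  set Φ : ℝ → ℝ := fun r => Real.exp (-(κ * r)) * ∑ y, semi L (T - r) x y * Q r y with hΦ
  set Φ' : ℝ → ℝ := fun r => Real.exp (-(κ * r)) *
    ∑ y, semi L (T - r) x y * (Q' r y - (L *ᵥ Q r) y - κ * Q r y) with hΦ'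
  have hd : ∀ r, HasDerivAt Φ (Φ' r) r := by
    intro r
    have h1 : HasDerivAt (fun r => Real.exp (-(κ * r))) (Real.exp (-(κ * r)) * (-κ)) r := by
      have : HasDerivAt (fun r : ℝ => -(κ * r)) (-κ) r := by
        simpa using ((hasDerivAt_id' r).const_mul κ).fun_neg
      exact this.exp
    have h2 : ∀ y, HasDerivAt (fun r => semi L (T - r) x y * Q r y)
        (-(semi L (T - r) * L) x y * Q r y + semi L (T - r) x y * Q' r y) r := by
      intro y
      have ha : HasDerivAt (fun r => semi L (T - r) x y) (-(semi L (T - r) * L) x y) r := by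
        have h0 := hasDerivAt_semi_entry L (T - r) x y
        have h1 : HasDerivAt (fun r : ℝ => T - r) (-1) r := by
          simpa using (hasDerivAt_id' r).const_sub T
        have := h0.scomp r h1
        simpa [Function.comp_def, Matrix.neg_apply] using this
      exact ha.mul (hQ r y)
    have h3 : HasDerivAt (fun r => ∑ y, semi L (T - r) x y * Q r y)
        (∑ y, (-(semi L (T - r) * L) x y * Q r y + semi L (T - r) x y * Q' r y)) r :=
      HasDerivAt.fun_sum fun y _ => h2 y
    refine (h1.fun_mul h3).congr_deriv ?_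
    change _ = Real.exp (-(κ * r)) *
      ∑ y, semi L (T - r) x y * (Q' r y - (L *ᵥ Q r) y - κ * Q r y)
    have e1 : ∑ y, (semi L (T - r) * L) x y * Q r y
        = ∑ y, semi L (T - r) x y * (L *ᵥ Q r) y := by
      have : (semi L (T - r) * L) *ᵥ Q r = semi L (T - r) *ᵥ (L *ᵥ Q r) := by
        rw [Matrix.mulVec_mulVec]
      have := congrFun this x
      simpa [Matrix.mulVec, dotProduct] using this
    have e2 : ∑ y, semi L (T - r) x y * (Q' r y - (L *ᵥ Q r) y - κ * Q r y)
        = ∑ y, semi L (T - r) x y * Q' r y - ∑ y, semi L (T - r) x y * (L *ᵥ Q r) y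
          - κ * ∑ y, semi L (T - r) x y * Q r y := by
      rw [Finset.mul_sum, ← Finset.sum_sub_distrib, ← Finset.sum_sub_distrib]
      refine Finset.sum_congr rfl fun y _ => ?_
      ring
    have e3 : ∑ y, (-(semi L (T - r) * L) x y * Q r y + semi L (T - r) x y * Q' r y)
        = -∑ y, semi L (T - r) x y * (L *ᵥ Q r) y + ∑ y, semi L (T - r) x y * Q' r y := by
      rw [← e1, Finset.sum_add_distrib, ← Finset.sum_neg_distrib]
      refine congrArg₂ _ (Finset.sum_congr rfl fun y _ => ?_) rfl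
      ring
    rw [e2, e3]
    ring
  have hcont : Continuous Φ := continuous_iff_continuousAt.2 fun r => (hd r).continuousAt
  have hanti : AntitoneOn Φ (Set.Icc 0 T) := by
    apply antitoneOn_of_deriv_nonpos (convex_Icc 0 T) hcont.continuousOn
    · exact fun r _ => (hd r).differentiableAt.differentiableWithinAt
    · intro r hr
      rw [interior_Icc] at hr
      rw [(hd r).deriv]
      refine mul_nonpos_of_nonneg_of_nonpos (Real.exp_pos _).le ?_
      refine Finset.sum_nonpos fun y _ => ?_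
      refine mul_nonpos_of_nonneg_of_nonpos (semi_nonneg L hL _ (by linarith [hr.2]) x y) ?_
      have := hineq r hr.1.le hr.2.le y
      linarith
  have hle := hanti (Set.left_mem_Icc.2 hT) (Set.right_mem_Icc.2 hT) hT
  simp only [hΦ] at hle
  simp only [sub_self, semi_zero, mul_zero, neg_zero, Real.exp_zero, one_mul, sub_zero] at hle
  have e : ∑ y, (1 : Matrix Ω Ω ℝ) x y * Q T y = Q T x := by
    simp [Matrix.one_apply]
  rw [e] at hle
  have hmv : (semi L T *ᵥ Q 0) x = ∑ y, semi L T x y * Q 0 y := rfl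
  rw [hmv]
  have hpos := Real.exp_pos (κ * T)
  have hexp : Real.exp (-(κ * T)) = (Real.exp (κ * T))⁻¹ := Real.exp_neg _
  rw [hexp] at hle
  have := mul_le_mul_of_nonneg_left hle hpos.le
  rw [← mul_assoc, mul_inv_cancel₀ hpos.ne', one_mul] at this
  exact this

end Vale.Agent.Lib.P150
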