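import Vale.Agent.Lib.P150.Defs
import Vale.Agent.Lib.P150.Semi

/-!
Calculus on the cube and the discrete Bochner inequality for the squared `ℓ²` gradient.
-/

open scoped BigOperators Matrix

namespace Vale.Agent.Lib.P150

variable {n : ℕ}

lemma flipAt_flipAt (x : Conf n) (i : Fin n) : flipAt (flipAt x i) i = x := by
  funext j
  by_cases h : j = i
  · subst h; simp [flipAt]
  · simp [flipAt, h]

lemma flipAt_comm (x : Conf n) (i k : Fin n) : flipAt (flipAt x i) k = flipAt (flipAt x k) i := by
  funext j
  by_cases h : j = i <;> by_cases h' : j = k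
  · subst h; subst h'; rfl
  · subst h; simp [flipAt, h']
  · subst h'; simp [flipAt, h]
  · simp [flipAt, h, h']

lemma flipAt_ne (x : Conf n) (i : Fin n) : flipAt x i ≠ x := by
  intro h
  have := congrFun h i
  simp [flipAt] at this

lemma flipAt_apply_same (x : Conf n) (i : Fin n) : flipAt x i i = !x i := by
  simp [flipAt]

lemma flipAt_apply_ne (x : Conf n) {i j : Fin n} (h : j ≠ i) : flipAt x i j = x j := by
  simp [flipAt, h]

lemma spin_not (b : Bool) : spin (!b) = - spin b := by
  cases b <;> simp [spin]

lemma spin_sq (b : Bool) : spin b ^ 2 = 1 := by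
  cases b <;> simp [spin]

lemma spin_mul_self (b : Bool) : spin b * spin b = 1 := by
  cases b <;> simp [spin]

lemma spin_abs (b : Bool) : |spin b| = 1 := by
  cases b <;> simp [spin]

/-- The action of a flip-rate generator. -/
noncomputable def rateAct (c : Conf n → Fin n → ℝ) (G : Conf n → ℝ) (x : Conf n) : ℝ :=
  ∑ i, c x i * (G (flipAt x i) - G x)

lemma generator_mulVec (A : Matrix (Fin n) (Fin n) ℝ) (G : Conf n → ℝ) (x : Conf n) :
    (generator A *ᵥ G) x = rateAct (flipRate A) G x := by
  classical
  simp only [Matrix.mulVec, dotProduct, generator, rateAct, sub_mul, Finset.sum_sub_distrib,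
    Finset.sum_mul]
  rw [Finset.sum_comm]
  simp only [ite_mul, zero_mul, Finset.sum_ite_eq', Finset.mem_univ, if_true, mul_sub,
    Finset.sum_sub_distrib]
  congr 1
  rw [Finset.sum_mul]

/-- Squared `ℓ²` norm of the discrete gradient. -/
noncomputable def gradSq (G : Conf n → ℝ) (x : Conf n) : ℝ :=
  ∑ i, (G (flipAt x i) - G x) ^ 2

lemma gradSq_nonneg (G : Conf n → ℝ) (x : Conf n) : 0 ≤ gradSq G x :=
  Finset.sum_nonneg fun _ _ => sq_nonneg _

/-- The error functional in the Bochner inequality. -/
noncomputable def restTerm (c : Conf n → Fin n → ℝ) (x : Conf n) (u : Fin n → ℝ) : ℝ :=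
  ∑ i, ∑ k, if k = i then 0 else
    2 * (c (flipAt x i) k - c x k) * u i * u k + (c (flipAt x i) k - c x k) ^ 2 / c x k * u i ^ 2

/-- The discrete Bochner inequality. -/
theorem bochner (c : Conf n → Fin n → ℝ) (hpos : ∀ x i, 0 < c x i)
    (hsum : ∀ x i, c x i + c (flipAt x i) i = 1) (G : Conf n → ℝ) (x : Conf n) :
    2 * ∑ i, (G (flipAt x i) - G x) *
        (rateAct c G (flipAt x i) - rateAct c G x)
      ≤ rateAct c (gradSq G) x - 2 * gradSq G x
        + restTerm c x (fun i => G (flipAt x i) - G x) := by
  classical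
  set u : Fin n → ℝ := fun i => G (flipAt x i) - G x with hu
  set w : Fin n → Fin n → ℝ := fun i k =>
    G (flipAt (flipAt x i) k) - G (flipAt x i) - G (flipAt x k) + G x with hw
  -- expansions
  have e1 : ∀ i, rateAct c G (flipAt x i) - rateAct c G x
      = ∑ k, (c (flipAt x i) k * (u k + w i k) - c x k * u k) := by
    intro i
    simp only [rateAct]
    rw [← Finset.sum_sub_distrib]
    refine Finset.sum_congr rfl fun k _ => ?_
    simp only [hu, hw]
    ring
  have e2 : ∀ k, gradSq G (flipAt x k) - gradSq G x
      = ∑ i, (2 * u i * w i k + w i k ^ 2) := by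
    intro k
    simp only [gradSq]
    rw [← Finset.sum_sub_distrib]
    refine Finset.sum_congr rfl fun i _ => ?_
    simp only [hu, hw]
    rw [flipAt_comm x i k]
    ring
  have e3 : rateAct c (gradSq G) x = ∑ k, c x k * ∑ i, (2 * u i * w i k + w i k ^ 2) := by
    simp only [rateAct]
    refine Finset.sum_congr rfl fun k _ => ?_
    rw [e2 k]
  have e4 : gradSq G x = ∑ i, u i ^ 2 := rfl
  -- the pointwise bound
  have key : ∀ i k,
      2 * u i * (c (flipAt x i) k * (u k + w i k) - c x k * u k)
        - c x k * (2 * u i * w i k + w i k ^ 2)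
      ≤ (if k = i then - (2 * u i ^ 2) else 0)
        + (if k = i then 0 else
          2 * (c (flipAt x i) k - c x k) * u i * u k
            + (c (flipAt x i) k - c x k) ^ 2 / c x k * u i ^ 2) := by
    intro i k
    by_cases hki : k = i
    · subst hki
      simp only [if_true, add_zero]
      have hwii : w k k = -2 * u k := by
        simp only [hw, hu, flipAt_flipAt]
        ring
      have hs := hsum x k
      rw [hwii]
      have h' : c (flipAt x k) k = 1 - c x k := by linarith
      rw [h']
      apply le_of_eq
      ring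
    · simp only [hki, if_false, zero_add]
      have hc := hpos x k
      set δ := c (flipAt x i) k - c x k with hδ
      have hc' : c (flipAt x i) k = c x k + δ := by rw [hδ]; ring
      rw [hc']
      have hsq : 0 ≤ (δ * u i - c x k * w i k) ^ 2 / c x k := by positivity
      have hexp : (δ * u i - c x k * w i k) ^ 2 / c x k
          = δ ^ 2 / c x k * u i ^ 2 - 2 * δ * u i * w i k + c x k * w i k ^ 2 := by
        field_simp
        ring
      rw [hexp] at hsq
      nlinarith
  have hL : 2 * ∑ i, u i * (rateAct c G (flipAt x i) - rateAct c G x)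
      - rateAct c (gradSq G) x
      = ∑ i, ∑ k, (2 * u i * (c (flipAt x i) k * (u k + w i k) - c x k * u k)
          - c x k * (2 * u i * w i k + w i k ^ 2)) := by
    rw [e3, Finset.mul_sum]
    simp only [e1]
    have : ∑ k, c x k * ∑ i, (2 * u i * w i k + w i k ^ 2)
        = ∑ i, ∑ k, c x k * (2 * u i * w i k + w i k ^ 2) := by
      rw [Finset.sum_comm]
      refine Finset.sum_congr rfl fun k _ => ?_
      rw [Finset.mul_sum]
    rw [this, ← Finset.sum_sub_distrib]
    refine Finset.sum_congr rfl fun i _ => ?_
    rw [Finset.mul_sum, Finset.mul_sum, ← Finset.sum_sub_distrib]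
    refine Finset.sum_congr rfl fun k _ => ?_
    ring
  have hR : ∑ i, ∑ k, ((if k = i then - (2 * u i ^ 2) else 0)
        + (if k = i then 0 else
          2 * (c (flipAt x i) k - c x k) * u i * u k
            + (c (flipAt x i) k - c x k) ^ 2 / c x k * u i ^ 2))
      = - (2 * gradSq G x) + restTerm c x u := by
    simp only [Finset.sum_add_distrib, restTerm]
    congr 1
    simp only [Finset.sum_ite_eq', Finset.mem_univ, if_true, e4, Finset.mul_sum,
      Finset.sum_neg_distrib]
  have hsumle := Finset.sum_le_sum fun i (_ : i ∈ Finset.univ) =>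
    Finset.sum_le_sum fun k (_ : k ∈ Finset.univ) => key i k
  rw [← hL, hR] at hsumle
  linarith

end Vale.Agent.Lib.P150
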