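import Vale.Agent.Lib.P150.Mlsi

/-!
Exponential decay of entropy and the bound on total variation.
-/

open scoped BigOperators Matrix
open Filter Topology

namespace Vale.Agent.Lib.P150

variable {n : ℕ}

/-- Comparison of the entropy and the covariance on two points. -/
lemma two_point_cov {w w' a b : ℝ} (hw : 0 < w) (hw' : 0 < w') (ha : 0 < a) (hb : 0 < b) :
    w * xlogx a + w' * xlogx b - lamF (w * a + w' * b) (w + w')
      ≤ w * w' / (w + w') * ((a - b) * (Real.log a - Real.log b)) := by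
  obtain ⟨A, hA⟩ : ∃ A, A = (w * a + w' * b) / (w + w') := ⟨_, rfl⟩
  have hs : 0 < w + w' := by positivity
  have hA0 : 0 < A := by rw [hA]; positivity
  have eA : w * a + w' * b = (w + w') * A := by rw [hA]; field_simp
  unfold lamF xlogx
  rw [← hA]
  have h1 : Real.log (a / A) ≤ a / A - 1 := Real.log_le_sub_one_of_pos (by positivity)
  have h2 : Real.log (b / A) ≤ b / A - 1 := Real.log_le_sub_one_of_pos (by positivity)
  rw [Real.log_div ha.ne' hA0.ne'] at h1
  rw [Real.log_div hb.ne' hA0.ne'] at h2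
  have h3 : w * Real.log a + w' * Real.log b ≤ (w + w') * Real.log A := by
    have h4 := mul_le_mul_of_nonneg_left h1 hw.le
    have h5 := mul_le_mul_of_nonneg_left h2 hw'.le
    have e : w * (a / A - 1) + w' * (b / A - 1) = 0 := by
      have : w * (a / A - 1) + w' * (b / A - 1) = (w * a + w' * b) / A - (w + w') := by
        field_simp
        ring
      rw [this, eA]
      field_simp
      ring
    nlinarith
  have hU : 0 ≤ (w * a + w' * b) / (w + w') := by positivity
  have h6 := mul_le_mul_of_nonneg_left h3 hU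
  have e2 : (w * a + w' * b) / (w + w') * ((w + w') * Real.log A)
      = (w * a + w' * b) * Real.log A := by
    field_simp
  rw [e2] at h6
  have e3 : w * w' / (w + w') * ((a - b) * (Real.log a - Real.log b))
      = w * (a * Real.log a) + w' * (b * Real.log b)
        - (w * a + w' * b) / (w + w') * (w * Real.log a + w' * Real.log b) := by
    field_simp
    ring
  rw [e3]
  linarith

/-- The entropy production. -/
noncomputable def dirLog (μ : Conf n → ℝ) (c : Conf n → Fin n → ℝ) (f : Conf n → ℝ) : ℝ :=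
  (1 / 2) * ∑ x, μ x * ∑ i, c x i * ((f (flipAt x i) - f x)
    * (Real.log (f (flipAt x i)) - Real.log (f x)))

section abstract

variable {L : Matrix (Conf n) (Conf n) ℝ} {c : Conf n → Fin n → ℝ} {μ : Conf n → ℝ}

/-- The site entropies are bounded by the entropy production. -/
lemma qQ_le_dirLog (hμ : ∀ x, 0 < μ x) (hbal : ∀ x i, μ x * c x i = μ (flipAt x i) * c (flipAt x i) i)
    (hone : ∀ x i, c x i + c (flipAt x i) i = 1) {f : Conf n → ℝ} (hf : ∀ x, 0 < f x) :
    qQ μ f ≤ dirLog μ c f := by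
  unfold qQ dirLog
  apply mul_le_mul_of_nonneg_left _ (by norm_num)
  have e : ∑ x, μ x * ∑ i, c x i * ((f (flipAt x i) - f x)
      * (Real.log (f (flipAt x i)) - Real.log (f x)))
      = ∑ i, ∑ x, μ x * (c x i * ((f (flipAt x i) - f x)
        * (Real.log (f (flipAt x i)) - Real.log (f x)))) := by
    rw [Finset.sum_comm]
    refine Finset.sum_congr rfl fun x _ => ?_
    rw [Finset.mul_sum]
  rw [e]
  refine Finset.sum_le_sum fun i _ => Finset.sum_le_sum fun x _ => ?_
  have h := two_point_cov (hμ x) (hμ (flipAt x i)) (hf x) (hf (flipAt x i))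
  unfold qTerm
  refine h.trans (le_of_eq ?_)
  have h1 := hbal x i
  have h2 := hone x i
  have hp1 := hμ x
  have hp2 := hμ (flipAt x i)
  have hc : c x i = μ (flipAt x i) / (μ x + μ (flipAt x i)) := by
    have h3 : c (flipAt x i) i = 1 - c x i := by linarith
    rw [h3] at h1
    field_simp
    linarith
  rw [hc]
  field_simp
  ring

/-- The polarized Dirichlet form identity. -/
lemma dirPol (hbal : ∀ x i, μ x * c x i = μ (flipAt x i) * c (flipAt x i) i) (f g : Conf n → ℝ) :
    ∑ x, μ x * g x * rateAct c f x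
      = -((1 / 2) * ∑ x, μ x * ∑ i, c x i * ((f (flipAt x i) - f x) * (g (flipAt x i) - g x))) := by
  have hi : ∀ i : Fin n, ∑ x, μ x * c x i * g x * (f (flipAt x i) - f x)
      = - ((1 / 2) * ∑ x, μ x * c x i * ((f (flipAt x i) - f x) * (g (flipAt x i) - g x))) := by
    intro i
    have h1 : ∑ x, μ x * c x i * g x * (f (flipAt x i) - f x)
        = ∑ x, μ x * c x i * g (flipAt x i) * (f x - f (flipAt x i)) := by
      rw [← sum_flip _ i]
      refine Finset.sum_congr rfl fun x _ => ?_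
      rw [flipAt_flipAt, ← hbal]
    have h2 : ∑ x, μ x * c x i * ((f (flipAt x i) - f x) * (g (flipAt x i) - g x))
        = ∑ x, μ x * c x i * g (flipAt x i) * (f (flipAt x i) - f x)
          - ∑ x, μ x * c x i * g x * (f (flipAt x i) - f x) := by
      rw [← Finset.sum_sub_distrib]
      refine Finset.sum_congr rfl fun x _ => ?_
      ring
    have h3 : ∑ x, μ x * c x i * g (flipAt x i) * (f x - f (flipAt x i))
        = - ∑ x, μ x * c x i * g (flipAt x i) * (f (flipAt x i) - f x) := by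
      rw [← Finset.sum_neg_distrib]
      refine Finset.sum_congr rfl fun x _ => ?_
      ring
    rw [h3] at h1
    rw [h2]
    linarith
  have e1 : ∑ x, μ x * g x * rateAct c f x
      = ∑ i, ∑ x, μ x * c x i * g x * (f (flipAt x i) - f x) := by
    unfold rateAct
    rw [Finset.sum_comm]
    refine Finset.sum_congr rfl fun x _ => ?_
    rw [Finset.mul_sum]
    refine Finset.sum_congr rfl fun i _ => ?_
    ring
  have e2 : ∑ x, μ x * ∑ i, c x i * ((f (flipAt x i) - f x) * (g (flipAt x i) - g x))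
      = ∑ i, ∑ x, μ x * c x i * ((f (flipAt x i) - f x) * (g (flipAt x i) - g x)) := by
    rw [Finset.sum_comm]
    refine Finset.sum_congr rfl fun x _ => ?_
    rw [Finset.mul_sum]
    refine Finset.sum_congr rfl fun i _ => ?_
    ring
  rw [e1, e2]
  simp only [hi, Finset.sum_neg_distrib, Finset.mul_sum]

lemma decay_of_deriv_Ici {D D' : ℝ → ℝ} {κ : ℝ} (hd : ∀ t, 0 ≤ t → HasDerivAt D (D' t) t)
    (hle : ∀ t, 0 ≤ t → D' t ≤ -(2 * κ * D t)) {t : ℝ} (ht : 0 ≤ t) :
    D t ≤ D 0 * Real.exp (-(2 * κ * t)) := by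
  have hE : ∀ t, 0 ≤ t → HasDerivAt (fun t => D t * Real.exp (2 * κ * t))
      ((D' t + 2 * κ * D t) * Real.exp (2 * κ * t)) t := by
    intro t ht
    have h1 : HasDerivAt (fun t => Real.exp (2 * κ * t)) (Real.exp (2 * κ * t) * (2 * κ)) t := by
      have := ((hasDerivAt_id' t).const_mul (2 * κ)).exp
      simpa using this
    have := (hd t ht).mul h1
    refine this.congr_deriv ?_
    ring
  have hanti : AntitoneOn (fun t => D t * Real.exp (2 * κ * t)) (Set.Ici 0) := by
    apply antitoneOn_of_deriv_nonpos (convex_Ici 0)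
    · exact fun t ht => (hE t ht).continuousAt.continuousWithinAt
    · intro t ht
      rw [interior_Ici] at ht
      exact (hE t (le_of_lt ht)).differentiableAt.differentiableWithinAt
    · intro t ht
      rw [interior_Ici] at ht
      have ht' : 0 ≤ t := le_of_lt ht
      rw [(hE t ht').deriv]
      exact mul_nonpos_of_nonpos_of_nonneg (by linarith [hle t ht']) (Real.exp_pos _).le
  have h := hanti (Set.self_mem_Ici) (Set.mem_Ici.2 ht) ht
  simp only [mul_zero, Real.exp_zero, mul_one] at h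
  have e : D t = D t * Real.exp (2 * κ * t) * Real.exp (-(2 * κ * t)) := by
    rw [mul_assoc, ← Real.exp_add]
    simp
  rw [e]
  exact mul_le_mul_of_nonneg_right h (Real.exp_pos _).le

/-- Exponential decay of the entropy under a modified logarithmic Sobolev inequality. -/
theorem entropy_decay (hμ : IsRevProb L μ) (hR : IsRateGen L c)
    (hbal : ∀ x i, μ x * c x i = μ (flipAt x i) * c (flipAt x i) i) {K : ℝ} (hK : 0 < K)
    (hmlsi : ∀ f : Conf n → ℝ, (∀ x, 0 < f x) → entF μ f ≤ K * qQ μ f)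
    {g : Conf n → ℝ} {m : ℝ} (hm : 0 < m) (hgm : ∀ x, m ≤ g x) (hg1 : ∑ x, μ x * g x = 1)
    {t : ℝ} (ht : 0 ≤ t) :
    ∑ x, μ x * xlogx ((semi L t *ᵥ g) x)
      ≤ (∑ x, μ x * xlogx (g x)) * Real.exp (-(t / K)) := by
  have hpos : ∀ t, 0 ≤ t → ∀ x, 0 < (semi L t *ᵥ g) x := fun t ht x =>
    lt_of_lt_of_le hm (hR.semi_ge hgm ht x)
  have hmass : ∀ t, ∑ x, μ x * (semi L t *ᵥ g) x = 1 := fun t => by
    rw [hμ.stationary hR.row t g, hg1]
  have hd : ∀ t, 0 ≤ t → HasDerivAt (fun t => ∑ x, μ x * xlogx ((semi L t *ᵥ g) x))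
      (-dirLog μ c (semi L t *ᵥ g)) t := by
    intro t ht
    have h1 : HasDerivAt (fun t => ∑ x, μ x * xlogx ((semi L t *ᵥ g) x))
        (∑ x, μ x * ((Real.log ((semi L t *ᵥ g) x) + 1) * (L *ᵥ (semi L t *ᵥ g)) x)) t := by
      refine HasDerivAt.fun_sum fun x _ => HasDerivAt.const_mul _ ?_
      unfold xlogx
      exact (Real.hasDerivAt_mul_log (hpos t ht x).ne').comp t (hasDerivAt_semi_mulVec' L g t x)
    refine h1.congr_deriv ?_
    have e1 : ∑ x, μ x * (L *ᵥ (semi L t *ᵥ g)) x = 0 := by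
      have h2 := selfadj_gen hμ (fun _ => (1 : ℝ)) (semi L t *ᵥ g)
      have h3 : ∀ x, (L *ᵥ fun _ => (1 : ℝ)) x = 0 := by
        intro x
        simpa [Matrix.mulVec, dotProduct] using hR.row x
      simp only [h3, mul_one, mul_zero, zero_mul, Finset.sum_const_zero] at h2
      exact h2
    have e2 := dirPol (μ := μ) (c := c) hbal (semi L t *ᵥ g)
      (fun x => Real.log ((semi L t *ᵥ g) x))
    have e3 : ∑ x, μ x * ((Real.log ((semi L t *ᵥ g) x) + 1) * (L *ᵥ (semi L t *ᵥ g)) x)
        = ∑ x, μ x * Real.log ((semi L t *ᵥ g) x) * rateAct c (semi L t *ᵥ g) x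
          + ∑ x, μ x * (L *ᵥ (semi L t *ᵥ g)) x := by
      rw [← Finset.sum_add_distrib]
      refine Finset.sum_congr rfl fun x _ => ?_
      rw [hR.act]
      ring
    rw [e3, e1, e2, add_zero]
    rfl
  have hle : ∀ t, 0 ≤ t → -dirLog μ c (semi L t *ᵥ g)
      ≤ -(2 * (1 / (2 * K)) * ∑ x, μ x * xlogx ((semi L t *ᵥ g) x)) := by
    intro t ht
    have h1 := hmlsi _ (hpos t ht)
    have h2 := qQ_le_dirLog (c := c) hμ.pos hbal hR.sum_one (hpos t ht)
    have h3 : entF μ (semi L t *ᵥ g) = ∑ x, μ x * xlogx ((semi L t *ᵥ g) x) := by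
      unfold entF xlogx
      rw [hmass t]
      simp
    rw [h3] at h1
    have h4 : 2 * (1 / (2 * K)) * ∑ x, μ x * xlogx ((semi L t *ᵥ g) x)
        = (∑ x, μ x * xlogx ((semi L t *ᵥ g) x)) / K := by
      field_simp
    rw [h4, neg_le_neg_iff, div_le_iff₀ hK]
    nlinarith
  have h := decay_of_deriv_Ici (κ := 1 / (2 * K)) hd hle ht
  simp only [semi_zero, Matrix.one_mulVec] at h
  have e : 2 * (1 / (2 * K)) * t = t / K := by
    field_simp
  rwa [e] at h

/-- A scalar inequality comparing the absolute deviation and the entropy density. -/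
lemma abs_sub_one_le {h : ℝ} (hh : 0 < h) :
    |h - 1| ≤ 8 * (xlogx h - h + 1) + (h + 1) / 16 := by
  obtain ⟨r, hr0, hr⟩ : ∃ r, 0 < r ∧ r ^ 2 = h :=
    ⟨Real.sqrt h, Real.sqrt_pos.2 hh, Real.sq_sqrt hh.le⟩
  subst hr
  have hlog : Real.log (r ^ 2) = 2 * Real.log r := by
    rw [Real.log_pow]
    norm_num
  have h1 := Real.one_sub_inv_le_log_of_pos hr0
  have h2 : 0 ≤ r * Real.log r - r + 1 := by
    have h3 := mul_le_mul_of_nonneg_left h1 hr0.le
    have e : r * (1 - r⁻¹) = r - 1 := by field_simp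
    rw [e] at h3
    linarith
  have h3 : (r - 1) ^ 2 ≤ xlogx (r ^ 2) - r ^ 2 + 1 := by
    unfold xlogx
    rw [hlog]
    have := mul_nonneg hr0.le h2
    nlinarith
  have e : r ^ 2 - 1 = (r - 1) * (r + 1) := by ring
  rw [e, abs_mul, abs_of_pos (by linarith : 0 < r + 1)]
  have h4 : |r - 1| * (r + 1) ≤ 8 * |r - 1| ^ 2 + (r + 1) ^ 2 / 32 := by
    nlinarith [sq_nonneg (|r - 1| - (r + 1) / 16)]
  rw [sq_abs] at h4
  nlinarith [sq_nonneg (r - 1)]

/-- Total variation from the modified logarithmic Sobolev inequality. -/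
theorem tv_of_mlsi (hμ : IsRevProb L μ) (hR : IsRateGen L c)
    (hbal : ∀ x i, μ x * c x i = μ (flipAt x i) * c (flipAt x i) i) {K : ℝ} (hK : 0 < K)
    (hmlsi : ∀ f : Conf n → ℝ, (∀ x, 0 < f x) → entF μ f ≤ K * qQ μ f)
    {t : ℝ} (ht : 0 ≤ t) (x₀ : Conf n) :
    (1 / 2) * ∑ y, |semi L t x₀ y - μ y|
      ≤ 8 * (Real.log (1 / μ x₀) * Real.exp (-(t / K))) + 1 / 8 := by
  classical
  have hμ0 := hμ.pos x₀
  have hμ1 : μ x₀ ≤ 1 := by
    rw [← hμ.total]
    exact Finset.single_le_sum (f := μ) (fun x _ => (hμ.pos x).le) (Finset.mem_univ x₀)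
  obtain ⟨g, hg⟩ : ∃ g : Conf n → ℝ, g = fun y => (if y = x₀ then 1 / μ x₀ else 0) / 2 + 1 / 2 :=
    ⟨_, rfl⟩
  have hgm : ∀ y, 1 / 2 ≤ g y := by
    intro y
    rw [hg]
    have : 0 ≤ (if y = x₀ then 1 / μ x₀ else 0) := by
      split_ifs
      · positivity
      · exact le_rfl
    simp only
    linarith
  have hg1 : ∑ y, μ y * g y = 1 := by
    rw [hg]
    have e : ∀ y, μ y * ((if y = x₀ then 1 / μ x₀ else 0) / 2 + 1 / 2)
        = (μ y * if y = x₀ then 1 / μ x₀ else 0) / 2 + μ y / 2 := fun y => by ring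
    simp only [e, Finset.sum_add_distrib, ← Finset.sum_div, hμ.total]
    simp only [mul_ite, mul_zero, Finset.sum_ite_eq', Finset.mem_univ, if_true]
    field_simp
    norm_num
  have hdecay := entropy_decay hμ hR hbal hK hmlsi (by norm_num) hgm hg1 ht
  -- the initial entropy
  have hinit : ∑ y, μ y * xlogx (g y) ≤ Real.log (1 / μ x₀) := by
    have hl : 0 ≤ Real.log (1 / μ x₀) := Real.log_nonneg (by
      rw [le_div_iff₀ hμ0]
      linarith)
    have hup : ∀ y, g y ≤ 1 / μ x₀ := by
      intro y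
      rw [hg]
      have h1 : 1 ≤ 1 / μ x₀ := by
        rw [le_div_iff₀ hμ0]
        linarith
      simp only
      split_ifs <;> linarith
    have hpt : ∀ y, μ y * xlogx (g y) ≤ μ y * g y * Real.log (1 / μ x₀) := by
      intro y
      have hgy : 0 < g y := lt_of_lt_of_le (by norm_num) (hgm y)
      unfold xlogx
      have h1 := Real.log_le_log hgy (hup y)
      have h2 := mul_le_mul_of_nonneg_left h1 (mul_pos (hμ.pos y) hgy).le
      calc μ y * (g y * Real.log (g y)) = μ y * g y * Real.log (g y) := by ring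
        _ ≤ _ := h2
    calc ∑ y, μ y * xlogx (g y) ≤ ∑ y, μ y * g y * Real.log (1 / μ x₀) :=
          Finset.sum_le_sum fun y _ => hpt y
      _ = Real.log (1 / μ x₀) := by rw [← Finset.sum_mul, hg1, one_mul]
  -- the density at time t
  obtain ⟨h, hh⟩ : ∃ h, h = semi L t *ᵥ g := ⟨_, rfl⟩
  rw [← hh] at hdecay
  have hmass : ∑ y, μ y * h y = 1 := by
    rw [hh, hμ.stationary hR.row t g, hg1]
  have hhpos : ∀ y, 0 < h y := fun y => by
    rw [hh]
    exact lt_of_lt_of_le (by norm_num) (hR.semi_ge hgm ht y)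
  have hval : ∀ y, h y = semi L t y x₀ / μ x₀ / 2 + 1 / 2 := by
    intro y
    rw [hh, hg]
    simp only [Matrix.mulVec, dotProduct, mul_add, Finset.sum_add_distrib]
    have hrow := semi_rowsum L hR.row t y
    congr 1
    · have e : ∀ z, semi L t y z * ((if z = x₀ then 1 / μ x₀ else 0) / 2)
          = (semi L t y z * if z = x₀ then 1 / μ x₀ else 0) / 2 := fun z => by ring
      simp only [e, ← Finset.sum_div]
      simp only [mul_ite, mul_zero, Finset.sum_ite_eq', Finset.mem_univ, if_true]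
      ring
    · rw [← Finset.sum_mul, hrow, one_mul]
  have hrev := semi_reversible L μ hμ.pos hμ.rev t
  have hdiff : ∀ y, |semi L t x₀ y - μ y| = 2 * (μ y * |h y - 1|) := by
    intro y
    have h1 : semi L t x₀ y - μ y = 2 * (μ y * (h y - 1)) := by
      rw [hval y]
      have h2 := hrev y x₀
      have : μ y * semi L t y x₀ / μ x₀ = semi L t x₀ y := by
        rw [h2]
        field_simp
      calc semi L t x₀ y - μ y = μ y * semi L t y x₀ / μ x₀ - μ y := by rw [this]
        _ = _ := by ring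
    rw [h1, abs_mul, abs_mul, abs_of_pos (hμ.pos y)]
    norm_num
  have hsum : (1 / 2) * ∑ y, |semi L t x₀ y - μ y| = ∑ y, μ y * |h y - 1| := by
    simp only [hdiff, ← Finset.mul_sum]
    ring
  rw [hsum]
  have hpt : ∀ y, μ y * |h y - 1|
      ≤ μ y * (8 * (xlogx (h y) - h y + 1) + (h y + 1) / 16) := fun y =>
    mul_le_mul_of_nonneg_left (abs_sub_one_le (hhpos y)) (hμ.pos y).le
  have hsum2 : ∑ y, μ y * (8 * (xlogx (h y) - h y + 1) + (h y + 1) / 16)
      = 8 * ∑ y, μ y * xlogx (h y) - 8 * ∑ y, μ y * h y + 8 * ∑ y, μ y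
        + (∑ y, μ y * h y + ∑ y, μ y) / 16 := by
    have e : ∀ y, μ y * (8 * (xlogx (h y) - h y + 1) + (h y + 1) / 16)
        = 8 * (μ y * xlogx (h y)) - 8 * (μ y * h y) + 8 * μ y + (μ y * h y + μ y) / 16 := by
      intro y
      ring
    simp only [e, Finset.sum_add_distrib, Finset.sum_sub_distrib, ← Finset.mul_sum, ← Finset.sum_div]
  have hfin := Finset.sum_le_sum (s := Finset.univ) fun y _ => hpt y
  rw [hsum2, hmass, hμ.total] at hfin
  have hexp := Real.exp_pos (-(t / K))
  have h5 := mul_le_mul_of_nonneg_right hinit hexp.le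
  linarith

end abstract

end Vale.Agent.Lib.P150
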