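import Mathlib

/-!
Definitions for heat bath dynamics of an Ising model with coupling matrix `A`.
-/

open scoped BigOperators Matrix

namespace Vale.Agent.Lib.P150

/-- Spin configurations on `n` sites; `true` stands for `+1` and `false` for `-1`. -/
abbrev Conf (n : ℕ) := Fin n → Bool

/-- The numerical value of a spin. -/
def spin (b : Bool) : ℝ := if b then 1 else -1

variable {n : ℕ}

/-- The configuration `x` with the spin at site `i` reversed. -/
def flipAt (x : Conf n) (i : Fin n) : Conf n := Function.update x i (!x i)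

/-- The local field `h_i(x) = ∑_j A_ij x_j`. -/
noncomputable def field (A : Matrix (Fin n) (Fin n) ℝ) (x : Conf n) (i : Fin n) : ℝ :=
  ∑ j, A i j * spin (x j)

/-- Heat bath probability of resampling `x_i` to the value opposite to its current one,
`exp (-x_i h_i) / (2 cosh h_i)`. -/
noncomputable def flipRate (A : Matrix (Fin n) (Fin n) ℝ) (x : Conf n) (i : Fin n) : ℝ :=
  Real.exp (-(spin (x i) * field A x i)) / (2 * Real.cosh (field A x i))

/-- The generator `∑_i (Q_i - I)` of heat bath dynamics, as a matrix on configurations. -/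
noncomputable def generator (A : Matrix (Fin n) (Fin n) ℝ) : Matrix (Conf n) (Conf n) ℝ :=
  fun x y => (∑ i, if y = flipAt x i then flipRate A x i else 0)
    - if y = x then ∑ i, flipRate A x i else 0

/-- The continuous time kernel `P_t = exp (t L)`. -/
noncomputable def kernel (A : Matrix (Fin n) (Fin n) ℝ) (t : ℝ) : Matrix (Conf n) (Conf n) ℝ :=
  NormedSpace.exp (t • generator A)

/-- Unnormalized Gibbs weight `exp ((1/2) ∑_{i,j} A_ij x_i x_j)`. -/
noncomputable def gibbsWeight (A : Matrix (Fin n) (Fin n) ℝ) (x : Conf n) : ℝ :=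
  Real.exp ((1 / 2) * ∑ i, ∑ j, A i j * spin (x i) * spin (x j))

/-- The Gibbs measure. -/
noncomputable def gibbs (A : Matrix (Fin n) (Fin n) ℝ) (x : Conf n) : ℝ :=
  gibbsWeight A x / ∑ y, gibbsWeight A y

/-- Total variation distance between `P_t(x,·)` and the Gibbs measure. -/
noncomputable def tvDist (A : Matrix (Fin n) (Fin n) ℝ) (t : ℝ) (x : Conf n) : ℝ :=
  (1 / 2) * ∑ y, |kernel A t x y - gibbs A y|

/-- The Dirichlet form `E(f,f) = ∑_i E_μ Var_μ(f | x_{-i})` written through flip rates:
`(1/2) ∑_x μ(x) ∑_i c_i(x) (f(x^i) - f(x))^2`. -/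
noncomputable def dirichletForm (A : Matrix (Fin n) (Fin n) ℝ) (f : Conf n → ℝ) : ℝ :=
  (1 / 2) * ∑ x, gibbs A x * ∑ i, flipRate A x i * (f (flipAt x i) - f x) ^ 2

/-- The variance under the Gibbs measure. -/
noncomputable def gibbsVar (A : Matrix (Fin n) (Fin n) ℝ) (f : Conf n → ℝ) : ℝ :=
  ∑ x, gibbs A x * f x ^ 2 - (∑ x, gibbs A x * f x) ^ 2

/-- The index set of the disorder: pairs `i < j`. -/
abbrev Edge (n : ℕ) := {p : Fin n × Fin n // p.1 < p.2}

/-- The symmetric array of couplings built from the upper triangular family `g`, zero diagonal. -/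
def symG (g : Edge n → ℝ) (i j : Fin n) : ℝ :=
  if h : i < j then g ⟨(i, j), h⟩ else if h' : j < i then g ⟨(j, i), h'⟩ else 0

/-- The coupling matrix `(β / √n) g_ij` of the SK model. -/
noncomputable def skMatrix (β : ℝ) (g : Edge n → ℝ) : Matrix (Fin n) (Fin n) ℝ :=
  fun i j => β / Real.sqrt n * symG g i j

/-- The law of the disorder: independent standard Gaussians. -/
noncomputable def disorder (n : ℕ) : MeasureTheory.Measure (Edge n → ℝ) :=
  MeasureTheory.Measure.pi fun _ => ProbabilityTheory.gaussianReal 0 1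

end Vale.Agent.Lib.P150
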