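import Vale.Agent.Lib.P150.PoincareF

/-!
Entropic stability from a uniform covariance bound under tilts.
-/

open scoped BigOperators Matrix
open Filter Topology

namespace Vale.Agent.Lib.P150

variable {n : ℕ}

/-- The entropy of `f` under `μ`. -/
noncomputable def entF (μ f : Conf n → ℝ) : ℝ :=
  ∑ x, μ x * (f x * Real.log (f x)) - (∑ x, μ x * f x) * Real.log (∑ x, μ x * f x)

lemma young_pt {f φ u : ℝ} (hf : 0 < f) (hφ : 0 < φ) :
    f * u ≤ f * (Real.log f - Real.log φ) - f + φ * Real.exp u := by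
  have h1 := Real.add_one_le_exp (u - (Real.log f - Real.log φ))
  have e : Real.exp (u - (Real.log f - Real.log φ)) = Real.exp u * φ / f := by
    rw [Real.exp_sub, Real.exp_sub, Real.exp_log hf, Real.exp_log hφ]
    field_simp
  rw [e] at h1
  have h2 := mul_le_mul_of_nonneg_left h1 hf.le
  have e2 : f * (Real.exp u * φ / f) = φ * Real.exp u := by
    field_simp
  rw [e2] at h2
  nlinarith

lemma sum_pos_of_prob {μ f : Conf n → ℝ} (hμ0 : ∀ x, 0 ≤ μ x) (hμ1 : ∑ x, μ x = 1)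
    (hf : ∀ x, 0 < f x) : 0 < ∑ x, μ x * f x := by
  obtain ⟨x, _, hx⟩ : ∃ x ∈ Finset.univ, 0 < μ x := by
    by_contra hcon
    push Not at hcon
    have : ∑ x, μ x ≤ 0 := Finset.sum_nonpos hcon
    linarith
  exact Finset.sum_pos' (fun z _ => mul_nonneg (hμ0 z) (hf z).le)
    ⟨x, Finset.mem_univ x, mul_pos hx (hf x)⟩

/-- The Donsker-Varadhan bound. -/
lemma dv_bound {μ f : Conf n → ℝ} (g : Conf n → ℝ) (hμ0 : ∀ x, 0 ≤ μ x) (hμ1 : ∑ x, μ x = 1)
    (hf : ∀ x, 0 < f x) :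
    ∑ x, μ x * f x * g x ≤ entF μ f
      + (∑ x, μ x * f x) * Real.log (∑ x, μ x * Real.exp (g x)) := by
  obtain ⟨φ, hφ⟩ : ∃ φ, φ = ∑ x, μ x * f x := ⟨_, rfl⟩
  obtain ⟨S, hS⟩ : ∃ S, S = ∑ x, μ x * Real.exp (g x) := ⟨_, rfl⟩
  have hφ0 : 0 < φ := by rw [hφ]; exact sum_pos_of_prob hμ0 hμ1 hf
  have hS0 : 0 < S := by rw [hS]; exact sum_pos_of_prob hμ0 hμ1 fun x => Real.exp_pos _
  unfold entF
  rw [← hφ, ← hS]
  obtain ⟨t, ht⟩ : ∃ t, t = Real.log S := ⟨_, rfl⟩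
  rw [← ht]
  have hpt : ∀ x, μ x * (f x * (g x - t)) ≤
      μ x * (f x * (Real.log (f x) - Real.log φ) - f x + φ * Real.exp (g x - t)) := fun x =>
    mul_le_mul_of_nonneg_left (young_pt (hf x) hφ0) (hμ0 x)
  have hsum := Finset.sum_le_sum (s := Finset.univ) fun x _ => hpt x
  have e1 : ∑ x, μ x * (f x * (g x - t)) = ∑ x, μ x * f x * g x - t * φ := by
    rw [hφ, Finset.mul_sum, ← Finset.sum_sub_distrib]
    refine Finset.sum_congr rfl fun x _ => ?_
    ring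
  have e2 : ∑ x, μ x * (f x * (Real.log (f x) - Real.log φ) - f x + φ * Real.exp (g x - t))
      = ∑ x, μ x * (f x * Real.log (f x)) - φ * Real.log φ - φ + φ * (S * Real.exp (-t)) := by
    have h1 : ∑ x, μ x * (f x * (Real.log (f x) - Real.log φ) - f x + φ * Real.exp (g x - t))
        = ∑ x, μ x * (f x * Real.log (f x)) - Real.log φ * ∑ x, μ x * f x - ∑ x, μ x * f x
          + φ * (Real.exp (-t) * ∑ x, μ x * Real.exp (g x)) := by
      rw [Finset.mul_sum, Finset.mul_sum, Finset.mul_sum, ← Finset.sum_sub_distrib,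
        ← Finset.sum_sub_distrib, ← Finset.sum_add_distrib]
      refine Finset.sum_congr rfl fun x _ => ?_
      rw [sub_eq_add_neg (g x) t, Real.exp_add]
      ring
    rw [h1, ← hφ, ← hS]
    ring
  have e3 : S * Real.exp (-t) = 1 := by
    rw [ht, Real.exp_neg, Real.exp_log hS0]
    exact mul_inv_cancel₀ hS0.ne'
  rw [e1, e2, e3] at hsum
  nlinarith

/-- The tilted measure. -/
noncomputable def tilt (ν ℓ : Conf n → ℝ) (τ : ℝ) (x : Conf n) : ℝ :=
  ν x * Real.exp (τ * ℓ x) / ∑ z, ν z * Real.exp (τ * ℓ z)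

/-- Bound on the logarithmic moment generating function. -/
lemma log_mgf_le {ν ℓ : Conf n → ℝ} {σ2 : ℝ} (hν0 : ∀ x, 0 ≤ ν x) (hν1 : ∑ x, ν x = 1)
    (hvar : ∀ τ : ℝ, varF (tilt ν ℓ τ) ℓ ≤ σ2) :
    Real.log (∑ x, ν x * Real.exp (ℓ x)) ≤ ∑ x, ν x * ℓ x + σ2 / 2 := by
  obtain ⟨Z, hZ⟩ : ∃ Z : ℝ → ℝ, Z = fun τ => ∑ x, ν x * Real.exp (τ * ℓ x) := ⟨_, rfl⟩
  obtain ⟨Z₁, hZ₁⟩ : ∃ Z₁ : ℝ → ℝ, Z₁ = fun τ => ∑ x, ν x * (ℓ x * Real.exp (τ * ℓ x)) := ⟨_, rfl⟩
  obtain ⟨Z₂, hZ₂⟩ : ∃ Z₂ : ℝ → ℝ, Z₂ = fun τ => ∑ x, ν x * (ℓ x ^ 2 * Real.exp (τ * ℓ x)) :=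
    ⟨_, rfl⟩
  have hZpos : ∀ τ, 0 < Z τ := fun τ => by
    rw [hZ]
    exact sum_pos_of_prob hν0 hν1 fun x => Real.exp_pos _
  have hexp : ∀ (x : Conf n) (τ : ℝ), HasDerivAt (fun τ => Real.exp (τ * ℓ x))
      (ℓ x * Real.exp (τ * ℓ x)) τ := by
    intro x τ
    have := ((hasDerivAt_id' τ).mul_const (ℓ x)).exp
    refine this.congr_deriv ?_
    ring
  have hd0 : ∀ τ, HasDerivAt Z (Z₁ τ) τ := by
    intro τ
    rw [hZ, hZ₁]
    exact HasDerivAt.fun_sum fun x _ => (hexp x τ).const_mul _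
  have hd1 : ∀ τ, HasDerivAt Z₁ (Z₂ τ) τ := by
    intro τ
    rw [hZ₁, hZ₂]
    refine HasDerivAt.fun_sum fun x _ => ?_
    have := ((hexp x τ).const_mul (ℓ x)).const_mul (ν x)
    refine this.congr_deriv ?_
    ring
  have hm : ∀ τ, HasDerivAt (fun τ => Z₁ τ / Z τ)
      (Z₂ τ / Z τ - (Z₁ τ / Z τ) ^ 2) τ := by
    intro τ
    have := (hd1 τ).div (hd0 τ) (hZpos τ).ne'
    refine this.congr_deriv ?_
    have := (hZpos τ).ne'
    field_simp
  have hvt : ∀ τ, Z₂ τ / Z τ - (Z₁ τ / Z τ) ^ 2 ≤ σ2 := by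
    intro τ
    have h := hvar τ
    unfold varF tilt at h
    have e1 : ∑ x, ν x * Real.exp (τ * ℓ x) / (∑ z, ν z * Real.exp (τ * ℓ z)) * ℓ x ^ 2
        = Z₂ τ / Z τ := by
      rw [hZ, hZ₂]
      simp only
      rw [Finset.sum_div]
      refine Finset.sum_congr rfl fun x _ => ?_
      ring
    have e2 : ∑ x, ν x * Real.exp (τ * ℓ x) / (∑ z, ν z * Real.exp (τ * ℓ z)) * ℓ x
        = Z₁ τ / Z τ := by
      rw [hZ, hZ₁]
      simp only
      rw [Finset.sum_div]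
      refine Finset.sum_congr rfl fun x _ => ?_
      ring
    rw [e1, e2] at h
    exact h
  -- first integration
  have hE : ∀ τ, HasDerivAt (fun τ => Z₁ τ / Z τ - τ * σ2)
      (Z₂ τ / Z τ - (Z₁ τ / Z τ) ^ 2 - σ2) τ := by
    intro τ
    have := (hm τ).fun_sub ((hasDerivAt_id' τ).mul_const σ2)
    simpa using this
  have hanti : Antitone (fun τ => Z₁ τ / Z τ - τ * σ2) := by
    apply antitone_of_deriv_nonpos (fun τ => (hE τ).differentiableAt)
    intro τ
    rw [(hE τ).deriv]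
    linarith [hvt τ]
  -- second integration
  have hD : ∀ τ, HasDerivAt (fun τ => Real.log (Z τ) - τ * (Z₁ 0 / Z 0) - τ ^ 2 * σ2 / 2)
      (Z₁ τ / Z τ - Z₁ 0 / Z 0 - τ * σ2) τ := by
    intro τ
    have h1 := (hd0 τ).log (hZpos τ).ne'
    have h2 := (hasDerivAt_id' τ).mul_const (Z₁ 0 / Z 0)
    have h3 := (((hasDerivAt_id' τ).fun_pow 2).mul_const σ2).div_const 2
    have := (h1.fun_sub h2).fun_sub h3
    refine this.congr_deriv ?_
    simp only [Nat.cast_ofNat, Nat.add_one_sub_one, pow_one]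
    ring
  have hanti2 : AntitoneOn (fun τ => Real.log (Z τ) - τ * (Z₁ 0 / Z 0) - τ ^ 2 * σ2 / 2)
      (Set.Ici 0) := by
    apply antitoneOn_of_deriv_nonpos (convex_Ici 0)
    · exact fun t _ => (hD t).continuousAt.continuousWithinAt
    · exact fun t _ => (hD t).differentiableAt.differentiableWithinAt
    · intro t ht
      rw [interior_Ici] at ht
      rw [(hD t).deriv]
      have h0 := hanti (le_of_lt ht)
      simp only [zero_mul, sub_zero] at h0
      linarith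
  have hfin := hanti2 (Set.self_mem_Ici) (Set.mem_Ici.2 (zero_le_one)) zero_le_one
  simp only at hfin
  have hZ0 : Z 0 = 1 := by
    rw [hZ]
    simp [hν1]
  have hZ10 : Z₁ 0 = ∑ x, ν x * ℓ x := by
    rw [hZ₁]
    simp
  have hZ1 : Z 1 = ∑ x, ν x * Real.exp (ℓ x) := by
    rw [hZ]
    simp
  rw [hZ0, hZ10, hZ1] at hfin
  simp only [Real.log_one, zero_mul, sub_zero, ne_eq, OfNat.ofNat_ne_zero, not_false_eq_true,
    zero_pow, zero_div, one_mul, one_pow, div_one] at hfin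
  linarith

/-- The linear form attached to a vector. -/
noncomputable def linF (w : Fin n → ℝ) (x : Conf n) : ℝ := ∑ i, w i * spin (x i)

lemma wtF_tilt (B : Matrix (Fin n) (Fin n) ℝ) (y w : Fin n → ℝ) (τ : ℝ) (x : Conf n) :
    wtF B (y + τ • w) x = wtF B y x * Real.exp (τ * linF w x) := by
  unfold wtF linF
  rw [← Real.exp_add]
  congr 1
  simp only [Pi.add_apply, Pi.smul_apply, smul_eq_mul, add_mul, Finset.sum_add_distrib,
    Finset.mul_sum]
  have : ∀ i, τ * w i * spin (x i) = τ * (w i * spin (x i)) := fun i => by ring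
  simp only [this]
  ring

lemma tilt_gibF (B : Matrix (Fin n) (Fin n) ℝ) (y w : Fin n → ℝ) (τ : ℝ) :
    tilt (gibF B y) (linF w) τ = gibF B (y + τ • w) := by
  funext x
  unfold tilt gibF
  simp only [wtF_tilt]
  have h := (sum_wtF_pos B y).ne'
  have e : ∑ z, (wtF B y z / ∑ z, wtF B y z) * Real.exp (τ * linF w z)
      = (∑ z, wtF B y z * Real.exp (τ * linF w z)) / ∑ z, wtF B y z := by
    rw [Finset.sum_div]
    refine Finset.sum_congr rfl fun z _ => ?_
    ring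
  rw [e]
  have hp : 0 < ∑ z, wtF B y z * Real.exp (τ * linF w z) :=
    Finset.sum_pos (fun z _ => mul_pos (wtF_pos B y z) (Real.exp_pos _))
      ⟨fun _ => true, Finset.mem_univ _⟩
  field_simp

/-- The covariance vector. -/
noncomputable def covV (ν f : Conf n → ℝ) (i : Fin n) : ℝ :=
  ∑ x, ν x * (f x - ∑ z, ν z * f z) * spin (x i)

/-- Entropic stability: the squared norm of the covariance vector is controlled by the entropy. -/
theorem ent_stab {B : Matrix (Fin n) (Fin n) ℝ} {y : Fin n → ℝ} {f : Conf n → ℝ} {α : ℝ}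
    (hα : 0 < α) (hf : ∀ x, 0 < f x)
    (hvar : ∀ (y' w : Fin n → ℝ), varF (gibF B y') (linF w) ≤ α * ∑ i, w i ^ 2) :
    ∑ i, covV (gibF B y) f i ^ 2
      ≤ 2 * α * (∑ x, gibF B y x * f x) * entF (gibF B y) f := by
  obtain ⟨ν, hν⟩ : ∃ ν, ν = gibF B y := ⟨_, rfl⟩
  rw [← hν]
  have hν0 : ∀ x, 0 ≤ ν x := fun x => by rw [hν]; exact (gibF_pos B y x).le
  have hν1 : ∑ x, ν x = 1 := by rw [hν]; exact gibF_total B y
  obtain ⟨φ, hφ⟩ : ∃ φ, φ = ∑ x, ν x * f x := ⟨_, rfl⟩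
  have hφ0 : 0 < φ := by rw [hφ]; exact sum_pos_of_prob hν0 hν1 hf
  rw [← hφ]
  obtain ⟨V, hV⟩ : ∃ V, V = ∑ i, covV ν f i ^ 2 := ⟨_, rfl⟩
  rw [← hV]
  have hV0 : 0 ≤ V := by rw [hV]; exact Finset.sum_nonneg fun i _ => sq_nonneg _
  -- the direction
  obtain ⟨τ, hτ⟩ : ∃ τ, τ = 1 / (α * φ) := ⟨_, rfl⟩
  have hτ0 : 0 < τ := by rw [hτ]; positivity
  obtain ⟨w, hw⟩ : ∃ w : Fin n → ℝ, w = fun i => τ * covV ν f i := ⟨_, rfl⟩
  have hww : ∑ i, w i ^ 2 = τ ^ 2 * V := by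
    rw [hV, hw, Finset.mul_sum]
    refine Finset.sum_congr rfl fun i _ => ?_
    ring
  obtain ⟨m, hm⟩ : ∃ m, m = ∑ x, ν x * linF w x := ⟨_, rfl⟩
  have hmgf : Real.log (∑ x, ν x * Real.exp (linF w x)) ≤ m + α * (τ ^ 2 * V) / 2 := by
    rw [hm]
    refine log_mgf_le hν0 hν1 fun t => ?_
    rw [hν, tilt_gibF, ← hww]
    exact hvar _ w
  have hdv := dv_bound (μ := ν) (f := f) (fun x => linF w x - m) hν0 hν1 hf
  rw [← hφ] at hdv
  have e1 : ∑ x, ν x * f x * (linF w x - m) = τ * V := by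
    have h1 : ∑ x, ν x * f x * (linF w x - m) = ∑ x, ν x * (f x - φ) * linF w x := by
      have h2 : ∑ x, ν x * (f x - φ) * linF w x
          = ∑ x, ν x * f x * linF w x - φ * m := by
        rw [hm, Finset.mul_sum, ← Finset.sum_sub_distrib]
        refine Finset.sum_congr rfl fun x _ => ?_
        ring
      have h3 : ∑ x, ν x * f x * (linF w x - m) = ∑ x, ν x * f x * linF w x - m * φ := by
        rw [hφ, Finset.mul_sum, ← Finset.sum_sub_distrib]
        refine Finset.sum_congr rfl fun x _ => ?_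
        ring
      rw [h2, h3]
      ring
    rw [h1]
    have h4 : ∑ x, ν x * (f x - φ) * linF w x = ∑ i, w i * covV ν f i := by
      unfold linF covV
      rw [← hφ]
      simp only [Finset.mul_sum]
      rw [Finset.sum_comm]
      refine Finset.sum_congr rfl fun i _ => Finset.sum_congr rfl fun x _ => ?_
      ring
    rw [h4, hV, hw, Finset.mul_sum]
    refine Finset.sum_congr rfl fun i _ => ?_
    ring
  have e2 : Real.log (∑ x, ν x * Real.exp (linF w x - m))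
      = Real.log (∑ x, ν x * Real.exp (linF w x)) - m := by
    have h1 : ∑ x, ν x * Real.exp (linF w x - m)
        = (∑ x, ν x * Real.exp (linF w x)) * Real.exp (-m) := by
      rw [Finset.sum_mul]
      refine Finset.sum_congr rfl fun x _ => ?_
      rw [sub_eq_add_neg, Real.exp_add]
      ring
    have h0 : 0 < ∑ x, ν x * Real.exp (linF w x) :=
      sum_pos_of_prob hν0 hν1 fun x => Real.exp_pos _
    rw [h1, Real.log_mul h0.ne' (Real.exp_pos _).ne', Real.log_exp]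
    ring
  rw [e1, e2] at hdv
  have h5 : τ * V ≤ entF ν f + φ * (α * (τ ^ 2 * V) / 2) := by
    have := mul_le_mul_of_nonneg_left (sub_le_iff_le_add.2 hmgf) hφ0.le
    linarith
  have h6 : φ * (α * (τ ^ 2 * V) / 2) = τ * V / 2 := by
    rw [hτ]
    field_simp
  rw [h6] at h5
  have h7 : τ * V ≤ 2 * entF ν f := by linarith
  have h8 : V = (2 * α * φ) * (τ * V / 2) := by
    rw [hτ]
    field_simp
  rw [h8]
  apply mul_le_mul_of_nonneg_left _ (by positivity)
  linarith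

end Vale.Agent.Lib.P150
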