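import Vale.Agent.Lib.P150.IsingMix

/-!
Heat bath dynamics of an Ising model with coupling matrix `A` and an external field `y`.
-/

open scoped BigOperators Matrix

namespace Vale.Agent.Lib.P150

variable {n : ℕ}

/-- The local field with an external field. -/
noncomputable def fieldF (A : Matrix (Fin n) (Fin n) ℝ) (y : Fin n → ℝ) (x : Conf n) (i : Fin n) :
    ℝ := field A x i + y i

/-- The heat bath flip probability with an external field. -/
noncomputable def rateF (A : Matrix (Fin n) (Fin n) ℝ) (y : Fin n → ℝ) (x : Conf n) (i : Fin n) :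
    ℝ := psi (spin (x i) * fieldF A y x i)

/-- The generator with an external field. -/
noncomputable def genF (A : Matrix (Fin n) (Fin n) ℝ) (y : Fin n → ℝ) :
    Matrix (Conf n) (Conf n) ℝ :=
  fun x z => (∑ i, if z = flipAt x i then rateF A y x i else 0)
    - if z = x then ∑ i, rateF A y x i else 0

/-- The Gibbs weight with an external field. -/
noncomputable def wtF (A : Matrix (Fin n) (Fin n) ℝ) (y : Fin n → ℝ) (x : Conf n) : ℝ :=
  Real.exp ((1 / 2) * ∑ i, ∑ j, A i j * spin (x i) * spin (x j) + ∑ i, y i * spin (x i))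

/-- The Gibbs measure with an external field. -/
noncomputable def gibF (A : Matrix (Fin n) (Fin n) ℝ) (y : Fin n → ℝ) (x : Conf n) : ℝ :=
  wtF A y x / ∑ z, wtF A y z

lemma rateF_zero (A : Matrix (Fin n) (Fin n) ℝ) : rateF A 0 = flipRate A := by
  funext x i
  rw [flipRate_eq_psi]
  simp [rateF, fieldF]

lemma genF_zero (A : Matrix (Fin n) (Fin n) ℝ) : genF A 0 = generator A := by
  funext x z
  simp only [genF, generator, rateF_zero]

lemma wtF_zero (A : Matrix (Fin n) (Fin n) ℝ) : wtF A 0 = gibbsWeight A := by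
  funext x
  simp [wtF, gibbsWeight]

lemma gibF_zero (A : Matrix (Fin n) (Fin n) ℝ) : gibF A 0 = gibbs A := by
  funext x
  simp only [gibF, gibbs, wtF_zero]

lemma wtF_pos (A : Matrix (Fin n) (Fin n) ℝ) (y : Fin n → ℝ) (x : Conf n) : 0 < wtF A y x :=
  Real.exp_pos _

lemma sum_wtF_pos (A : Matrix (Fin n) (Fin n) ℝ) (y : Fin n → ℝ) : 0 < ∑ z, wtF A y z :=
  Finset.sum_pos (fun z _ => wtF_pos A y z) ⟨fun _ => true, Finset.mem_univ _⟩

lemma gibF_pos (A : Matrix (Fin n) (Fin n) ℝ) (y : Fin n → ℝ) (x : Conf n) : 0 < gibF A y x :=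
  div_pos (wtF_pos A y x) (sum_wtF_pos A y)

lemma gibF_total (A : Matrix (Fin n) (Fin n) ℝ) (y : Fin n → ℝ) : ∑ x, gibF A y x = 1 := by
  unfold gibF
  rw [← Finset.sum_div]
  exact div_self (sum_wtF_pos A y).ne'

lemma rateF_pos (A : Matrix (Fin n) (Fin n) ℝ) (y : Fin n → ℝ) (x : Conf n) (i : Fin n) :
    0 < rateF A y x i := psi_pos _

lemma fieldF_flipAt (A : Matrix (Fin n) (Fin n) ℝ) (y : Fin n → ℝ) (x : Conf n) (i k : Fin n) :
    fieldF A y (flipAt x i) k = fieldF A y x k - 2 * A k i * spin (x i) := by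
  unfold fieldF
  rw [field_flipAt]
  ring

lemma fieldF_flipAt_same {A : Matrix (Fin n) (Fin n) ℝ} (hA : IsCoupling A) (y : Fin n → ℝ)
    (x : Conf n) (i : Fin n) : fieldF A y (flipAt x i) i = fieldF A y x i := by
  rw [fieldF_flipAt, hA.diag]
  ring

lemma rateF_flip_same {A : Matrix (Fin n) (Fin n) ℝ} (hA : IsCoupling A) (y : Fin n → ℝ)
    (x : Conf n) (i : Fin n) :
    rateF A y (flipAt x i) i = psi (-(spin (x i) * fieldF A y x i)) := by
  unfold rateF
  rw [spin_flipAt_same, fieldF_flipAt_same hA]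
  ring_nf

lemma genF_mulVec (A : Matrix (Fin n) (Fin n) ℝ) (y : Fin n → ℝ) (G : Conf n → ℝ) (x : Conf n) :
    (genF A y *ᵥ G) x = rateAct (rateF A y) G x := by
  classical
  simp only [Matrix.mulVec, dotProduct, genF, rateAct, sub_mul, Finset.sum_sub_distrib,
    Finset.sum_mul]
  rw [Finset.sum_comm]
  simp only [ite_mul, zero_mul, Finset.sum_ite_eq', Finset.mem_univ, if_true, mul_sub,
    Finset.sum_sub_distrib]
  congr 1
  rw [Finset.sum_mul]

theorem isRateGen_genF {A : Matrix (Fin n) (Fin n) ℝ} (hA : IsCoupling A) (y : Fin n → ℝ) :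
    IsRateGen (genF A y) (rateF A y) where
  act := genF_mulVec A y
  offdiag := by
    intro x z hxz
    have hne : z ≠ x := fun h => hxz h.symm
    simp only [genF, hne, if_false, sub_zero]
    refine Finset.sum_nonneg fun i _ => ?_
    split_ifs
    · exact (rateF_pos A y x i).le
    · exact le_rfl
  row := by
    intro x
    have h := genF_mulVec A y (fun _ => 1) x
    simp only [Matrix.mulVec, dotProduct, mul_one] at h
    rw [h]
    simp [rateAct]
  pos := rateF_pos A y
  sum_one := by
    intro x i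
    rw [rateF_flip_same hA]
    exact psi_add_neg _

lemma linF_flip (y : Fin n → ℝ) (x : Conf n) (i : Fin n) :
    ∑ a, y a * spin (flipAt x i a) = ∑ a, y a * spin (x a) - 2 * (y i * spin (x i)) := by
  classical
  simp only [spin_flipAt, mul_sub, Finset.sum_sub_distrib]
  congr 1
  simp only [mul_ite, mul_zero, Finset.sum_ite_eq', Finset.mem_univ, if_true]
  ring

lemma wtF_flip {A : Matrix (Fin n) (Fin n) ℝ} (hA : IsCoupling A) (y : Fin n → ℝ) (x : Conf n)
    (i : Fin n) :
    wtF A y (flipAt x i) = wtF A y x * Real.exp (-(2 * (spin (x i) * fieldF A y x i))) := by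
  unfold wtF
  rw [quad_flip hA, linF_flip, ← Real.exp_add]
  congr 1
  unfold fieldF
  ring

lemma gibF_flip {A : Matrix (Fin n) (Fin n) ℝ} (hA : IsCoupling A) (y : Fin n → ℝ) (x : Conf n)
    (i : Fin n) :
    gibF A y (flipAt x i) = gibF A y x * Real.exp (-(2 * (spin (x i) * fieldF A y x i))) := by
  unfold gibF
  rw [wtF_flip hA]
  ring

/-- Detailed balance at the level of flip rates. -/
lemma gibF_rate_balance {A : Matrix (Fin n) (Fin n) ℝ} (hA : IsCoupling A) (y : Fin n → ℝ)
    (x : Conf n) (i : Fin n) :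
    gibF A y x * rateF A y x i = gibF A y (flipAt x i) * rateF A y (flipAt x i) i := by
  rw [gibF_flip hA, rateF_flip_same hA]
  unfold rateF
  generalize spin (x i) * fieldF A y x i = u
  unfold psi
  rw [Real.cosh_neg, neg_neg]
  have he : Real.exp (-u) = Real.exp (-(2 * u)) * Real.exp u := by
    rw [← Real.exp_add]
    congr 1
    ring
  rw [he]
  ring

theorem isRevProb_gibF {A : Matrix (Fin n) (Fin n) ℝ} (hA : IsCoupling A) (y : Fin n → ℝ) :
    IsRevProb (genF A y) (gibF A y) where
  pos := gibF_pos A y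
  total := gibF_total A y
  rev := by
    intro x z
    by_cases hxz : z = x
    · subst hxz; rfl
    · have hxz' : x ≠ z := fun h => hxz h.symm
      simp only [genF, hxz, hxz', if_false, sub_zero, Finset.mul_sum]
      refine Finset.sum_congr rfl fun i _ => ?_
      by_cases hi : z = flipAt x i
      · have hi' : x = flipAt z i := by rw [hi, flipAt_flipAt]
        rw [if_pos hi, if_pos hi', gibF_rate_balance hA y x i, ← hi]
      · have hi' : ¬ x = flipAt z i := by
          intro h
          apply hi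
          rw [h, flipAt_flipAt]
        rw [if_neg hi, if_neg hi', mul_zero, mul_zero]

section abstract

variable {L : Matrix (Conf n) (Conf n) ℝ} {c : Conf n → Fin n → ℝ} {μ : Conf n → ℝ}

/-- The Dirichlet form of a flip chain. -/
noncomputable def dirAbs (μ : Conf n → ℝ) (c : Conf n → Fin n → ℝ) (g : Conf n → ℝ) : ℝ :=
  (1 / 2) * ∑ x, μ x * ∑ i, c x i * (g (flipAt x i) - g x) ^ 2

/-- The Dirichlet form identity for an abstract flip chain in detailed balance. -/
lemma dirAbs_eq (hact : ∀ G x, (L *ᵥ G) x = rateAct c G x)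
    (hbal : ∀ x i, μ x * c x i = μ (flipAt x i) * c (flipAt x i) i) (g : Conf n → ℝ) :
    - ∑ x, μ x * g x * (L *ᵥ g) x = dirAbs μ c g := by
  classical
  have hi : ∀ i : Fin n, ∑ x, μ x * c x i * g x * (g (flipAt x i) - g x)
      = - ((1 / 2) * ∑ x, μ x * c x i * (g (flipAt x i) - g x) ^ 2) := by
    intro i
    let e : Conf n ≃ Conf n :=
      Function.Involutive.toPerm (fun x => flipAt x i) (fun x => flipAt_flipAt x i)
    have h1 : ∑ x, μ x * c x i * g x * (g (flipAt x i) - g x)
        = ∑ x, μ x * c x i * g (flipAt x i) * (g x - g (flipAt x i)) := by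
      rw [← Equiv.sum_comp e]
      refine Finset.sum_congr rfl fun x _ => ?_
      change μ (flipAt x i) * c (flipAt x i) i * g (flipAt x i)
        * (g (flipAt (flipAt x i) i) - g (flipAt x i)) = _
      rw [flipAt_flipAt, ← hbal]
    have h2 : ∑ x, μ x * c x i * (g (flipAt x i) - g x) ^ 2
        = ∑ x, μ x * c x i * g (flipAt x i) * (g (flipAt x i) - g x)
          - ∑ x, μ x * c x i * g x * (g (flipAt x i) - g x) := by
      rw [← Finset.sum_sub_distrib]
      refine Finset.sum_congr rfl fun x _ => ?_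
      ring
    have h3 : ∑ x, μ x * c x i * g (flipAt x i) * (g x - g (flipAt x i))
        = - ∑ x, μ x * c x i * g (flipAt x i) * (g (flipAt x i) - g x) := by
      rw [← Finset.sum_neg_distrib]
      refine Finset.sum_congr rfl fun x _ => ?_
      ring
    rw [h3] at h1
    rw [h2]
    linarith
  unfold dirAbs
  simp only [hact, rateAct]
  have e1 : ∑ x, μ x * g x * ∑ i, c x i * (g (flipAt x i) - g x)
      = ∑ i, ∑ x, μ x * c x i * g x * (g (flipAt x i) - g x) := by
    rw [Finset.sum_comm]
    refine Finset.sum_congr rfl fun x _ => ?_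
    rw [Finset.mul_sum]
    refine Finset.sum_congr rfl fun i _ => ?_
    ring
  have e2 : ∑ x, μ x * ∑ i, c x i * (g (flipAt x i) - g x) ^ 2
      = ∑ i, ∑ x, μ x * c x i * (g (flipAt x i) - g x) ^ 2 := by
    rw [Finset.sum_comm]
    refine Finset.sum_congr rfl fun x _ => ?_
    rw [Finset.mul_sum]
    refine Finset.sum_congr rfl fun i _ => ?_
    ring
  rw [e1, e2]
  simp only [hi, Finset.sum_neg_distrib, neg_neg, Finset.mul_sum]

end abstract

end Vale.Agent.Lib.P150
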