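import Vale.Agent.Lib.P150.PacBayes

/-!
Row sums and the largest entry of the disorder matrix.
-/

open scoped BigOperators NNReal ENNReal
open MeasureTheory ProbabilityTheory

namespace Vale.Agent.Lib.P150

variable {n : ℕ}

/-- Markov's inequality for a nonnegative integrable function, with a real bound. -/
lemma markov_real {E : Type*} [MeasurableSpace E] {μ : Measure E} [IsProbabilityMeasure μ]
    {f : E → ℝ} (hf : ∀ x, 0 ≤ f x) (hi : Integrable f μ) {a : ℝ} (ha : 0 < a) :
    μ {x | a ≤ f x} ≤ ENNReal.ofReal ((∫ x, f x ∂μ) / a) := by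
  have h := mul_meas_ge_le_integral_of_nonneg (Filter.Eventually.of_forall hf) hi a
  have h2 : μ.real {x | a ≤ f x} ≤ (∫ x, f x ∂μ) / a := by
    rw [le_div_iff₀ ha]
    linarith
  rw [← ENNReal.ofReal_toReal (measure_ne_top μ {x | a ≤ f x})]
  exact ENNReal.ofReal_le_ofReal h2

lemma integral_exp_sq_pdf {θ : ℝ} (hθ : θ < 1 / 2) :
    Integrable (fun x => Real.exp (θ * x ^ 2)) (gaussianReal 0 1) ∧
    ∫ x, Real.exp (θ * x ^ 2) ∂(gaussianReal 0 1) = Real.sqrt (1 / (1 - 2 * θ)) := by
  have hb : 0 < 1 / 2 - θ := by linarith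
  have hpdf : ∀ x : ℝ, gaussianPDFReal 0 1 x = (Real.sqrt (2 * Real.pi))⁻¹ * Real.exp (-x ^ 2 / 2) := by
    intro x
    rw [gaussianPDFReal_def]
    simp
  have hprod : ∀ x : ℝ, Real.exp (θ * x ^ 2) * gaussianPDFReal 0 1 x
      = (Real.sqrt (2 * Real.pi))⁻¹ * Real.exp (-(1 / 2 - θ) * x ^ 2) := by
    intro x
    rw [hpdf, mul_left_comm, ← Real.exp_add]
    congr 2
    ring
  have hone : (1 : ℝ≥0) ≠ 0 := one_ne_zero
  constructor
  · rw [gaussianReal_of_var_ne_zero 0 hone, gaussianPDF_def]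
    have hm : Measurable fun x => ENNReal.ofReal (gaussianPDFReal 0 1 x) :=
      (measurable_gaussianPDFReal 0 1).ennreal_ofReal
    refine (integrable_withDensity_iff_integrable_smul₀' (μ := volume) hm.aemeasurable
      (by simp)).2 ?_
    have hi := (integrable_exp_neg_mul_sq hb).const_mul (Real.sqrt (2 * Real.pi))⁻¹
    refine hi.congr ?_
    filter_upwards with x
    simp only [smul_eq_mul]
    rw [ENNReal.toReal_ofReal (gaussianPDFReal_nonneg 0 1 x), mul_comm (gaussianPDFReal 0 1 x),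
      hprod]
  · rw [← integral_mul_pdf _ 0 hone]
    simp only [hprod]
    rw [integral_const_mul, integral_gaussian]
    have hpi := Real.pi_pos
    have e : (1 / (1 - 2 * θ)) = (Real.sqrt (2 * Real.pi))⁻¹ ^ 2 * (Real.pi / (1 / 2 - θ)) := by
      rw [inv_pow, Real.sq_sqrt (by positivity)]
      have : 1 - 2 * θ ≠ 0 := by linarith
      field_simp
      try ring
    rw [e, Real.sqrt_mul (sq_nonneg _), Real.sqrt_sq (by positivity)]

/-- Exponential moment of the row sum. -/
lemma row_mgf (i : Fin n) {θ : ℝ} (hθ0 : 0 ≤ θ) (hθ : θ < 1 / 2) :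
    Integrable (fun g => Real.exp (θ * ∑ k, symG g i k ^ 2)) (disorder n) ∧
    ∫ g, Real.exp (θ * ∑ k, symG g i k ^ 2) ∂(disorder n)
      ≤ Real.sqrt (1 / (1 - 2 * θ)) ^ n := by
  classical
  set φ : Edge n → ℝ → ℝ := fun e x =>
    if e.1.1 = i ∨ e.1.2 = i then Real.exp (θ * x ^ 2) else 1 with hφ
  have hprod : ∀ g : Edge n → ℝ, Real.exp (θ * ∑ k, symG g i k ^ 2) = ∏ e, φ e (g e) := by
    intro g
    rw [row_symG, Finset.mul_sum, Real.exp_sum]
    refine Finset.prod_congr rfl fun e _ => ?_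
    simp only [hφ]
    split_ifs
    · rfl
    · simp
  have hM := integral_exp_sq_pdf hθ
  set M := Real.sqrt (1 / (1 - 2 * θ)) with hMdef
  have hM1 : 1 ≤ M := by
    rw [hMdef, Real.one_le_sqrt, one_le_div (by linarith)]
    linarith
  simp only [hprod]
  constructor
  · unfold disorder
    refine Integrable.fintype_prod (μ := fun _ => gaussianReal 0 1) (f := φ) fun e => ?_
    simp only [hφ]
    split_ifs
    · exact hM.1
    · exact integrable_const _
  · unfold disorder
    rw [integral_fintype_prod_eq_prod (𝕜 := ℝ) φ]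
    have h1 : ∀ e : Edge n, ∫ x, φ e x ∂(gaussianReal 0 1)
        = if e.1.1 = i ∨ e.1.2 = i then M else 1 := by
      intro e
      simp only [hφ]
      split_ifs
      · exact hM.2
      · simp
    simp only [h1]
    rw [Finset.prod_ite, Finset.prod_const, Finset.prod_const_one, mul_one]
    apply pow_le_pow_right₀ hM1
    have := card_incident i
    exact_mod_cast this

lemma log_bound_aux {θ : ℝ} (h0 : 0 ≤ θ) (h1 : θ ≤ 1 / 8) :
    Real.sqrt (1 / (1 - 2 * θ)) ≤ Real.exp (θ + 2 * θ ^ 2) := by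
  have hpos : 0 < 1 - 2 * θ := by linarith
  rw [Real.sqrt_le_left (by positivity)]
  rw [← Real.exp_nat_mul]
  have hy : 0 ≤ (2 : ℝ) * (θ + 2 * θ ^ 2) := by positivity
  have h2 : 1 + (2 * θ + 6 * θ ^ 2) ≤ Real.exp ((2 : ℕ) * (θ + 2 * θ ^ 2)) := by
    have := Real.quadratic_le_exp_of_nonneg hy
    push_cast
    nlinarith [sq_nonneg ((2 : ℝ) * (θ + 2 * θ ^ 2))]
  refine le_trans ?_ h2
  rw [div_le_iff₀ hpos]
  nlinarith [mul_nonneg h0 h0, mul_nonneg (mul_nonneg h0 h0) h0]

/-- A row sum is unlikely to be large. -/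
theorem row_event (i : Fin n) :
    (disorder n) {g | (101 / 100 : ℝ) * n ≤ ∑ k, symG g i k ^ 2}
      ≤ ENNReal.ofReal (Real.exp (-(n / 80000 : ℝ))) := by
  set θ : ℝ := 1 / 400 with hθ
  have hθ0 : 0 ≤ θ := by norm_num [hθ]
  have hθ1 : θ < 1 / 2 := by norm_num [hθ]
  obtain ⟨hi, hv⟩ := row_mgf i hθ0 hθ1
  have hsub : {g : Edge n → ℝ | (101 / 100 : ℝ) * n ≤ ∑ k, symG g i k ^ 2}
      ⊆ {g | Real.exp (θ * ((101 / 100 : ℝ) * n)) ≤ Real.exp (θ * ∑ k, symG g i k ^ 2)} := by
    intro g hg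
    exact Real.exp_le_exp.2 (mul_le_mul_of_nonneg_left hg hθ0)
  refine (measure_mono hsub).trans ?_
  refine (markov_real (fun _ => (Real.exp_pos _).le) hi (Real.exp_pos _)).trans ?_
  apply ENNReal.ofReal_le_ofReal
  rw [div_le_iff₀ (Real.exp_pos _)]
  refine hv.trans ?_
  have hb := log_bound_aux hθ0 (by norm_num [hθ] : θ ≤ 1 / 8)
  have hnn : 0 ≤ Real.sqrt (1 / (1 - 2 * θ)) := Real.sqrt_nonneg _
  refine (pow_le_pow_left₀ hnn hb n).trans ?_
  rw [← Real.exp_nat_mul, ← Real.exp_add]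
  apply Real.exp_le_exp.2
  simp only [hθ]
  have : (0 : ℝ) ≤ n := Nat.cast_nonneg n
  nlinarith

/-- Exponential moments of linear forms. -/
lemma integral_exp_linear (t : Edge n → ℝ) :
    Integrable (fun g : Edge n → ℝ => Real.exp (∑ e, t e * g e)) (disorder n) ∧
    ∫ g, Real.exp (∑ e, t e * g e) ∂(disorder n) = Real.exp (∑ e, t e ^ 2 / 2) := by
  simp only [Real.exp_sum]
  unfold disorder
  constructor
  · exact Integrable.fintype_prod (μ := fun _ => gaussianReal 0 1)
      (f := fun (e : Edge n) x => Real.exp (t e * x))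
      fun e => integrable_exp_mul_gaussianReal _
  · rw [integral_fintype_prod_eq_prod (𝕜 := ℝ) (fun (e : Edge n) x => Real.exp (t e * x))]
    refine Finset.prod_congr rfl fun e _ => ?_
    have := congrFun (mgf_id_gaussianReal (μ := 0) (v := 1)) (t e)
    simp only [mgf, id] at this
    rw [this]
    congr 1
    push_cast
    ring

/-- A single edge variable is unlikely to be large. -/
lemma edge_event (e : Edge n) {R : ℝ} (hR : 0 < R) :
    (disorder n) {g | R ≤ |g e|} ≤ ENNReal.ofReal (2 * Real.exp (-(R ^ 2 / 2))) := by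
  classical
  have h1 : ∀ s : ℝ, s ^ 2 = 1 →
      (disorder n) {g | R ≤ s * g e} ≤ ENNReal.ofReal (Real.exp (-(R ^ 2 / 2))) := by
    intro s hs
    set t : Edge n → ℝ := fun e' => if e' = e then s * R else 0 with ht
    have hlin : ∀ g : Edge n → ℝ, ∑ e', t e' * g e' = s * R * g e := by
      intro g
      simp [ht, Finset.sum_ite_eq']
    have hsq : ∑ e', t e' ^ 2 / 2 = R ^ 2 / 2 := by
      have : ∀ e', t e' ^ 2 / 2 = if e' = e then R ^ 2 / 2 else 0 := by
        intro e'
        simp only [ht]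
        split_ifs
        · rw [mul_pow, hs, one_mul]
        · simp
      simp only [this]
      simp
    obtain ⟨hi, hv⟩ := integral_exp_linear t
    have hsub : {g : Edge n → ℝ | R ≤ s * g e}
        ⊆ {g | Real.exp (R ^ 2) ≤ Real.exp (∑ e', t e' * g e')} := by
      intro g hg
      simp only [Set.mem_ofPred_eq] at hg ⊢
      rw [hlin]
      apply Real.exp_le_exp.2
      have : R * R ≤ R * (s * g e) := mul_le_mul_of_nonneg_left hg hR.le
      nlinarith
    refine (measure_mono hsub).trans ?_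
    refine (markov_real (fun _ => (Real.exp_pos _).le) hi (Real.exp_pos _)).trans ?_
    apply ENNReal.ofReal_le_ofReal
    rw [hv, hsq, div_le_iff₀ (Real.exp_pos _), ← Real.exp_add]
    apply Real.exp_le_exp.2
    nlinarith
  have hsub : {g : Edge n → ℝ | R ≤ |g e|} ⊆ {g | R ≤ 1 * g e} ∪ {g | R ≤ (-1) * g e} := by
    intro g hg
    simp only [Set.mem_ofPred_eq] at hg
    simp only [Set.mem_union, Set.mem_ofPred_eq]
    rcases le_abs.1 hg with h | h
    · left; linarith
    · right; linarith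
  refine (measure_mono hsub).trans ((measure_union_le _ _).trans ?_)
  have h2 := add_le_add (h1 1 (by norm_num)) (h1 (-1) (by norm_num))
  refine h2.trans ?_
  rw [← ENNReal.ofReal_add (Real.exp_pos _).le (Real.exp_pos _).le]
  apply ENNReal.ofReal_le_ofReal
  linarith

end Vale.Agent.Lib.P150
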