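import Vale.Agent.Lib.P150.IsingMix
import Vale.Agent.Lib.P150.RowEntry

/-!
Assembly: the good event for the disorder and the mixing theorems for the SK model.
-/

open scoped BigOperators NNReal ENNReal Topology
open MeasureTheory ProbabilityTheory Filter

namespace Vale.Agent.Lib.P150

variable {n : ℕ}

/-- The typical properties of the disorder. -/
def GoodDisorder (r : ℝ) (g : Edge n → ℝ) : Prop :=
  (∀ z : Fin n → ℝ, |∑ i, ∑ k, symG g i k * z i * z k| ≤ 223 / 100 * Real.sqrt n * ∑ i, z i ^ 2) ∧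
  (∀ i, ∑ k, symG g i k ^ 2 ≤ 101 / 100 * n) ∧
  (∀ e, |g e| ≤ r * Real.sqrt n)

lemma edgeForm_smul (g : Edge n → ℝ) (a : ℝ) (z : Fin n → ℝ) :
    edgeForm g (fun i => a * z i) = a ^ 2 * edgeForm g z := by
  unfold edgeForm
  rw [Finset.mul_sum]
  refine Finset.sum_congr rfl fun e _ => ?_
  ring

/-- The complement of the good event is contained in an explicit union. -/
lemma bad_subset (r : ℝ) (hn : 0 < n) :
    {g : Edge n → ℝ | ¬ GoodDisorder r g} ⊆
      {g | ∃ u : Fin n → ℝ, ∑ i, u i ^ 2 = 1 ∧ 223 / 100 * Real.sqrt n < 1 * (2 * edgeForm g u)}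
      ∪ {g | ∃ u : Fin n → ℝ, ∑ i, u i ^ 2 = 1 ∧ 223 / 100 * Real.sqrt n < (-1) * (2 * edgeForm g u)}
      ∪ (⋃ i, {g | (101 / 100 : ℝ) * n ≤ ∑ k, symG g i k ^ 2})
      ∪ (⋃ e, {g | r * Real.sqrt n ≤ |g e|}) := by
  intro g hg
  by_contra hcon
  simp only [Set.mem_union, Set.mem_iUnion, Set.mem_ofPred_eq, not_or, not_exists, not_and,
    not_lt, not_le] at hcon
  obtain ⟨⟨⟨h1, h2⟩, h3⟩, h4⟩ := hcon
  apply hg
  refine ⟨?_, fun i => (h3 i).le, fun e => (h4 e).le⟩
  intro z
  rw [quad_symG]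
  set Z : ℝ := ∑ i, z i ^ 2 with hZ
  have hZ0 : 0 ≤ Z := Finset.sum_nonneg fun _ _ => sq_nonneg _
  rcases hZ0.eq_or_lt with h0 | hpos
  · have hz : ∀ i, z i = 0 := by
      intro i
      have := (Finset.sum_eq_zero_iff_of_nonneg (fun i _ => sq_nonneg (z i))).1 h0.symm i
        (Finset.mem_univ i)
      exact pow_eq_zero_iff (two_ne_zero) |>.1 this
    simp [hz, ← h0]
  · set a : ℝ := (Real.sqrt Z)⁻¹ with ha
    have hsZ : 0 < Real.sqrt Z := Real.sqrt_pos.2 hpos
    have ha2 : a ^ 2 = Z⁻¹ := by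
      rw [ha, inv_pow, Real.sq_sqrt hZ0]
    have hu : ∑ i, (a * z i) ^ 2 = 1 := by
      simp only [mul_pow, ← Finset.mul_sum, ha2]
      exact inv_mul_cancel₀ hpos.ne'
    have hu1 := h1 (fun i => a * z i) hu
    have hu2 := h2 (fun i => a * z i) hu
    rw [edgeForm_smul, ha2] at hu1 hu2
    have e : ∑ e : Edge n, g e * (z e.1.1 * z e.1.2) = edgeForm g z := rfl
    rw [e, abs_le]
    have hZ' : Z⁻¹ * edgeForm g z * Z = edgeForm g z := by
      field_simp
    constructor
    · have := mul_le_mul_of_nonneg_right hu2 hZ0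
      nlinarith
    · have := mul_le_mul_of_nonneg_right hu1 hZ0
      nlinarith

lemma card_edge_le : ((Fintype.card (Edge n) : ℕ) : ℝ) ≤ n ^ 2 := by
  have h : Fintype.card (Edge n) ≤ Fintype.card (Fin n × Fin n) := Fintype.card_subtype_le _
  simp only [Fintype.card_prod, Fintype.card_fin] at h
  have : ((Fintype.card (Edge n) : ℕ) : ℝ) ≤ ((n * n : ℕ) : ℝ) := by exact_mod_cast h
  simpa [sq] using this

/-- The probability of the bad event. -/
theorem bad_prob {r : ℝ} (hr : 0 < r) (hn : 0 < n) :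
    (disorder n) {g | ¬ GoodDisorder r g}
      ≤ ENNReal.ofReal (2 * Real.exp (-(n / 1000 : ℝ)) + n * Real.exp (-(n / 80000 : ℝ))
          + n ^ 2 * (2 * Real.exp (-((r * Real.sqrt n) ^ 2 / 2)))) := by
  have hnp : (0 : ℝ) < n := by exact_mod_cast hn
  have hRpos : 0 < r * Real.sqrt n := mul_pos hr (Real.sqrt_pos.2 hnp)
  refine (measure_mono (bad_subset r hn)).trans ?_
  refine (measure_union_le _ _).trans ?_
  have h1 := op_bound_event (n := n) hn 1 (by norm_num)
  have h2 := op_bound_event (n := n) hn (-1) (by norm_num)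
  have h3 : (disorder n) (⋃ i, {g | (101 / 100 : ℝ) * n ≤ ∑ k, symG g i k ^ 2})
      ≤ ENNReal.ofReal (n * Real.exp (-(n / 80000 : ℝ))) := by
    refine (measure_iUnion_fintype_le _ _).trans ?_
    calc ∑ i : Fin n, (disorder n) {g | (101 / 100 : ℝ) * n ≤ ∑ k, symG g i k ^ 2}
        ≤ ∑ _i : Fin n, ENNReal.ofReal (Real.exp (-(n / 80000 : ℝ))) :=
          Finset.sum_le_sum fun i _ => row_event i
      _ = ENNReal.ofReal (n * Real.exp (-(n / 80000 : ℝ))) := by
          simp only [Finset.sum_const, Finset.card_univ, Fintype.card_fin, nsmul_eq_mul]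
          rw [ENNReal.ofReal_mul (by positivity)]
          simp
  have h4 : (disorder n) (⋃ e, {g | r * Real.sqrt n ≤ |g e|})
      ≤ ENNReal.ofReal (n ^ 2 * (2 * Real.exp (-((r * Real.sqrt n) ^ 2 / 2)))) := by
    refine (measure_iUnion_fintype_le _ _).trans ?_
    calc ∑ e : Edge n, (disorder n) {g | r * Real.sqrt n ≤ |g e|}
        ≤ ∑ _e : Edge n, ENNReal.ofReal (2 * Real.exp (-((r * Real.sqrt n) ^ 2 / 2))) :=
          Finset.sum_le_sum fun e _ => edge_event e hRpos
      _ = ENNReal.ofReal ((Fintype.card (Edge n) : ℝ)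
            * (2 * Real.exp (-((r * Real.sqrt n) ^ 2 / 2)))) := by
          simp only [Finset.sum_const, Finset.card_univ, nsmul_eq_mul]
          rw [ENNReal.ofReal_mul (by positivity)]
          simp
      _ ≤ _ := by
          apply ENNReal.ofReal_le_ofReal
          exact mul_le_mul_of_nonneg_right card_edge_le (by positivity)
  have h5 : (disorder n) ((({g | ∃ u : Fin n → ℝ, ∑ i, u i ^ 2 = 1 ∧
        223 / 100 * Real.sqrt n < 1 * (2 * edgeForm g u)}
      ∪ {g | ∃ u : Fin n → ℝ, ∑ i, u i ^ 2 = 1 ∧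
        223 / 100 * Real.sqrt n < (-1) * (2 * edgeForm g u)})
      ∪ (⋃ i, {g | (101 / 100 : ℝ) * n ≤ ∑ k, symG g i k ^ 2})))
      ≤ ENNReal.ofReal (Real.exp (-(n / 1000 : ℝ))) + ENNReal.ofReal (Real.exp (-(n / 1000 : ℝ)))
        + ENNReal.ofReal (n * Real.exp (-(n / 80000 : ℝ))) :=
    (measure_union_le _ _).trans (add_le_add ((measure_union_le _ _).trans (add_le_add h1 h2)) h3)
  refine (add_le_add h5 h4).trans (le_of_eq ?_)
  rw [← ENNReal.ofReal_add (Real.exp_pos _).le (Real.exp_pos _).le,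
    ← ENNReal.ofReal_add (by positivity) (by positivity),
    ← ENNReal.ofReal_add (by positivity) (by positivity)]
  congr 1
  ring

lemma tendsto_pow_mul_exp (k : ℕ) {a : ℝ} (ha : 0 < a) :
    Tendsto (fun m : ℕ => (m : ℝ) ^ k * Real.exp (-(a * m))) atTop (𝓝 0) := by
  have h1 := Real.tendsto_pow_mul_exp_neg_atTop_nhds_zero k
  have h2 : Tendsto (fun m : ℕ => a * (m : ℝ)) atTop atTop :=
    (tendsto_natCast_atTop_atTop).const_mul_atTop ha
  have h3 := (h1.comp h2).const_mul ((a ^ k)⁻¹)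
  simp only [mul_zero] at h3
  refine h3.congr fun m => ?_
  simp only [Function.comp_apply, mul_pow]
  field_simp

/-- The bad event has vanishing probability. -/
theorem tendsto_bad {r : ℝ} (hr : 0 < r) :
    Tendsto (fun m : ℕ => (disorder m) {g | ¬ GoodDisorder r g}) atTop (𝓝 0) := by
  have hb : Tendsto (fun m : ℕ => 2 * Real.exp (-(m / 1000 : ℝ)) + m * Real.exp (-(m / 80000 : ℝ))
      + m ^ 2 * (2 * Real.exp (-((r * Real.sqrt m) ^ 2 / 2)))) atTop (𝓝 0) := by
    have h1 := (tendsto_pow_mul_exp 0 (a := 1 / 1000) (by norm_num)).const_mul 2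
    have h2 := tendsto_pow_mul_exp 1 (a := 1 / 80000) (by norm_num)
    have h3 := (tendsto_pow_mul_exp 2 (a := r ^ 2 / 2) (by positivity)).const_mul 2
    have h := (h1.add h2).add h3
    simp only [mul_zero, add_zero] at h
    refine h.congr fun m => ?_
    have hs : (r * Real.sqrt m) ^ 2 / 2 = r ^ 2 / 2 * m := by
      rw [mul_pow, Real.sq_sqrt (Nat.cast_nonneg m)]
      ring
    rw [hs]
    have e1 : (1 / 1000 : ℝ) * m = m / 1000 := by ring
    have e2 : (1 / 80000 : ℝ) * m = m / 80000 := by ring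
    rw [e1, e2]
    ring
  have hb2 := (ENNReal.continuous_ofReal.tendsto 0).comp hb
  simp only [ENNReal.ofReal_zero] at hb2
  refine tendsto_of_tendsto_of_tendsto_of_le_of_le' tendsto_const_nhds hb2
    (Eventually.of_forall fun _ => bot_le) ?_
  filter_upwards [eventually_gt_atTop 0] with m hm
  exact bad_prob hr hm

/-- Hypotheses for the SK matrix on the good event. -/
lemma restTerm_sk {β r : ℝ} (hβ : 0 ≤ β) (hr : β * r ≤ 1 / 1000) (hr0 : 0 ≤ r) (hn : 0 < n)
    {g : Edge n → ℝ} (hg : GoodDisorder r g) (x : Conf n) (u : Fin n → ℝ) :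
    restTerm (flipRate (skMatrix β g)) x u
      ≤ (2 * (223 / 100 * β) + 99 / 25 * (101 / 100 * β ^ 2)) * ∑ i, u i ^ 2 := by
  obtain ⟨hg1, hg2, hg3⟩ := hg
  have hnp : (0 : ℝ) < n := by exact_mod_cast hn
  have hsp : 0 < Real.sqrt n := Real.sqrt_pos.2 hnp
  have hA := isCoupling_skMatrix (n := n) β g
  refine restTerm_le hA (C := 223 / 100 * β) (ρ := 101 / 100 * β ^ 2) ?_ ?_ ?_ (by positivity) x u
  · intro z
    have e : ∑ i, ∑ k, skMatrix β g i k * z i * z k
        = β / Real.sqrt n * ∑ i, ∑ k, symG g i k * z i * z k := by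
      simp only [skMatrix, Finset.mul_sum]
      refine Finset.sum_congr rfl fun i _ => Finset.sum_congr rfl fun k _ => ?_
      ring
    rw [e, abs_mul, abs_of_nonneg (by positivity)]
    calc β / Real.sqrt n * |∑ i, ∑ k, symG g i k * z i * z k|
        ≤ β / Real.sqrt n * (223 / 100 * Real.sqrt n * ∑ i, z i ^ 2) :=
          mul_le_mul_of_nonneg_left (hg1 z) (by positivity)
      _ = 223 / 100 * β * ∑ i, z i ^ 2 := by
          field_simp
  · intro i
    have e : ∑ k, skMatrix β g i k ^ 2 = β ^ 2 / n * ∑ k, symG g i k ^ 2 := by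
      simp only [skMatrix, Finset.mul_sum, mul_pow, div_pow, Real.sq_sqrt hnp.le]
    rw [e]
    calc β ^ 2 / n * ∑ k, symG g i k ^ 2 ≤ β ^ 2 / n * (101 / 100 * n) :=
          mul_le_mul_of_nonneg_left (hg2 i) (by positivity)
      _ = 101 / 100 * β ^ 2 := by
          field_simp
  · intro i k
    simp only [skMatrix, abs_mul, abs_of_nonneg (div_nonneg hβ hsp.le)]
    have h1 := abs_symG_le g (mul_nonneg hr0 hsp.le) hg3 i k
    calc β / Real.sqrt n * |symG g i k| ≤ β / Real.sqrt n * (r * Real.sqrt n) :=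
          mul_le_mul_of_nonneg_left h1 (by positivity)
      _ = β * r := by field_simp
      _ ≤ 1 / 1000 := hr

/-- Fast mixing on the good event. -/
theorem fast_on_good {β : ℝ} (hβ : 0 ≤ β) (hβ2 : β ≤ 17 / 50) (hn : 4 ≤ n) {g : Edge n → ℝ}
    (hg : GoodDisorder (1 / 340) g) :
    (∀ t, 350 * Real.log n ≤ t → ∀ x, tvDist (skMatrix β g) t x ≤ 1 / 4) ∧
    ∀ f, 1 / 100 * gibbsVar (skMatrix β g) f ≤ dirichletForm (skMatrix β g) f := by
  have hn0 : 0 < n := by omega
  have hA := isCoupling_skMatrix (n := n) β g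
  have hK : ∀ x u, restTerm (flipRate (skMatrix β g)) x u ≤ 99 / 50 * ∑ i, u i ^ 2 := by
    intro x u
    have h := restTerm_sk hβ (r := 1 / 340) (by linarith) (by norm_num) hn0 hg x u
    refine h.trans (mul_le_mul_of_nonneg_right ?_ (Finset.sum_nonneg fun _ _ => sq_nonneg _))
    nlinarith
  constructor
  · intro t ht x
    have hnp : (2 : ℝ) ≤ n := by
      have : 2 ≤ n := by omega
      exact_mod_cast this
    have hlog0 : 0 ≤ Real.log n := Real.log_nonneg (by linarith)
    have ht0 : 0 ≤ t := le_trans (by positivity) ht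
    have h := tvDist_le hA hK ht0 x
    refine h.trans ?_
    set s := Real.sqrt n with hs
    have hspos : 0 < s := Real.sqrt_pos.2 (by linarith)
    have hs2 : s ^ 2 = n := Real.sq_sqrt (by linarith)
    have hnpos : (0 : ℝ) < n := by linarith
    have hexp : Real.exp ((99 / 50 - 2) * t / 2) ≤ (n : ℝ)⁻¹ ^ 3 := by
      have e : (n : ℝ)⁻¹ ^ 3 = Real.exp (-(3 * Real.log n)) := by
        have h1 : (n : ℝ)⁻¹ = Real.exp (-Real.log n) := by
          rw [Real.exp_neg, Real.exp_log hnpos]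
        rw [h1, ← Real.exp_nat_mul]
        congr 1
        push_cast
        ring
      rw [e]
      apply Real.exp_le_exp.2
      nlinarith
    have hs3 : s ≤ n := by
      have h1 : 1 ≤ s := by
        rw [hs, Real.one_le_sqrt]
        linarith
      nlinarith
    calc (n : ℝ) * (Real.exp ((99 / 50 - 2) * t / 2) * s)
        ≤ n * ((n : ℝ)⁻¹ ^ 3 * n) := by
          apply mul_le_mul_of_nonneg_left _ hnpos.le
          exact mul_le_mul hexp hs3 hspos.le (by positivity)
      _ = (n : ℝ)⁻¹ := by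
          field_simp
      _ ≤ 1 / 4 := by
          rw [inv_le_comm₀ (by positivity) (by norm_num)]
          norm_num
          exact_mod_cast hn
  · intro f
    have := poincare hA hK f
    have e : (2 - (99 / 50 : ℝ)) / 2 = 1 / 100 := by norm_num
    rwa [e] at this

/-- The lower bound on the good event. -/
theorem slow_on_good {β : ℝ} (hβ : 0 < β) (hn : 4 ≤ n) {g : Edge n → ℝ}
    (hg : GoodDisorder (1 / (1000 * β)) g) {t : ℝ} (ht : 0 ≤ t)
    (ht2 : t ≤ 1 / (16 * ((2 * (223 / 100 * β) + 99 / 25 * (101 / 100 * β ^ 2)) + 8)) * Real.log n) :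
    ∃ x, 1 / 4 < tvDist (skMatrix β g) t x := by
  have hn0 : 0 < n := by omega
  have hA := isCoupling_skMatrix (n := n) β g
  set K : ℝ := 2 * (223 / 100 * β) + 99 / 25 * (101 / 100 * β ^ 2) with hK0
  have hKnn : 0 ≤ K := by positivity
  have hK : ∀ x u, restTerm (flipRate (skMatrix β g)) x u ≤ K * ∑ i, u i ^ 2 := by
    intro x u
    exact restTerm_sk hβ.le (r := 1 / (1000 * β)) (by field_simp; norm_num) (by positivity) hn0 hg x u
  obtain ⟨x₀, hx₀⟩ := exists_tvDist_ge hA hK hKnn hn0 ht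
  refine ⟨x₀, lt_of_lt_of_le ?_ hx₀⟩
  have hnp : (4 : ℝ) ≤ n := by exact_mod_cast hn
  have hnpos : (0 : ℝ) < n := by linarith
  set ℓ := Real.log n with hℓ
  have hℓ0 : 0 ≤ ℓ := Real.log_nonneg (by linarith)
  set y := Real.exp (ℓ / 8) with hy
  have hy1 : 1 ≤ y := Real.one_le_exp (by positivity)
  have hℓy : ℓ ≤ 8 * y := by
    have := Real.add_one_le_exp (ℓ / 8)
    linarith
  have hK8 : 8 ≤ K + 8 := by linarith
  have hc : (K + 8) * t ≤ ℓ / 16 := by
    have h1 : (K + 8) * t ≤ (K + 8) * (1 / (16 * (K + 8)) * ℓ) :=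
      mul_le_mul_of_nonneg_left ht2 (by linarith)
    have h2 : (K + 8) * (1 / (16 * (K + 8)) * ℓ) = ℓ / 16 := by
      field_simp
    linarith
  have hexpb : Real.exp ((K + 8) * t) ≤ y := by
    apply Real.exp_le_exp.2
    linarith
  have htb : t ≤ y / 16 := by
    have h1 : 1 / (16 * (K + 8)) ≤ 1 / 128 := by
      apply one_div_le_one_div_of_le (by norm_num)
      linarith
    have h2 : t ≤ 1 / 128 * ℓ := ht2.trans (mul_le_mul_of_nonneg_right h1 hℓ0)
    linarith
  have hy2 : y ^ 2 ≤ n / 2 := by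
    have e1 : y ^ 2 = Real.exp (ℓ / 4) := by
      rw [hy, ← Real.exp_nat_mul]
      congr 1
      push_cast
      ring
    have hs := Real.sq_sqrt hnpos.le
    have hs0 := Real.sqrt_nonneg (n : ℝ)
    have hs2 : 2 ≤ Real.sqrt n := by
      rw [show (2 : ℝ) = Real.sqrt 4 by
        rw [show (4 : ℝ) = 2 ^ 2 by norm_num, Real.sqrt_sq (by norm_num)]]
      exact Real.sqrt_le_sqrt hnp
    have h4 : Real.exp (ℓ / 4) ≤ Real.sqrt n := by
      rw [Real.sqrt_eq_rpow, hℓ, Real.rpow_def_of_pos hnpos]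
      apply Real.exp_le_exp.2
      have h0 : 0 ≤ Real.log n := Real.log_nonneg (by linarith)
      nlinarith
    rw [e1]
    nlinarith
  have hmain : 4 * t * Real.exp ((K + 8) * t) / n ≤ 1 / 8 := by
    rw [div_le_iff₀ hnpos]
    have h1 : 4 * t * Real.exp ((K + 8) * t) ≤ 4 * (y / 16) * y := by
      apply mul_le_mul _ hexpb (Real.exp_pos _).le (by positivity)
      linarith
    nlinarith
  linarith

end Vale.Agent.Lib.P150
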