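import Vale.Agent.Lib.P150.SKHyp
import Vale.Agent.Lib.P150.Decay

/-!
Fast mixing for the SK model below the operator norm threshold.
-/

open scoped BigOperators Matrix Topology
open Filter MeasureTheory

namespace Vale.Agent.Lib.P150

variable {n : ℕ}

/-- The bound on the logarithm of the inverse of the Gibbs measure. -/
lemma log_inv_gibF_le {A : Matrix (Fin n) (Fin n) ℝ} {C : ℝ} (hC0 : 0 ≤ C)
    (hC : ∀ z : Fin n → ℝ, |∑ i, ∑ k, A i k * z i * z k| ≤ C * ∑ i, z i ^ 2) (x : Conf n) :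
    Real.log (1 / gibF A 0 x) ≤ (1 + C) * n := by
  have hQ : ∀ z : Conf n, |∑ i, ∑ j, A i j * spin (z i) * spin (z j)| ≤ C * n := by
    intro z
    have h := hC (spinV z)
    rw [sum_spinV_sq] at h
    exact h
  have hwt : ∀ z, wtF A 0 z = Real.exp ((1 / 2) * ∑ i, ∑ j, A i j * spin (z i) * spin (z j)) := by
    intro z
    unfold wtF
    simp
  have hup : ∀ z, wtF A 0 z ≤ Real.exp (C * n / 2) := by
    intro z
    rw [hwt]
    apply Real.exp_le_exp.2
    have := (abs_le.1 (hQ z)).2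
    linarith
  have hlow : Real.exp (-(C * n / 2)) ≤ wtF A 0 x := by
    rw [hwt]
    apply Real.exp_le_exp.2
    have := (abs_le.1 (hQ x)).1
    linarith
  have hpos := wtF_pos A 0 x
  have hZpos := sum_wtF_pos A 0
  have hZ : ∑ z, wtF A 0 z ≤ 2 ^ n * Real.exp (C * n / 2) := by
    calc ∑ z, wtF A 0 z ≤ ∑ _z : Conf n, Real.exp (C * n / 2) :=
          Finset.sum_le_sum fun z _ => hup z
      _ = 2 ^ n * Real.exp (C * n / 2) := by
          simp [Finset.card_univ, Fintype.card_bool, Fintype.card_fin]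
  have e : 1 / gibF A 0 x = (∑ z, wtF A 0 z) / wtF A 0 x := by
    unfold gibF
    rw [one_div, inv_div]
  rw [e]
  have hbound : (∑ z, wtF A 0 z) / wtF A 0 x ≤ 2 ^ n * Real.exp (C * n) := by
    rw [div_le_iff₀ hpos]
    have h1 : Real.exp (C * n) * Real.exp (-(C * n / 2)) = Real.exp (C * n / 2) := by
      rw [← Real.exp_add]
      congr 1
      ring
    have h2 : 2 ^ n * Real.exp (C * n) * Real.exp (-(C * n / 2)) ≤ 2 ^ n * Real.exp (C * n) * wtF A 0 x :=
      mul_le_mul_of_nonneg_left hlow (by positivity)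
    calc ∑ z, wtF A 0 z ≤ 2 ^ n * Real.exp (C * n / 2) := hZ
      _ = 2 ^ n * Real.exp (C * n) * Real.exp (-(C * n / 2)) := by rw [mul_assoc, h1]
      _ ≤ _ := h2
  have hl := Real.log_le_log (div_pos hZpos hpos) hbound
  refine hl.trans ?_
  rw [Real.log_mul (by positivity) (Real.exp_pos _).ne', Real.log_pow, Real.log_exp]
  have h2 := Real.log_two_lt_d9
  have hn0 : (0 : ℝ) ≤ n := Nat.cast_nonneg n
  have : (n : ℝ) * Real.log 2 ≤ n * 1 := mul_le_mul_of_nonneg_left (by linarith) hn0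
  linarith

/-- Total variation bound for Ising models. -/
theorem tv_ising {A : Matrix (Fin n) (Fin n) ℝ} (hA : IsCoupling A) {C ρ ε κ θ : ℝ}
    (hC : ∀ z : Fin n → ℝ, |∑ i, ∑ k, A i k * z i * z k| ≤ C * ∑ i, z i ^ 2)
    (hρ : ∀ i, ∑ k, A i k ^ 2 ≤ ρ) (hε : ∀ i k, |A i k| ≤ ε) (hρ0 : 0 ≤ ρ) (hε0 : 0 ≤ ε)
    (hε1 : ε ≤ 1 / 100) (hρC : 2 * ρ ≤ C) (hκ0 : 0 < κ) (hκ : κ ≤ 1 - C - 16 * ε * ρ)
    (hθ : κ⁻¹ * (C + C) < θ) {t : ℝ} (ht : 0 ≤ t) (x : Conf n) :
    tvDist A t x ≤ 8 * ((1 + C) * n * Real.exp (-(t / Real.exp θ))) + 1 / 8 := by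
  have hC0 : 0 ≤ C := by linarith
  have h := tv_of_mlsi (isRevProb_gibF hA 0) (isRateGen_genF hA 0) (gibF_rate_balance hA 0)
    (Real.exp_pos θ) (fun f hf => approx_tensor hA hC hρ hε hρ0 hε0 hε1 hρC hκ0 hκ hθ 0 hf) ht x
  rw [genF_zero, gibF_zero] at h
  have e : tvDist A t x = (1 / 2) * ∑ y, |semi (generator A) t x y - gibbs A y| := rfl
  rw [e]
  refine h.trans ?_
  have h2 := log_inv_gibF_le hC0 hC x
  rw [gibF_zero] at h2
  have h3 := mul_le_mul_of_nonneg_right h2 (Real.exp_pos (-(t / Real.exp θ))).le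
  linarith

lemma goodDisorder_mono {r r' : ℝ} (hr : r ≤ r') {g : Edge n → ℝ} (hn : 0 < n)
    (hg : GoodDisorder r g) : GoodDisorder r' g := by
  obtain ⟨h1, h2, h3⟩ := hg
  refine ⟨h1, h2, fun e => (h3 e).trans ?_⟩
  exact mul_le_mul_of_nonneg_right hr (Real.sqrt_nonneg _)

/-- Fast mixing on the good event. -/
theorem fast_on_good2 {β r κ θ : ℝ} (hβ : 0 ≤ β) (hr0 : 0 ≤ r) (hn : 0 < n) {g : Edge n → ℝ}
    (hg : GoodDisorder r g) (hr1 : β * r ≤ 1 / 100) (hκ0 : 0 < κ)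
    (hκ : κ ≤ 1 - 223 / 100 * β - 16 * (β * r) * (101 / 100 * β ^ 2))
    (hβ2 : 101 / 100 * β ≤ 223 / 200)
    (hθ : κ⁻¹ * (223 / 100 * β + 223 / 100 * β) < θ) {t : ℝ} (ht : 0 ≤ t) (x : Conf n) :
    tvDist (skMatrix β g) t x
      ≤ 8 * ((1 + 223 / 100 * β) * n * Real.exp (-(t / Real.exp θ))) + 1 / 8 := by
  obtain ⟨h1, h2, h3⟩ := sk_hyps hβ hr0 hn hg
  have hA := isCoupling_skMatrix (n := n) β g
  exact tv_ising hA h1 h2 h3 (by positivity) (by positivity) hr1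
    (by nlinarith [mul_nonneg hβ hβ]) hκ0 hκ hθ ht x

/-- The time scale. -/
lemma exp_bound {K C₁ t : ℝ} (hK : 0 < K) (hC₁ : 0 ≤ C₁) {N : ℝ} (hN : 64 * C₁ ≤ N) (hN0 : 0 < N)
    (ht : 2 * K * Real.log N ≤ t) :
    8 * (C₁ * N * Real.exp (-(t / K))) ≤ 1 / 8 := by
  have h1 : Real.exp (-(t / K)) ≤ (N ^ 2)⁻¹ := by
    have e : (N ^ 2)⁻¹ = Real.exp (-(2 * Real.log N)) := by
      rw [Real.exp_neg]
      congr 1
      have : (2 : ℝ) * Real.log N = ((2 : ℕ) : ℝ) * Real.log N := by norm_num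
      rw [this, Real.exp_nat_mul, Real.exp_log hN0]
    rw [e]
    apply Real.exp_le_exp.2
    have : 2 * Real.log N ≤ t / K := by
      rw [le_div_iff₀ hK]
      linarith
    linarith
  have h2 : C₁ * N * Real.exp (-(t / K)) ≤ C₁ * N * (N ^ 2)⁻¹ :=
    mul_le_mul_of_nonneg_left h1 (by positivity)
  have h3 : C₁ * N * (N ^ 2)⁻¹ = C₁ / N := by
    field_simp
  rw [h3] at h2
  have h4 : C₁ / N ≤ 1 / 64 := by
    rw [div_le_iff₀ hN0]
    linarith
  linarith

/-- The gap is at most one. -/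
lemma gap_le_one {A : Matrix (Fin n) (Fin n) ℝ} (hA : IsCoupling A) (hn : 0 < n) :
    ∃ f : Conf n → ℝ, 0 < gibbsVar A f ∧
      - ∑ x, gibbs A x * f x * (generator A *ᵥ f) x ≤ gibbsVar A f := by
  classical
  obtain ⟨i⟩ : Nonempty (Fin n) := ⟨⟨0, hn⟩⟩
  have hlin : linF (Pi.single i (1 : ℝ)) = coordFn i := by
    funext x
    unfold linF coordFn
    rw [Finset.sum_eq_single i]
    · simp
    · intro k _ hk
      simp [hk]
    · simp
  have hmean : ∑ x, gibbs A x * coordFn i x = 0 := by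
    let e : Conf n ≃ Conf n := Function.Involutive.toPerm negConf negConf_negConf
    have h1 : ∑ x, gibbs A x * coordFn i x = ∑ x, gibbs A (negConf x) * coordFn i (negConf x) :=
      (Equiv.sum_comp e (fun x => gibbs A x * coordFn i x)).symm
    have h2 : ∀ x, gibbs A (negConf x) * coordFn i (negConf x) = -(gibbs A x * coordFn i x) := by
      intro x
      rw [gibbs_neg]
      unfold coordFn negConf
      rw [spin_not]
      ring
    simp only [h2, Finset.sum_neg_distrib] at h1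
    linarith
  have hvar : gibbsVar A (coordFn i) = 1 := by
    unfold gibbsVar
    rw [hmean]
    have : ∀ x, gibbs A x * coordFn i x ^ 2 = gibbs A x := by
      intro x
      unfold coordFn
      rw [spin_sq, mul_one]
    simp only [this, gibbs_total]
    norm_num
  refine ⟨coordFn i, by rw [hvar]; norm_num, ?_⟩
  rw [hvar, dirichlet_eq hA]
  have h := dirAbs_linF_le hA 0 (Pi.single i (1 : ℝ))
  rw [hlin, rateF_zero, gibF_zero] at h
  have e : ∑ k, (Pi.single i (1 : ℝ) : Fin n → ℝ) k ^ 2 = 1 := by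
    rw [Finset.sum_eq_single i]
    · simp
    · intro k _ hk
      simp [hk]
    · simp
  rw [e] at h
  exact h

/-- The main theorem: order of growth of the mixing time and of the gap. -/
theorem mixing_whp {β κ : ℝ} (hβ : 0 < β) (hκ0 : 0 < κ) (hκ : κ < 1 - 223 / 100 * β) :
    ∃ C' c : ℝ, 0 < C' ∧ 0 < c ∧
      Tendsto (fun n : ℕ => disorder n {g | ¬ (
          (∀ t, C' * Real.log n ≤ t → ∀ x, tvDist (skMatrix β g) t x ≤ 1 / 4) ∧
          (∀ t, 0 ≤ t → t ≤ c * Real.log n → ∃ x, 1 / 4 < tvDist (skMatrix β g) t x) ∧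
          (∀ f : Conf n → ℝ, κ * gibbsVar (skMatrix β g) f
            ≤ - ∑ x, gibbs (skMatrix β g) x * f x * (generator (skMatrix β g) *ᵥ f) x) ∧
          (∃ f : Conf n → ℝ, 0 < gibbsVar (skMatrix β g) f ∧
            - ∑ x, gibbs (skMatrix β g) x * f x * (generator (skMatrix β g) *ᵥ f) x
              ≤ gibbsVar (skMatrix β g) f))})
        atTop (𝓝 0) := by
  obtain ⟨r, hr0, hr1, hr2⟩ := exists_r hβ.le hκ0 hκ
  obtain ⟨θ, hθ⟩ : ∃ θ, θ = κ⁻¹ * (223 / 100 * β + 223 / 100 * β) + 1 := ⟨_, rfl⟩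
  have hθ' : κ⁻¹ * (223 / 100 * β + 223 / 100 * β) < θ := by rw [hθ]; linarith
  have hβ2 : 101 / 100 * β ≤ 223 / 200 := by
    have : 223 / 100 * β < 1 := by linarith
    nlinarith
  obtain ⟨K, hK⟩ : ∃ K, K = Real.exp θ := ⟨_, rfl⟩
  have hK0 : 0 < K := by rw [hK]; exact Real.exp_pos _
  obtain ⟨r₀, hr₀⟩ : ∃ r₀, r₀ = min r (1 / (1000 * β)) := ⟨_, rfl⟩
  have hr₀0 : 0 < r₀ := by
    rw [hr₀]
    exact lt_min hr0 (by positivity)
  have hr₀1 : r₀ ≤ r := by rw [hr₀]; exact min_le_left _ _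
  have hr₀2 : r₀ ≤ 1 / (1000 * β) := by rw [hr₀]; exact min_le_right _ _
  refine ⟨2 * K, 1 / (16 * ((2 * (223 / 100 * β) + 99 / 25 * (101 / 100 * β ^ 2)) + 8)),
    by positivity, by positivity, ?_⟩
  refine tendsto_of_tendsto_of_tendsto_of_le_of_le' tendsto_const_nhds
    (tendsto_bad hr₀0) (Eventually.of_forall fun _ => bot_le) ?_
  obtain ⟨N₀, hN₀⟩ := exists_nat_ge (64 * (1 + 223 / 100 * β))
  filter_upwards [eventually_ge_atTop (max 4 N₀)] with n hn
  have hn4 : 4 ≤ n := (le_max_left _ _).trans hn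
  have hnN : N₀ ≤ n := (le_max_right _ _).trans hn
  have hn0 : 0 < n := by omega
  have hnR : (64 * (1 + 223 / 100 * β) : ℝ) ≤ n := hN₀.trans (by exact_mod_cast hnN)
  have hnpos : (0 : ℝ) < n := by exact_mod_cast hn0
  apply measure_mono
  intro g hg
  simp only [Set.mem_ofPred_eq] at hg ⊢
  intro hgood
  apply hg
  have hA := isCoupling_skMatrix (n := n) β g
  have hgr : GoodDisorder r g := goodDisorder_mono hr₀1 hn0 hgood
  refine ⟨?_, ?_, ?_, ?_⟩
  · intro t ht x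
    have hlog : 0 ≤ Real.log n := Real.log_nonneg (by
      have : (4 : ℝ) ≤ n := by exact_mod_cast hn4
      linarith)
    have ht0 : 0 ≤ t := le_trans (by positivity) ht
    have h1 := fast_on_good2 hβ.le hr0.le hn0 hgr hr1 hκ0 hr2 hβ2 hθ' ht0 x
    rw [← hK] at h1
    have h2 := exp_bound (K := K) (C₁ := 1 + 223 / 100 * β) (t := t) hK0 (by positivity) hnR hnpos ht
    linarith
  · exact fun t ht0 ht1 => slow_on_good hβ hn4 (goodDisorder_mono hr₀2 hn0 hgood) ht0 ht1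
  · intro f
    have h := poincare_sk hβ.le hr0.le hn0 hgr hr1 hκ0 hr2 hβ2 0 f
    rw [gibF_zero, rateF_zero] at h
    rw [dirichlet_eq hA]
    exact h
  · exact gap_le_one hA hn0

end Vale.Agent.Lib.P150
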