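import Vale.Agent.Lib.P150.SlepNet

/-!
The sharp bound for the quadratic form of the disorder matrix.
-/

open scoped BigOperators NNReal ENNReal Topology
open MeasureTheory ProbabilityTheory Filter

namespace Vale.Agent.Lib.P150

variable {n : ℕ}

/-- The probability of a large value on a net, with explicit constants. -/
lemma net_tail (T : Finset (Fin n → ℝ)) (hT : ∀ v ∈ T, ∑ i, v i ^ 2 = 1) {s : ℝ} (hs : s ^ 2 = 1)
    {δ : ℝ} (hδ0 : 0 < δ) (hδ1 : δ ≤ 1) (hn : 1 ≤ δ / 16 * Real.sqrt n) :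
    (disorder n) {g | ∃ v ∈ T, (2 + δ / 2) * Real.sqrt n ≤ s * (2 * edgeForm g v)}
      ≤ ENNReal.ofReal (Real.exp (5 / 32 - δ ^ 2 * n / 2048))
        + ENNReal.ofReal (Real.exp (-(δ ^ 2 * n / 512))) := by
  obtain ⟨r, hr⟩ : ∃ r, r = Real.sqrt n := ⟨_, rfl⟩
  have hr0 : 0 ≤ r := hr ▸ Real.sqrt_nonneg _
  have hr2 : r ^ 2 = n := by rw [hr]; exact Real.sq_sqrt (Nat.cast_nonneg n)
  rw [← hr] at hn ⊢
  have hr1 : 16 ≤ r := by
    have h1 : δ / 16 * r ≤ 1 / 16 * r := mul_le_mul_of_nonneg_right (by linarith) hr0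
    linarith
  have hc : (1 : ℝ) ≤ (2 + 3 * δ / 8) * r - 1 := by nlinarith
  have hξ : (0 : ℝ) ≤ δ * r / 16 := by positivity
  have h := net_event T hT hs hξ hc
  have e : (2 + 3 * δ / 8) * r - 1 + 1 + 2 * (δ * r / 16) = (2 + δ / 2) * r := by ring
  rw [e] at h
  refine h.trans (add_le_add ?_ ?_)
  · refine (chi_event Unit (θ := 1 / 8) (by norm_num) (by norm_num) _).trans ?_
    apply ENNReal.ofReal_le_ofReal
    apply Real.exp_le_exp.2
    simp only [Fintype.card_unit, Nat.cast_one]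
    have : (δ * r / 16) ^ 2 = δ ^ 2 * n / 256 := by
      rw [← hr2]
      ring
    rw [this]
    norm_num
    linarith
  · have hsub : {h : Fin n → ℝ | (((2 + 3 * δ / 8) * r - 1 - 1) / 2) ^ 2 ≤ ∑ i, h i ^ 2}
        ⊆ {h | (1 + δ / 8) * n ≤ ∑ i, h i ^ 2} := by
      intro h hh
      simp only [Set.mem_ofPred_eq] at hh ⊢
      refine le_trans ?_ hh
      have h1 : (1 + δ / 8) * r ≤ ((2 + 3 * δ / 8) * r - 1 - 1) / 2 := by nlinarith
      have h2 := pow_le_pow_left₀ (by positivity) h1 2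
      refine le_trans ?_ h2
      rw [mul_pow, hr2]
      have : (0 : ℝ) ≤ n := Nat.cast_nonneg n
      nlinarith
    refine (measure_mono hsub).trans ?_
    refine (chi_event (Fin n) (θ := δ / 32) (by positivity) (by linarith) _).trans ?_
    apply ENNReal.ofReal_le_ofReal
    apply Real.exp_le_exp.2
    simp only [Fintype.card_fin]
    apply le_of_eq
    ring

/-- The deterministic consequence of bounds on a net. -/
lemma form_le_of_net (hn : 0 < n) {δ : ℝ} (hδ0 : 0 < δ) {T : Finset (Fin n → ℝ)}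
    (hcov : ∀ u : Fin n → ℝ, ∑ i, u i ^ 2 = 1 →
      ∃ v ∈ T, ∑ i, (u i - v i) ^ 2 ≤ (δ / (4 * (2 + δ))) ^ 2)
    (hT : ∀ v ∈ T, ∑ i, v i ^ 2 = 1) {g : Edge n → ℝ}
    (hR : ∀ v ∈ T, |2 * edgeForm g v| ≤ (2 + δ / 2) * Real.sqrt n) (z : Fin n → ℝ) :
    |∑ i, ∑ k, symG g i k * z i * z k| ≤ (2 + δ) * Real.sqrt n * ∑ i, z i ^ 2 := by
  have hη : 0 < δ / (4 * (2 + δ)) := by positivity
  have hη2 : 2 * (δ / (4 * (2 + δ))) < 1 := by
    rw [← mul_div_assoc, div_lt_one (by positivity)]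
    linarith
  have h := form_of_net hn hη hη2 hcov hT hR z
  rw [quad_symG]
  have e : (1 - 2 * (δ / (4 * (2 + δ)))) = (2 + δ / 2) / (2 + δ) := by
    field_simp
    ring
  rw [e] at h
  have hpos : 0 < (2 + δ / 2) / (2 + δ) := by positivity
  have h2 : |2 * edgeForm g z| * ((2 + δ / 2) / (2 + δ))
      ≤ ((2 + δ) * Real.sqrt n * ∑ i, z i ^ 2) * ((2 + δ / 2) / (2 + δ)) := by
    refine h.trans (le_of_eq ?_)
    field_simp
  exact le_of_mul_le_mul_right h2 hpos

/-- The probability that the quadratic form exceeds the sharp bound. -/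
theorem op_sharp_bound {δ : ℝ} (hδ0 : 0 < δ) (hδ1 : δ ≤ 1) (hn0 : 0 < n)
    (hn : 1 ≤ δ / 16 * Real.sqrt n) :
    (disorder n) {g | ¬ ∀ z : Fin n → ℝ,
        |∑ i, ∑ k, symG g i k * z i * z k| ≤ (2 + δ) * Real.sqrt n * ∑ i, z i ^ 2}
      ≤ ENNReal.ofReal (2 * (Real.exp (5 / 32 - δ ^ 2 * n / 2048)
        + Real.exp (-(δ ^ 2 * n / 512)))) := by
  obtain ⟨T, hT, hcov⟩ := exists_net n (η := δ / (4 * (2 + δ))) (by positivity)
  have hsub : {g : Edge n → ℝ | ¬ ∀ z : Fin n → ℝ,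
        |∑ i, ∑ k, symG g i k * z i * z k| ≤ (2 + δ) * Real.sqrt n * ∑ i, z i ^ 2}
      ⊆ {g | ∃ v ∈ T, (2 + δ / 2) * Real.sqrt n ≤ 1 * (2 * edgeForm g v)}
        ∪ {g | ∃ v ∈ T, (2 + δ / 2) * Real.sqrt n ≤ (-1) * (2 * edgeForm g v)} := by
    intro g hg
    by_contra hcon
    simp only [Set.mem_union, Set.mem_ofPred_eq, not_or, not_exists, not_and, not_le] at hcon
    apply hg
    apply form_le_of_net hn0 hδ0 hcov hT
    intro v hv
    have h1 := hcon.1 v hv
    have h2 := hcon.2 v hv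
    rw [abs_le]
    constructor <;> linarith
  refine (measure_mono hsub).trans ((measure_union_le _ _).trans ?_)
  have h1 := net_tail T hT (s := 1) (by norm_num) hδ0 hδ1 hn
  have h2 := net_tail T hT (s := -1) (by norm_num) hδ0 hδ1 hn
  refine (add_le_add h1 h2).trans (le_of_eq ?_)
  rw [← ENNReal.ofReal_add (Real.exp_pos _).le (Real.exp_pos _).le,
    ← ENNReal.ofReal_add (by positivity) (by positivity)]
  congr 1
  ring

/-- The sharp bound holds with high probability. -/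
theorem tendsto_op_sharp {δ : ℝ} (hδ0 : 0 < δ) (hδ1 : δ ≤ 1) :
    Tendsto (fun m : ℕ => (disorder m) {g | ¬ ∀ z : Fin m → ℝ,
        |∑ i, ∑ k, symG g i k * z i * z k| ≤ (2 + δ) * Real.sqrt m * ∑ i, z i ^ 2})
      atTop (𝓝 0) := by
  have hb : Tendsto (fun m : ℕ => 2 * (Real.exp (5 / 32 - δ ^ 2 * m / 2048)
      + Real.exp (-(δ ^ 2 * m / 512)))) atTop (𝓝 0) := by
    have h1 := (tendsto_pow_mul_exp 0 (a := δ ^ 2 / 2048) (by positivity)).const_mul
      (Real.exp (5 / 32))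
    have h2 := tendsto_pow_mul_exp 0 (a := δ ^ 2 / 512) (by positivity)
    have h := (h1.add h2).const_mul 2
    simp only [mul_zero, add_zero] at h
    refine h.congr fun m => ?_
    rw [pow_zero, one_mul, one_mul, ← Real.exp_add]
    congr 3
    · ring
    · ring
  have hb2 := (ENNReal.continuous_ofReal.tendsto 0).comp hb
  simp only [ENNReal.ofReal_zero] at hb2
  refine tendsto_of_tendsto_of_tendsto_of_le_of_le' tendsto_const_nhds hb2
    (Eventually.of_forall fun _ => bot_le) ?_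
  obtain ⟨N, hN⟩ := exists_nat_ge ((16 / δ) ^ 2)
  filter_upwards [eventually_ge_atTop (max 1 N)] with m hm
  have hm1 : 1 ≤ m := (le_max_left _ _).trans hm
  have hmN : N ≤ m := (le_max_right _ _).trans hm
  have hm0 : 0 < m := by omega
  refine op_sharp_bound hδ0 hδ1 hm0 ?_
  have hR : (16 / δ) ^ 2 ≤ (m : ℝ) := hN.trans (by exact_mod_cast hmN)
  have hs : 16 / δ ≤ Real.sqrt m := Real.le_sqrt_of_sq_le hR
  have := mul_le_mul_of_nonneg_left hs (by positivity : 0 ≤ δ / 16)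
  have e : δ / 16 * (16 / δ) = 1 := by field_simp
  linarith

end Vale.Agent.Lib.P150
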