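import Vale.Agent.Lib.P150.Final2
import Vale.Agent.Lib.P150.SharpOp

/-!
Fast mixing for the SK model for all inverse temperatures below one half.
-/

open scoped BigOperators Matrix Topology
open Filter MeasureTheory

namespace Vale.Agent.Lib.P150

variable {n : ℕ}

lemma sk_form {β C₀ : ℝ} (hβ : 0 ≤ β) (hn : 0 < n) {g : Edge n → ℝ}
    (hop : ∀ z : Fin n → ℝ, |∑ i, ∑ k, symG g i k * z i * z k| ≤ C₀ * Real.sqrt n * ∑ i, z i ^ 2)
    (z : Fin n → ℝ) :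
    |∑ i, ∑ k, skMatrix β g i k * z i * z k| ≤ C₀ * β * ∑ i, z i ^ 2 := by
  have hnp : (0 : ℝ) < n := by exact_mod_cast hn
  have hsp : 0 < Real.sqrt n := Real.sqrt_pos.2 hnp
  have e : ∑ i, ∑ k, skMatrix β g i k * z i * z k
      = β / Real.sqrt n * ∑ i, ∑ k, symG g i k * z i * z k := by
    simp only [skMatrix, Finset.mul_sum]
    refine Finset.sum_congr rfl fun i _ => Finset.sum_congr rfl fun k _ => ?_
    ring
  rw [e, abs_mul, abs_of_nonneg (by positivity)]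
  calc β / Real.sqrt n * |∑ i, ∑ k, symG g i k * z i * z k|
      ≤ β / Real.sqrt n * (C₀ * Real.sqrt n * ∑ i, z i ^ 2) :=
        mul_le_mul_of_nonneg_left (hop z) (by positivity)
    _ = C₀ * β * ∑ i, z i ^ 2 := by
        field_simp

/-- Choice of the entrywise bound. -/
lemma exists_r' {β κ C : ℝ} (hβ : 0 ≤ β) (hC : 0 ≤ C) (hκ0 : 0 < κ) (hκ : κ < 1 - C) :
    ∃ r : ℝ, 0 < r ∧ β * r ≤ 1 / 100 ∧
      κ ≤ 1 - C - 16 * (β * r) * (101 / 100 * β ^ 2) := by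
  obtain ⟨δ, hδ⟩ : ∃ δ, δ = 1 - C - κ := ⟨_, rfl⟩
  have hδ0 : 0 < δ := by rw [hδ]; linarith
  have hδ1 : δ ≤ 1 := by
    rw [hδ]
    linarith
  have hP1 : 1 ≤ (1 + β) ^ 3 := one_le_pow₀ (by linarith)
  have hPpos : 0 < (1 + β) ^ 3 := by positivity
  have hP2 : β ≤ (1 + β) ^ 3 := by nlinarith [pow_pos (show 0 < 1 + β by linarith) 2]
  have hP3 : β ^ 3 ≤ (1 + β) ^ 3 := pow_le_pow_left₀ hβ (by linarith) 3
  refine ⟨δ / ((1 + β) ^ 3 * 100), by positivity, ?_, ?_⟩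
  · rw [← mul_div_assoc, div_le_iff₀ (by positivity)]
    nlinarith
  · have e : 16 * (β * (δ / ((1 + β) ^ 3 * 100))) * (101 / 100 * β ^ 2)
        = (404 / 2500) * δ * (β ^ 3 / (1 + β) ^ 3) := by
      field_simp
      ring
    have h1 : β ^ 3 / (1 + β) ^ 3 ≤ 1 := (div_le_one hPpos).2 hP3
    have h2 : 0 ≤ β ^ 3 / (1 + β) ^ 3 := by positivity
    rw [e]
    have h3 : (404 / 2500) * δ * (β ^ 3 / (1 + β) ^ 3) ≤ δ := by nlinarith
    rw [hδ] at h3 ⊢
    linarith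

/-- Choice of the operator bound. -/
lemma exists_delta {β κ : ℝ} (hβ : 0 < β) (hκ : κ < 1 - 2 * β) :
    ∃ δ : ℝ, 0 < δ ∧ δ ≤ 1 ∧ κ < 1 - (2 + δ) * β := by
  obtain ⟨d, hd⟩ : ∃ d, d = 1 - 2 * β - κ := ⟨_, rfl⟩
  have hd0 : 0 < d := by rw [hd]; linarith
  obtain ⟨m, hm⟩ : ∃ m, m = min 1 (d / (2 * β)) := ⟨_, rfl⟩
  refine ⟨m, hm ▸ lt_min one_pos (by positivity), hm ▸ min_le_left _ _, ?_⟩
  have h1 : m ≤ d / (2 * β) := hm ▸ min_le_right _ _
  have h2 : m * β ≤ d / (2 * β) * β := mul_le_mul_of_nonneg_right h1 hβ.le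
  have h3 : d / (2 * β) * β = d / 2 := by field_simp
  have h4 : (2 + m) * β = 2 * β + m * β := by ring
  rw [h4]
  linarith

/-- The main theorem: all inverse temperatures below one half. -/
theorem mixing_half {β κ : ℝ} (hβ : 0 < β) (hκ0 : 0 < κ) (hκ : κ < 1 - 2 * β) :
    ∃ C' c : ℝ, 0 < C' ∧ 0 < c ∧
      Tendsto (fun n : ℕ => disorder n {g | ¬ (
          (∀ t, C' * Real.log n ≤ t → ∀ x, tvDist (skMatrix β g) t x ≤ 1 / 4) ∧
          (∀ t, 0 ≤ t → t ≤ c * Real.log n → ∃ x, 1 / 4 < tvDist (skMatrix β g) t x) ∧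
          (∀ f : Conf n → ℝ, κ * gibbsVar (skMatrix β g) f
            ≤ - ∑ x, gibbs (skMatrix β g) x * f x * (generator (skMatrix β g) *ᵥ f) x) ∧
          (∃ f : Conf n → ℝ, 0 < gibbsVar (skMatrix β g) f ∧
            - ∑ x, gibbs (skMatrix β g) x * f x * (generator (skMatrix β g) *ᵥ f) x
              ≤ gibbsVar (skMatrix β g) f))})
        atTop (𝓝 0) := by
  obtain ⟨δ, hδ0, hδ1, hδ⟩ := exists_delta hβ hκ
  obtain ⟨C, hC⟩ : ∃ C, C = (2 + δ) * β := ⟨_, rfl⟩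
  have hC0 : 0 ≤ C := by rw [hC]; positivity
  rw [← hC] at hδ
  obtain ⟨r, hr0, hr1, hr2⟩ := exists_r' hβ.le hC0 hκ0 hδ
  have hβ1 : β < 1 / 2 := by linarith
  obtain ⟨θ, hθ⟩ : ∃ θ, θ = κ⁻¹ * (C + C) + 1 := ⟨_, rfl⟩
  have hθ' : κ⁻¹ * (C + C) < θ := by rw [hθ]; linarith
  have hρC : 2 * (101 / 100 * β ^ 2) ≤ C := by
    rw [hC]
    nlinarith [mul_pos hβ hβ, mul_pos hδ0 hβ]
  obtain ⟨K, hK⟩ : ∃ K, K = Real.exp θ := ⟨_, rfl⟩
  have hK0 : 0 < K := by rw [hK]; exact Real.exp_pos _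
  obtain ⟨r₀, hr₀⟩ : ∃ r₀, r₀ = min r (1 / (1000 * β)) := ⟨_, rfl⟩
  have hr₀0 : 0 < r₀ := by
    rw [hr₀]
    exact lt_min hr0 (by positivity)
  have hr₀1 : r₀ ≤ r := by rw [hr₀]; exact min_le_left _ _
  have hr₀2 : r₀ ≤ 1 / (1000 * β) := by rw [hr₀]; exact min_le_right _ _
  refine ⟨2 * K, 1 / (16 * ((2 * (223 / 100 * β) + 99 / 25 * (101 / 100 * β ^ 2)) + 8)),
    by positivity, by positivity, ?_⟩
  have hsum := (tendsto_bad hr₀0).add (tendsto_op_sharp hδ0 hδ1)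
  rw [add_zero] at hsum
  refine tendsto_of_tendsto_of_tendsto_of_le_of_le' tendsto_const_nhds
    hsum (Eventually.of_forall fun _ => bot_le) ?_
  obtain ⟨N₀, hN₀⟩ := exists_nat_ge (64 * (1 + C))
  filter_upwards [eventually_ge_atTop (max 4 N₀)] with n hn
  have hn4 : 4 ≤ n := (le_max_left _ _).trans hn
  have hnN : N₀ ≤ n := (le_max_right _ _).trans hn
  have hn0 : 0 < n := by omega
  have hnR : (64 * (1 + C) : ℝ) ≤ n := hN₀.trans (by exact_mod_cast hnN)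
  have hnpos : (0 : ℝ) < n := by exact_mod_cast hn0
  refine (measure_mono ?_).trans (measure_union_le _ _)
  intro g hg
  simp only [Set.mem_ofPred_eq] at hg
  simp only [Set.mem_union, Set.mem_ofPred_eq]
  by_contra hcon
  rw [not_or, not_not, not_not] at hcon
  obtain ⟨hgood, hop⟩ := hcon
  apply hg
  have hA := isCoupling_skMatrix (n := n) β g
  have hgr : GoodDisorder r g := goodDisorder_mono hr₀1 hn0 hgood
  obtain ⟨-, hrow, hent⟩ := sk_hyps hβ.le hr0.le hn0 hgr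
  have hform : ∀ z : Fin n → ℝ, |∑ i, ∑ k, skMatrix β g i k * z i * z k| ≤ C * ∑ i, z i ^ 2 := by
    intro z
    have := sk_form hβ.le hn0 hop z
    rwa [← hC] at this
  refine ⟨?_, ?_, ?_, ?_⟩
  · intro t ht x
    have hlog : 0 ≤ Real.log n := Real.log_nonneg (by
      have : (4 : ℝ) ≤ n := by exact_mod_cast hn4
      linarith)
    have ht0 : 0 ≤ t := le_trans (by positivity) ht
    have h1 := tv_ising hA hform hrow hent (by positivity) (by positivity) hr1 hρC hκ0 hr2 hθ' ht0 x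
    rw [← hK] at h1
    have h2 := exp_bound (K := K) (C₁ := 1 + C) (t := t) hK0 (by positivity) hnR hnpos ht
    linarith
  · exact fun t ht0 ht1 => slow_on_good hβ hn4 (goodDisorder_mono hr₀2 hn0 hgood) ht0 ht1
  · intro f
    have hvar : 0 ≤ varF (gibF (skMatrix β g) 0) f :=
      varF_nonneg (fun x => (gibF_pos _ 0 x).le) (gibF_total _ 0) f
    have hP := poincare_field hA 0 (C := C) (ρ := 101 / 100 * β ^ 2) (ε := β * r)
      (fun z => (le_abs_self _).trans (hform z)) hrow hent (by positivity) (by positivity) hr1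
      hρC (by linarith) f
    have h := (mul_le_mul_of_nonneg_right hr2 hvar).trans hP
    rw [gibF_zero, rateF_zero] at h
    rw [dirichlet_eq hA]
    exact h
  · exact gap_le_one hA hn0

end Vale.Agent.Lib.P150
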