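import Mathlib

/-!
The exact algebra of a pair of spins: the cross term of the square of the generator, written
through the tanh parameters `a`, `b`, `j` of the two fields and the coupling.
-/

namespace Vale.Agent.Lib.P150

section core

variable {a b j g₁ g₂ h₁ h₂ : ℝ}

lemma pair_d_prod {m d₁ d₂ s s' U U' V V' : ℝ} (hU : 1 ≤ U) (hU' : 1 ≤ U')
    (h1 : U * d₁ + V * s = m) (h2 : U' * d₂ + V' * s' = m) :
    -((V * s - V' * s') ^ 2 / 4) ≤ d₁ * d₂ := by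
  by_cases hd : 0 ≤ d₁ * d₂
  · have : 0 ≤ (V * s - V' * s') ^ 2 / 4 := by positivity
    linarith
  · push Not at hd
    have e : (m - V * s) * (m - V' * s') = (U * U') * (d₁ * d₂) := by
      rw [← h1]
      have h3 : U * d₁ + V * s - V' * s' = U' * d₂ + V' * s' - V' * s' + (U * d₁ + V * s - m) := by
        rw [h2]; ring
      rw [h1] at h3 ⊢
      have e1 : m - V * s = U * d₁ := by linarith
      have e2 : m - V' * s' = U' * d₂ := by linarith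
      rw [e1, e2]
      ring
    have h4 : -((V * s - V' * s') ^ 2 / 4) ≤ (m - V * s) * (m - V' * s') := by
      nlinarith [sq_nonneg (2 * m - V * s - V' * s')]
    have hUU : 1 ≤ U * U' := by nlinarith
    rw [e] at h4
    nlinarith

lemma weighted_sq_le (b x y : ℝ) (hb : b ^ 2 ≤ 1) :
    (((1 + b) * x + (1 - b) * y) / 2) ^ 2 ≤ ((1 + b) * x ^ 2 + (1 - b) * y ^ 2) / 2 := by
  have h1 : 0 ≤ 1 - b ^ 2 := by linarith
  nlinarith [mul_nonneg h1 (sq_nonneg (x - y))]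

lemma weighted_sq_le' (b x y : ℝ) (hb : b ^ 2 ≤ 1) :
    (((1 + b) * x - (1 - b) * y) / 2) ^ 2 ≤ ((1 + b) * x ^ 2 + (1 - b) * y ^ 2) / 2 := by
  have h1 : 0 ≤ 1 - b ^ 2 := by linarith
  nlinarith [mul_nonneg h1 (sq_nonneg (x + y))]

lemma sum_sq_bound (b x y : ℝ) (hb : b ^ 2 ≤ 1) :
    (1 - b ^ 2) * (x + y) ^ 2 ≤ 8 * (((1 + b) * x ^ 2 + (1 - b) * y ^ 2) / 2) := by
  have hb1 : -1 ≤ b := by nlinarith
  have hb2 : b ≤ 1 := by nlinarith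
  have h1 : 0 ≤ 1 + b := by linarith
  have h2 : 0 ≤ 1 - b := by linarith
  have e : (1 - b ^ 2) * (x + y) ^ 2 + (1 - b ^ 2) * (x - y) ^ 2
      = 2 * (1 + b) * (1 - b) * x ^ 2 + 2 * (1 + b) * (1 - b) * y ^ 2 := by ring
  have h3 : 0 ≤ (1 - b ^ 2) * (x - y) ^ 2 := mul_nonneg (by linarith) (sq_nonneg _)
  have h4 : (1 + b) * (1 - b) * x ^ 2 ≤ 2 * ((1 + b) * x ^ 2) := by
    have : 0 ≤ (1 + b) * x ^ 2 := by positivity
    nlinarith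
  have h5 : (1 + b) * (1 - b) * y ^ 2 ≤ 2 * ((1 - b) * y ^ 2) := by
    have : 0 ≤ (1 - b) * y ^ 2 := by positivity
    nlinarith
  nlinarith

/-- Exact identity for the bracket. -/
lemma pair_bracket_identity (a b j g₁ g₂ h₁ h₂ : ℝ) :
    (1 - a * b * j) * (((1 + a * j) * g₁ - (1 - a * j) * g₂) * ((1 + b * j) * h₁ - (1 - b * j) * h₂)
      - j * ((1 + a * j) * g₁ + (1 - a * j) * g₂) * ((1 + b * j) * h₁ + (1 - b * j) * h₂)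
      + j * (1 - j ^ 2) * ((1 + a) * (1 + b) * (1 + j) * g₁ * h₁ + (1 + a) * (1 - b) * (1 - j) * g₂ * h₁
        + (1 - a) * (1 + b) * (1 - j) * g₁ * h₂ + (1 - a) * (1 - b) * (1 + j) * g₂ * h₂))
    = ((1 + a * j) ^ 2 * g₁ - (1 - a * j) ^ 2 * g₂) * ((1 + b * j) ^ 2 * h₁ - (1 - b * j) ^ 2 * h₂)
      + 4 * (j ^ 2 * ((1 - a ^ 2) * (1 - b ^ 2) / 4) * (g₁ - g₂) * (h₁ - h₂)
        - 2 * a * b * j ^ 2 * (((1 + b) * g₁ + (1 - b) * g₂) / 2) * (((1 + a) * h₁ + (1 - a) * h₂) / 2)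
        + j ^ 3 * (-(((1 + b) * g₁ + (1 - b) * g₂) / 2) * (((1 + a) * h₁ + (1 - a) * h₂) / 2)
            - 2 * a * b * (((1 + b) * g₁ - (1 - b) * g₂) / 2) * (((1 + a) * h₁ - (1 - a) * h₂) / 2))
        + j ^ 4 * (a * b * (((1 + b) * g₁ + (1 - b) * g₂) / 2) * (((1 + a) * h₁ + (1 - a) * h₂) / 2)
            - (((1 + b) * g₁ - (1 - b) * g₂) / 2) * (((1 + a) * h₁ - (1 - a) * h₂) / 2))
        + j ^ 5 * a * b * (((1 + b) * g₁ - (1 - b) * g₂) / 2) * (((1 + a) * h₁ - (1 - a) * h₂) / 2)) := by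
  ring

end core

section bounds

variable {A' B' P n₁ n₂ a b j t X Y X' Y' : ℝ}

lemma bil_bound (hA0 : 0 ≤ A') (hA1 : A' ≤ 1) (hB0 : 0 ≤ B') (hB1 : B' ≤ 1) (hP0 : 0 ≤ P)
    (hPle : P ≤ A' * B') (hn₁0 : 0 ≤ n₁) (hn₂0 : 0 ≤ n₂) {U V : ℝ} (hU : U ^ 2 ≤ n₁)
    (hV : V ^ 2 ≤ n₂) : P * |U * V| ≤ (A' * n₁ + B' * n₂) / 2 := by
  have h1 : |U * V| ≤ (U ^ 2 + V ^ 2) / 2 := by
    rw [abs_mul]
    nlinarith [sq_nonneg (|U| - |V|), sq_abs U, sq_abs V]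
  have h2 : P * |U * V| ≤ (A' * B') * ((U ^ 2 + V ^ 2) / 2) :=
    mul_le_mul hPle h1 (abs_nonneg _) (by positivity)
  have h3 : (A' * B') * U ^ 2 ≤ A' * n₁ := by
    have h5 : (A' * B') * U ^ 2 ≤ (A' * B') * n₁ := mul_le_mul_of_nonneg_left hU (by positivity)
    have h4 : (A' * B') * n₁ ≤ A' * n₁ := by
      have := mul_le_mul_of_nonneg_left hB1 (mul_nonneg hA0 hn₁0)
      nlinarith
    linarith
  have h5 : (A' * B') * V ^ 2 ≤ B' * n₂ := by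
    have h6 : (A' * B') * V ^ 2 ≤ (A' * B') * n₂ := mul_le_mul_of_nonneg_left hV (by positivity)
    have h4 : (A' * B') * n₂ ≤ B' * n₂ := by
      have := mul_le_mul_of_nonneg_left hA1 (mul_nonneg hB0 hn₂0)
      nlinarith
    linarith
  nlinarith

lemma sec_bound (hA0 : 0 ≤ A') (hB0 : 0 ≤ B') (hP0 : 0 ≤ P) (hPle : P ≤ A' * B')
    (hXn : X ^ 2 ≤ n₁) (hYn : Y ^ 2 ≤ n₂) :
    P * (2 * |a * b| * |X * Y|) ≤ A' ^ 2 * a ^ 2 * n₁ + B' ^ 2 * b ^ 2 * n₂ := by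
  have h3 : P * (2 * |a * b| * |X * Y|) ≤ (A' * B') * (2 * |a * b| * |X * Y|) :=
    mul_le_mul_of_nonneg_right hPle (by positivity)
  have h4 : (A' * B') * (2 * |a * b| * |X * Y|)
      ≤ A' ^ 2 * a ^ 2 * X ^ 2 + B' ^ 2 * b ^ 2 * Y ^ 2 := by
    have e : (A' * B') * (2 * |a * b| * |X * Y|) = 2 * (A' * |a * X|) * (B' * |b * Y|) := by
      simp only [abs_mul]; ring
    have e1 : A' ^ 2 * a ^ 2 * X ^ 2 = (A' * |a * X|) ^ 2 := by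
      rw [mul_pow, sq_abs]; ring
    have e2 : B' ^ 2 * b ^ 2 * Y ^ 2 = (B' * |b * Y|) ^ 2 := by
      rw [mul_pow, sq_abs]; ring
    rw [e, e1, e2]
    nlinarith [sq_nonneg (A' * |a * X| - B' * |b * Y|)]
  have h5 : A' ^ 2 * a ^ 2 * X ^ 2 ≤ A' ^ 2 * a ^ 2 * n₁ :=
    mul_le_mul_of_nonneg_left hXn (by positivity)
  have h6 : B' ^ 2 * b ^ 2 * Y ^ 2 ≤ B' ^ 2 * b ^ 2 * n₂ :=
    mul_le_mul_of_nonneg_left hYn (by positivity)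
  linarith

lemma diff_prod_bound {g₁ g₂ h₁ h₂ : ℝ} (ha : a ^ 2 ≤ 1) (hb : b ^ 2 ≤ 1)
    (hc : (1 + a * j) ^ 2 * g₁ - (1 - a * j) ^ 2 * g₂ = (1 + b * j) ^ 2 * h₁ - (1 - b * j) ^ 2 * h₂) :
    -(2 * j ^ 2 * ((g₁ + g₂) ^ 2 + (h₁ + h₂) ^ 2)) ≤ (g₁ - g₂) * (h₁ - h₂) := by
  have h1 := pair_d_prod (m := (1 + a * j) ^ 2 * g₁ - (1 - a * j) ^ 2 * g₂)
    (d₁ := g₁ - g₂) (d₂ := h₁ - h₂) (s := g₁ + g₂) (s' := h₁ + h₂)
    (U := 1 + (a * j) ^ 2) (U' := 1 + (b * j) ^ 2) (V := 2 * (a * j)) (V' := 2 * (b * j))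
    (by nlinarith [sq_nonneg (a * j)]) (by nlinarith [sq_nonneg (b * j)])
    (by ring) (by rw [hc]; ring)
  have h2 : (2 * (a * j) * (g₁ + g₂) - 2 * (b * j) * (h₁ + h₂)) ^ 2
      ≤ 8 * j ^ 2 * ((g₁ + g₂) ^ 2 + (h₁ + h₂) ^ 2) := by
    have h3 : (2 * (a * j) * (g₁ + g₂) - 2 * (b * j) * (h₁ + h₂)) ^ 2
        ≤ 2 * (2 * (a * j) * (g₁ + g₂)) ^ 2 + 2 * (2 * (b * j) * (h₁ + h₂)) ^ 2 := by
      nlinarith [sq_nonneg (2 * (a * j) * (g₁ + g₂) + 2 * (b * j) * (h₁ + h₂))]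
    have h4 : (2 * (a * j) * (g₁ + g₂)) ^ 2 ≤ 4 * j ^ 2 * (g₁ + g₂) ^ 2 := by
      have : (2 * (a * j) * (g₁ + g₂)) ^ 2 = a ^ 2 * (4 * j ^ 2 * (g₁ + g₂) ^ 2) := by ring
      rw [this]
      have h0 : 0 ≤ 4 * j ^ 2 * (g₁ + g₂) ^ 2 := by positivity
      nlinarith
    have h5 : (2 * (b * j) * (h₁ + h₂)) ^ 2 ≤ 4 * j ^ 2 * (h₁ + h₂) ^ 2 := by
      have : (2 * (b * j) * (h₁ + h₂)) ^ 2 = b ^ 2 * (4 * j ^ 2 * (h₁ + h₂) ^ 2) := by ring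
      rw [this]
      have h0 : 0 ≤ 4 * j ^ 2 * (h₁ + h₂) ^ 2 := by positivity
      nlinarith
    linarith
  linarith

lemma T1_bound {g₁ g₂ h₁ h₂ : ℝ} (hA0 : 0 ≤ A') (hB0 : 0 ≤ B') (hP0 : 0 ≤ P)
    (hPle : P ≤ A' * B') {E₁ E₂ : ℝ}
    (hdd : -(2 * j ^ 2 * ((g₁ + g₂) ^ 2 + (h₁ + h₂) ^ 2)) ≤ (g₁ - g₂) * (h₁ - h₂))
    (hs1 : A' ^ 2 * B' ^ 2 * (g₁ + g₂) ^ 2 ≤ 8 * E₁)
    (hs2 : A' ^ 2 * B' ^ 2 * (h₁ + h₂) ^ 2 ≤ 8 * E₂) :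
    -(4 * j ^ 4 * (E₁ + E₂)) ≤ P * (j ^ 2 * (A' * B' / 4) * (g₁ - g₂) * (h₁ - h₂)) := by
  have e : P * (j ^ 2 * (A' * B' / 4) * (g₁ - g₂) * (h₁ - h₂))
      = (P * (j ^ 2 * (A' * B' / 4))) * ((g₁ - g₂) * (h₁ - h₂)) := by ring
  rw [e]
  have h0 : 0 ≤ P * (j ^ 2 * (A' * B' / 4)) := by positivity
  have h1 := mul_le_mul_of_nonneg_left hdd h0
  have h2 : (P * (j ^ 2 * (A' * B' / 4))) * (2 * j ^ 2 * ((g₁ + g₂) ^ 2 + (h₁ + h₂) ^ 2))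
      ≤ 4 * j ^ 4 * (E₁ + E₂) := by
    have h3 : P * (j ^ 2 * (A' * B' / 4)) * (2 * j ^ 2 * ((g₁ + g₂) ^ 2 + (h₁ + h₂) ^ 2))
        = (P * (A' * B')) * (j ^ 4 / 2 * ((g₁ + g₂) ^ 2 + (h₁ + h₂) ^ 2)) := by ring
    rw [h3]
    have h4 : (P * (A' * B')) * (j ^ 4 / 2 * ((g₁ + g₂) ^ 2 + (h₁ + h₂) ^ 2))
        ≤ ((A' * B') * (A' * B')) * (j ^ 4 / 2 * ((g₁ + g₂) ^ 2 + (h₁ + h₂) ^ 2)) := by
      apply mul_le_mul_of_nonneg_right _ (by positivity)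
      exact mul_le_mul_of_nonneg_right hPle (by positivity)
    refine h4.trans ?_
    have h5 : ((A' * B') * (A' * B')) * (j ^ 4 / 2 * ((g₁ + g₂) ^ 2 + (h₁ + h₂) ^ 2))
        = j ^ 4 / 2 * (A' ^ 2 * B' ^ 2 * (g₁ + g₂) ^ 2 + A' ^ 2 * B' ^ 2 * (h₁ + h₂) ^ 2) := by ring
    rw [h5]
    have h6 : 0 ≤ j ^ 4 / 2 := by positivity
    have h7 := mul_le_mul_of_nonneg_left (add_le_add hs1 hs2) h6
    nlinarith
  nlinarith

lemma abs_pow_mul_ge (hj : |j| = t) (k : ℕ) (W : ℝ) : -(t ^ k * |W|) ≤ j ^ k * W := by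
  have h1 := neg_abs_le (j ^ k * W)
  rw [abs_mul, abs_pow, hj] at h1
  exact h1

lemma T2_bound {E : ℝ} (hj : |j| = t) (ht0 : 0 ≤ t) (hP0 : 0 ≤ P) (hab1 : |a * b| ≤ 1)
    (h1 : P * |X * Y| ≤ E / 2) (h2 : P * |X' * Y'| ≤ E / 2) :
    -(t ^ 3 * (3 / 2 * E)) ≤ P * (j ^ 3 * (-X * Y - 2 * a * b * X' * Y')) := by
  have e : P * (j ^ 3 * (-X * Y - 2 * a * b * X' * Y'))
      = j ^ 3 * (P * (-X * Y - 2 * a * b * X' * Y')) := by ring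
  rw [e]
  have h3 := abs_pow_mul_ge hj 3 (P * (-X * Y - 2 * a * b * X' * Y'))
  have h4 : |P * (-X * Y - 2 * a * b * X' * Y')| ≤ 3 / 2 * E := by
    rw [abs_mul, abs_of_nonneg hP0]
    have h5 : |-X * Y - 2 * a * b * X' * Y'| ≤ |X * Y| + 2 * |X' * Y'| := by
      have e2 : -X * Y - 2 * a * b * X' * Y' = -(X * Y) + -(2 * (a * b) * (X' * Y')) := by ring
      rw [e2]
      refine (abs_add_le _ _).trans ?_
      have e3 : |-(2 * (a * b) * (X' * Y'))| = 2 * (|a * b| * |X' * Y'|) := by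
        rw [abs_neg, mul_assoc, abs_mul, abs_mul (a * b), abs_two]
      rw [abs_neg, e3]
      have : |a * b| * |X' * Y'| ≤ 1 * |X' * Y'| :=
        mul_le_mul_of_nonneg_right hab1 (abs_nonneg _)
      linarith
    have h6 := mul_le_mul_of_nonneg_left h5 hP0
    nlinarith
  have h7 : t ^ 3 * |P * (-X * Y - 2 * a * b * X' * Y')| ≤ t ^ 3 * (3 / 2 * E) :=
    mul_le_mul_of_nonneg_left h4 (by positivity)
  linarith

lemma T3_bound {E : ℝ} (hj : |j| = t) (ht0 : 0 ≤ t) (hP0 : 0 ≤ P) (hab1 : |a * b| ≤ 1)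
    (h1 : P * |X * Y| ≤ E / 2) (h2 : P * |X' * Y'| ≤ E / 2) :
    -(t ^ 4 * E) ≤ P * (j ^ 4 * (a * b * X * Y - X' * Y')) := by
  have e : P * (j ^ 4 * (a * b * X * Y - X' * Y')) = j ^ 4 * (P * (a * b * X * Y - X' * Y')) := by
    ring
  rw [e]
  have h3 := abs_pow_mul_ge hj 4 (P * (a * b * X * Y - X' * Y'))
  have h4 : |P * (a * b * X * Y - X' * Y')| ≤ E := by
    rw [abs_mul, abs_of_nonneg hP0]
    have h5 : |a * b * X * Y - X' * Y'| ≤ |X * Y| + |X' * Y'| := by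
      have e2 : a * b * X * Y - X' * Y' = (a * b) * (X * Y) + -(X' * Y') := by ring
      rw [e2]
      refine (abs_add_le _ _).trans ?_
      rw [abs_neg, abs_mul]
      have : |a * b| * |X * Y| ≤ 1 * |X * Y| :=
        mul_le_mul_of_nonneg_right hab1 (abs_nonneg _)
      linarith
    have h6 := mul_le_mul_of_nonneg_left h5 hP0
    nlinarith
  have h7 : t ^ 4 * |P * (a * b * X * Y - X' * Y')| ≤ t ^ 4 * E :=
    mul_le_mul_of_nonneg_left h4 (by positivity)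
  linarith

lemma T4_bound {E : ℝ} (hj : |j| = t) (ht0 : 0 ≤ t) (hP0 : 0 ≤ P) (hab1 : |a * b| ≤ 1)
    (h2 : P * |X' * Y'| ≤ E / 2) :
    -(t ^ 5 * (E / 2)) ≤ P * (j ^ 5 * a * b * X' * Y') := by
  have e : P * (j ^ 5 * a * b * X' * Y') = j ^ 5 * (P * ((a * b) * (X' * Y'))) := by ring
  rw [e]
  have h3 := abs_pow_mul_ge hj 5 (P * ((a * b) * (X' * Y')))
  have h4 : |P * ((a * b) * (X' * Y'))| ≤ E / 2 := by
    rw [abs_mul, abs_of_nonneg hP0, abs_mul]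
    have : |a * b| * |X' * Y'| ≤ 1 * |X' * Y'| :=
      mul_le_mul_of_nonneg_right hab1 (abs_nonneg _)
    have h6 := mul_le_mul_of_nonneg_left this hP0
    nlinarith
  have h7 : t ^ 5 * |P * ((a * b) * (X' * Y'))| ≤ t ^ 5 * (E / 2) :=
    mul_le_mul_of_nonneg_left h4 (by positivity)
  linarith

lemma T5_bound {S : ℝ} (hP0 : 0 ≤ P) (hs : P * (2 * |a * b| * |X * Y|) ≤ S) :
    -(j ^ 2 * S) ≤ P * (- (2 * a * b * j ^ 2 * X * Y)) := by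
  have e : P * (- (2 * a * b * j ^ 2 * X * Y)) = j ^ 2 * (- (P * (2 * (a * b) * (X * Y)))) := by
    ring
  rw [e]
  have h1 : P * (2 * (a * b) * (X * Y)) ≤ P * (2 * |a * b| * |X * Y|) := by
    apply mul_le_mul_of_nonneg_left _ hP0
    have : (a * b) * (X * Y) ≤ |a * b| * |X * Y| := by
      rw [← abs_mul]
      exact le_abs_self _
    linarith
  have h2 : 0 ≤ j ^ 2 := sq_nonneg j
  nlinarith

end bounds

/-- The assembly of the bounds, abstract form. -/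
lemma pair_assemble {P R₀ T₁ T₂ T₃ T₄ T₅ S E t j : ℝ} (hP0 : 0 ≤ P) (hE : 0 ≤ E) (ht0 : 0 ≤ t)
    (htj : t ≤ 1 / 100) (hj : j ^ 4 = t ^ 4)
    (hT1 : -(4 * j ^ 4 * E) ≤ P * T₁) (hT5 : -(j ^ 2 * S) ≤ P * T₂)
    (hT2 : -(t ^ 3 * (3 / 2 * E)) ≤ P * T₃) (hT3 : -(t ^ 4 * E) ≤ P * T₄)
    (hT4 : -(t ^ 5 * (E / 2)) ≤ P * T₅) :
    0 ≤ P / 4 * (R₀ ^ 2 + 4 * (T₁ + T₂ + T₃ + T₄ + T₅)) + j ^ 2 * S + 2 * t ^ 3 * E := by
  have hsq : 0 ≤ P / 4 * R₀ ^ 2 := by positivity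
  have ht3 : t ^ 4 ≤ t ^ 3 / 100 := by
    have : t ^ 4 = t ^ 3 * t := by ring
    rw [this]
    nlinarith [pow_nonneg ht0 3]
  have ht5 : t ^ 5 ≤ t ^ 3 / 10000 := by
    have : t ^ 5 = t ^ 3 * t ^ 2 := by ring
    rw [this]
    nlinarith [pow_nonneg ht0 3]
  have h1 : t ^ 4 * E ≤ t ^ 3 / 100 * E := mul_le_mul_of_nonneg_right ht3 hE
  have h2 : t ^ 5 * E ≤ t ^ 3 / 10000 * E := mul_le_mul_of_nonneg_right ht5 hE
  have h3 : 0 ≤ t ^ 3 * E := by positivity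
  rw [hj] at hT1
  nlinarith

lemma hs_bound {A' B' n s : ℝ} (hA0 : 0 ≤ A') (hA1 : A' ≤ 1) (hB0 : 0 ≤ B') (hB1 : B' ≤ 1)
    (hn : 0 ≤ n) (h1 : B' * s ≤ 8 * n) : A' ^ 2 * B' ^ 2 * s ≤ 8 * (A' * n) := by
  have h2 : A' ^ 2 * B' * (B' * s) ≤ A' ^ 2 * B' * (8 * n) :=
    mul_le_mul_of_nonneg_left h1 (by positivity)
  have h3 : A' * B' ≤ 1 := by
    calc A' * B' ≤ 1 * 1 := mul_le_mul hA1 hB1 hB0 (by norm_num)
      _ = 1 := by norm_num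
  have h4 : A' ^ 2 * B' ≤ A' := by
    have : A' * (A' * B') ≤ A' * 1 := mul_le_mul_of_nonneg_left h3 hA0
    calc A' ^ 2 * B' = A' * (A' * B') := by ring
      _ ≤ A' * 1 := this
      _ = A' := mul_one _
  have h5 := mul_le_mul_of_nonneg_right h4 (by positivity : 0 ≤ 8 * n)
  calc A' ^ 2 * B' ^ 2 * s = A' ^ 2 * B' * (B' * s) := by ring
    _ ≤ A' ^ 2 * B' * (8 * n) := h2
    _ ≤ A' * (8 * n) := h5
    _ = 8 * (A' * n) := by ring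

/-- Everything except the final algebra, in abstract variables. -/
lemma pair_abstract {A' B' θ n₁ n₂ a b j X X' Y Y' g₁ g₂ h₁ h₂ R₀ : ℝ}
    (hA0 : 0 ≤ A') (hA1 : A' ≤ 1) (hB0 : 0 ≤ B') (hB1 : B' ≤ 1) (hθ0 : 0 ≤ θ) (hθ1 : θ ≤ 1)
    (hn₁0 : 0 ≤ n₁) (hn₂0 : 0 ≤ n₂) (hj : |j| ≤ 1 / 100) (hab1 : |a * b| ≤ 1)
    (hXn : X ^ 2 ≤ n₁) (hX'n : X' ^ 2 ≤ n₁) (hYn : Y ^ 2 ≤ n₂) (hY'n : Y' ^ 2 ≤ n₂)
    (hdd : -(2 * j ^ 2 * ((g₁ + g₂) ^ 2 + (h₁ + h₂) ^ 2)) ≤ (g₁ - g₂) * (h₁ - h₂))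
    (hs₁ : B' * (g₁ + g₂) ^ 2 ≤ 8 * n₁) (hs₂ : A' * (h₁ + h₂) ^ 2 ≤ 8 * n₂) :
    0 ≤ (A' * B' * θ) / 4 * (R₀ ^ 2 + 4 * (j ^ 2 * (A' * B' / 4) * (g₁ - g₂) * (h₁ - h₂)
        + -(2 * a * b * j ^ 2 * X * Y)
        + j ^ 3 * (-X * Y - 2 * a * b * X' * Y') + j ^ 4 * (a * b * X * Y - X' * Y')
        + j ^ 5 * a * b * X' * Y'))
      + j ^ 2 * (A' ^ 2 * a ^ 2 * n₁ + B' ^ 2 * b ^ 2 * n₂)
      + 2 * |j| ^ 3 * (A' * n₁ + B' * n₂) := by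
  have ht0 : 0 ≤ |j| := abs_nonneg j
  have hP0 : 0 ≤ A' * B' * θ := by positivity
  have hPle : A' * B' * θ ≤ A' * B' := by
    have : A' * B' * θ ≤ A' * B' * 1 := mul_le_mul_of_nonneg_left hθ1 (by positivity)
    simpa using this
  have hE0 : 0 ≤ A' * n₁ + B' * n₂ := by positivity
  have hPXY := bil_bound hA0 hA1 hB0 hB1 hP0 hPle hn₁0 hn₂0 hXn hYn
  have hPXY' := bil_bound hA0 hA1 hB0 hB1 hP0 hPle hn₁0 hn₂0 hX'n hY'n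
  have hsec := sec_bound (a := a) (b := b) hA0 hB0 hP0 hPle hXn hYn
  have hs1 : A' ^ 2 * B' ^ 2 * (g₁ + g₂) ^ 2 ≤ 8 * (A' * n₁) := hs_bound hA0 hA1 hB0 hB1 hn₁0 hs₁
  have hs2 : A' ^ 2 * B' ^ 2 * (h₁ + h₂) ^ 2 ≤ 8 * (B' * n₂) := by
    have := hs_bound hB0 hB1 hA0 hA1 hn₂0 hs₂
    calc A' ^ 2 * B' ^ 2 * (h₁ + h₂) ^ 2 = B' ^ 2 * A' ^ 2 * (h₁ + h₂) ^ 2 := by ring
      _ ≤ _ := this
  have hT1 := T1_bound hA0 hB0 hP0 hPle hdd hs1 hs2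
  have hT5 := T5_bound (j := j) hP0 hsec
  have hT2 := T2_bound (j := j) (t := |j|) rfl ht0 hP0 hab1 hPXY hPXY'
  have hT3 := T3_bound (j := j) (t := |j|) rfl ht0 hP0 hab1 hPXY hPXY'
  have hT4 := T4_bound (j := j) (t := |j|) rfl ht0 hP0 hab1 hPXY'
  have hj4 : j ^ 4 = |j| ^ 4 := by
    have e1 : j ^ 4 = (j ^ 2) ^ 2 := by ring
    rw [e1, ← sq_abs j]; ring
  exact pair_assemble (R₀ := R₀) hP0 hE0 ht0 hj hj4 hT1 hT5 hT2 hT3 hT4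

lemma pair_theta {a b j : ℝ} (hab2 : (a * b) ^ 2 ≤ 1) (hj : |j| ≤ 1 / 100) :
    0 < 1 + a * b * j ∧ 0 < 1 - a * b * j ∧ 0 < 1 - j ^ 2 ∧
      (1 - j ^ 2) / ((1 + a * b * j) * (1 - a * b * j)) ≤ 1 := by
  have hab1 : |a * b| ≤ 1 := by
    rw [← sq_le_one_iff_abs_le_one]
    exact hab2
  have habj : |a * b * j| ≤ 1 / 100 := by
    rw [abs_mul]
    calc |a * b| * |j| ≤ 1 * |j| := mul_le_mul_of_nonneg_right hab1 (abs_nonneg j)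
      _ ≤ 1 / 100 := by linarith
  have habj' := abs_le.1 habj
  have hN0 : 0 < 1 + a * b * j := by linarith [habj'.1]
  have hl0 : 0 < 1 - a * b * j := by linarith [habj'.2]
  have hjsq : j ^ 2 ≤ 1 / 10000 := by
    have h1 := abs_le.1 hj
    nlinarith
  refine ⟨hN0, hl0, by linarith, ?_⟩
  rw [div_le_one (mul_pos hN0 hl0)]
  have e : (1 + a * b * j) * (1 - a * b * j) = 1 - (a * b) ^ 2 * j ^ 2 := by ring
  rw [e]
  nlinarith [sq_nonneg j]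

/-- The main two-spin inequality in normalized variables. -/
theorem pair_core {a b j g₁ g₂ h₁ h₂ : ℝ} (ha : a ^ 2 < 1) (hb : b ^ 2 < 1) (hj : |j| ≤ 1 / 100)
    (hc : (1 + a * j) ^ 2 * g₁ - (1 - a * j) ^ 2 * g₂ = (1 + b * j) ^ 2 * h₁ - (1 - b * j) ^ 2 * h₂) :
    0 ≤ (1 - a ^ 2) * (1 - b ^ 2) * (1 - j ^ 2) / (4 * (1 + a * b * j)) *
        (((1 + a * j) * g₁ - (1 - a * j) * g₂) * ((1 + b * j) * h₁ - (1 - b * j) * h₂)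
          - j * ((1 + a * j) * g₁ + (1 - a * j) * g₂) * ((1 + b * j) * h₁ + (1 - b * j) * h₂)
          + j * (1 - j ^ 2) * ((1 + a) * (1 + b) * (1 + j) * g₁ * h₁
            + (1 + a) * (1 - b) * (1 - j) * g₂ * h₁
            + (1 - a) * (1 + b) * (1 - j) * g₁ * h₂ + (1 - a) * (1 - b) * (1 + j) * g₂ * h₂))
      + j ^ 2 * ((1 - a ^ 2) ^ 2 * a ^ 2 * (((1 + b) * g₁ ^ 2 + (1 - b) * g₂ ^ 2) / 2)
          + (1 - b ^ 2) ^ 2 * b ^ 2 * (((1 + a) * h₁ ^ 2 + (1 - a) * h₂ ^ 2) / 2))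
      + 2 * |j| ^ 3 * ((1 - a ^ 2) * (((1 + b) * g₁ ^ 2 + (1 - b) * g₂ ^ 2) / 2)
          + (1 - b ^ 2) * (((1 + a) * h₁ ^ 2 + (1 - a) * h₂ ^ 2) / 2)) := by
  have ha1 : -1 < a := by nlinarith
  have ha2 : a < 1 := by nlinarith
  have hb1 : -1 < b := by nlinarith
  have hb2 : b < 1 := by nlinarith
  have hab2 : (a * b) ^ 2 ≤ 1 := by
    have : (a * b) ^ 2 = a ^ 2 * b ^ 2 := by ring
    rw [this]
    nlinarith [sq_nonneg a, sq_nonneg b]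
  have hab1 : |a * b| ≤ 1 := by
    rw [← sq_le_one_iff_abs_le_one]
    exact hab2
  obtain ⟨hN0, hl0, hj2le, hθ1⟩ := pair_theta hab2 hj
  have hθ0 : 0 ≤ (1 - j ^ 2) / ((1 + a * b * j) * (1 - a * b * j)) :=
    (div_pos hj2le (mul_pos hN0 hl0)).le
  have hn₁0 : 0 ≤ ((1 + b) * g₁ ^ 2 + (1 - b) * g₂ ^ 2) / 2 := by
    have h1 : 0 ≤ (1 + b) * g₁ ^ 2 := mul_nonneg (by linarith) (sq_nonneg _)
    have h2 : 0 ≤ (1 - b) * g₂ ^ 2 := mul_nonneg (by linarith) (sq_nonneg _)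
    linarith
  have hn₂0 : 0 ≤ ((1 + a) * h₁ ^ 2 + (1 - a) * h₂ ^ 2) / 2 := by
    have h1 : 0 ≤ (1 + a) * h₁ ^ 2 := mul_nonneg (by linarith) (sq_nonneg _)
    have h2 : 0 ≤ (1 - a) * h₂ ^ 2 := mul_nonneg (by linarith) (sq_nonneg _)
    linarith
  have hasm := pair_abstract (A' := 1 - a ^ 2) (B' := 1 - b ^ 2) (a := a) (b := b)
    (R₀ := (1 + a * j) ^ 2 * g₁ - (1 - a * j) ^ 2 * g₂)
    (by nlinarith) (by nlinarith [sq_nonneg a]) (by nlinarith) (by nlinarith [sq_nonneg b])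
    hθ0 hθ1 hn₁0 hn₂0 hj hab1
    (weighted_sq_le b g₁ g₂ hb.le) (weighted_sq_le' b g₁ g₂ hb.le)
    (weighted_sq_le a h₁ h₂ ha.le) (weighted_sq_le' a h₁ h₂ ha.le)
    (diff_prod_bound ha.le hb.le hc) (sum_sq_bound b g₁ g₂ hb.le) (sum_sq_bound a h₁ h₂ ha.le)
  have hmain := pair_bracket_identity a b j g₁ g₂ h₁ h₂
  rw [← hc] at hmain
  have hfac : ∀ BR : ℝ, (1 - a ^ 2) * (1 - b ^ 2) * (1 - j ^ 2) / (4 * (1 + a * b * j)) * BR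
      = ((1 - a ^ 2) * (1 - b ^ 2) * ((1 - j ^ 2) / ((1 + a * b * j) * (1 - a * b * j)))) / 4
        * ((1 - a * b * j) * BR) := by
    intro BR
    field_simp
  rw [hfac, hmain]
  convert hasm using 3
  ring

/-! ### The orbit quantities -/

/-- `tanh (x + y)` through the tanh of `x` and `y`. -/
noncomputable def tU (a j : ℝ) : ℝ := (a + j) / (1 + a * j)

/-- `tanh (x - y)` through the tanh of `x` and `y`. -/
noncomputable def tD (a j : ℝ) : ℝ := (a - j) / (1 - a * j)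

/-- Normalizing factor of the two spin measure. -/
def nN (a b j : ℝ) : ℝ := 1 + a * b * j

/-- The four weights of the two spin measure `(1 + ε a)(1 + δ b)(1 + ε δ j) / (4 N)`. -/
noncomputable def wPP (a b j : ℝ) : ℝ := (1 + a) * (1 + b) * (1 + j) / (4 * nN a b j)
noncomputable def wPM (a b j : ℝ) : ℝ := (1 + a) * (1 - b) * (1 - j) / (4 * nN a b j)
noncomputable def wMP (a b j : ℝ) : ℝ := (1 - a) * (1 + b) * (1 - j) / (4 * nN a b j)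
noncomputable def wMM (a b j : ℝ) : ℝ := (1 - a) * (1 - b) * (1 + j) / (4 * nN a b j)

/-- The cross term. -/
noncomputable def pairT (a b j p₁ p₂ q₁ q₂ : ℝ) : ℝ :=
  wPP a b j * ((1 - tU a j) * (1 - tU b j) * p₁ * q₁)
  + wPM a b j * ((1 - tD a j) * (-1 - tU b j) * p₂ * q₁)
  + wMP a b j * ((-1 - tU a j) * (1 - tD b j) * p₁ * q₂)
  + wMM a b j * ((-1 - tD a j) * (-1 - tD b j) * p₂ * q₂)

/-- The main term. -/
noncomputable def pairD (a b j p₁ p₂ q₁ q₂ : ℝ) : ℝ :=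
  wPP a b j * ((1 - tU a j ^ 2) * p₁ * ((1 - tU b j ^ 2) * q₁))
  + wPM a b j * ((1 - tD a j ^ 2) * p₂ * ((1 - tU b j ^ 2) * q₁))
  + wMP a b j * ((1 - tU a j ^ 2) * p₁ * ((1 - tD b j ^ 2) * q₂))
  + wMM a b j * ((1 - tD a j ^ 2) * p₂ * ((1 - tD b j ^ 2) * q₂))

/-- The second order term for the first site. -/
noncomputable def pairS₁ (a b j p₁ p₂ : ℝ) : ℝ :=
  wPP a b j * (tU a j ^ 2 * ((1 - tU a j ^ 2) * p₁) ^ 2)
  + wPM a b j * (tD a j ^ 2 * ((1 - tD a j ^ 2) * p₂) ^ 2)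
  + wMP a b j * (tU a j ^ 2 * ((1 - tU a j ^ 2) * p₁) ^ 2)
  + wMM a b j * (tD a j ^ 2 * ((1 - tD a j ^ 2) * p₂) ^ 2)

/-- The energy for the first site. -/
noncomputable def pairE₁ (a b j p₁ p₂ : ℝ) : ℝ :=
  wPP a b j * ((1 - tU a j ^ 2) * p₁ ^ 2)
  + wPM a b j * ((1 - tD a j ^ 2) * p₂ ^ 2)
  + wMP a b j * ((1 - tU a j ^ 2) * p₁ ^ 2)
  + wMM a b j * ((1 - tD a j ^ 2) * p₂ ^ 2)

/-- The second order term for the second site. -/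
noncomputable def pairS₂ (a b j q₁ q₂ : ℝ) : ℝ :=
  wPP a b j * (tU b j ^ 2 * ((1 - tU b j ^ 2) * q₁) ^ 2)
  + wPM a b j * (tU b j ^ 2 * ((1 - tU b j ^ 2) * q₁) ^ 2)
  + wMP a b j * (tD b j ^ 2 * ((1 - tD b j ^ 2) * q₂) ^ 2)
  + wMM a b j * (tD b j ^ 2 * ((1 - tD b j ^ 2) * q₂) ^ 2)

/-- The energy for the second site. -/
noncomputable def pairE₂ (a b j q₁ q₂ : ℝ) : ℝ :=
  wPP a b j * ((1 - tU b j ^ 2) * q₁ ^ 2)
  + wPM a b j * ((1 - tU b j ^ 2) * q₁ ^ 2)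
  + wMP a b j * ((1 - tD b j ^ 2) * q₂ ^ 2)
  + wMM a b j * ((1 - tD b j ^ 2) * q₂ ^ 2)

lemma pairS₂_swap (a b j q₁ q₂ : ℝ) : pairS₂ a b j q₁ q₂ = pairS₁ b a j q₁ q₂ := by
  have e : nN b a j = nN a b j := by simp only [nN]; ring
  simp only [pairS₂, pairS₁, wPP, wPM, wMP, wMM, e]
  ring

lemma pairE₂_swap (a b j q₁ q₂ : ℝ) : pairE₂ a b j q₁ q₂ = pairE₁ b a j q₁ q₂ := by
  have e : nN b a j = nN a b j := by simp only [nN]; ring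
  simp only [pairE₂, pairE₁, wPP, wPM, wMP, wMM, e]
  ring

section forms

variable {a b j g₁ g₂ h₁ h₂ : ℝ}

lemma ne_forms (ha : a ^ 2 < 1) (hj : |j| ≤ 1 / 100) : 0 < 1 + a * j ∧ 0 < 1 - a * j := by
  have ha' : |a| ≤ 1 := by
    rw [← sq_le_one_iff_abs_le_one]
    exact ha.le
  have h : |a * j| ≤ 1 / 100 := by
    rw [abs_mul]
    calc |a| * |j| ≤ 1 * |j| := mul_le_mul_of_nonneg_right ha' (abs_nonneg j)
      _ ≤ 1 / 100 := by linarith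
  have h' := abs_le.1 h
  constructor <;> linarith [h'.1, h'.2]

lemma nN_pos (ha : a ^ 2 < 1) (hb : b ^ 2 < 1) (hj : |j| ≤ 1 / 100) : 0 < nN a b j := by
  have hab2 : (a * b) ^ 2 ≤ 1 := by
    have : (a * b) ^ 2 = a ^ 2 * b ^ 2 := by ring
    rw [this]
    nlinarith [sq_nonneg a, sq_nonneg b]
  exact (pair_theta hab2 hj).1

lemma pairT_eq (ha : a ^ 2 < 1) (hb : b ^ 2 < 1) (hj : |j| ≤ 1 / 100) :
    pairT a b j ((1 + a * j) ^ 2 * g₁) ((1 - a * j) ^ 2 * g₂)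
        ((1 + b * j) ^ 2 * h₁) ((1 - b * j) ^ 2 * h₂)
      = (1 - a ^ 2) * (1 - b ^ 2) * (1 - j ^ 2) / (4 * (1 + a * b * j)) *
        (((1 + a * j) * g₁ - (1 - a * j) * g₂) * ((1 + b * j) * h₁ - (1 - b * j) * h₂)
          - j * ((1 + a * j) * g₁ + (1 - a * j) * g₂) * ((1 + b * j) * h₁ + (1 - b * j) * h₂)) := by
  obtain ⟨h1, h2⟩ := ne_forms ha hj
  obtain ⟨h3, h4⟩ := ne_forms hb hj
  have hN := nN_pos ha hb hj
  have e1 : 1 - tU a j = (1 - a) * (1 - j) / (1 + a * j) := by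
    simp only [tU]; field_simp; ring
  have e2 : 1 - tD a j = (1 - a) * (1 + j) / (1 - a * j) := by
    simp only [tD]; field_simp; ring
  have e3 : -1 - tU a j = -((1 + a) * (1 + j)) / (1 + a * j) := by
    simp only [tU]; field_simp; ring
  have e4 : -1 - tD a j = -((1 + a) * (1 - j)) / (1 - a * j) := by
    simp only [tD]; field_simp; ring
  have e5 : 1 - tU b j = (1 - b) * (1 - j) / (1 + b * j) := by
    simp only [tU]; field_simp; ring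
  have e6 : 1 - tD b j = (1 - b) * (1 + j) / (1 - b * j) := by
    simp only [tD]; field_simp; ring
  have e7 : -1 - tU b j = -((1 + b) * (1 + j)) / (1 + b * j) := by
    simp only [tU]; field_simp; ring
  have e8 : -1 - tD b j = -((1 + b) * (1 - j)) / (1 - b * j) := by
    simp only [tD]; field_simp; ring
  simp only [pairT, wPP, wPM, wMP, wMM, e1, e2, e3, e4, e5, e6, e7, e8]
  simp only [nN] at hN ⊢
  field_simp
  ring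

lemma one_sub_tU_sq (ha : a ^ 2 < 1) (hj : |j| ≤ 1 / 100) :
    (1 - tU a j ^ 2) * (1 + a * j) ^ 2 = (1 - a ^ 2) * (1 - j ^ 2) := by
  obtain ⟨h1, _⟩ := ne_forms ha hj
  simp only [tU]
  field_simp
  ring

lemma one_sub_tD_sq (ha : a ^ 2 < 1) (hj : |j| ≤ 1 / 100) :
    (1 - tD a j ^ 2) * (1 - a * j) ^ 2 = (1 - a ^ 2) * (1 - j ^ 2) := by
  obtain ⟨_, h1⟩ := ne_forms ha hj
  simp only [tD]
  field_simp
  ring

lemma pairD_eq (ha : a ^ 2 < 1) (hb : b ^ 2 < 1) (hj : |j| ≤ 1 / 100) :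
    pairD a b j ((1 + a * j) ^ 2 * g₁) ((1 - a * j) ^ 2 * g₂)
        ((1 + b * j) ^ 2 * h₁) ((1 - b * j) ^ 2 * h₂)
      = (1 - a ^ 2) * (1 - b ^ 2) * (1 - j ^ 2) / (4 * (1 + a * b * j)) * ((1 - j ^ 2) *
        ((1 + a) * (1 + b) * (1 + j) * g₁ * h₁ + (1 + a) * (1 - b) * (1 - j) * g₂ * h₁
            + (1 - a) * (1 + b) * (1 - j) * g₁ * h₂ + (1 - a) * (1 - b) * (1 + j) * g₂ * h₂)) := by
  have e1 : (1 - tU a j ^ 2) * ((1 + a * j) ^ 2 * g₁) = (1 - a ^ 2) * (1 - j ^ 2) * g₁ := by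
    rw [← mul_assoc, one_sub_tU_sq ha hj]
  have e2 : (1 - tD a j ^ 2) * ((1 - a * j) ^ 2 * g₂) = (1 - a ^ 2) * (1 - j ^ 2) * g₂ := by
    rw [← mul_assoc, one_sub_tD_sq ha hj]
  have e3 : (1 - tU b j ^ 2) * ((1 + b * j) ^ 2 * h₁) = (1 - b ^ 2) * (1 - j ^ 2) * h₁ := by
    rw [← mul_assoc, one_sub_tU_sq hb hj]
  have e4 : (1 - tD b j ^ 2) * ((1 - b * j) ^ 2 * h₂) = (1 - b ^ 2) * (1 - j ^ 2) * h₂ := by
    rw [← mul_assoc, one_sub_tD_sq hb hj]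
  have hN := nN_pos ha hb hj
  simp only [pairD, wPP, wPM, wMP, wMM, e1, e2, e3, e4]
  simp only [nN] at hN ⊢
  field_simp

/-- The first energy controls the normalized one. -/
lemma pairE₁_ge (ha : a ^ 2 < 1) (hb : b ^ 2 < 1) (hj : |j| ≤ 1 / 100) :
    (1 - a ^ 2) * (((1 + b) * g₁ ^ 2 + (1 - b) * g₂ ^ 2) / 2) * (20 / 21)
      ≤ pairE₁ a b j ((1 + a * j) ^ 2 * g₁) ((1 - a * j) ^ 2 * g₂) := by
  obtain ⟨h1, h2⟩ := ne_forms ha hj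
  have hN := nN_pos ha hb hj
  have hA : 0 < 1 - a ^ 2 := by linarith
  have hb1 : -1 < b := by nlinarith
  have hb2 : b < 1 := by nlinarith
  have e : pairE₁ a b j ((1 + a * j) ^ 2 * g₁) ((1 - a * j) ^ 2 * g₂)
      = (1 - a ^ 2) * ((1 + b) * g₁ ^ 2 * (((1 - j ^ 2) * (1 + a * j) ^ 3 / nN a b j) / 2)
        + (1 - b) * g₂ ^ 2 * (((1 - j ^ 2) * (1 - a * j) ^ 3 / nN a b j) / 2)) := by
    have e1 : (1 - tU a j ^ 2) * ((1 + a * j) ^ 2 * g₁) ^ 2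
        = (1 - a ^ 2) * (1 - j ^ 2) * (1 + a * j) ^ 2 * g₁ ^ 2 := by
      rw [mul_pow, ← mul_assoc, ← pow_mul, show 2 * 2 = 2 + 2 by norm_num, pow_add]
      rw [← mul_assoc, one_sub_tU_sq ha hj]
    have e2 : (1 - tD a j ^ 2) * ((1 - a * j) ^ 2 * g₂) ^ 2
        = (1 - a ^ 2) * (1 - j ^ 2) * (1 - a * j) ^ 2 * g₂ ^ 2 := by
      rw [mul_pow, ← mul_assoc, ← pow_mul, show 2 * 2 = 2 + 2 by norm_num, pow_add]
      rw [← mul_assoc, one_sub_tD_sq ha hj]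
    simp only [pairE₁, wPP, wPM, wMP, wMM, e1, e2]
    field_simp
    ring
  rw [e]
  have ht := abs_le.1 hj
  have hab : |a * b * j| ≤ 1 / 100 := by
    have hab2 : (a * b) ^ 2 ≤ 1 := by
      have : (a * b) ^ 2 = a ^ 2 * b ^ 2 := by ring
      rw [this]
      nlinarith [sq_nonneg a, sq_nonneg b]
    have hab1 : |a * b| ≤ 1 := by
      rw [← sq_le_one_iff_abs_le_one]
      exact hab2
    rw [abs_mul]
    calc |a * b| * |j| ≤ 1 * |j| := mul_le_mul_of_nonneg_right hab1 (abs_nonneg j)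
      _ ≤ 1 / 100 := by linarith
  have hNle : nN a b j ≤ 101 / 100 := by
    simp only [nN]
    linarith [(abs_le.1 hab).2]
  have hj2 : j ^ 2 ≤ 1 / 10000 := by nlinarith
  have haj : |a * j| ≤ 1 / 100 := by
    have ha' : |a| ≤ 1 := by
      rw [← sq_le_one_iff_abs_le_one]
      exact ha.le
    rw [abs_mul]
    calc |a| * |j| ≤ 1 * |j| := mul_le_mul_of_nonneg_right ha' (abs_nonneg j)
      _ ≤ 1 / 100 := by linarith
  have haj' := abs_le.1 haj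
  have hc : ∀ c : ℝ, 99 / 100 ≤ c → 20 / 21 ≤ (1 - j ^ 2) * c ^ 3 / nN a b j := by
    intro c hc
    rw [le_div_iff₀ hN]
    have h3 : (99 / 100 : ℝ) ^ 3 ≤ c ^ 3 := pow_le_pow_left₀ (by norm_num) hc 3
    have h4 : (1 - 1 / 10000) * (99 / 100 : ℝ) ^ 3 ≤ (1 - j ^ 2) * c ^ 3 :=
      mul_le_mul (by linarith) h3 (by positivity) (by linarith)
    have h5 : (20 / 21) * nN a b j ≤ (20 / 21) * (101 / 100) :=
      mul_le_mul_of_nonneg_left hNle (by norm_num)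
    norm_num at h4 h5 ⊢
    linarith
  have hc1 := hc (1 + a * j) (by linarith [haj'.1])
  have hc2 := hc (1 - a * j) (by linarith [haj'.2])
  have hg1 : 0 ≤ (1 + b) * g₁ ^ 2 := mul_nonneg (by linarith) (sq_nonneg _)
  have hg2 : 0 ≤ (1 - b) * g₂ ^ 2 := mul_nonneg (by linarith) (sq_nonneg _)
  have h5 := mul_le_mul_of_nonneg_left hc1 hg1
  have h6 := mul_le_mul_of_nonneg_left hc2 hg2
  have h7 : (1 - a ^ 2) * (((1 + b) * g₁ ^ 2 + (1 - b) * g₂ ^ 2) / 2 * (20 / 21))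
      ≤ (1 - a ^ 2) * ((1 + b) * g₁ ^ 2 * (((1 - j ^ 2) * (1 + a * j) ^ 3 / nN a b j) / 2)
        + (1 - b) * g₂ ^ 2 * (((1 - j ^ 2) * (1 - a * j) ^ 3 / nN a b j) / 2)) := by
    apply mul_le_mul_of_nonneg_left _ hA.le
    linarith
  calc _ = (1 - a ^ 2) * (((1 + b) * g₁ ^ 2 + (1 - b) * g₂ ^ 2) / 2 * (20 / 21)) := by ring
    _ ≤ _ := h7

/-- The scalar inequality behind the second order term. -/
lemma coef_lower {a N j c : ℝ} (ha : a ^ 2 < 1) (hj : |j| ≤ 1 / 100) (hc : 0 < c)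
    (hcle : c ≤ 1 + |j|) (hN : 0 < N) (hNle : N ≤ 1 + |j|) (δ : ℝ) (hδ : δ ^ 2 = 1) :
    a ^ 2 - 4 * |j| ≤ (1 - j ^ 2) ^ 2 / N * ((a + δ * j) ^ 2 / c) := by
  set t := |j| with ht
  have ht0 : 0 ≤ t := abs_nonneg j
  have hj2 : j ^ 2 = t ^ 2 := (sq_abs j).symm
  have htt : t ^ 2 ≤ t / 100 := by nlinarith
  have hR : 0 ≤ (1 - j ^ 2) ^ 2 / N * ((a + δ * j) ^ 2 / c) := by positivity
  by_cases h : a ^ 2 ≤ 2 * t
  · linarith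
  push Not at h
  have ha' : |a| ≤ 1 := by
    rw [← sq_le_one_iff_abs_le_one]
    exact ha.le
  have hδ' : |δ| = 1 := by
    have h0 : (|δ| - 1) * (|δ| + 1) = 0 := by nlinarith [sq_abs δ]
    rcases mul_eq_zero.1 h0 with h1 | h1
    · linarith
    · linarith [abs_nonneg δ]
  have h1 : a ^ 2 - 2 * t ≤ (a + δ * j) ^ 2 := by
    have h2 : |a * (δ * j)| ≤ t := by
      rw [abs_mul, abs_mul, hδ', one_mul]
      calc |a| * |j| ≤ 1 * |j| := mul_le_mul_of_nonneg_right ha' (abs_nonneg j)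
        _ = t := one_mul _
    have h3 := abs_le.1 h2
    nlinarith [sq_nonneg (δ * j), h3.1]
  have hcN : c * N ≤ (1 + t) ^ 2 := by nlinarith
  have hρ : 1 - 2 * t ≤ (1 - j ^ 2) ^ 2 / (c * N) := by
    rw [le_div_iff₀ (mul_pos hc hN)]
    have h4 : (1 - 2 * t) * (c * N) ≤ (1 - 2 * t) * (1 + t) ^ 2 :=
      mul_le_mul_of_nonneg_left hcN (by linarith)
    have h5 : (1 - 2 * t) * (1 + t) ^ 2 ≤ (1 - t ^ 2) ^ 2 := by
      nlinarith [mul_nonneg ht0 ht0, mul_nonneg (mul_nonneg ht0 ht0) ht0,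
        mul_nonneg (mul_nonneg ht0 ht0) (mul_nonneg ht0 ht0)]
    rw [hj2]
    linarith
  have e : (1 - j ^ 2) ^ 2 / N * ((a + δ * j) ^ 2 / c)
      = (1 - j ^ 2) ^ 2 / (c * N) * (a + δ * j) ^ 2 := by
    field_simp
  rw [e]
  have h6 : (1 - 2 * t) * (a ^ 2 - 2 * t) ≤ (1 - j ^ 2) ^ 2 / (c * N) * (a + δ * j) ^ 2 :=
    mul_le_mul hρ h1 (by linarith) (by positivity)
  nlinarith

lemma pairS₁_ge (ha : a ^ 2 < 1) (hb : b ^ 2 < 1) (hj : |j| ≤ 1 / 100) :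
    (1 - a ^ 2) ^ 2 * (a ^ 2 - 4 * |j|) * (((1 + b) * g₁ ^ 2 + (1 - b) * g₂ ^ 2) / 2)
      ≤ pairS₁ a b j ((1 + a * j) ^ 2 * g₁) ((1 - a * j) ^ 2 * g₂) := by
  obtain ⟨h1, h2⟩ := ne_forms ha hj
  have hN := nN_pos ha hb hj
  have hA : 0 < 1 - a ^ 2 := by linarith
  have hb1 : -1 < b := by nlinarith
  have hb2 : b < 1 := by nlinarith
  have e : pairS₁ a b j ((1 + a * j) ^ 2 * g₁) ((1 - a * j) ^ 2 * g₂)
      = (1 - a ^ 2) ^ 2 * ((1 + b) * g₁ ^ 2 *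
          ((1 - j ^ 2) ^ 2 / nN a b j * ((a + 1 * j) ^ 2 / (1 + a * j))) / 2
        + (1 - b) * g₂ ^ 2 *
          ((1 - j ^ 2) ^ 2 / nN a b j * ((a + (-1) * j) ^ 2 / (1 - a * j))) / 2) := by
    have e1 : (1 - tU a j ^ 2) * ((1 + a * j) ^ 2 * g₁) = (1 - a ^ 2) * (1 - j ^ 2) * g₁ := by
      rw [← mul_assoc, one_sub_tU_sq ha hj]
    have e2 : (1 - tD a j ^ 2) * ((1 - a * j) ^ 2 * g₂) = (1 - a ^ 2) * (1 - j ^ 2) * g₂ := by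
      rw [← mul_assoc, one_sub_tD_sq ha hj]
    simp only [pairS₁, wPP, wPM, wMP, wMM, e1, e2, tU, tD]
    field_simp
    ring
  rw [e]
  have hab : |a * b * j| ≤ |j| := by
    have hab2 : (a * b) ^ 2 ≤ 1 := by
      have : (a * b) ^ 2 = a ^ 2 * b ^ 2 := by ring
      rw [this]
      nlinarith [sq_nonneg a, sq_nonneg b]
    have hab1 : |a * b| ≤ 1 := by
      rw [← sq_le_one_iff_abs_le_one]
      exact hab2
    rw [abs_mul]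
    calc |a * b| * |j| ≤ 1 * |j| := mul_le_mul_of_nonneg_right hab1 (abs_nonneg j)
      _ = |j| := one_mul _
  have hNle : nN a b j ≤ 1 + |j| := by
    simp only [nN]
    linarith [(abs_le.1 hab).2]
  have haj : |a * j| ≤ |j| := by
    have ha' : |a| ≤ 1 := by
      rw [← sq_le_one_iff_abs_le_one]
      exact ha.le
    rw [abs_mul]
    calc |a| * |j| ≤ 1 * |j| := mul_le_mul_of_nonneg_right ha' (abs_nonneg j)
      _ = |j| := one_mul _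
  have haj' := abs_le.1 haj
  have hc1 := coef_lower (a := a) ha hj h1 (by linarith [haj'.2]) hN hNle 1 (by norm_num)
  have hc2 := coef_lower (a := a) ha hj h2 (by linarith [haj'.1]) hN hNle (-1) (by norm_num)
  have hg1 : 0 ≤ (1 + b) * g₁ ^ 2 := mul_nonneg (by linarith) (sq_nonneg _)
  have hg2 : 0 ≤ (1 - b) * g₂ ^ 2 := mul_nonneg (by linarith) (sq_nonneg _)
  have h5 := mul_le_mul_of_nonneg_left hc1 hg1
  have h6 := mul_le_mul_of_nonneg_left hc2 hg2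
  have hsq : 0 ≤ (1 - a ^ 2) ^ 2 := sq_nonneg _
  have h7 := mul_le_mul_of_nonneg_left (add_le_add h5 h6) hsq
  nlinarith

end forms

lemma pair_bound_site {j A' n S E x : ℝ} (h0 : 0 ≤ A') (h1 : A' ≤ 1) (hn : 0 ≤ n)
    (hS : A' ^ 2 * (x ^ 2 - 4 * |j|) * n ≤ S) (hE : A' * n * (20 / 21) ≤ E) :
    j ^ 2 * (A' ^ 2 * x ^ 2 * n) + 2 * |j| ^ 3 * (A' * n) ≤ j ^ 2 * S + 7 * |j| ^ 3 * E := by
  have hj2 : j ^ 2 = |j| ^ 2 := (sq_abs j).symm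
  have h2 : A' ^ 2 * x ^ 2 * n ≤ S + 4 * |j| * (A' * n) := by
    have h3 : A' ^ 2 * n ≤ A' * n := by
      have : A' ^ 2 ≤ A' := by nlinarith
      exact mul_le_mul_of_nonneg_right this hn
    have h4 : 0 ≤ |j| := abs_nonneg j
    have h5 := mul_le_mul_of_nonneg_left h3 h4
    have e : A' ^ 2 * (x ^ 2 - 4 * |j|) * n = A' ^ 2 * x ^ 2 * n - 4 * (|j| * (A' ^ 2 * n)) := by
      ring
    rw [e] at hS
    have e2 : 4 * |j| * (A' * n) = 4 * (|j| * (A' * n)) := by ring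
    rw [e2]
    linarith
  have h5 := mul_le_mul_of_nonneg_left h2 (sq_nonneg j)
  have h6 : 0 ≤ |j| ^ 3 := by positivity
  have h7 := mul_le_mul_of_nonneg_left hE h6
  have e : j ^ 2 * (S + 4 * |j| * (A' * n)) = j ^ 2 * S + 4 * (|j| ^ 3 * (A' * n)) := by
    rw [hj2]; ring
  have h8 : 0 ≤ |j| ^ 3 * (A' * n) := by positivity
  rw [e] at h5
  have e3 : |j| ^ 3 * (A' * n * (20 / 21)) = 20 / 21 * (|j| ^ 3 * (A' * n)) := by ring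
  rw [e3] at h7
  have e4 : 7 * |j| ^ 3 * E = 7 * (|j| ^ 3 * E) := by ring
  have e5 : 2 * |j| ^ 3 * (A' * n) = 2 * (|j| ^ 3 * (A' * n)) := by ring
  rw [e4, e5]
  linarith

lemma pair_sq_facts {a : ℝ} (ha : a ^ 2 < 1) :
    -1 < a ∧ a < 1 ∧ 0 ≤ 1 - a ^ 2 ∧ 1 - a ^ 2 ≤ 1 :=
  ⟨by nlinarith, by nlinarith, by linarith, by nlinarith [sq_nonneg a]⟩

lemma pair_n_nonneg {b x y : ℝ} (hb : b ^ 2 < 1) : 0 ≤ ((1 + b) * x ^ 2 + (1 - b) * y ^ 2) / 2 := by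
  obtain ⟨h1, h2, _, _⟩ := pair_sq_facts hb
  have h3 : 0 ≤ (1 + b) * x ^ 2 := mul_nonneg (by linarith) (sq_nonneg _)
  have h4 : 0 ≤ (1 - b) * y ^ 2 := mul_nonneg (by linarith) (sq_nonneg _)
  linarith

/-- The two spin inequality in the original variables. -/
theorem pair_alg {a b j p₁ p₂ q₁ q₂ : ℝ} (ha : a ^ 2 < 1) (hb : b ^ 2 < 1) (hj : |j| ≤ 1 / 100)
    (hc : p₁ - p₂ = q₁ - q₂) :
    0 ≤ pairT a b j p₁ p₂ q₁ q₂ + j * pairD a b j p₁ p₂ q₁ q₂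
      + j ^ 2 * (pairS₁ a b j p₁ p₂ + pairS₂ a b j q₁ q₂)
      + 7 * |j| ^ 3 * (pairE₁ a b j p₁ p₂ + pairE₂ a b j q₁ q₂) := by
  obtain ⟨h1, h2⟩ := ne_forms ha hj
  obtain ⟨h3, h4⟩ := ne_forms hb hj
  obtain ⟨g₁, hg₁⟩ : ∃ g₁, p₁ = (1 + a * j) ^ 2 * g₁ := ⟨p₁ / (1 + a * j) ^ 2, by field_simp⟩
  obtain ⟨g₂, hg₂⟩ : ∃ g₂, p₂ = (1 - a * j) ^ 2 * g₂ := ⟨p₂ / (1 - a * j) ^ 2, by field_simp⟩
  obtain ⟨h₁, hh₁⟩ : ∃ h₁, q₁ = (1 + b * j) ^ 2 * h₁ := ⟨q₁ / (1 + b * j) ^ 2, by field_simp⟩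
  obtain ⟨h₂, hh₂⟩ : ∃ h₂, q₂ = (1 - b * j) ^ 2 * h₂ := ⟨q₂ / (1 - b * j) ^ 2, by field_simp⟩
  subst hg₁ hg₂ hh₁ hh₂
  have hcore := pair_core (g₁ := g₁) (g₂ := g₂) (h₁ := h₁) (h₂ := h₂) ha hb hj hc
  have hT := pairT_eq (g₁ := g₁) (g₂ := g₂) (h₁ := h₁) (h₂ := h₂) ha hb hj
  have hD := pairD_eq (g₁ := g₁) (g₂ := g₂) (h₁ := h₁) (h₂ := h₂) ha hb hj
  have hS₁ := pairS₁_ge (g₁ := g₁) (g₂ := g₂) ha hb hj
  have hE₁ := pairE₁_ge (g₁ := g₁) (g₂ := g₂) ha hb hj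
  have hS₂ := pairS₁_ge (g₁ := h₁) (g₂ := h₂) hb ha hj
  have hE₂ := pairE₁_ge (g₁ := h₁) (g₂ := h₂) hb ha hj
  rw [pairS₂_swap, pairE₂_swap, hT, hD]
  obtain ⟨_, _, hA0, hA1⟩ := pair_sq_facts ha
  obtain ⟨_, _, hB0, hB1⟩ := pair_sq_facts hb
  have hb1' := pair_bound_site (j := j) hA0 hA1 (pair_n_nonneg hb) hS₁ hE₁
  have hb2' := pair_bound_site (j := j) hB0 hB1 (pair_n_nonneg ha) hS₂ hE₂
  have hexp : ∀ Q W W' : ℝ, Q * W + j * (Q * ((1 - j ^ 2) * W')) = Q * (W + j * (1 - j ^ 2) * W') := by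
    intro Q W W'
    ring
  rw [hexp]
  have e1 : ∀ x y z w : ℝ, j ^ 2 * (x + y) + 2 * |j| ^ 3 * (z + w)
      = (j ^ 2 * x + 2 * |j| ^ 3 * z) + (j ^ 2 * y + 2 * |j| ^ 3 * w) := by
    intro x y z w
    ring
  have e2 : ∀ x y z w : ℝ, j ^ 2 * (x + y) + 7 * |j| ^ 3 * (z + w)
      = (j ^ 2 * x + 7 * |j| ^ 3 * z) + (j ^ 2 * y + 7 * |j| ^ 3 * w) := by
    intro x y z w
    ring
  rw [add_assoc] at hcore ⊢
  rw [e1] at hcore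
  rw [e2]
  linarith

end Vale.Agent.Lib.P150
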