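import Vale.Agent.Lib.P150.FieldIsing
import Vale.Agent.Lib.P150.PairAlg

/-!
The integrated second order inequality: `‖L f‖² ≥ κ E(f,f)` uniformly in the external field.
-/

open scoped BigOperators Matrix

namespace Vale.Agent.Lib.P150

section alg

variable {a b j : ℝ}

lemma combine_omega {T D S E j ω : ℝ} (hE : 0 ≤ E) (hS : 0 ≤ S) (hD : |D| ≤ E / 2)
    (hj : |j| ≤ |ω|) (hd : |j - ω| ≤ |ω| ^ 3 / 3)
    (h : 0 ≤ T + j * D + j ^ 2 * S + 7 * |j| ^ 3 * E) :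
    0 ≤ T + ω * D + ω ^ 2 * S + 8 * |ω| ^ 3 * E := by
  have h1 : j ^ 2 ≤ ω ^ 2 := by
    rw [← sq_abs j, ← sq_abs ω]
    exact pow_le_pow_left₀ (abs_nonneg _) hj 2
  have h2 : |j| ^ 3 ≤ |ω| ^ 3 := pow_le_pow_left₀ (abs_nonneg _) hj 3
  have h3 : -(|ω| ^ 3 / 3 * (E / 2)) ≤ (ω - j) * D := by
    have h4 : |(ω - j) * D| ≤ |ω| ^ 3 / 3 * (E / 2) := by
      rw [abs_mul, abs_sub_comm]
      exact mul_le_mul hd hD (abs_nonneg _) (by positivity)
    exact (abs_le.1 h4).1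
  have h5 : (j ^ 2) * S ≤ ω ^ 2 * S := mul_le_mul_of_nonneg_right h1 hS
  have h6 : |j| ^ 3 * E ≤ |ω| ^ 3 * E := mul_le_mul_of_nonneg_right h2 hE
  have h7 : 0 ≤ |ω| ^ 3 * E := by positivity
  nlinarith

lemma term_bound {v v' p q : ℝ} (h0 : 0 ≤ v) (h1 : v ≤ 1) (h0' : 0 ≤ v') (h1' : v' ≤ 1) :
    |v * p * (v' * q)| ≤ (v * p ^ 2 + v' * q ^ 2) / 2 := by
  have h2 : (v * p) ^ 2 ≤ v * p ^ 2 := by
    have : 0 ≤ v * p ^ 2 := by positivity
    nlinarith [sq_nonneg p]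
  have h3 : (v' * q) ^ 2 ≤ v' * q ^ 2 := by
    have : 0 ≤ v' * q ^ 2 := by positivity
    nlinarith [sq_nonneg q]
  rw [abs_le]
  constructor <;> nlinarith [sq_nonneg (v * p - v' * q), sq_nonneg (v * p + v' * q)]

lemma v_facts_U (ha : a ^ 2 < 1) (hj : |j| ≤ 1 / 100) :
    0 ≤ 1 - tU a j ^ 2 ∧ 1 - tU a j ^ 2 ≤ 1 := by
  have h := one_sub_tU_sq ha hj
  obtain ⟨h1, _⟩ := ne_forms ha hj
  have hj2 : j ^ 2 ≤ 1 := by
    have : |j| ≤ 1 := by linarith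
    exact (sq_le_one_iff_abs_le_one j).2 this
  refine ⟨?_, by nlinarith [sq_nonneg (tU a j)]⟩
  by_contra hneg
  push Not at hneg
  have h2 : (1 - tU a j ^ 2) * (1 + a * j) ^ 2 < 0 := mul_neg_of_neg_of_pos hneg (by positivity)
  have h3 : 0 ≤ (1 - a ^ 2) * (1 - j ^ 2) := mul_nonneg (by linarith) (by linarith)
  linarith

lemma v_facts_D (ha : a ^ 2 < 1) (hj : |j| ≤ 1 / 100) :
    0 ≤ 1 - tD a j ^ 2 ∧ 1 - tD a j ^ 2 ≤ 1 := by
  have h := one_sub_tD_sq ha hj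
  obtain ⟨_, h1⟩ := ne_forms ha hj
  have hj2 : j ^ 2 ≤ 1 := by
    have : |j| ≤ 1 := by linarith
    exact (sq_le_one_iff_abs_le_one j).2 this
  refine ⟨?_, by nlinarith [sq_nonneg (tD a j)]⟩
  by_contra hneg
  push Not at hneg
  have h2 : (1 - tD a j ^ 2) * (1 - a * j) ^ 2 < 0 := mul_neg_of_neg_of_pos hneg (by positivity)
  have h3 : 0 ≤ (1 - a ^ 2) * (1 - j ^ 2) := mul_nonneg (by linarith) (by linarith)
  linarith

lemma weights_nonneg (ha : a ^ 2 < 1) (hb : b ^ 2 < 1) (hj : |j| ≤ 1 / 100) :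
    0 < wPP a b j ∧ 0 < wPM a b j ∧ 0 < wMP a b j ∧ 0 < wMM a b j := by
  have hN := nN_pos ha hb hj
  have ha1 : -1 < a ∧ a < 1 := by constructor <;> nlinarith
  have hb1 : -1 < b ∧ b < 1 := by constructor <;> nlinarith
  have hj1 := abs_le.1 hj
  have p1 : 0 < 1 + a := by linarith [ha1.1]
  have p2 : 0 < 1 - a := by linarith [ha1.2]
  have p3 : 0 < 1 + b := by linarith [hb1.1]
  have p4 : 0 < 1 - b := by linarith [hb1.2]
  have p5 : 0 < 1 + j := by linarith [hj1.1]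
  have p6 : 0 < 1 - j := by linarith [hj1.2]
  unfold wPP wPM wMP wMM
  refine ⟨?_, ?_, ?_, ?_⟩ <;> positivity

/-- The inequality with the coupling in place of its tanh. -/
theorem pair_omega {a b ω p₁ p₂ q₁ q₂ : ℝ} (ha : a ^ 2 < 1) (hb : b ^ 2 < 1) (hω : |ω| ≤ 1 / 100)
    (hc : p₁ - p₂ = q₁ - q₂) :
    0 ≤ pairT a b (Real.tanh ω) p₁ p₂ q₁ q₂ + ω * pairD a b (Real.tanh ω) p₁ p₂ q₁ q₂
      + ω ^ 2 * (pairS₁ a b (Real.tanh ω) p₁ p₂ + pairS₂ a b (Real.tanh ω) q₁ q₂)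
      + 8 * |ω| ^ 3 * (pairE₁ a b (Real.tanh ω) p₁ p₂ + pairE₂ a b (Real.tanh ω) q₁ q₂) := by
  obtain ⟨j, hj0⟩ : ∃ j, j = Real.tanh ω := ⟨_, rfl⟩
  rw [← hj0]
  have hjω : |j| ≤ |ω| := by rw [hj0]; exact abs_tanh_le ω
  have hj : |j| ≤ 1 / 100 := hjω.trans hω
  have hd : |j - ω| ≤ |ω| ^ 3 / 3 := by rw [hj0]; exact abs_tanh_sub_self_le ω
  have h := pair_alg (p₁ := p₁) (p₂ := p₂) (q₁ := q₁) (q₂ := q₂) ha hb hj hc
  obtain ⟨w1, w2, w3, w4⟩ := weights_nonneg ha hb hj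
  obtain ⟨v1, v1'⟩ := v_facts_U ha hj
  obtain ⟨v2, v2'⟩ := v_facts_D ha hj
  obtain ⟨v3, v3'⟩ := v_facts_U hb hj
  obtain ⟨v4, v4'⟩ := v_facts_D hb hj
  have hE : 0 ≤ pairE₁ a b j p₁ p₂ + pairE₂ a b j q₁ q₂ := by
    unfold pairE₁ pairE₂
    positivity
  have hS : 0 ≤ pairS₁ a b j p₁ p₂ + pairS₂ a b j q₁ q₂ := by
    unfold pairS₁ pairS₂
    positivity
  have hD : |pairD a b j p₁ p₂ q₁ q₂| ≤ (pairE₁ a b j p₁ p₂ + pairE₂ a b j q₁ q₂) / 2 := by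
    have t1 := mul_le_mul_of_nonneg_left (term_bound (p := p₁) (q := q₁) v1 v1' v3 v3') w1.le
    have t2 := mul_le_mul_of_nonneg_left (term_bound (p := p₂) (q := q₁) v2 v2' v3 v3') w2.le
    have t3 := mul_le_mul_of_nonneg_left (term_bound (p := p₁) (q := q₂) v1 v1' v4 v4') w3.le
    have t4 := mul_le_mul_of_nonneg_left (term_bound (p := p₂) (q := q₂) v2 v2' v4 v4') w4.le
    have e : (pairE₁ a b j p₁ p₂ + pairE₂ a b j q₁ q₂) / 2
        = wPP a b j * (((1 - tU a j ^ 2) * p₁ ^ 2 + (1 - tU b j ^ 2) * q₁ ^ 2) / 2)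
        + wPM a b j * (((1 - tD a j ^ 2) * p₂ ^ 2 + (1 - tU b j ^ 2) * q₁ ^ 2) / 2)
        + wMP a b j * (((1 - tU a j ^ 2) * p₁ ^ 2 + (1 - tD b j ^ 2) * q₂ ^ 2) / 2)
        + wMM a b j * (((1 - tD a j ^ 2) * p₂ ^ 2 + (1 - tD b j ^ 2) * q₂ ^ 2) / 2) := by
      unfold pairE₁ pairE₂
      ring
    rw [e]
    unfold pairD
    refine (abs_add_le _ _).trans ?_
    refine (add_le_add_left ((abs_add_le _ _).trans
      (add_le_add_left (abs_add_le _ _) _)) _).trans ?_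
    simp only [abs_mul, abs_of_pos w1, abs_of_pos w2, abs_of_pos w3, abs_of_pos w4] at t1 t2 t3 t4 ⊢
    linarith
  exact combine_omega hE hS hD hjω hd h

/-- The expression at one point of the orbit. -/
noncomputable def Yexpr (J ci ck ui uk si sk : ℝ) : ℝ :=
  4 * ci * ck * ui * uk
    + J * ((1 - (1 - 2 * ci) ^ 2) * (-si * ui) * ((1 - (1 - 2 * ck) ^ 2) * (-sk * uk)))
    + J ^ 2 * ((1 - 2 * ci) ^ 2 * ((1 - (1 - 2 * ci) ^ 2) * ui) ^ 2
        + (1 - 2 * ck) ^ 2 * ((1 - (1 - 2 * ck) ^ 2) * uk) ^ 2)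
    + 8 * |J| ^ 3 * ((1 - (1 - 2 * ci) ^ 2) * ui ^ 2 + (1 - (1 - 2 * ck) ^ 2) * uk ^ 2)

/-- The orbit sum in terms of the functions of the two spin algebra. -/
lemma orbit_alg (a b j J s t p₁ p₂ q₁ q₂ : ℝ) :
    wPP a b j * Yexpr J ((1 - tU a j) / 2) ((1 - tU b j) / 2) (-p₁) (-q₁) s t
      + wMP a b j * Yexpr J ((1 + tU a j) / 2) ((1 - tD b j) / 2) p₁ (-q₂) (-s) t
      + wPM a b j * Yexpr J ((1 - tD a j) / 2) ((1 + tU b j) / 2) (-p₂) q₁ s (-t)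
      + wMM a b j * Yexpr J ((1 + tD a j) / 2) ((1 + tD b j) / 2) p₂ q₂ (-s) (-t)
    = pairT a b j p₁ p₂ q₁ q₂ + (J * s * t) * pairD a b j p₁ p₂ q₁ q₂
      + J ^ 2 * (pairS₁ a b j p₁ p₂ + pairS₂ a b j q₁ q₂)
      + 8 * |J| ^ 3 * (pairE₁ a b j p₁ p₂ + pairE₂ a b j q₁ q₂) := by
  unfold Yexpr pairT pairD pairS₁ pairS₂ pairE₁ pairE₂
  generalize tU a j = U
  generalize tD a j = D
  generalize tU b j = U'
  generalize tD b j = D'
  generalize wPP a b j = w₁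
  generalize wMP a b j = w₂
  generalize wPM a b j = w₃
  generalize wMM a b j = w₄
  generalize |J| ^ 3 = W
  ring

/-- `tanh` of a sum. -/
lemma tanh_add' (y z : ℝ) :
    Real.tanh (y + z) = (Real.tanh y + Real.tanh z) / (1 + Real.tanh y * Real.tanh z) := by
  have h := tanh_sub' y (-z)
  rw [Real.tanh_neg] at h
  rw [sub_neg_eq_add] at h
  rw [h]
  congr 1 <;> ring

lemma tanh_sq_lt_one (z : ℝ) : Real.tanh z ^ 2 < 1 := by
  rw [Real.tanh_eq_sinh_div_cosh, div_pow, div_lt_one (by positivity)]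
  have := Real.cosh_sq z
  linarith

lemma one_sub_tanh_eq (z : ℝ) : 1 - Real.tanh z = (1 + Real.tanh z) * Real.exp (-(2 * z)) := by
  rw [Real.tanh_eq_sinh_div_cosh]
  have hc := (Real.cosh_pos z).ne'
  have e1 : Real.cosh z - Real.sinh z = Real.exp (-z) := Real.cosh_sub_sinh z
  have e2 : Real.cosh z + Real.sinh z = Real.exp z := Real.cosh_add_sinh z
  have e3 : Real.exp (-(2 * z)) = Real.exp (-z) / Real.exp z := by
    rw [← Real.exp_sub]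
    congr 1
    ring
  have hexp := (Real.exp_pos z).ne'
  rw [e3, ← e1, ← e2] at *
  field_simp

/-- Ratios of the weights. -/
lemma weights_ratio (α γ ω : ℝ) :
    wMP (Real.tanh α) (Real.tanh γ) (Real.tanh ω)
        = wPP (Real.tanh α) (Real.tanh γ) (Real.tanh ω) * Real.exp (-(2 * (α + ω))) ∧
    wPM (Real.tanh α) (Real.tanh γ) (Real.tanh ω)
        = wPP (Real.tanh α) (Real.tanh γ) (Real.tanh ω) * Real.exp (-(2 * (γ + ω))) ∧
    wMM (Real.tanh α) (Real.tanh γ) (Real.tanh ω)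
        = wPP (Real.tanh α) (Real.tanh γ) (Real.tanh ω) * Real.exp (-(2 * α + 2 * γ)) := by
  have h1 := one_sub_tanh_eq α
  have h2 := one_sub_tanh_eq γ
  have h3 := one_sub_tanh_eq ω
  have e1 : Real.exp (-(2 * (α + ω))) = Real.exp (-(2 * α)) * Real.exp (-(2 * ω)) := by
    rw [← Real.exp_add]; congr 1; ring
  have e2 : Real.exp (-(2 * (γ + ω))) = Real.exp (-(2 * γ)) * Real.exp (-(2 * ω)) := by
    rw [← Real.exp_add]; congr 1; ring
  have e3 : Real.exp (-(2 * α + 2 * γ)) = Real.exp (-(2 * α)) * Real.exp (-(2 * γ)) := by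
    rw [← Real.exp_add]; congr 1; ring
  rw [e1, e2, e3]
  unfold wPP wPM wMP wMM
  rw [h1, h2, h3]
  refine ⟨?_, ?_, ?_⟩ <;> ring

end alg

section orbit

variable {n : ℕ}

/-- The discrete gradient. -/
noncomputable def uF (f : Conf n → ℝ) (x : Conf n) (i : Fin n) : ℝ := f (flipAt x i) - f x

/-- The expression at a configuration. -/
noncomputable def Yat (A : Matrix (Fin n) (Fin n) ℝ) (y : Fin n → ℝ) (f : Conf n → ℝ) (i k : Fin n)
    (x : Conf n) : ℝ :=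
  Yexpr (A i k) (rateF A y x i) (rateF A y x k) (uF f x i) (uF f x k) (spin (x i)) (spin (x k))

lemma psi_tU (α ω : ℝ) : psi (α + ω) = (1 - tU (Real.tanh α) (Real.tanh ω)) / 2 := by
  rw [psi_eq, tanh_add']
  rfl

lemma psi_tU' (α ω : ℝ) : psi (-(α + ω)) = (1 + tU (Real.tanh α) (Real.tanh ω)) / 2 := by
  rw [psi_eq, Real.tanh_neg, tanh_add']
  unfold tU
  ring

lemma psi_tD (α ω : ℝ) : psi (α - ω) = (1 - tD (Real.tanh α) (Real.tanh ω)) / 2 := by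
  rw [psi_eq, tanh_sub']
  rfl

lemma psi_tD' (α ω : ℝ) : psi (-(α - ω)) = (1 + tD (Real.tanh α) (Real.tanh ω)) / 2 := by
  rw [psi_eq, Real.tanh_neg, tanh_sub']
  unfold tD
  ring

lemma prod_flip_ne (A : Matrix (Fin n) (Fin n) ℝ) (y : Fin n → ℝ) (x : Conf n) {i k : Fin n}
    (h : k ≠ i) :
    spin (flipAt x i k) * fieldF A y (flipAt x i) k
      = spin (x k) * fieldF A y x k - 2 * (A k i * spin (x i) * spin (x k)) := by
  rw [spin_flipAt_ne x h, fieldF_flipAt]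
  ring

lemma rateF_flip_ne (A : Matrix (Fin n) (Fin n) ℝ) (y : Fin n → ℝ) (x : Conf n) {i k : Fin n}
    (h : k ≠ i) :
    rateF A y (flipAt x i) k
      = psi (spin (x k) * fieldF A y x k - 2 * (A k i * spin (x i) * spin (x k))) := by
  unfold rateF
  rw [prod_flip_ne A y x h]

/-- The orbit inequality. -/
theorem orbit_nonneg {A : Matrix (Fin n) (Fin n) ℝ} (hA : IsCoupling A) (y : Fin n → ℝ)
    (f : Conf n → ℝ) (x : Conf n) {i k : Fin n} (hik : i ≠ k) (hε : |A i k| ≤ 1 / 100) :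
    0 ≤ gibF A y x * Yat A y f i k x + gibF A y (flipAt x i) * Yat A y f i k (flipAt x i)
      + gibF A y (flipAt x k) * Yat A y f i k (flipAt x k)
      + gibF A y (flipAt (flipAt x i) k) * Yat A y f i k (flipAt (flipAt x i) k) := by
  have hki : k ≠ i := hik.symm
  obtain ⟨s, hs⟩ : ∃ s, s = spin (x i) := ⟨_, rfl⟩
  obtain ⟨t, ht⟩ : ∃ t, t = spin (x k) := ⟨_, rfl⟩
  obtain ⟨J, hJ⟩ : ∃ J, J = A i k := ⟨_, rfl⟩
  obtain ⟨ω, hω⟩ : ∃ ω, ω = J * s * t := ⟨_, rfl⟩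
  obtain ⟨α, hα⟩ : ∃ α, α = s * fieldF A y x i - ω := ⟨_, rfl⟩
  obtain ⟨γ, hγ⟩ : ∃ γ, γ = t * fieldF A y x k - ω := ⟨_, rfl⟩
  have hs2 : s ^ 2 = 1 := by rw [hs]; exact spin_sq _
  have ht2 : t ^ 2 = 1 := by rw [ht]; exact spin_sq _
  have hsa : |s| = 1 := by rw [hs]; exact spin_abs _
  have hta : |t| = 1 := by rw [ht]; exact spin_abs _
  have hω2 : ω ^ 2 = J ^ 2 := by
    rw [hω]
    calc (J * s * t) ^ 2 = J ^ 2 * s ^ 2 * t ^ 2 := by ring
      _ = J ^ 2 := by rw [hs2, ht2]; ring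
  have hωa : |ω| = |J| := by
    rw [hω, abs_mul, abs_mul, hsa, hta]
    ring
  have hJk : A k i = J := by rw [hJ]; exact hA.symm k i
  -- the rates
  have r1 : rateF A y x i = (1 - tU (Real.tanh α) (Real.tanh ω)) / 2 := by
    rw [← psi_tU, hα, sub_add_cancel, hs]
    rfl
  have r2 : rateF A y x k = (1 - tU (Real.tanh γ) (Real.tanh ω)) / 2 := by
    rw [← psi_tU, hγ, sub_add_cancel, ht]
    rfl
  have r3 : rateF A y (flipAt x i) i = (1 + tU (Real.tanh α) (Real.tanh ω)) / 2 := by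
    rw [← psi_tU', hα, sub_add_cancel, hs]
    exact rateF_flip_same hA y x i
  have r6 : rateF A y (flipAt x k) k = (1 + tU (Real.tanh γ) (Real.tanh ω)) / 2 := by
    rw [← psi_tU', hγ, sub_add_cancel, ht]
    exact rateF_flip_same hA y x k
  have q4 : spin (flipAt x i k) * fieldF A y (flipAt x i) k = γ - ω := by
    rw [prod_flip_ne A y x hki, hJk, ← hs, ← ht, hγ, hω]
    ring
  have q5 : spin (flipAt x k i) * fieldF A y (flipAt x k) i = α - ω := by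
    rw [prod_flip_ne A y x hik, ← hJ, ← hs, ← ht, hα, hω]
    ring
  have r4 : rateF A y (flipAt x i) k = (1 - tD (Real.tanh γ) (Real.tanh ω)) / 2 := by
    rw [← psi_tD, ← q4]
    rfl
  have r5 : rateF A y (flipAt x k) i = (1 - tD (Real.tanh α) (Real.tanh ω)) / 2 := by
    rw [← psi_tD, ← q5]
    rfl
  have r7 : rateF A y (flipAt (flipAt x i) k) i = (1 + tD (Real.tanh α) (Real.tanh ω)) / 2 := by
    rw [← psi_tD', ← q5, flipAt_comm]
    exact rateF_flip_same hA y _ i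
  have r8 : rateF A y (flipAt (flipAt x i) k) k = (1 + tD (Real.tanh γ) (Real.tanh ω)) / 2 := by
    rw [← psi_tD', ← q4]
    exact rateF_flip_same hA y _ k
  -- the masses
  have m1 : gibF A y (flipAt x i) = gibF A y x * Real.exp (-(2 * (α + ω))) := by
    rw [gibF_flip hA, hα, sub_add_cancel, hs]
  have m2 : gibF A y (flipAt x k) = gibF A y x * Real.exp (-(2 * (γ + ω))) := by
    rw [gibF_flip hA, hγ, sub_add_cancel, ht]
  have m3 : gibF A y (flipAt (flipAt x i) k) = gibF A y x * Real.exp (-(2 * α + 2 * γ)) := by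
    rw [gibF_flip hA, q4, m1, mul_assoc, ← Real.exp_add]
    congr 2
    ring
  -- the gradients
  obtain ⟨p₁, hp₁⟩ : ∃ p₁, p₁ = f x - f (flipAt x i) := ⟨_, rfl⟩
  obtain ⟨p₂, hp₂⟩ : ∃ p₂, p₂ = f (flipAt x k) - f (flipAt (flipAt x i) k) := ⟨_, rfl⟩
  obtain ⟨q₁, hq₁⟩ : ∃ q₁, q₁ = f x - f (flipAt x k) := ⟨_, rfl⟩
  obtain ⟨q₂, hq₂⟩ : ∃ q₂, q₂ = f (flipAt x i) - f (flipAt (flipAt x i) k) := ⟨_, rfl⟩
  have hc : p₁ - p₂ = q₁ - q₂ := by rw [hp₁, hp₂, hq₁, hq₂]; ring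
  have u1 : uF f x i = -p₁ := by rw [hp₁]; unfold uF; ring
  have u2 : uF f x k = -q₁ := by rw [hq₁]; unfold uF; ring
  have u3 : uF f (flipAt x i) i = p₁ := by rw [hp₁]; unfold uF; rw [flipAt_flipAt]
  have u4 : uF f (flipAt x i) k = -q₂ := by rw [hq₂]; unfold uF; ring
  have u5 : uF f (flipAt x k) i = -p₂ := by rw [hp₂]; unfold uF; rw [flipAt_comm x k i]; ring
  have u6 : uF f (flipAt x k) k = q₁ := by rw [hq₁]; unfold uF; rw [flipAt_flipAt]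
  have u7 : uF f (flipAt (flipAt x i) k) i = p₂ := by
    rw [hp₂]; unfold uF; rw [flipAt_comm x i k, flipAt_flipAt, flipAt_comm x k i]
  have u8 : uF f (flipAt (flipAt x i) k) k = q₂ := by
    rw [hq₂]; unfold uF; rw [flipAt_flipAt]
  -- the spins
  have s3 : spin (flipAt x i i) = -s := by rw [hs]; exact spin_flipAt_same x i
  have s4 : spin (flipAt x i k) = t := by rw [ht]; exact spin_flipAt_ne x hki
  have s5 : spin (flipAt x k i) = s := by rw [hs]; exact spin_flipAt_ne x hik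
  have s6 : spin (flipAt x k k) = -t := by rw [ht]; exact spin_flipAt_same x k
  have s7 : spin (flipAt (flipAt x i) k i) = -s := by
    rw [spin_flipAt_ne _ hik, s3]
  have s8 : spin (flipAt (flipAt x i) k k) = -t := by
    rw [spin_flipAt_same, s4]
  -- assembling
  obtain ⟨a, ha⟩ : ∃ a, a = Real.tanh α := ⟨_, rfl⟩
  obtain ⟨b, hb⟩ : ∃ b, b = Real.tanh γ := ⟨_, rfl⟩
  obtain ⟨j, hj⟩ : ∃ j, j = Real.tanh ω := ⟨_, rfl⟩
  have ha2 : a ^ 2 < 1 := by rw [ha]; exact tanh_sq_lt_one _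
  have hb2 : b ^ 2 < 1 := by rw [hb]; exact tanh_sq_lt_one _
  have hωs : |ω| ≤ 1 / 100 := by rw [hωa, hJ]; exact hε
  have hjs : |j| ≤ 1 / 100 := by rw [hj]; exact (abs_tanh_le ω).trans hωs
  obtain ⟨w1, _, _, _⟩ := weights_nonneg ha2 hb2 hjs
  obtain ⟨e1, e2, e3⟩ := weights_ratio α γ ω
  rw [← ha, ← hb, ← hj] at e1 e2 e3
  rw [← ha, ← hj] at r1 r3 r5 r7
  rw [← hb, ← hj] at r2 r4 r6 r8
  have hmain := pair_omega (p₁ := p₁) (p₂ := p₂) (q₁ := q₁) (q₂ := q₂) ha2 hb2 hωs hc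
  rw [← hj, hω2, hωa] at hmain
  have hY0 : Yat A y f i k x = Yexpr J ((1 - tU a j) / 2) ((1 - tU b j) / 2) (-p₁) (-q₁) s t := by
    unfold Yat
    rw [r1, r2, u1, u2, ← hJ, ← hs, ← ht]
  have hY1 : Yat A y f i k (flipAt x i)
      = Yexpr J ((1 + tU a j) / 2) ((1 - tD b j) / 2) p₁ (-q₂) (-s) t := by
    unfold Yat
    rw [r3, r4, u3, u4, ← hJ, s3, s4]
  have hY2 : Yat A y f i k (flipAt x k)
      = Yexpr J ((1 - tD a j) / 2) ((1 + tU b j) / 2) (-p₂) q₁ s (-t) := by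
    unfold Yat
    rw [r5, r6, u5, u6, ← hJ, s5, s6]
  have hY3 : Yat A y f i k (flipAt (flipAt x i) k)
      = Yexpr J ((1 + tD a j) / 2) ((1 + tD b j) / 2) p₂ q₂ (-s) (-t) := by
    unfold Yat
    rw [r7, r8, u7, u8, ← hJ, s7, s8]
  rw [hY0, hY1, hY2, hY3, m1, m2, m3]
  have hid := orbit_alg a b j J s t p₁ p₂ q₁ q₂
  rw [← hω, e1, e2, e3] at hid
  have hM : 0 < gibF A y x / wPP a b j := div_pos (gibF_pos A y x) w1
  have hfin : gibF A y x * Yexpr J ((1 - tU a j) / 2) ((1 - tU b j) / 2) (-p₁) (-q₁) s t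
      + gibF A y x * Real.exp (-(2 * (α + ω)))
        * Yexpr J ((1 + tU a j) / 2) ((1 - tD b j) / 2) p₁ (-q₂) (-s) t
      + gibF A y x * Real.exp (-(2 * (γ + ω)))
        * Yexpr J ((1 - tD a j) / 2) ((1 + tU b j) / 2) (-p₂) q₁ s (-t)
      + gibF A y x * Real.exp (-(2 * α + 2 * γ))
        * Yexpr J ((1 + tD a j) / 2) ((1 + tD b j) / 2) p₂ q₂ (-s) (-t)
      = gibF A y x / wPP a b j * (wPP a b j
          * Yexpr J ((1 - tU a j) / 2) ((1 - tU b j) / 2) (-p₁) (-q₁) s t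
        + wPP a b j * Real.exp (-(2 * (α + ω)))
          * Yexpr J ((1 + tU a j) / 2) ((1 - tD b j) / 2) p₁ (-q₂) (-s) t
        + wPP a b j * Real.exp (-(2 * (γ + ω)))
          * Yexpr J ((1 - tD a j) / 2) ((1 + tU b j) / 2) (-p₂) q₁ s (-t)
        + wPP a b j * Real.exp (-(2 * α + 2 * γ))
          * Yexpr J ((1 + tD a j) / 2) ((1 + tD b j) / 2) p₂ q₂ (-s) (-t)) := by
    field_simp
  rw [hfin, hid]
  exact mul_nonneg hM.le hmain

end orbit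

end Vale.Agent.Lib.P150
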