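import Vale.Agent.Lib.P150.Gamma2

/-!
Summation of the orbit inequalities.
-/

open scoped BigOperators Matrix

namespace Vale.Agent.Lib.P150

variable {n : ℕ}

lemma sum_flip (Φ : Conf n → ℝ) (i : Fin n) : ∑ x, Φ (flipAt x i) = ∑ x, Φ x := by
  let e : Conf n ≃ Conf n :=
    Function.Involutive.toPerm (fun x => flipAt x i) (fun x => flipAt_flipAt x i)
  exact Equiv.sum_comp e Φ

lemma uF_flip_sq (f : Conf n → ℝ) (x : Conf n) (i : Fin n) :
    uF f (flipAt x i) i ^ 2 = uF f x i ^ 2 := by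
  unfold uF
  rw [flipAt_flipAt]
  ring

/-- The identities for the diagonal terms. -/
lemma diag_sums {c : Conf n → Fin n → ℝ} {μ : Conf n → ℝ} (f : Conf n → ℝ) (i : Fin n)
    (hbal : ∀ x i, μ x * c x i = μ (flipAt x i) * c (flipAt x i) i)
    (hone : ∀ x i, c x i + c (flipAt x i) i = 1) :
    ∑ x, μ x * (c x i * (1 - c x i) * uF f x i ^ 2) = ∑ x, μ x * (c x i ^ 2 * uF f x i ^ 2) := by
  rw [← sum_flip (fun x => μ x * (c x i ^ 2 * uF f x i ^ 2)) i]
  refine Finset.sum_congr rfl fun x _ => ?_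
  have h1 : 1 - c x i = c (flipAt x i) i := by linarith [hone x i]
  rw [h1, uF_flip_sq]
  have h2 := hbal x i
  calc μ x * (c x i * c (flipAt x i) i * uF f x i ^ 2)
      = (μ x * c x i) * c (flipAt x i) i * uF f x i ^ 2 := by ring
    _ = (μ (flipAt x i) * c (flipAt x i) i) * c (flipAt x i) i * uF f x i ^ 2 := by rw [h2]
    _ = _ := by ring

/-- The energy at a site. -/
noncomputable def eF (μ : Conf n → ℝ) (c : Conf n → Fin n → ℝ) (f : Conf n → ℝ) (i : Fin n) : ℝ :=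
  ∑ x, μ x * ((1 - (1 - 2 * c x i) ^ 2) * uF f x i ^ 2)

lemma eF_eq_diag {c : Conf n → Fin n → ℝ} {μ : Conf n → ℝ} (f : Conf n → ℝ) (i : Fin n)
    (hbal : ∀ x i, μ x * c x i = μ (flipAt x i) * c (flipAt x i) i)
    (hone : ∀ x i, c x i + c (flipAt x i) i = 1) :
    eF μ c f i = ∑ x, μ x * (4 * c x i * c x i * uF f x i * uF f x i) := by
  have h := diag_sums f i hbal hone
  have e1 : eF μ c f i = 4 * ∑ x, μ x * (c x i * (1 - c x i) * uF f x i ^ 2) := by
    unfold eF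
    rw [Finset.mul_sum]
    refine Finset.sum_congr rfl fun x _ => ?_
    ring
  have e2 : ∑ x, μ x * (4 * c x i * c x i * uF f x i * uF f x i)
      = 4 * ∑ x, μ x * (c x i ^ 2 * uF f x i ^ 2) := by
    rw [Finset.mul_sum]
    refine Finset.sum_congr rfl fun x _ => ?_
    ring
  rw [e1, e2, h]

lemma dirAbs_eq_eF {c : Conf n → Fin n → ℝ} {μ : Conf n → ℝ} (f : Conf n → ℝ)
    (hbal : ∀ x i, μ x * c x i = μ (flipAt x i) * c (flipAt x i) i)
    (hone : ∀ x i, c x i + c (flipAt x i) i = 1) :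
    dirAbs μ c f = (1 / 4) * ∑ i, eF μ c f i := by
  have hi : ∀ i, ∑ x, μ x * (c x i * uF f x i ^ 2) = (1 / 2) * eF μ c f i := by
    intro i
    have h := diag_sums f i hbal hone
    have e1 : eF μ c f i = 4 * ∑ x, μ x * (c x i * (1 - c x i) * uF f x i ^ 2) := by
      unfold eF
      rw [Finset.mul_sum]
      refine Finset.sum_congr rfl fun x _ => ?_
      ring
    have e2 : ∑ x, μ x * (c x i * uF f x i ^ 2)
        = ∑ x, μ x * (c x i * (1 - c x i) * uF f x i ^ 2)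
          + ∑ x, μ x * (c x i ^ 2 * uF f x i ^ 2) := by
      rw [← Finset.sum_add_distrib]
      refine Finset.sum_congr rfl fun x _ => ?_
      ring
    rw [e2, e1, ← h]
    ring
  unfold dirAbs
  have e : ∑ x, μ x * ∑ i, c x i * (f (flipAt x i) - f x) ^ 2
      = ∑ i, ∑ x, μ x * (c x i * uF f x i ^ 2) := by
    rw [Finset.sum_comm]
    refine Finset.sum_congr rfl fun x _ => ?_
    rw [Finset.mul_sum]
    rfl
  rw [e]
  simp only [hi, ← Finset.mul_sum]
  ring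

/-- Scalar inequality for the combination of the main term and the second order term. -/
lemma v_mul_le {τ C ρ : ℝ} (hτ : τ ^ 2 ≤ 1) (hρ : 0 ≤ ρ) (hρC : 2 * ρ ≤ C) :
    (1 - τ ^ 2) * (C + 2 * ρ * τ ^ 2) ≤ C := by
  have h1 : 0 ≤ τ ^ 2 := sq_nonneg τ
  have h2 : 0 ≤ ρ * τ ^ 2 * τ ^ 2 := by positivity
  have h3 : 0 ≤ τ ^ 2 * (C - 2 * ρ) := mul_nonneg h1 (by linarith)
  nlinarith

/-- The off diagonal part of the expression. -/
noncomputable def Zexpr (J ci ck ui uk si sk : ℝ) : ℝ :=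
  J * ((1 - (1 - 2 * ci) ^ 2) * (-si * ui) * ((1 - (1 - 2 * ck) ^ 2) * (-sk * uk)))
    + J ^ 2 * ((1 - 2 * ci) ^ 2 * ((1 - (1 - 2 * ci) ^ 2) * ui) ^ 2
        + (1 - 2 * ck) ^ 2 * ((1 - (1 - 2 * ck) ^ 2) * uk) ^ 2)
    + 8 * |J| ^ 3 * ((1 - (1 - 2 * ci) ^ 2) * ui ^ 2 + (1 - (1 - 2 * ck) ^ 2) * uk ^ 2)

lemma Yexpr_eq (J ci ck ui uk si sk : ℝ) :
    Yexpr J ci ck ui uk si sk = 4 * ci * ck * ui * uk + Zexpr J ci ck ui uk si sk := by
  unfold Yexpr Zexpr
  ring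

section pointwise

variable {A : Matrix (Fin n) (Fin n) ℝ} {C ρ ε : ℝ}

/-- Symmetric sums. -/
lemma sum_swap_sq (hs : ∀ i k, A i k = A k i) (d : Fin n → ℝ) (F : ℝ → ℝ) :
    ∑ i, ∑ k, F (A i k) * d k = ∑ i, ∑ k, F (A i k) * d i := by
  rw [Finset.sum_comm]
  refine Finset.sum_congr rfl fun i _ => Finset.sum_congr rfl fun k _ => ?_
  rw [hs k i]

lemma sum_row_le {F : ℝ → ℝ} {R : ℝ} (hR : ∀ i, ∑ k, F (A i k) ≤ R) {d : Fin n → ℝ}
    (hd : ∀ i, 0 ≤ d i) : ∑ i, ∑ k, F (A i k) * d i ≤ R * ∑ i, d i := by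
  rw [Finset.mul_sum]
  refine Finset.sum_le_sum fun i _ => ?_
  rw [← Finset.sum_mul]
  exact mul_le_mul_of_nonneg_right (hR i) (hd i)

/-- The pointwise bound on the sum of the off diagonal parts. -/
theorem sum_Zexpr_le (hA : IsCoupling A) (hC : ∀ z : Fin n → ℝ,
      ∑ i, ∑ k, A i k * z i * z k ≤ C * ∑ i, z i ^ 2)
    (hρ : ∀ i, ∑ k, A i k ^ 2 ≤ ρ) (hε : ∀ i k, |A i k| ≤ ε) (hρ0 : 0 ≤ ρ) (hε0 : 0 ≤ ε)
    (hρC : 2 * ρ ≤ C) (c u s : Fin n → ℝ) (hc0 : ∀ i, 0 ≤ c i) (hc1 : ∀ i, c i ≤ 1)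
    (hs : ∀ i, s i ^ 2 = 1) :
    ∑ i, ∑ k, Zexpr (A i k) (c i) (c k) (u i) (u k) (s i) (s k)
      ≤ (C + 16 * ε * ρ) * ∑ i, (1 - (1 - 2 * c i) ^ 2) * u i ^ 2 := by
  obtain ⟨τ, hτ⟩ : ∃ τ : Fin n → ℝ, τ = fun i => 1 - 2 * c i := ⟨_, rfl⟩
  have hτi : ∀ i, 1 - 2 * c i = τ i := fun i => by rw [hτ]
  simp only [Zexpr]
  simp only [hτi]
  have hτ1 : ∀ i, τ i ^ 2 ≤ 1 := by
    intro i
    rw [hτ]
    have h1 := hc0 i
    have h2 := hc1 i
    have : 0 ≤ c i * (1 - c i) := mul_nonneg h1 (by linarith)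
    simp only
    nlinarith
  have hv0 : ∀ i, 0 ≤ 1 - τ i ^ 2 := fun i => by linarith [hτ1 i]
  obtain ⟨v, hv⟩ : ∃ v : Fin n → ℝ, v = fun i => 1 - τ i ^ 2 := ⟨_, rfl⟩
  have hvi : ∀ i, 1 - τ i ^ 2 = v i := fun i => by rw [hv]
  simp only [hvi] at hv0 ⊢
  -- split
  have hsplit : ∀ i k, A i k * (v i * (-s i * u i) * (v k * (-s k * u k)))
      + A i k ^ 2 * (τ i ^ 2 * (v i * u i) ^ 2 + τ k ^ 2 * (v k * u k) ^ 2)
      + 8 * |A i k| ^ 3 * (v i * u i ^ 2 + v k * u k ^ 2)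
      = A i k * (v i * (-s i * u i)) * (v k * (-s k * u k))
        + (A i k ^ 2 * (τ i ^ 2 * (v i * u i) ^ 2) + A i k ^ 2 * (τ k ^ 2 * (v k * u k) ^ 2))
        + (8 * |A i k| ^ 3 * (v i * u i ^ 2) + 8 * |A i k| ^ 3 * (v k * u k ^ 2)) := by
    intro i k
    ring
  simp only [hsplit, Finset.sum_add_distrib]
  -- first part
  have h1 := hC (fun i => v i * (-s i * u i))
  have e1 : ∀ i, (v i * (-s i * u i)) ^ 2 = (v i * u i) ^ 2 := by
    intro i
    have := hs i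
    calc (v i * (-s i * u i)) ^ 2 = s i ^ 2 * (v i * u i) ^ 2 := by ring
      _ = _ := by rw [this]; ring
  simp only [e1] at h1
  -- second part
  have hτd : ∀ i, 0 ≤ τ i ^ 2 * (v i * u i) ^ 2 := fun i => by positivity
  have h2a := sum_row_le (A := A) (F := fun t => t ^ 2) hρ hτd
  have h2b := sum_swap_sq (A := A) hA.symm (fun i => τ i ^ 2 * (v i * u i) ^ 2) (fun t => t ^ 2)
  try simp only at h2a h2b
  -- third part
  have hcube : ∀ i, ∑ k, 8 * |A i k| ^ 3 ≤ 8 * (ε * ρ) := by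
    intro i
    rw [← Finset.mul_sum]
    apply mul_le_mul_of_nonneg_left _ (by norm_num)
    calc ∑ k, |A i k| ^ 3 ≤ ∑ k, ε * A i k ^ 2 := by
          refine Finset.sum_le_sum fun k _ => ?_
          have h3 : |A i k| ^ 3 = |A i k| * A i k ^ 2 := by
            rw [← sq_abs (A i k)]
            ring
          rw [h3]
          exact mul_le_mul_of_nonneg_right (hε i k) (sq_nonneg _)
      _ = ε * ∑ k, A i k ^ 2 := by rw [Finset.mul_sum]
      _ ≤ ε * ρ := mul_le_mul_of_nonneg_left (hρ i) hε0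
  have hvd : ∀ i, 0 ≤ v i * u i ^ 2 := fun i => mul_nonneg (hv0 i) (sq_nonneg _)
  have h3a := sum_row_le (A := A) (F := fun t => 8 * |t| ^ 3) hcube hvd
  have h3b := sum_swap_sq (A := A) hA.symm (fun i => v i * u i ^ 2) (fun t => 8 * |t| ^ 3)
  try simp only at h3a h3b
  rw [h2b, h3b]
  -- combination
  have hcomb : C * ∑ i, (v i * u i) ^ 2 + 2 * (ρ * ∑ i, τ i ^ 2 * (v i * u i) ^ 2)
      ≤ C * ∑ i, v i * u i ^ 2 := by
    rw [Finset.mul_sum, Finset.mul_sum, Finset.mul_sum, Finset.mul_sum]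
    rw [← Finset.sum_add_distrib]
    refine Finset.sum_le_sum fun i _ => ?_
    have h4 := v_mul_le (hτ1 i) hρ0 hρC
    rw [hvi i] at h4
    have h5 := mul_le_mul_of_nonneg_right h4 (hvd i)
    nlinarith
  have hfin : ∑ i, ∑ k, A i k * (v i * (-s i * u i)) * (v k * (-s k * u k))
      ≤ C * ∑ i, (v i * u i) ^ 2 := h1
  have hε' : (C + 16 * ε * ρ) * ∑ i, v i * u i ^ 2
      = C * ∑ i, v i * u i ^ 2 + 2 * (8 * (ε * ρ) * ∑ i, v i * u i ^ 2) := by ring
  rw [hε']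
  linarith

end pointwise

/-- The integrated second order inequality, uniform in the external field. -/
theorem gamma2_bound {A : Matrix (Fin n) (Fin n) ℝ} (hA : IsCoupling A) (y : Fin n → ℝ)
    (f : Conf n → ℝ) {C ρ ε : ℝ}
    (hC : ∀ z : Fin n → ℝ, ∑ i, ∑ k, A i k * z i * z k ≤ C * ∑ i, z i ^ 2)
    (hρ : ∀ i, ∑ k, A i k ^ 2 ≤ ρ) (hε : ∀ i k, |A i k| ≤ ε) (hρ0 : 0 ≤ ρ) (hε0 : 0 ≤ ε)
    (hε1 : ε ≤ 1 / 100) (hρC : 2 * ρ ≤ C) :
    (1 - C - 16 * ε * ρ) * dirAbs (gibF A y) (rateF A y) f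
      ≤ ∑ x, gibF A y x * (rateAct (rateF A y) f x) ^ 2 := by
  classical
  have hR := isRateGen_genF hA y
  have hbal : ∀ x i, gibF A y x * rateF A y x i = gibF A y (flipAt x i) * rateF A y (flipAt x i) i :=
    gibF_rate_balance hA y
  have hone := hR.sum_one
  obtain ⟨μ, hμ⟩ : ∃ μ, μ = gibF A y := ⟨_, rfl⟩
  obtain ⟨c, hc⟩ : ∃ c, c = rateF A y := ⟨_, rfl⟩
  have hμpos : ∀ x, 0 < μ x := fun x => by rw [hμ]; exact gibF_pos A y x
  have hc0 : ∀ x i, 0 ≤ c x i := fun x i => by rw [hc]; exact (rateF_pos A y x i).le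
  have hc1 : ∀ x i, c x i ≤ 1 := fun x i => by rw [hc]; exact hR.le_one x i
  -- the sums over pairs
  have hg : ∀ i k, i ≠ k → 0 ≤ ∑ x, μ x * Yat A y f i k x := by
    intro i k hik
    have hh : ∀ x, 0 ≤ gibF A y x * Yat A y f i k x
        + gibF A y (flipAt x i) * Yat A y f i k (flipAt x i)
        + gibF A y (flipAt x k) * Yat A y f i k (flipAt x k)
        + gibF A y (flipAt (flipAt x i) k) * Yat A y f i k (flipAt (flipAt x i) k) :=
      fun x => orbit_nonneg hA y f x hik ((hε i k).trans hε1)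
    have hs := Finset.sum_nonneg (s := Finset.univ) fun x _ => hh x
    rw [Finset.sum_add_distrib, Finset.sum_add_distrib, Finset.sum_add_distrib] at hs
    have e1 := sum_flip (fun x => gibF A y x * Yat A y f i k x) i
    have e2 := sum_flip (fun x => gibF A y x * Yat A y f i k x) k
    have e3 := sum_flip (fun x => gibF A y (flipAt x k) * Yat A y f i k (flipAt x k)) i
    try simp only at e1 e2 e3
    rw [e3, e2, e1] at hs
    rw [hμ]
    linarith
  have hgd : ∀ i, ∑ x, μ x * Yat A y f i i x = eF μ c f i := by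
    intro i
    rw [eF_eq_diag f i (by rw [hμ, hc]; exact hbal) (by rw [hc]; exact hone)]
    refine Finset.sum_congr rfl fun x _ => ?_
    congr 1
    unfold Yat
    rw [hA.diag, Yexpr_eq, hc]
    simp [Zexpr]
  have he0 : ∀ i, 0 ≤ eF μ c f i := by
    intro i
    unfold eF
    refine Finset.sum_nonneg fun x _ => mul_nonneg (hμpos x).le (mul_nonneg ?_ (sq_nonneg _))
    have h1 := hc0 x i
    have h2 := hc1 x i
    have : 0 ≤ c x i * (1 - c x i) := mul_nonneg h1 (by linarith)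
    nlinarith
  have hgall : ∀ i k, 0 ≤ ∑ x, μ x * Yat A y f i k x := by
    intro i k
    by_cases hik : i = k
    · subst hik
      rw [hgd]
      exact he0 i
    · exact hg i k hik
  have hlow : ∑ i, eF μ c f i ≤ ∑ i, ∑ k, ∑ x, μ x * Yat A y f i k x := by
    refine Finset.sum_le_sum fun i _ => ?_
    rw [← hgd i]
    exact Finset.single_le_sum (f := fun k => ∑ x, μ x * Yat A y f i k x)
      (fun k _ => hgall i k) (Finset.mem_univ i)
  -- rewriting the double sum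
  have hexp : ∑ i, ∑ k, ∑ x, μ x * Yat A y f i k x
      = 4 * ∑ x, μ x * (rateAct c f x) ^ 2
        + ∑ x, μ x * ∑ i, ∑ k, Zexpr (A i k) (c x i) (c x k) (uF f x i) (uF f x k)
            (spin (x i)) (spin (x k)) := by
    have e1 : ∑ i, ∑ k, ∑ x, μ x * Yat A y f i k x
        = ∑ x, ∑ i, ∑ k, μ x * Yat A y f i k x := by
      calc ∑ i, ∑ k, ∑ x, μ x * Yat A y f i k x
          = ∑ i, ∑ x, ∑ k, μ x * Yat A y f i k x :=
            Finset.sum_congr rfl fun i _ => Finset.sum_comm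
        _ = ∑ x, ∑ i, ∑ k, μ x * Yat A y f i k x := Finset.sum_comm
    have hpt : ∀ x i k, μ x * Yat A y f i k x
        = 4 * (μ x * (c x i * uF f x i * (c x k * uF f x k)))
          + μ x * Zexpr (A i k) (c x i) (c x k) (uF f x i) (uF f x k) (spin (x i)) (spin (x k)) := by
      intro x i k
      unfold Yat
      rw [Yexpr_eq, hc]
      ring
    have hsx : ∀ x, ∑ i, ∑ k, μ x * Yat A y f i k x
        = 4 * (μ x * (rateAct c f x) ^ 2)
          + μ x * ∑ i, ∑ k, Zexpr (A i k) (c x i) (c x k) (uF f x i) (uF f x k)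
              (spin (x i)) (spin (x k)) := by
      intro x
      have e2 : (rateAct c f x) ^ 2 = ∑ i, ∑ k, c x i * uF f x i * (c x k * uF f x k) := by
        unfold rateAct
        rw [sq, Finset.sum_mul_sum]
        rfl
      rw [e2]
      simp only [hpt, Finset.sum_add_distrib, Finset.mul_sum]
    rw [e1]
    simp only [hsx, Finset.sum_add_distrib, Finset.mul_sum]
  -- the upper bound
  have hZ : ∑ x, μ x * ∑ i, ∑ k, Zexpr (A i k) (c x i) (c x k) (uF f x i) (uF f x k)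
        (spin (x i)) (spin (x k)) ≤ (C + 16 * ε * ρ) * ∑ i, eF μ c f i := by
    have e1 : (C + 16 * ε * ρ) * ∑ i, eF μ c f i
        = ∑ x, μ x * ((C + 16 * ε * ρ) * ∑ i, (1 - (1 - 2 * c x i) ^ 2) * uF f x i ^ 2) := by
      unfold eF
      rw [Finset.sum_comm, Finset.mul_sum]
      refine Finset.sum_congr rfl fun x _ => ?_
      rw [← Finset.mul_sum]
      ring
    rw [e1]
    refine Finset.sum_le_sum fun x _ => mul_le_mul_of_nonneg_left ?_ (hμpos x).le
    exact sum_Zexpr_le hA hC hρ hε hρ0 hε0 hρC (c x) (uF f x) (fun i => spin (x i))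
      (hc0 x) (hc1 x) (fun i => spin_sq _)
  have hdir := dirAbs_eq_eF (μ := μ) (c := c) f (by rw [hμ, hc]; exact hbal)
    (by rw [hc]; exact hone)
  rw [← hμ, ← hc, hdir]
  rw [hexp] at hlow
  nlinarith

end Vale.Agent.Lib.P150
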