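import Vale.Agent.Lib.P150.GaussN

/-!
Gaussian integration by parts on a finite product.
-/

open scoped BigOperators NNReal ENNReal Topology
open MeasureTheory ProbabilityTheory Filter

namespace Vale.Agent.Lib.P150

/-- The standard Gaussian measure. -/
noncomputable abbrev gam1 : Measure ℝ := gaussianReal 0 1

variable {J : Type*} [Fintype J] [DecidableEq J]

/-- The standard Gaussian measure on a finite product. -/
noncomputable abbrev gamJ (J : Type*) [Fintype J] : Measure (J → ℝ) :=
  Measure.pi fun _ : J => gam1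

lemma pdf_hasDeriv (x : ℝ) :
    HasDerivAt (gaussianPDFReal 0 1) (-x * gaussianPDFReal 0 1 x) x := by
  have e : gaussianPDFReal 0 1 = fun x => (Real.sqrt (2 * Real.pi * (1 : ℝ≥0)))⁻¹ *
      Real.exp (-(x - 0) ^ 2 / (2 * (1 : ℝ≥0))) := by
    funext x
    rw [gaussianPDFReal_def]
  rw [e]
  have h1 : HasDerivAt (fun x : ℝ => -(x - 0) ^ 2 / (2 * ((1 : ℝ≥0) : ℝ))) (-x) x := by
    have := (((hasDerivAt_id' x).sub_const 0).fun_pow 2).neg.div_const (2 * ((1 : ℝ≥0) : ℝ))
    refine this.congr_deriv ?_
    simp
    ring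
  have := h1.exp.const_mul (Real.sqrt (2 * Real.pi * (1 : ℝ≥0)))⁻¹
  refine this.congr_deriv ?_
  ring

lemma integrable_x_pdf : Integrable fun x : ℝ => x * gaussianPDFReal 0 1 x :=
  integrable_mul_pdf (by norm_num) (integrable_id_gauss 0 1)

lemma integrable_pdf : Integrable (gaussianPDFReal 0 1) := integrable_gaussianPDFReal 0 1

lemma tendsto_pdf_atTop : Tendsto (gaussianPDFReal 0 1) atTop (𝓝 0) := by
  have e : gaussianPDFReal 0 1 = fun x => (Real.sqrt (2 * Real.pi * (1 : ℝ≥0)))⁻¹ *
      Real.exp (-(x - 0) ^ 2 / (2 * (1 : ℝ≥0))) := by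
    funext x
    rw [gaussianPDFReal_def]
  rw [e]
  have h1 : Tendsto (fun x : ℝ => (x - 0) ^ 2 / (2 * ((1 : ℝ≥0) : ℝ))) atTop atTop := by
    simp only [sub_zero, NNReal.coe_one, mul_one]
    exact (tendsto_pow_atTop (by norm_num)).atTop_div_const (by norm_num)
  have h2 : Tendsto (fun x : ℝ => Real.exp (-(x - 0) ^ 2 / (2 * ((1 : ℝ≥0) : ℝ)))) atTop (𝓝 0) := by
    have := Real.tendsto_exp_neg_atTop_nhds_zero.comp h1
    refine this.congr fun x => ?_
    simp only [Function.comp]
    congr 1
    ring
  simpa using h2.const_mul (Real.sqrt (2 * Real.pi * (1 : ℝ≥0)))⁻¹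

lemma tendsto_pdf_atBot : Tendsto (gaussianPDFReal 0 1) atBot (𝓝 0) := by
  have e : gaussianPDFReal 0 1 = fun x => gaussianPDFReal 0 1 (-x) := by
    funext x
    simp [gaussianPDFReal_def]
  rw [e]
  exact tendsto_pdf_atTop.comp tendsto_neg_atBot_atTop

/-- Integration by parts against the Gaussian density on the line. -/
lemma ibp_gauss1 {ψ ψ' : ℝ → ℝ} {B B' : ℝ} (hd : ∀ x, HasDerivAt ψ (ψ' x) x)
    (hψ : ∀ x, |ψ x| ≤ B) (hψ' : ∀ x, |ψ' x| ≤ B') (hc : Continuous ψ') :
    ∫ x, x * ψ x ∂gam1 = ∫ x, ψ' x ∂gam1 := by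
  have hcψ : Continuous ψ := continuous_iff_continuousAt.2 fun x => (hd x).continuousAt
  have hG : ∀ x, HasDerivAt (fun x => ψ x * gaussianPDFReal 0 1 x)
      (ψ' x * gaussianPDFReal 0 1 x - x * ψ x * gaussianPDFReal 0 1 x) x := by
    intro x
    have := (hd x).mul (pdf_hasDeriv x)
    refine this.congr_deriv ?_
    ring
  have hi1 : Integrable fun x => ψ' x * gaussianPDFReal 0 1 x := by
    refine integrable_pdf.bdd_mul (c := B') hc.aestronglyMeasurable ?_
    exact Eventually.of_forall fun x => by simpa [Real.norm_eq_abs] using hψ' x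
  have hi2 : Integrable fun x => x * ψ x * gaussianPDFReal 0 1 x := by
    have : (fun x => x * ψ x * gaussianPDFReal 0 1 x)
        = fun x => ψ x * (x * gaussianPDFReal 0 1 x) := by
      funext x
      ring
    rw [this]
    refine integrable_x_pdf.bdd_mul (c := B) hcψ.aestronglyMeasurable ?_
    exact Eventually.of_forall fun x => by simpa [Real.norm_eq_abs] using hψ x
  have hlim1 : Tendsto (fun x => ψ x * gaussianPDFReal 0 1 x) atTop (𝓝 0) := by
    refine squeeze_zero_norm (a := fun x => B * gaussianPDFReal 0 1 x) ?_ ?_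
    · intro x
      rw [norm_mul, Real.norm_eq_abs, Real.norm_eq_abs,
        abs_of_nonneg (gaussianPDFReal_nonneg 0 1 x)]
      exact mul_le_mul_of_nonneg_right (hψ x) (gaussianPDFReal_nonneg 0 1 x)
    · simpa using tendsto_pdf_atTop.const_mul B
  have hlim2 : Tendsto (fun x => ψ x * gaussianPDFReal 0 1 x) atBot (𝓝 0) := by
    refine squeeze_zero_norm (a := fun x => B * gaussianPDFReal 0 1 x) ?_ ?_
    · intro x
      rw [norm_mul, Real.norm_eq_abs, Real.norm_eq_abs,
        abs_of_nonneg (gaussianPDFReal_nonneg 0 1 x)]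
      exact mul_le_mul_of_nonneg_right (hψ x) (gaussianPDFReal_nonneg 0 1 x)
    · simpa using tendsto_pdf_atBot.const_mul B
  have h := integral_of_hasDerivAt_of_tendsto hG (hi1.sub hi2) hlim2 hlim1
  rw [integral_sub hi1 hi2, sub_zero, integral_mul_pdf _ _ (by norm_num),
    sub_eq_zero] at h
  rw [h, integral_mul_pdf (fun x => x * ψ x) 0 (by norm_num)]

/-- Resampling a coordinate preserves the product measure. -/
lemma map_update (j : J) :
    ((gamJ J).prod gam1).map (fun p : (J → ℝ) × ℝ => Function.update p.1 j p.2) = gamJ J := by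
  have hmeas : Measurable (fun p : (J → ℝ) × ℝ => Function.update p.1 j p.2) := by
    refine measurable_pi_iff.2 fun i => ?_
    by_cases h : i = j
    · subst h
      simp only [Function.update_self]
      exact measurable_snd
    · simp only [Function.update_of_ne h]
      exact (measurable_pi_apply i).comp measurable_fst
  symm
  refine Measure.pi_eq fun s hs => ?_
  rw [Measure.map_apply hmeas (MeasurableSet.univ_pi hs)]
  have hpre : (fun p : (J → ℝ) × ℝ => Function.update p.1 j p.2) ⁻¹' Set.pi Set.univ s
      = (Set.pi Set.univ (Function.update s j Set.univ)) ×ˢ s j := by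
    ext ⟨ω, x⟩
    simp only [Set.mem_preimage, Set.mem_pi, Set.mem_univ, forall_true_left, Set.mem_prod]
    constructor
    · intro h
      refine ⟨fun i => ?_, by simpa using h j⟩
      by_cases hi : i = j
      · subst hi
        simp
      · have := h i
        simpa [Function.update_of_ne hi] using this
    · rintro ⟨h1, h2⟩ i
      by_cases hi : i = j
      · subst hi
        simpa using h2
      · have := h1 i
        simpa [Function.update_of_ne hi] using this
  rw [hpre, Measure.prod_prod, Measure.pi_pi]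
  have hprod : (∏ i, gam1 (Function.update s j Set.univ i)) * gam1 (s j) = ∏ i, gam1 (s i) := by
    rw [← Finset.mul_prod_erase Finset.univ _ (Finset.mem_univ j),
      ← Finset.mul_prod_erase Finset.univ (fun i => gam1 (s i)) (Finset.mem_univ j)]
    simp only [Function.update_self, measure_univ, one_mul]
    rw [mul_comm]
    congr 1
    refine Finset.prod_congr rfl fun i hi => ?_
    rw [Function.update_of_ne (Finset.ne_of_mem_erase hi)]
  exact hprod

lemma measurable_update (j : J) :
    Measurable (fun p : (J → ℝ) × ℝ => Function.update p.1 j p.2) := by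
  refine measurable_pi_iff.2 fun i => ?_
  by_cases h : i = j
  · subst h
    simp only [Function.update_self]
    exact measurable_snd
  · simp only [Function.update_of_ne h]
    exact (measurable_pi_apply i).comp measurable_fst

/-- Integrating out one coordinate. -/
lemma integral_update (j : J) {Φ : (J → ℝ) → ℝ} (hΦ : Integrable Φ (gamJ J)) :
    ∫ ω, Φ ω ∂(gamJ J) = ∫ ω, ∫ x, Φ (Function.update ω j x) ∂gam1 ∂(gamJ J) := by
  have hm := map_update (J := J) j
  have hmeas := measurable_update (J := J) j
  have hint : Integrable (fun p : (J → ℝ) × ℝ => Φ (Function.update p.1 j p.2))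
      ((gamJ J).prod gam1) := by
    rw [← hm] at hΦ
    exact hΦ.comp_measurable hmeas
  rw [← integral_prod _ hint]
  conv_lhs => rw [← hm]
  rw [integral_map hmeas.aemeasurable (by rw [hm]; exact hΦ.aestronglyMeasurable)]

lemma integrable_coord_gamJ (j : J) : Integrable (fun ω : J → ℝ => ω j) (gamJ J) := by
  have h := (measurePreserving_eval (fun _ : J => gam1) j).integrable_comp
    (integrable_id_gauss 0 1).aestronglyMeasurable
  exact h.2 (integrable_id_gauss 0 1)

/-- Gaussian integration by parts in a coordinate. -/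
theorem ibp_pi (j : J) {φ φ' : (J → ℝ) → ℝ} {B B' : ℝ} (hc : Continuous φ) (hc' : Continuous φ')
    (hd : ∀ ω x, HasDerivAt (fun x => φ (Function.update ω j x)) (φ' (Function.update ω j x)) x)
    (hB : ∀ ω, |φ ω| ≤ B) (hB' : ∀ ω, |φ' ω| ≤ B') :
    ∫ ω, ω j * φ ω ∂(gamJ J) = ∫ ω, φ' ω ∂(gamJ J) := by
  have hint1 : Integrable (fun ω : J → ℝ => ω j * φ ω) (gamJ J) := by
    refine (integrable_coord_gamJ j).mul_bdd (c := B) hc.aestronglyMeasurable ?_
    exact Eventually.of_forall fun ω => by simpa [Real.norm_eq_abs] using hB ω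
  have hint2 : Integrable φ' (gamJ J) := by
    refine Integrable.of_bound hc'.aestronglyMeasurable B' ?_
    exact Eventually.of_forall fun ω => by simpa [Real.norm_eq_abs] using hB' ω
  rw [integral_update j hint1, integral_update j hint2]
  congr 1
  funext ω
  simp only [Function.update_self]
  have hcont : Continuous fun x => φ' (Function.update ω j x) :=
    hc'.comp (continuous_const.update j continuous_id)
  exact ibp_gauss1 (hd ω) (fun x => hB _) (fun x => hB' _) hcont

end Vale.Agent.Lib.P150
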