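import Mathlib

/-!
One dimensional Gaussian density integrals and products of them on `Fin n → ℝ`.
-/

open scoped BigOperators NNReal ENNReal
open MeasureTheory ProbabilityTheory

namespace Vale.Agent.Lib.P150

lemma integrable_mul_pdf {f : ℝ → ℝ} {m : ℝ} {v : ℝ≥0} (hv : v ≠ 0)
    (hf : Integrable f (gaussianReal m v)) :
    Integrable (fun x => f x * gaussianPDFReal m v x) := by
  rw [gaussianReal_of_var_ne_zero m hv, gaussianPDF_def] at hf
  have hm : Measurable fun x => ENNReal.ofReal (gaussianPDFReal m v x) :=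
    (measurable_gaussianPDFReal m v).ennreal_ofReal
  have := (integrable_withDensity_iff_integrable_smul₀' (μ := volume) hm.aemeasurable
    (by simp)).1 hf
  refine this.congr ?_
  filter_upwards with x
  simp only [smul_eq_mul]
  rw [ENNReal.toReal_ofReal (gaussianPDFReal_nonneg m v x)]
  ring

lemma integral_mul_pdf (f : ℝ → ℝ) (m : ℝ) {v : ℝ≥0} (hv : v ≠ 0) :
    ∫ x, f x * gaussianPDFReal m v x = ∫ x, f x ∂(gaussianReal m v) := by
  rw [integral_gaussianReal_eq_integral_smul hv]
  refine integral_congr_ae ?_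
  filter_upwards with x
  simp only [smul_eq_mul]
  ring

lemma integrable_id_gauss (m : ℝ) (v : ℝ≥0) : Integrable (fun x : ℝ => x) (gaussianReal m v) := by
  have := memLp_id_gaussianReal (μ := m) (v := v) 1
  exact (memLp_one_iff_integrable.1 this)

lemma integrable_sq_gauss (m : ℝ) (v : ℝ≥0) : Integrable (fun x : ℝ => x ^ 2) (gaussianReal m v) := by
  have := memLp_id_gaussianReal (μ := m) (v := v) 2
  have h2 := this.integrable_norm_pow (by norm_num : (2 : ℕ) ≠ 0)
  simpa using h2

lemma integral_sq_gauss (m : ℝ) (v : ℝ≥0) : ∫ x, x ^ 2 ∂(gaussianReal m v) = m ^ 2 + v := by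
  have hvar := variance_id_gaussianReal (μ := m) (v := v)
  have hm := memLp_id_gaussianReal' (μ := m) (v := v) 2 (by norm_num)
  rw [variance_eq_sub hm] at hvar
  have hi : ∫ x, x ∂(gaussianReal m v) = m := integral_id_gaussianReal
  simp only [id, Pi.pow_apply, hi] at hvar
  linarith

/-- The product density on `Fin n → ℝ`. -/
noncomputable def prodPdf {n : ℕ} (m : Fin n → ℝ) (v : ℝ≥0) (z : Fin n → ℝ) : ℝ :=
  ∏ i, gaussianPDFReal (m i) v (z i)

lemma prodPdf_pos {n : ℕ} (m : Fin n → ℝ) {v : ℝ≥0} (hv : v ≠ 0) (z : Fin n → ℝ) :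
    0 < prodPdf m v z :=
  Finset.prod_pos fun i _ => gaussianPDFReal_pos _ _ _ hv

lemma measurable_prodPdf {n : ℕ} (m : Fin n → ℝ) (v : ℝ≥0) : Measurable (prodPdf m v) := by
  unfold prodPdf
  exact Finset.measurable_prod _ fun i _ =>
    (measurable_gaussianPDFReal (m i) v).comp (measurable_pi_apply i)

/-- Integrals of product functions against the product density. -/
lemma integrable_prod_weight {n : ℕ} (m : Fin n → ℝ) {v : ℝ≥0} (φ : Fin n → ℝ → ℝ)
    (hφ : ∀ i, Integrable (fun x => φ i x * gaussianPDFReal (m i) v x)) :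
    Integrable (fun z : Fin n → ℝ => (∏ i, φ i (z i)) * prodPdf m v z) := by
  have h := Integrable.fintype_prod (μ := fun _ : Fin n => (volume : Measure ℝ)) hφ
  rw [← volume_pi] at h
  refine h.congr ?_
  filter_upwards with z
  rw [Finset.prod_mul_distrib]
  rfl

lemma integral_prod_weight {n : ℕ} (m : Fin n → ℝ) (v : ℝ≥0) (φ : Fin n → ℝ → ℝ) :
    ∫ z : Fin n → ℝ, (∏ i, φ i (z i)) * prodPdf m v z
      = ∏ i, ∫ x, φ i x * gaussianPDFReal (m i) v x := by
  have h := integral_fintype_prod_volume_eq_prod (𝕜 := ℝ) (ι := Fin n) (E := fun _ => ℝ)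
    (fun i x => φ i x * gaussianPDFReal (m i) v x)
  rw [← h]
  refine integral_congr_ae ?_
  filter_upwards with z
  rw [Finset.prod_mul_distrib]
  rfl

lemma integrable_one_pdf (m : ℝ) (v : ℝ≥0) : Integrable (fun x => (1 : ℝ) * gaussianPDFReal m v x) := by
  simpa using integrable_gaussianPDFReal m v

lemma integral_one_pdf (m : ℝ) {v : ℝ≥0} (hv : v ≠ 0) :
    ∫ x, (1 : ℝ) * gaussianPDFReal m v x = 1 := by
  simpa using integral_gaussianPDFReal_eq_one m hv

/-- Total mass one. -/
lemma integral_prodPdf {n : ℕ} (m : Fin n → ℝ) {v : ℝ≥0} (hv : v ≠ 0) :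
    ∫ z : Fin n → ℝ, prodPdf m v z = 1 := by
  have := integral_prod_weight m v (fun _ _ => 1)
  simp only [Finset.prod_const_one, one_mul, integral_gaussianPDFReal_eq_one _ hv] at this
  exact this

lemma integrable_prodPdf {n : ℕ} (m : Fin n → ℝ) (v : ℝ≥0) :
    Integrable (prodPdf m v) := by
  have := integrable_prod_weight m (v := v) (fun _ _ => 1) (fun i => integrable_one_pdf (m i) v)
  simpa using this

/-- One coordinate. -/
lemma integrable_coord {n : ℕ} (m : Fin n → ℝ) {v : ℝ≥0} (a : Fin n) {α : ℝ → ℝ}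
    (hα : Integrable (fun x => α x * gaussianPDFReal (m a) v x)) :
    Integrable (fun z : Fin n → ℝ => α (z a) * prodPdf m v z) := by
  classical
  have := integrable_prod_weight m (v := v) (fun i x => if i = a then α x else 1) (by
    intro i
    by_cases h : i = a
    · subst h; simpa using hα
    · simpa [h] using integrable_gaussianPDFReal (m i) v)
  refine this.congr ?_
  filter_upwards with z
  simp [Finset.prod_ite_eq']

lemma integral_coord {n : ℕ} (m : Fin n → ℝ) {v : ℝ≥0} (hv : v ≠ 0) (a : Fin n) (α : ℝ → ℝ) :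
    ∫ z : Fin n → ℝ, α (z a) * prodPdf m v z = ∫ x, α x * gaussianPDFReal (m a) v x := by
  classical
  have := integral_prod_weight m v (fun i x => if i = a then α x else 1)
  have e1 : ∀ z : Fin n → ℝ, (∏ i, (if i = a then α (z i) else 1)) = α (z a) := by
    intro z
    simp [Finset.prod_ite_eq']
  simp only [e1] at this
  rw [this, Finset.prod_eq_single a]
  · simp
  · intro i _ h
    simp only [h, if_false, one_mul]
    exact integral_gaussianPDFReal_eq_one _ hv
  · simp

lemma prod_two_ite {n : ℕ} (a b : Fin n) (α β : ℝ → ℝ) (z : Fin n → ℝ) :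
    (∏ i, ((if i = a then α (z i) else 1) * (if i = b then β (z i) else 1)))
      = α (z a) * β (z b) := by
  rw [Finset.prod_mul_distrib, Finset.prod_ite_eq', Finset.prod_ite_eq']
  simp

/-- Two distinct coordinates. -/
lemma integrable_two {n : ℕ} (m : Fin n → ℝ) {v : ℝ≥0} {a b : Fin n} (hab : a ≠ b) {α β : ℝ → ℝ}
    (hα : Integrable (fun x => α x * gaussianPDFReal (m a) v x))
    (hβ : Integrable (fun x => β x * gaussianPDFReal (m b) v x)) :
    Integrable (fun z : Fin n → ℝ => α (z a) * β (z b) * prodPdf m v z) := by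
  classical
  have := integrable_prod_weight m (v := v)
    (fun i x => (if i = a then α x else 1) * (if i = b then β x else 1)) (by
    intro i
    by_cases h : i = a
    · subst h; simpa [hab] using hα
    · by_cases h' : i = b
      · subst h'; simpa [h] using hβ
      · simpa [h, h'] using integrable_gaussianPDFReal (m i) v)
  refine this.congr ?_
  filter_upwards with z
  rw [prod_two_ite]

lemma integral_two {n : ℕ} (m : Fin n → ℝ) {v : ℝ≥0} (hv : v ≠ 0) {a b : Fin n} (hab : a ≠ b)
    (α β : ℝ → ℝ) :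
    ∫ z : Fin n → ℝ, α (z a) * β (z b) * prodPdf m v z
      = (∫ x, α x * gaussianPDFReal (m a) v x) * ∫ x, β x * gaussianPDFReal (m b) v x := by
  classical
  have := integral_prod_weight m v
    (fun i x => (if i = a then α x else 1) * (if i = b then β x else 1))
  simp only [prod_two_ite] at this
  rw [this]
  have hb : b ≠ a := Ne.symm hab
  rw [← Finset.mul_prod_erase Finset.univ _ (Finset.mem_univ a)]
  rw [← Finset.mul_prod_erase (Finset.univ.erase a) _
    (Finset.mem_erase.2 ⟨hb, Finset.mem_univ b⟩)]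
  simp only [if_true, hab, hb, if_false, mul_one, one_mul]
  rw [Finset.prod_eq_one, mul_one]
  intro i hi
  have h1 : i ≠ b := (Finset.mem_erase.1 hi).1
  have h2 : i ≠ a := (Finset.mem_erase.1 (Finset.mem_erase.1 hi).2).1
  simp only [h1, h2, if_false, one_mul, mul_one]
  exact integral_gaussianPDFReal_eq_one _ hv

/-- Jensen for the exponential against a probability density, by the tangent line. -/
lemma exp_integral_le {E : Type*} [MeasurableSpace E] {μ : Measure E} {f D : E → ℝ}
    (hD : ∀ z, 0 ≤ D z) (hD1 : ∫ z, D z ∂μ = 1) (hDi : Integrable D μ)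
    (hf : Integrable (fun z => f z * D z) μ)
    (hexp : Integrable (fun z => Real.exp (f z) * D z) μ) :
    Real.exp (∫ z, f z * D z ∂μ) ≤ ∫ z, Real.exp (f z) * D z ∂μ := by
  set a := ∫ z, f z * D z ∂μ with ha
  have hpt : ∀ z, Real.exp a * ((1 - a) * D z + f z * D z) ≤ Real.exp (f z) * D z := by
    intro z
    have h1 : f z - a + 1 ≤ Real.exp (f z - a) := Real.add_one_le_exp _
    have h2 : Real.exp (f z) = Real.exp a * Real.exp (f z - a) := by
      rw [← Real.exp_add]; congr 1; ring
    rw [h2]
    have h3 : 0 ≤ Real.exp a := (Real.exp_pos a).le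
    have h4 := mul_le_mul_of_nonneg_left h1 h3
    have h5 := mul_le_mul_of_nonneg_right h4 (hD z)
    nlinarith
  have hint : Integrable (fun z => Real.exp a * ((1 - a) * D z + f z * D z)) μ :=
    ((hDi.const_mul (1 - a)).add hf).const_mul _
  have hmono := integral_mono hint hexp hpt
  rw [integral_const_mul, integral_add (hDi.const_mul _) hf, integral_const_mul, hD1, ← ha] at hmono
  have e : Real.exp a * ((1 - a) * 1 + a) = Real.exp a := by ring
  rwa [e] at hmono

end Vale.Agent.Lib.P150
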