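import Vale.Agent.Lib.P150.Cube

/-!
Evolution of the `ℓ²` gradient under the semigroup, and consequences.
-/

open scoped BigOperators Matrix

namespace Vale.Agent.Lib.P150

variable {n : ℕ}

/-- A matrix `L` acting as a generator with flip rates `c`. -/
structure IsRateGen (L : Matrix (Conf n) (Conf n) ℝ) (c : Conf n → Fin n → ℝ) : Prop where
  act : ∀ G x, (L *ᵥ G) x = rateAct c G x
  offdiag : ∀ x y, x ≠ y → 0 ≤ L x y
  row : ∀ x, ∑ y, L x y = 0
  pos : ∀ x i, 0 < c x i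
  sum_one : ∀ x i, c x i + c (flipAt x i) i = 1

section abstract

variable {L : Matrix (Conf n) (Conf n) ℝ} {c : Conf n → Fin n → ℝ}

lemma IsRateGen.le_one (h : IsRateGen L c) (x : Conf n) (i : Fin n) : c x i ≤ 1 := by
  have h1 := h.sum_one x i
  have h2 := h.pos (flipAt x i) i
  linarith

/-- Markov operators preserve upper bounds. -/
lemma IsRateGen.semi_le (h : IsRateGen L c) {g : Conf n → ℝ} {M : ℝ} (hg : ∀ y, g y ≤ M)
    {t : ℝ} (ht : 0 ≤ t) (x : Conf n) : (semi L t *ᵥ g) x ≤ M := by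
  have hrow := semi_rowsum L h.row t x
  calc (semi L t *ᵥ g) x = ∑ y, semi L t x y * g y := rfl
    _ ≤ ∑ y, semi L t x y * M := Finset.sum_le_sum fun y _ =>
        mul_le_mul_of_nonneg_left (hg y) (semi_nonneg L h.offdiag t ht x y)
    _ = M := by rw [← Finset.sum_mul, hrow, one_mul]

lemma IsRateGen.semi_ge (h : IsRateGen L c) {g : Conf n → ℝ} {M : ℝ} (hg : ∀ y, M ≤ g y)
    {t : ℝ} (ht : 0 ≤ t) (x : Conf n) : M ≤ (semi L t *ᵥ g) x := by
  have hrow := semi_rowsum L h.row t x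
  calc M = ∑ y, semi L t x y * M := by rw [← Finset.sum_mul, hrow, one_mul]
    _ ≤ ∑ y, semi L t x y * g y := Finset.sum_le_sum fun y _ =>
        mul_le_mul_of_nonneg_left (hg y) (semi_nonneg L h.offdiag t ht x y)
    _ = (semi L t *ᵥ g) x := rfl

lemma hasDerivAt_gradSq (f : Conf n → ℝ) (r : ℝ) (y : Conf n) :
    HasDerivAt (fun s => gradSq (semi L s *ᵥ f) y)
      (2 * ∑ i, ((semi L r *ᵥ f) (flipAt y i) - (semi L r *ᵥ f) y) *
        ((L *ᵥ (semi L r *ᵥ f)) (flipAt y i) - (L *ᵥ (semi L r *ᵥ f)) y)) r := by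
  unfold gradSq
  have h : ∀ i : Fin n, HasDerivAt
      (fun s => ((semi L s *ᵥ f) (flipAt y i) - (semi L s *ᵥ f) y) ^ 2)
      (2 * (((semi L r *ᵥ f) (flipAt y i) - (semi L r *ᵥ f) y) *
        ((L *ᵥ (semi L r *ᵥ f)) (flipAt y i) - (L *ᵥ (semi L r *ᵥ f)) y))) r := by
    intro i
    have := ((hasDerivAt_semi_mulVec' L f r (flipAt y i)).fun_sub
      (hasDerivAt_semi_mulVec' L f r y)).fun_pow 2
    refine this.congr_deriv ?_
    simp only [Nat.cast_ofNat, Nat.add_one_sub_one, pow_one]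
    ring
  have := HasDerivAt.fun_sum (u := Finset.univ) fun i _ => h i
  rw [Finset.mul_sum]
  exact this

/-- The gradient estimate: if `restTerm ≤ K |u|²` everywhere, then the sup of the squared gradient
grows at rate at most `K - 2`. -/
theorem IsRateGen.gradSq_semi_le (h : IsRateGen L c) {K : ℝ}
    (hK : ∀ x u, restTerm c x u ≤ K * ∑ i, u i ^ 2)
    {f : Conf n → ℝ} {M : ℝ} (hf : ∀ y, gradSq f y ≤ M) {t : ℝ} (ht : 0 ≤ t) (x : Conf n) :
    gradSq (semi L t *ᵥ f) x ≤ Real.exp ((K - 2) * t) * M := by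
  have hcomp := comparison L h.offdiag (Q := fun r y => gradSq (semi L r *ᵥ f) y)
    (Q' := fun r y => 2 * ∑ i, ((semi L r *ᵥ f) (flipAt y i) - (semi L r *ᵥ f) y) *
        ((L *ᵥ (semi L r *ᵥ f)) (flipAt y i) - (L *ᵥ (semi L r *ᵥ f)) y))
    (κ := K - 2) (T := t) ht (fun r y => hasDerivAt_gradSq f r y) ?_ x
  · refine hcomp.trans ?_
    refine mul_le_mul_of_nonneg_left ?_ (Real.exp_pos _).le
    refine h.semi_le (fun y => ?_) ht x
    simpa [semi_zero] using hf y
  · intro r _ _ y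
    have hb := bochner c h.pos h.sum_one (semi L r *ᵥ f) y
    have hr := hK y (fun i => (semi L r *ᵥ f) (flipAt y i) - (semi L r *ᵥ f) y)
    have e : ∑ i, ((semi L r *ᵥ f) (flipAt y i) - (semi L r *ᵥ f) y) ^ 2
        = gradSq (semi L r *ᵥ f) y := rfl
    rw [e] at hr
    have e2 : ∀ z, (L *ᵥ (semi L r *ᵥ f)) z = rateAct c (semi L r *ᵥ f) z := fun z => h.act _ z
    have e3 : (L *ᵥ (fun y => gradSq (semi L r *ᵥ f) y)) y
        = rateAct c (gradSq (semi L r *ᵥ f)) y := h.act _ y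
    simp only [e2]
    rw [e3]
    nlinarith

/-- Variance along the dynamics. -/
theorem IsRateGen.variance_le (h : IsRateGen L c) {f : Conf n → ℝ} {M₀ T : ℝ} (hT : 0 ≤ T)
    (hM : ∀ r, 0 ≤ r → r ≤ T → ∀ y, gradSq (semi L r *ᵥ f) y ≤ M₀) (x : Conf n) :
    (semi L T *ᵥ (fun y => f y ^ 2)) x - ((semi L T *ᵥ f) x) ^ 2 ≤ M₀ * T := by
  have hcomp := comparison L h.offdiag
    (Q := fun r y => - ((semi L r *ᵥ f) y) ^ 2 - M₀ * r)
    (Q' := fun r y => - (2 * (semi L r *ᵥ f) y * (L *ᵥ (semi L r *ᵥ f)) y) - M₀)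
    (κ := 0) (T := T) hT ?_ ?_ x
  · simp only [zero_mul, Real.exp_zero, one_mul] at hcomp
    have e0 : (fun y => - ((semi L 0 *ᵥ f) y) ^ 2 - M₀ * 0) = fun y => - f y ^ 2 := by
      funext y
      simp [semi_zero]
    have e : (semi L T *ᵥ fun y => - ((semi L 0 *ᵥ f) y) ^ 2 - M₀ * 0) x
        = - (semi L T *ᵥ (fun y => f y ^ 2)) x := by
      rw [e0]
      simp only [Matrix.mulVec, dotProduct]
      rw [← Finset.sum_neg_distrib]
      refine Finset.sum_congr rfl fun y _ => ?_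
      ring
    rw [e] at hcomp
    linarith
  · intro r y
    have h1 := (hasDerivAt_semi_mulVec' L f r y).fun_pow 2
    have h2 : HasDerivAt (fun s : ℝ => M₀ * s) M₀ r := by
      simpa using (hasDerivAt_id' r).const_mul M₀
    have h3 := h1.fun_neg.fun_sub h2
    refine h3.congr_deriv ?_
    simp
  · intro r h0 hr y
    have hg := hM r h0 hr y
    set g := semi L r *ᵥ f with hgdef
    -- `L (g^2) = 2 g L g + ∑ c (D g)^2`
    have hact : (L *ᵥ fun y => - g y ^ 2 - M₀ * r) y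
        = - (2 * g y * rateAct c g y) - ∑ k, c y k * (g (flipAt y k) - g y) ^ 2 := by
      rw [h.act]
      simp only [rateAct]
      rw [Finset.mul_sum, ← Finset.sum_neg_distrib, ← Finset.sum_sub_distrib]
      refine Finset.sum_congr rfl fun k _ => ?_
      ring
    have hbd : ∑ k, c y k * (g (flipAt y k) - g y) ^ 2 ≤ gradSq g y := by
      refine Finset.sum_le_sum fun k _ => ?_
      have := h.le_one y k
      nlinarith [sq_nonneg (g (flipAt y k) - g y)]
    rw [hact, h.act g y]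
    simp only [zero_mul, add_zero]
    linarith

end abstract

end Vale.Agent.Lib.P150
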