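import Mathlib

/-!
Scalar facts on the heat bath flip probability `ψ(y) = exp(-y) / (2 cosh y)`.
-/

namespace Vale.Agent.Lib.P150

/-- Flip probability as a function of `y = x_i h_i`. -/
noncomputable def psi (y : ℝ) : ℝ := Real.exp (-y) / (2 * Real.cosh y)

lemma psi_eq (y : ℝ) : psi y = (1 - Real.tanh y) / 2 := by
  unfold psi
  rw [Real.tanh_eq_sinh_div_cosh]
  have hc : Real.cosh y ≠ 0 := (Real.cosh_pos y).ne'
  have he : Real.exp (-y) = Real.cosh y - Real.sinh y := by
    rw [Real.cosh_eq, Real.sinh_eq]; ring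
  rw [he]
  field_simp

lemma psi_pos (y : ℝ) : 0 < psi y := by
  unfold psi
  have := Real.cosh_pos y
  have := Real.exp_pos (-y)
  positivity

lemma psi_add_neg (y : ℝ) : psi y + psi (-y) = 1 := by
  rw [psi_eq, psi_eq, Real.tanh_neg]
  ring

lemma tanh_sub' (y z : ℝ) :
    Real.tanh (y - z) = (Real.tanh y - Real.tanh z) / (1 - Real.tanh y * Real.tanh z) := by
  simp only [Real.tanh_eq_sinh_div_cosh]
  have hy := (Real.cosh_pos y).ne'
  have hz := (Real.cosh_pos z).ne'
  have hyz := (Real.cosh_pos (y - z)).ne'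
  rw [Real.sinh_sub, Real.cosh_sub] at *
  have h1 : 1 - Real.sinh y / Real.cosh y * (Real.sinh z / Real.cosh z)
      = (Real.cosh y * Real.cosh z - Real.sinh y * Real.sinh z) / (Real.cosh y * Real.cosh z) := by
    field_simp
  rw [h1]
  field_simp

lemma self_cosh_sub_sinh_nonneg {z : ℝ} (hz : 0 ≤ z) : 0 ≤ z * Real.cosh z - Real.sinh z := by
  have hd : ∀ w : ℝ, HasDerivAt (fun w => w * Real.cosh w - Real.sinh w) (w * Real.sinh w) w := by
    intro w
    have := ((hasDerivAt_id' w).mul (Real.hasDerivAt_cosh w)).fun_sub (Real.hasDerivAt_sinh w)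
    refine this.congr_deriv ?_
    ring
  have hmono : MonotoneOn (fun w => w * Real.cosh w - Real.sinh w) (Set.Ici 0) := by
    apply monotoneOn_of_deriv_nonneg (convex_Ici 0)
    · exact fun w _ => (hd w).continuousAt.continuousWithinAt
    · exact fun w _ => (hd w).differentiableAt.differentiableWithinAt
    · intro w hw
      rw [interior_Ici] at hw
      rw [(hd w).deriv]
      exact mul_nonneg (le_of_lt hw) (Real.sinh_nonneg_iff.2 (le_of_lt hw))
  have := hmono (Set.self_mem_Ici) (Set.mem_Ici.2 hz) hz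
  simpa using this

lemma tanh_le_self {z : ℝ} (hz : 0 ≤ z) : Real.tanh z ≤ z := by
  rw [Real.tanh_eq_sinh_div_cosh, div_le_iff₀ (Real.cosh_pos z)]
  linarith [self_cosh_sub_sinh_nonneg hz]

lemma sub_cube_le_tanh {z : ℝ} (hz : 0 ≤ z) : z - z ^ 3 / 3 ≤ Real.tanh z := by
  rw [Real.tanh_eq_sinh_div_cosh, le_div_iff₀ (Real.cosh_pos z)]
  have hd : ∀ w : ℝ, HasDerivAt (fun w => Real.sinh w - (w - w ^ 3 / 3) * Real.cosh w)
      (w * (w * Real.cosh w - Real.sinh w) + w ^ 3 / 3 * Real.sinh w) w := by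
    intro w
    have h1 : HasDerivAt (fun w : ℝ => w - w ^ 3 / 3) (1 - w ^ 2) w := by
      have := (hasDerivAt_id' w).fun_sub (((hasDerivAt_id' w).fun_pow 3).div_const 3)
      refine this.congr_deriv ?_
      simp
    have := (Real.hasDerivAt_sinh w).fun_sub (h1.mul (Real.hasDerivAt_cosh w))
    refine this.congr_deriv ?_
    ring
  have hmono : MonotoneOn (fun w => Real.sinh w - (w - w ^ 3 / 3) * Real.cosh w) (Set.Ici 0) := by
    apply monotoneOn_of_deriv_nonneg (convex_Ici 0)
    · exact fun w _ => (hd w).continuousAt.continuousWithinAt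
    · exact fun w _ => (hd w).differentiableAt.differentiableWithinAt
    · intro w hw
      rw [interior_Ici] at hw
      have hw0 : (0 : ℝ) ≤ w := le_of_lt hw
      rw [(hd w).deriv]
      have h1 := self_cosh_sub_sinh_nonneg hw0
      have h2 := Real.sinh_nonneg_iff.2 hw0
      positivity
  have := hmono (Set.self_mem_Ici) (Set.mem_Ici.2 hz) hz
  simp only [Real.sinh_zero, ne_eq, OfNat.ofNat_ne_zero, not_false_eq_true, zero_pow, zero_div,
    sub_self, zero_mul] at this
  linarith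

lemma tanh_nonneg_of {z : ℝ} (hz : 0 ≤ z) : 0 ≤ Real.tanh z := by
  rw [Real.tanh_eq_sinh_div_cosh]
  exact div_nonneg (Real.sinh_nonneg_iff.2 hz) (Real.cosh_pos z).le

lemma abs_tanh_le (z : ℝ) : |Real.tanh z| ≤ |z| := by
  rcases le_total 0 z with hz | hz
  · rw [abs_of_nonneg hz, abs_of_nonneg (tanh_nonneg_of hz)]
    exact tanh_le_self hz
  · have h := tanh_le_self (neg_nonneg.2 hz)
    rw [Real.tanh_neg] at h
    have h0 : Real.tanh z ≤ 0 := by
      have := tanh_nonneg_of (neg_nonneg.2 hz)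
      rw [Real.tanh_neg] at this
      linarith
    rw [abs_of_nonpos hz, abs_of_nonpos h0]
    exact h

lemma abs_tanh_sub_self_le (z : ℝ) : |Real.tanh z - z| ≤ |z| ^ 3 / 3 := by
  rcases le_total 0 z with hz | hz
  · rw [abs_of_nonneg hz, abs_le]
    constructor
    · have := sub_cube_le_tanh hz
      linarith
    · have := tanh_le_self hz
      have : 0 ≤ z ^ 3 / 3 := by positivity
      linarith
  · have h1 := tanh_le_self (neg_nonneg.2 hz)
    have h2 := sub_cube_le_tanh (neg_nonneg.2 hz)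
    rw [Real.tanh_neg] at h1 h2
    rw [abs_of_nonpos hz, abs_le]
    have h3 : 0 ≤ (-z) ^ 3 / 3 := by
      have := neg_nonneg.2 hz
      positivity
    constructor <;> linarith

/-- Exact formula for the change of the flip probability. -/
lemma psi_sub (y a : ℝ) :
    psi (y - 2 * a) - psi y
      = Real.tanh (2 * a) * (1 - Real.tanh y ^ 2) / (2 * (1 - Real.tanh y * Real.tanh (2 * a))) := by
  rw [psi_eq, psi_eq, tanh_sub']
  have h1 := Real.abs_tanh_lt_one y
  have h2 := Real.abs_tanh_lt_one (2 * a)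
  set t := Real.tanh y
  set τ := Real.tanh (2 * a)
  have hD : 1 - t * τ ≠ 0 := by
    have : |t * τ| < 1 := by
      rw [abs_mul]
      have := abs_nonneg t
      have := abs_nonneg τ
      nlinarith
    have := (abs_lt.1 this).2
    linarith
  field_simp
  ring

/-- The two bounds used in the Bochner error term. -/
theorem psi_delta_bounds (y a : ℝ) (ha : |a| ≤ 1 / 1000) :
    |psi (y - 2 * a) - psi y - a * (1 - Real.tanh y ^ 2)| ≤ 39 / 50 * a ^ 2 ∧
    (psi (y - 2 * a) - psi y) ^ 2 / psi y ≤ 12 / 5 * a ^ 2 := by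
  have ht1 := Real.abs_tanh_lt_one y
  set t := Real.tanh y with ht
  set τ := Real.tanh (2 * a) with hτ
  have hτa : |τ| ≤ 2 * |a| := by
    have := abs_tanh_le (2 * a)
    rwa [abs_mul, abs_two] at this
  have hτ2 : τ ^ 2 ≤ 4 * a ^ 2 := by
    have : τ ^ 2 = |τ| ^ 2 := (sq_abs τ).symm
    rw [this]
    have h0 := abs_nonneg τ
    have h1 := abs_nonneg a
    have h2 : a ^ 2 = |a| ^ 2 := (sq_abs a).symm
    rw [h2]
    nlinarith
  have htτ : |t * τ| ≤ 1 / 500 := by
    rw [abs_mul]
    have := abs_nonneg t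
    have := abs_nonneg τ
    nlinarith
  set D := 1 - t * τ with hD
  have hDlow : 499 / 500 ≤ D := by
    have := (abs_le.1 htτ).2
    simp only [hD]
    linarith
  have hDpos : 0 < D := by linarith
  have hinv : 1 / D ≤ 500 / 499 := by
    rw [div_le_div_iff₀ hDpos (by norm_num)]
    linarith
  have hinv0 : 0 < 1 / D := by positivity
  have hsub := psi_sub y a
  rw [← ht, ← hτ] at hsub
  have hts : |t| < 1 := ht1
  have ht_lo := (abs_lt.1 hts).1
  have ht_hi := (abs_lt.1 hts).2
  have hsn : 0 < 1 - t ^ 2 := by nlinarith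
  set s := 1 - t ^ 2 with hs
  constructor
  · -- first bound
    have hcub : |τ / 2 - a| ≤ 4 / 3 * |a| ^ 3 := by
      have := abs_tanh_sub_self_le (2 * a)
      rw [abs_mul, abs_two, mul_pow] at this
      have e : τ / 2 - a = (τ - 2 * a) / 2 := by ring
      rw [e, abs_div, abs_two, div_le_iff₀ (by norm_num)]
      rw [← hτ] at this
      calc |τ - 2 * a| ≤ 2 ^ 3 * |a| ^ 3 / 3 := this
        _ = 4 / 3 * |a| ^ 3 * 2 := by ring
    have e0 : ∀ D' : ℝ, D' ≠ 0 → D' = 1 - t * τ →
        τ * s / (2 * D') - a * s = s * (τ / 2 - a) + s * t * (τ ^ 2 / 2 * (1 / D')) := by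
      intro D' h0 h1
      field_simp
      rw [h1]
      ring
    have e : psi (y - 2 * a) - psi y - a * s = s * (τ / 2 - a) + s * t * (τ ^ 2 / 2 * (1 / D)) := by
      rw [hsub]
      exact e0 D hDpos.ne' rfl
    rw [e]
    have hst : |s * t| ≤ 77 / 200 := by
      rw [abs_mul, abs_of_pos hsn]
      have h0 := abs_nonneg t
      have : s = 1 - |t| ^ 2 := by rw [sq_abs]
      rw [this]
      nlinarith [sq_nonneg (|t| - 577 / 1000), mul_nonneg h0 (sq_nonneg (|t| - 577 / 1000))]
    have hs1 : s ≤ 1 := by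
      simp only [hs]
      nlinarith [sq_nonneg t]
    have ha0 := abs_nonneg a
    have haa : a ^ 2 = |a| ^ 2 := (sq_abs a).symm
    have h1 : |s * (τ / 2 - a)| ≤ 1 / 750 * a ^ 2 := by
      rw [abs_mul, abs_of_pos hsn, haa]
      calc s * |τ / 2 - a| ≤ 1 * (4 / 3 * |a| ^ 3) :=
            mul_le_mul hs1 hcub (abs_nonneg _) (by norm_num)
        _ ≤ 1 / 750 * |a| ^ 2 := by
            have : |a| ^ 3 = |a| * |a| ^ 2 := by ring
            rw [this]
            have h2 : 0 ≤ |a| ^ 2 := by positivity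
            nlinarith
    have h2 : |s * t * (τ ^ 2 / 2 * (1 / D))| ≤ 77 / 100 * (500 / 499) * a ^ 2 := by
      have h3 : τ ^ 2 / 2 ≤ 2 * a ^ 2 := by linarith
      have h4 : 0 ≤ τ ^ 2 / 2 := by positivity
      rw [abs_mul (s * t), abs_of_nonneg (mul_nonneg h4 hinv0.le)]
      calc |s * t| * (τ ^ 2 / 2 * (1 / D))
          ≤ (77 / 200) * ((2 * a ^ 2) * (500 / 499)) := by
            apply mul_le_mul hst _ (by positivity) (by norm_num)
            exact mul_le_mul h3 hinv hinv0.le (by positivity)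
        _ = 77 / 100 * (500 / 499) * a ^ 2 := by ring
    calc _ ≤ |s * (τ / 2 - a)| + |s * t * (τ ^ 2 / 2 * (1 / D))| := abs_add_le _ _
      _ ≤ 1 / 750 * a ^ 2 + 77 / 100 * (500 / 499) * a ^ 2 := add_le_add h1 h2
      _ ≤ 39 / 50 * a ^ 2 := by
          have : 0 ≤ a ^ 2 := sq_nonneg a
          nlinarith
  · -- second bound
    have hpsi : psi y = (1 - t) / 2 := psi_eq y
    have h1t : 0 < 1 - t := by linarith
    have e : (psi (y - 2 * a) - psi y) ^ 2 / psi y
        = τ ^ 2 / 2 * ((1 - t) * (1 + t) ^ 2) * (1 / D) ^ 2 := by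
      rw [hsub, hpsi]
      have hs' : s = (1 - t) * (1 + t) := by simp only [hs]; ring
      rw [hs']
      change (τ * ((1 - t) * (1 + t)) / (2 * D)) ^ 2 / ((1 - t) / 2) = _
      have h1t' := h1t.ne'
      have hD' := hDpos.ne'
      field_simp
    rw [e]
    have hpoly : (1 - t) * (1 + t) ^ 2 ≤ 32 / 27 := by
      have h0 : 0 ≤ (t - 1 / 3) ^ 2 * (t + 5 / 3) :=
        mul_nonneg (sq_nonneg _) (by linarith)
      nlinarith
    have hpoly0 : 0 ≤ (1 - t) * (1 + t) ^ 2 := mul_nonneg h1t.le (sq_nonneg _)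
    have hinv2 : (1 / D) ^ 2 ≤ (500 / 499) ^ 2 := pow_le_pow_left₀ hinv0.le hinv 2
    have h3 : τ ^ 2 / 2 ≤ 2 * a ^ 2 := by linarith
    have h4 : 0 ≤ τ ^ 2 / 2 := by positivity
    calc τ ^ 2 / 2 * ((1 - t) * (1 + t) ^ 2) * (1 / D) ^ 2
        ≤ (2 * a ^ 2) * (32 / 27) * (500 / 499) ^ 2 := by
          apply mul_le_mul _ hinv2 (by positivity) (by positivity)
          exact mul_le_mul h3 hpoly hpoly0 (by positivity)
      _ ≤ 12 / 5 * a ^ 2 := by
          have : 0 ≤ a ^ 2 := sq_nonneg a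
          nlinarith

end Vale.Agent.Lib.P150
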