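import Vale.Agent.Lib.P150.Mix
import Vale.Agent.Lib.P150.Scalar

/-!
The Ising chain: verification of the abstract hypotheses.
-/

open scoped BigOperators Matrix

namespace Vale.Agent.Lib.P150

variable {n : ℕ}

/-- Symmetric coupling matrices with zero diagonal. -/
structure IsCoupling (A : Matrix (Fin n) (Fin n) ℝ) : Prop where
  symm : ∀ i j, A i j = A j i
  diag : ∀ i, A i i = 0

lemma spin_flipAt_same (x : Conf n) (i : Fin n) : spin (flipAt x i i) = - spin (x i) := by
  rw [flipAt_apply_same, spin_not]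

lemma spin_flipAt_ne (x : Conf n) {i j : Fin n} (h : j ≠ i) : spin (flipAt x i j) = spin (x j) := by
  rw [flipAt_apply_ne x h]

lemma spin_flipAt (x : Conf n) (i j : Fin n) :
    spin (flipAt x i j) = spin (x j) - if j = i then 2 * spin (x i) else 0 := by
  by_cases h : j = i
  · subst h
    rw [spin_flipAt_same]
    simp only [if_true]
    ring
  · rw [spin_flipAt_ne x h]
    simp [h]

lemma field_flipAt (A : Matrix (Fin n) (Fin n) ℝ) (x : Conf n) (i k : Fin n) :
    field A (flipAt x i) k = field A x k - 2 * A k i * spin (x i) := by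
  classical
  unfold field
  simp only [spin_flipAt, mul_sub, Finset.sum_sub_distrib]
  congr 1
  simp only [mul_ite, mul_zero, Finset.sum_ite_eq', Finset.mem_univ, if_true]
  ring

lemma field_flipAt_same {A : Matrix (Fin n) (Fin n) ℝ} (hA : IsCoupling A) (x : Conf n) (i : Fin n) :
    field A (flipAt x i) i = field A x i := by
  rw [field_flipAt, hA.diag]
  ring

lemma cosh_spin_mul (b : Bool) (h : ℝ) : Real.cosh (spin b * h) = Real.cosh h := by
  cases b <;> simp [spin]

lemma flipRate_eq_psi (A : Matrix (Fin n) (Fin n) ℝ) (x : Conf n) (k : Fin n) :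
    flipRate A x k = psi (spin (x k) * field A x k) := by
  unfold flipRate psi
  rw [cosh_spin_mul]

lemma flipRate_flip_same {A : Matrix (Fin n) (Fin n) ℝ} (hA : IsCoupling A) (x : Conf n)
    (i : Fin n) : flipRate A (flipAt x i) i = psi (-(spin (x i) * field A x i)) := by
  rw [flipRate_eq_psi, spin_flipAt_same, field_flipAt_same hA]
  ring_nf

lemma flipRate_flip_ne (A : Matrix (Fin n) (Fin n) ℝ) (x : Conf n) {i k : Fin n} (h : k ≠ i) :
    flipRate A (flipAt x i) k
      = psi (spin (x k) * field A x k - 2 * (A k i * spin (x i) * spin (x k))) := by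
  rw [flipRate_eq_psi, spin_flipAt_ne x h, field_flipAt]
  ring_nf

lemma flipRate_pos (A : Matrix (Fin n) (Fin n) ℝ) (x : Conf n) (i : Fin n) :
    0 < flipRate A x i := by
  rw [flipRate_eq_psi]
  exact psi_pos _

theorem isRateGen_generator {A : Matrix (Fin n) (Fin n) ℝ} (hA : IsCoupling A) :
    IsRateGen (generator A) (flipRate A) where
  act := generator_mulVec A
  offdiag := by
    intro x y hxy
    have hne : y ≠ x := fun h => hxy h.symm
    simp only [generator, hne, if_false, sub_zero]
    refine Finset.sum_nonneg fun i _ => ?_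
    split_ifs
    · exact (flipRate_pos A x i).le
    · exact le_rfl
  row := by
    intro x
    have h := generator_mulVec A (fun _ => 1) x
    simp only [Matrix.mulVec, dotProduct, mul_one] at h
    rw [h]
    simp [rateAct]
  pos := flipRate_pos A
  sum_one := by
    intro x i
    rw [flipRate_flip_same hA, flipRate_eq_psi, psi_add_neg]

/-- Change of the quadratic form under a flip. -/
lemma quad_flip {A : Matrix (Fin n) (Fin n) ℝ} (hA : IsCoupling A) (x : Conf n) (i : Fin n) :
    ∑ a, ∑ b, A a b * spin (flipAt x i a) * spin (flipAt x i b)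
      = ∑ a, ∑ b, A a b * spin (x a) * spin (x b) - 4 * (spin (x i) * field A x i) := by
  classical
  have h1 : ∀ a b, A a b * spin (flipAt x i a) * spin (flipAt x i b)
      = A a b * spin (x a) * spin (x b)
        - (if a = i then 2 * spin (x i) * (A i b * spin (x b)) else 0)
        - (if b = i then 2 * spin (x i) * (A a i * spin (x a)) else 0)
        + (if a = i then (if b = i then 4 * A i i else 0) else 0) := by
    intro a b
    rw [spin_flipAt, spin_flipAt]
    by_cases ha : a = i <;> by_cases hb : b = i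
    · subst ha; subst hb
      simp only [if_true]
      have hss := spin_mul_self (x b)
      linear_combination 4 * A b b * hss
    · subst ha
      simp only [hb, if_true, if_false, sub_zero, add_zero]
      ring
    · subst hb
      simp only [ha, if_true, if_false, sub_zero, add_zero]
      ring
    · simp [ha, hb]
  simp only [h1, Finset.sum_add_distrib, Finset.sum_sub_distrib]
  have e1 : ∑ a, ∑ b, (if a = i then 2 * spin (x i) * (A i b * spin (x b)) else 0)
      = 2 * (spin (x i) * field A x i) := by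
    rw [Finset.sum_eq_single i]
    · simp only [if_true, field, Finset.mul_sum]
      refine Finset.sum_congr rfl fun b _ => by ring
    · intro a _ ha
      simp [ha]
    · simp
  have e2 : ∑ a, ∑ b, (if b = i then 2 * spin (x i) * (A a i * spin (x a)) else 0)
      = 2 * (spin (x i) * field A x i) := by
    simp only [Finset.sum_ite_eq', Finset.mem_univ, if_true, field, Finset.mul_sum]
    refine Finset.sum_congr rfl fun a _ => ?_
    rw [hA.symm a i]
    ring
  have e3 : ∑ a, ∑ b, (if a = i then (if b = i then 4 * A i i else 0) else 0) = 0 := by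
    simp [hA.diag]
  rw [e1, e2, e3]
  ring

lemma gibbsWeight_flip {A : Matrix (Fin n) (Fin n) ℝ} (hA : IsCoupling A) (x : Conf n) (i : Fin n) :
    gibbsWeight A (flipAt x i)
      = gibbsWeight A x * Real.exp (-(2 * (spin (x i) * field A x i))) := by
  unfold gibbsWeight
  rw [quad_flip hA, ← Real.exp_add]
  congr 1
  ring

lemma gibbsWeight_pos (A : Matrix (Fin n) (Fin n) ℝ) (x : Conf n) : 0 < gibbsWeight A x :=
  Real.exp_pos _

lemma gibbs_pos (A : Matrix (Fin n) (Fin n) ℝ) (x : Conf n) : 0 < gibbs A x :=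
  div_pos (gibbsWeight_pos A x) (Finset.sum_pos (fun y _ => gibbsWeight_pos A y) ⟨x, Finset.mem_univ x⟩)

lemma gibbs_total (A : Matrix (Fin n) (Fin n) ℝ) : ∑ x, gibbs A x = 1 := by
  unfold gibbs
  rw [← Finset.sum_div]
  exact div_self (Finset.sum_pos (fun y _ => gibbsWeight_pos A y)
    ⟨fun _ => true, Finset.mem_univ _⟩).ne'

lemma gibbs_flip {A : Matrix (Fin n) (Fin n) ℝ} (hA : IsCoupling A) (x : Conf n) (i : Fin n) :
    gibbs A (flipAt x i) = gibbs A x * Real.exp (-(2 * (spin (x i) * field A x i))) := by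
  unfold gibbs
  rw [gibbsWeight_flip hA]
  ring

/-- Detailed balance at the level of flip rates. -/
lemma gibbs_rate_balance {A : Matrix (Fin n) (Fin n) ℝ} (hA : IsCoupling A) (x : Conf n)
    (i : Fin n) :
    gibbs A x * flipRate A x i = gibbs A (flipAt x i) * flipRate A (flipAt x i) i := by
  rw [gibbs_flip hA, flipRate_flip_same hA, flipRate_eq_psi]
  set y := spin (x i) * field A x i
  unfold psi
  rw [Real.cosh_neg, neg_neg]
  have hc := (Real.cosh_pos y).ne'
  have he : Real.exp (-y) = Real.exp (-(2 * y)) * Real.exp y := by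
    rw [← Real.exp_add]
    congr 1
    ring
  rw [he]
  ring

theorem isRevProb_gibbs {A : Matrix (Fin n) (Fin n) ℝ} (hA : IsCoupling A) :
    IsRevProb (generator A) (gibbs A) where
  pos := gibbs_pos A
  total := gibbs_total A
  rev := by
    intro x y
    by_cases hxy : y = x
    · subst hxy; rfl
    · have hxy' : x ≠ y := fun h => hxy h.symm
      simp only [generator, hxy, hxy', if_false, sub_zero, Finset.mul_sum]
      refine Finset.sum_congr rfl fun i _ => ?_
      by_cases hi : y = flipAt x i
      · have hi' : x = flipAt y i := by rw [hi, flipAt_flipAt]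
        rw [if_pos hi, if_pos hi', gibbs_rate_balance hA x i, ← hi]
      · have hi' : ¬ x = flipAt y i := by
          intro h
          apply hi
          rw [h, flipAt_flipAt]
        rw [if_neg hi, if_neg hi', mul_zero, mul_zero]

/-- Polarization. -/
lemma bilinear_le {A : Matrix (Fin n) (Fin n) ℝ} (hA : IsCoupling A) {C : ℝ}
    (hC : ∀ z : Fin n → ℝ, |∑ i, ∑ k, A i k * z i * z k| ≤ C * ∑ i, z i ^ 2)
    (v w : Fin n → ℝ) :
    2 * ∑ i, ∑ k, A i k * v i * w k ≤ C * (∑ i, v i ^ 2 + ∑ i, w i ^ 2) := by
  have h1 := (abs_le.1 (hC (fun i => v i + w i))).2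
  have h2 := (abs_le.1 (hC (fun i => v i - w i))).1
  have e1 : ∑ i, ∑ k, A i k * (v i + w i) * (v k + w k)
      - ∑ i, ∑ k, A i k * (v i - w i) * (v k - w k)
      = 4 * ∑ i, ∑ k, A i k * v i * w k := by
    have hs : ∑ i, ∑ k, A i k * w i * v k = ∑ i, ∑ k, A i k * v i * w k := by
      rw [Finset.sum_comm]
      refine Finset.sum_congr rfl fun i _ => Finset.sum_congr rfl fun k _ => ?_
      rw [hA.symm k i]
      ring
    have : ∀ i k, A i k * (v i + w i) * (v k + w k) - A i k * (v i - w i) * (v k - w k)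
        = 2 * (A i k * v i * w k) + 2 * (A i k * w i * v k) := by
      intro i k; ring
    rw [← Finset.sum_sub_distrib]
    simp only [← Finset.sum_sub_distrib, this, Finset.sum_add_distrib, ← Finset.mul_sum, hs]
    ring
  have e2 : ∑ i, (v i + w i) ^ 2 + ∑ i, (v i - w i) ^ 2 = 2 * (∑ i, v i ^ 2 + ∑ i, w i ^ 2) := by
    rw [← Finset.sum_add_distrib, ← Finset.sum_add_distrib, Finset.mul_sum]
    refine Finset.sum_congr rfl fun i _ => ?_
    ring
  have e3 : C * ∑ i, (v i + w i) ^ 2 + C * ∑ i, (v i - w i) ^ 2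
      = C * (2 * (∑ i, v i ^ 2 + ∑ i, w i ^ 2)) := by
    rw [← mul_add, e2]
  have e4 : C * (2 * (∑ i, v i ^ 2 + ∑ i, w i ^ 2)) = 2 * (C * (∑ i, v i ^ 2 + ∑ i, w i ^ 2)) := by
    ring
  linarith

/-- The main estimate on the error functional for Ising chains. -/
theorem restTerm_le {A : Matrix (Fin n) (Fin n) ℝ} (hA : IsCoupling A) {C ρ : ℝ}
    (hC : ∀ z : Fin n → ℝ, |∑ i, ∑ k, A i k * z i * z k| ≤ C * ∑ i, z i ^ 2)
    (hρ : ∀ i, ∑ k, A i k ^ 2 ≤ ρ)
    (hε : ∀ i k, |A i k| ≤ 1 / 1000) (hC0 : 0 ≤ C) (x : Conf n) (u : Fin n → ℝ) :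
    restTerm (flipRate A) x u ≤ (2 * C + 99 / 25 * ρ) * ∑ i, u i ^ 2 := by
  classical
  set σ : Fin n → ℝ := fun i => spin (x i) with hσ
  set y : Fin n → ℝ := fun k => spin (x k) * field A x k with hy
  set s : Fin n → ℝ := fun k => 1 - Real.tanh (y k) ^ 2 with hs
  have hs0 : ∀ k, 0 ≤ s k := by
    intro k
    have := Real.tanh_sq_lt_one (y k)
    simp only [hs]
    linarith
  have hs1 : ∀ k, s k ≤ 1 := by
    intro k
    simp only [hs]
    nlinarith [sq_nonneg (Real.tanh (y k))]
  set R : ℝ := ∑ i, u i ^ 2 with hR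
  have hR0 : 0 ≤ R := Finset.sum_nonneg fun _ _ => sq_nonneg _
  -- pointwise
  have key : ∀ i k, (if k = i then (0 : ℝ) else
      2 * (flipRate A (flipAt x i) k - flipRate A x k) * u i * u k
        + (flipRate A (flipAt x i) k - flipRate A x k) ^ 2 / flipRate A x k * u i ^ 2)
      ≤ 2 * (A i k * (σ i * u i) * (σ k * s k * u k))
        + 39 / 50 * (A i k ^ 2 * u i ^ 2 + A i k ^ 2 * u k ^ 2)
        + 12 / 5 * (A i k ^ 2 * u i ^ 2) := by
    intro i k
    by_cases hki : k = i
    · subst hki
      simp [hA.diag]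
    · simp only [hki, if_false]
      set a := A k i * spin (x i) * spin (x k) with ha
      have haabs : |a| ≤ 1 / 1000 := by
        simp only [ha, abs_mul, spin_abs, mul_one]
        exact hε k i
      have hasq : a ^ 2 = A i k ^ 2 := by
        simp only [ha, mul_pow, spin_sq, mul_one]
        rw [hA.symm k i]
      have hb := psi_delta_bounds (y k) a haabs
      have e1 : flipRate A (flipAt x i) k = psi (y k - 2 * a) := flipRate_flip_ne A x hki
      have e2 : flipRate A x k = psi (y k) := flipRate_eq_psi A x k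
      rw [e1, e2]
      set δ := psi (y k - 2 * a) - psi (y k) with hδ
      have h1 := hb.1
      have h2 := hb.2
      rw [hasq] at h1 h2
      have e3 : A i k * (σ i * u i) * (σ k * s k * u k) = a * s k * u i * u k := by
        simp only [ha, hσ]
        rw [hA.symm k i]
        ring
      rw [e3]
      have h3 : 2 * (δ - a * s k) * (u i * u k)
          ≤ 39 / 50 * (A i k ^ 2 * u i ^ 2 + A i k ^ 2 * u k ^ 2) := by
        have h4 : |2 * (δ - a * s k) * (u i * u k)|
            ≤ 39 / 50 * A i k ^ 2 * (2 * |u i * u k|) := by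
          rw [abs_mul, abs_mul 2, abs_two]
          have : |δ - a * s k| ≤ 39 / 50 * A i k ^ 2 := h1
          nlinarith [abs_nonneg (u i * u k), abs_nonneg (δ - a * s k)]
        have h5 : 2 * |u i * u k| ≤ u i ^ 2 + u k ^ 2 := by
          rw [abs_mul]
          nlinarith [sq_nonneg (|u i| - |u k|), sq_abs (u i), sq_abs (u k)]
        have h6 := le_abs_self (2 * (δ - a * s k) * (u i * u k))
        have h7 : 0 ≤ 39 / 50 * A i k ^ 2 := by positivity
        nlinarith
      have h4 : δ ^ 2 / psi (y k) * u i ^ 2 ≤ 12 / 5 * (A i k ^ 2 * u i ^ 2) := by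
        have := mul_le_mul_of_nonneg_right h2 (sq_nonneg (u i))
        linarith
      nlinarith
  -- sums
  have hsum1 : ∑ i, ∑ k, A i k ^ 2 * u i ^ 2 ≤ ρ * R := by
    simp only [hR, Finset.mul_sum]
    refine Finset.sum_le_sum fun i _ => ?_
    rw [← Finset.sum_mul]
    exact mul_le_mul_of_nonneg_right (hρ i) (sq_nonneg _)
  have hsum2 : ∑ i, ∑ k, A i k ^ 2 * u k ^ 2 ≤ ρ * R := by
    rw [Finset.sum_comm]
    simp only [hR, Finset.mul_sum]
    refine Finset.sum_le_sum fun k _ => ?_
    rw [← Finset.sum_mul]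
    refine mul_le_mul_of_nonneg_right ?_ (sq_nonneg _)
    calc ∑ i, A i k ^ 2 = ∑ i, A k i ^ 2 :=
          Finset.sum_congr rfl fun i _ => by rw [hA.symm i k]
      _ ≤ ρ := hρ k
  have hbil := bilinear_le hA hC (fun i => σ i * u i) (fun k => σ k * s k * u k)
  have hv : ∑ i, (σ i * u i) ^ 2 = R := by
    refine Finset.sum_congr rfl fun i _ => ?_
    simp only [hσ, mul_pow, spin_sq, one_mul]
  have hw : ∑ k, (σ k * s k * u k) ^ 2 ≤ R := by
    refine Finset.sum_le_sum fun k _ => ?_
    simp only [hσ, mul_pow, spin_sq, one_mul]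
    have : s k ^ 2 ≤ 1 := by
      have := hs0 k
      have := hs1 k
      nlinarith
    nlinarith [sq_nonneg (u k)]
  have htotal := Finset.sum_le_sum fun i (_ : i ∈ Finset.univ) =>
    Finset.sum_le_sum fun k (_ : k ∈ Finset.univ) => key i k
  unfold restTerm
  refine htotal.trans ?_
  simp only [Finset.sum_add_distrib, ← Finset.mul_sum]
  have hfinal : 2 * ∑ i, ∑ k, A i k * (σ i * u i) * (σ k * s k * u k) ≤ 2 * C * R := by
    calc _ ≤ C * (∑ i, (σ i * u i) ^ 2 + ∑ k, (σ k * s k * u k) ^ 2) := hbil
      _ ≤ C * (R + R) := by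
          rw [hv]
          exact mul_le_mul_of_nonneg_left (by linarith) hC0
      _ = 2 * C * R := by ring
  nlinarith

/-- The Dirichlet form identity. -/
lemma dirichlet_eq {A : Matrix (Fin n) (Fin n) ℝ} (hA : IsCoupling A) (g : Conf n → ℝ) :
    - ∑ x, gibbs A x * g x * (generator A *ᵥ g) x = dirichletForm A g := by
  classical
  have hi : ∀ i : Fin n, ∑ x, gibbs A x * flipRate A x i * g x * (g (flipAt x i) - g x)
      = - ((1 / 2) * ∑ x, gibbs A x * flipRate A x i * (g (flipAt x i) - g x) ^ 2) := by
    intro i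
    let e : Conf n ≃ Conf n :=
      Function.Involutive.toPerm (fun x => flipAt x i) (fun x => flipAt_flipAt x i)
    have h1 : ∑ x, gibbs A x * flipRate A x i * g x * (g (flipAt x i) - g x)
        = ∑ x, gibbs A x * flipRate A x i * g (flipAt x i) * (g x - g (flipAt x i)) := by
      rw [← Equiv.sum_comp e]
      refine Finset.sum_congr rfl fun x _ => ?_
      change gibbs A (flipAt x i) * flipRate A (flipAt x i) i * g (flipAt x i)
        * (g (flipAt (flipAt x i) i) - g (flipAt x i)) = _
      rw [flipAt_flipAt, ← gibbs_rate_balance hA]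
    have h2 : ∑ x, gibbs A x * flipRate A x i * (g (flipAt x i) - g x) ^ 2
        = ∑ x, gibbs A x * flipRate A x i * g (flipAt x i) * (g (flipAt x i) - g x)
          - ∑ x, gibbs A x * flipRate A x i * g x * (g (flipAt x i) - g x) := by
      rw [← Finset.sum_sub_distrib]
      refine Finset.sum_congr rfl fun x _ => ?_
      ring
    have h3 : ∑ x, gibbs A x * flipRate A x i * g (flipAt x i) * (g x - g (flipAt x i))
        = - ∑ x, gibbs A x * flipRate A x i * g (flipAt x i) * (g (flipAt x i) - g x) := by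
      rw [← Finset.sum_neg_distrib]
      refine Finset.sum_congr rfl fun x _ => ?_
      ring
    rw [h3] at h1
    rw [h2]
    linarith
  unfold dirichletForm
  simp only [generator_mulVec, rateAct]
  have e1 : ∑ x, gibbs A x * g x * ∑ i, flipRate A x i * (g (flipAt x i) - g x)
      = ∑ i, ∑ x, gibbs A x * flipRate A x i * g x * (g (flipAt x i) - g x) := by
    rw [Finset.sum_comm]
    refine Finset.sum_congr rfl fun x _ => ?_
    rw [Finset.mul_sum]
    refine Finset.sum_congr rfl fun i _ => ?_
    ring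
  have e2 : ∑ x, gibbs A x * ∑ i, flipRate A x i * (g (flipAt x i) - g x) ^ 2
      = ∑ i, ∑ x, gibbs A x * flipRate A x i * (g (flipAt x i) - g x) ^ 2 := by
    rw [Finset.sum_comm]
    refine Finset.sum_congr rfl fun x _ => ?_
    rw [Finset.mul_sum]
    refine Finset.sum_congr rfl fun i _ => ?_
    ring
  rw [e1, e2]
  simp only [hi, Finset.sum_neg_distrib, neg_neg, Finset.mul_sum]

end Vale.Agent.Lib.P150
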