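import Vale.Agent.Lib.P150.Ising

/-!
Deterministic mixing theorems for Ising chains: fast mixing under the contraction condition, the
Poincaré inequality, and a general lower bound on the mixing time.
-/

open scoped BigOperators Matrix
open Filter Topology

namespace Vale.Agent.Lib.P150

variable {n : ℕ}

/-- Total variation decay under the gradient contraction. -/
theorem tvDist_le {A : Matrix (Fin n) (Fin n) ℝ} (hA : IsCoupling A) {K : ℝ}
    (hK : ∀ x u, restTerm (flipRate A) x u ≤ K * ∑ i, u i ^ 2) {t : ℝ} (ht : 0 ≤ t) (x : Conf n) :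
    tvDist A t x ≤ n * (Real.exp ((K - 2) * t / 2) * Real.sqrt n) :=
  (isRevProb_gibbs hA).tv_le (isRateGen_generator hA) hK ht x

/-- The Poincaré inequality under the gradient contraction. -/
theorem poincare {A : Matrix (Fin n) (Fin n) ℝ} (hA : IsCoupling A) {K : ℝ}
    (hK : ∀ x u, restTerm (flipRate A) x u ≤ K * ∑ i, u i ^ 2) (g : Conf n → ℝ) :
    (2 - K) / 2 * gibbsVar A g ≤ dirichletForm A g := by
  classical
  have hμ := isRevProb_gibbs hA
  have hR := isRateGen_generator hA
  set L := generator A with hL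
  set μ := gibbs A with hμdef
  set m : ℝ := ∑ x, μ x * g x with hm
  set G : Conf n → ℝ := fun x => g x - m with hG
  have hmean : ∑ x, μ x * G x = 0 := by
    simp only [hG, mul_sub, Finset.sum_sub_distrib, ← Finset.sum_mul, hμ.total, one_mul, ← hm,
      sub_self]
  set M : ℝ := ∑ y, gradSq G y with hM
  have hM0 : 0 ≤ M := Finset.sum_nonneg fun y _ => gradSq_nonneg G y
  have hGM : ∀ y, gradSq G y ≤ M := fun y =>
    Finset.single_le_sum (f := fun y => gradSq G y) (fun y _ => gradSq_nonneg G y) (Finset.mem_univ y)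
  have hdec : ∀ t, 0 ≤ t → autoCorr L μ G t
      ≤ ((∑ x, μ x * |G x|) * (n * Real.sqrt M)) * Real.exp (-((2 - K) / 2 * t)) := by
    intro t ht
    set ℓ := Real.exp ((K - 2) * t / 2) * Real.sqrt M with hℓ
    have hℓ0 : 0 ≤ ℓ := by positivity
    have hgr : ∀ z, gradSq (semi L t *ᵥ G) z ≤ ℓ ^ 2 := by
      intro z
      have h1 := hR.gradSq_semi_le hK hGM ht z
      have e : ℓ ^ 2 = Real.exp ((K - 2) * t) * M := by
        rw [hℓ, mul_pow, Real.sq_sqrt hM0, ← Real.exp_nat_mul]
        congr 2
        push_cast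
        ring
      rw [e]
      exact h1
    have hosc := abs_sub_le_of_gradSq (semi L t *ᵥ G) hℓ0 hgr
    have hstat := hμ.stationary hR.row t G
    rw [hmean] at hstat
    have hsup : ∀ x, |(semi L t *ᵥ G) x| ≤ n * ℓ := by
      intro x
      have e : (semi L t *ᵥ G) x = ∑ w, μ w * ((semi L t *ᵥ G) x - (semi L t *ᵥ G) w) := by
        simp only [mul_sub, Finset.sum_sub_distrib, ← Finset.sum_mul, hμ.total, one_mul, hstat,
          sub_zero]
      rw [e]
      calc |∑ w, μ w * ((semi L t *ᵥ G) x - (semi L t *ᵥ G) w)|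
          ≤ ∑ w, |μ w * ((semi L t *ᵥ G) x - (semi L t *ᵥ G) w)| :=
            Finset.abs_sum_le_sum_abs _ _
        _ ≤ ∑ w, μ w * (n * ℓ) := by
            refine Finset.sum_le_sum fun w _ => ?_
            rw [abs_mul, abs_of_pos (hμ.pos w)]
            exact mul_le_mul_of_nonneg_left (hosc x w) (hμ.pos w).le
        _ = n * ℓ := by rw [← Finset.sum_mul, hμ.total, one_mul]
    calc autoCorr L μ G t = ∑ x, μ x * G x * (semi L t *ᵥ G) x := rfl
      _ ≤ ∑ x, μ x * |G x| * (n * ℓ) := by
          refine Finset.sum_le_sum fun x _ => ?_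
          have h1 : G x * (semi L t *ᵥ G) x ≤ |G x| * (n * ℓ) := by
            calc G x * (semi L t *ᵥ G) x ≤ |G x * (semi L t *ᵥ G) x| := le_abs_self _
              _ = |G x| * |(semi L t *ᵥ G) x| := abs_mul _ _
              _ ≤ |G x| * (n * ℓ) := mul_le_mul_of_nonneg_left (hsup x) (abs_nonneg _)
          have := mul_le_mul_of_nonneg_left h1 (hμ.pos x).le
          linarith
      _ = (∑ x, μ x * |G x|) * (n * ℓ) := by rw [Finset.sum_mul]
      _ = _ := by
          have e : Real.exp ((K - 2) * t / 2) = Real.exp (-((2 - K) / 2 * t)) := by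
            congr 1
            ring
          rw [hℓ, e]
          ring
  have hP := poincare_of_decay hμ G hdec
  rw [autoCorr_zero] at hP
  have e1 : ∑ x, μ x * G x ^ 2 = gibbsVar A g := by
    unfold gibbsVar
    rw [← hμdef, ← hm]
    have : ∀ x, μ x * G x ^ 2 = μ x * g x ^ 2 - 2 * m * (μ x * g x) + m ^ 2 * μ x := by
      intro x
      simp only [hG]
      ring
    simp only [this, Finset.sum_add_distrib, Finset.sum_sub_distrib, ← Finset.mul_sum, hμ.total,
      ← hm]
    ring
  have e2 : - ∑ x, μ x * G x * (L *ᵥ G) x = dirichletForm A g := by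
    have h3 := dirichlet_eq hA G
    rw [← hL, ← hμdef] at h3
    rw [h3]
    unfold dirichletForm
    simp only [hG]
    congr 1
    refine Finset.sum_congr rfl fun x _ => ?_
    congr 1
    refine Finset.sum_congr rfl fun i _ => ?_
    congr 2
    ring
  rw [e1, e2] at hP
  exact hP

/-- The coordinate function. -/
noncomputable def coordFn (i : Fin n) : Conf n → ℝ := fun x => spin (x i)

lemma generator_coordFn {A : Matrix (Fin n) (Fin n) ℝ} (i : Fin n) (y : Conf n) :
    (generator A *ᵥ coordFn i) y = - (2 * flipRate A y i * spin (y i)) := by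
  classical
  rw [generator_mulVec]
  unfold rateAct
  rw [Finset.sum_eq_single i]
  · simp only [coordFn, spin_flipAt_same]
    ring
  · intro k _ hk
    simp only [coordFn, spin_flipAt_ne y (Ne.symm hk), sub_self, mul_zero]
  · simp

/-- Short time stability of a coordinate. -/
lemma coord_short_time {A : Matrix (Fin n) (Fin n) ℝ} (hA : IsCoupling A) (i : Fin n) {h : ℝ}
    (hh : 0 ≤ h) (x : Conf n) :
    1 - 2 * h ≤ spin (x i) * (semi (generator A) h *ᵥ coordFn i) x := by
  have hR := isRateGen_generator hA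
  have hbound : ∀ y, -2 ≤ (generator A *ᵥ coordFn i) y ∧ (generator A *ᵥ coordFn i) y ≤ 2 := by
    intro y
    rw [generator_coordFn]
    have h1 := flipRate_pos A y i
    have h2 := hR.le_one y i
    cases hb : y i <;> simp only [spin, if_true, Bool.false_eq_true, if_false] <;>
      constructor <;> linarith
  have hd : ∀ r, HasDerivAt (fun r => spin (x i) * (semi (generator A) r *ᵥ coordFn i) x + 2 * r)
      (spin (x i) * (semi (generator A) r *ᵥ (generator A *ᵥ coordFn i)) x + 2) r := by
    intro r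
    have h1 := (hasDerivAt_semi_mulVec (generator A) (coordFn i) r x).const_mul (spin (x i))
    have h2 : HasDerivAt (fun r : ℝ => 2 * r) 2 r := by
      simpa using (hasDerivAt_id' r).const_mul (2 : ℝ)
    exact h1.fun_add h2
  have hmono : MonotoneOn (fun r => spin (x i) * (semi (generator A) r *ᵥ coordFn i) x + 2 * r)
      (Set.Ici 0) := by
    apply monotoneOn_of_deriv_nonneg (convex_Ici 0)
    · exact fun r _ => (hd r).continuousAt.continuousWithinAt
    · exact fun r _ => (hd r).differentiableAt.differentiableWithinAt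
    · intro r hr
      rw [interior_Ici] at hr
      have hr0 : (0 : ℝ) ≤ r := le_of_lt hr
      rw [(hd r).deriv]
      have hup := hR.semi_le (g := generator A *ᵥ coordFn i) (M := 2) (fun y => (hbound y).2) hr0 x
      have hlo := hR.semi_ge (g := generator A *ᵥ coordFn i) (M := -2) (fun y => (hbound y).1) hr0 x
      cases hb : x i <;> simp only [spin, if_true, Bool.false_eq_true, if_false] <;> linarith
  have := hmono Set.self_mem_Ici (Set.mem_Ici.2 hh) hh
  simp only [semi_zero, Matrix.one_mulVec, mul_zero, add_zero] at this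
  have e : spin (x i) * coordFn i x = 1 := spin_mul_self (x i)
  rw [e] at this
  linarith

lemma one_sub_two_mul_ge_exp {h : ℝ} (h0 : 0 ≤ h) (h1 : h ≤ 1 / 4) :
    Real.exp (-(4 * h)) ≤ 1 - 2 * h := by
  rw [Real.exp_neg]
  have hp : 1 + 4 * h ≤ Real.exp (4 * h) := by linarith [Real.add_one_le_exp (4 * h)]
  have hpos : 0 < 1 + 4 * h := by linarith
  calc (Real.exp (4 * h))⁻¹ ≤ (1 + 4 * h)⁻¹ := inv_anti₀ hpos hp
    _ ≤ 1 - 2 * h := by
        rw [inv_le_iff_one_le_mul₀ hpos]
        nlinarith

/-- Lower bound for the autocorrelation of a coordinate. -/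
theorem autoCorr_coord_ge {A : Matrix (Fin n) (Fin n) ℝ} (hA : IsCoupling A) (i : Fin n) {t : ℝ}
    (ht : 0 ≤ t) : Real.exp (-(4 * t)) ≤ autoCorr (generator A) (gibbs A) (coordFn i) t := by
  have hμ := isRevProb_gibbs hA
  have h0 : autoCorr (generator A) (gibbs A) (coordFn i) 0 = 1 := by
    rw [autoCorr_zero]
    simp only [coordFn, spin_sq, mul_one, gibbs_total]
  obtain ⟨k, hk⟩ : ∃ k : ℕ, t / 2 ^ k ≤ 1 / 4 := by
    have : Tendsto (fun k : ℕ => t / 2 ^ k) atTop (𝓝 0) := by
      have := tendsto_pow_atTop_nhds_zero_of_lt_one (r := (1 / 2 : ℝ)) (by norm_num) (by norm_num)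
      have h2 := this.const_mul t
      simp only [mul_zero] at h2
      refine h2.congr fun k => ?_
      rw [one_div, inv_pow]
      rfl
    exact (this.eventually (ge_mem_nhds (by norm_num : (0 : ℝ) < 1 / 4))).exists
  set h := t / 2 ^ k with hh
  have hh0 : 0 ≤ h := by positivity
  have hte : (2 : ℝ) ^ k * h = t := by
    rw [hh]
    field_simp
  have hit := autoCorr_iter hμ (coordFn i) one_pos h0 h k
  rw [hte] at hit
  simp only [div_one] at hit
  refine le_trans ?_ hit
  have hlow : Real.exp (-(4 * h)) ≤ autoCorr (generator A) (gibbs A) (coordFn i) h := by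
    refine (one_sub_two_mul_ge_exp hh0 hk).trans ?_
    have : ∑ x, gibbs A x * (1 - 2 * h)
        ≤ ∑ x, gibbs A x * coordFn i x * (semi (generator A) h *ᵥ coordFn i) x := by
      refine Finset.sum_le_sum fun x _ => ?_
      have := mul_le_mul_of_nonneg_left (coord_short_time hA i hh0 x) (gibbs_pos A x).le
      calc _ ≤ _ := this
        _ = _ := by simp only [coordFn]; ring
    rw [← Finset.sum_mul, gibbs_total, one_mul] at this
    exact this
  calc Real.exp (-(4 * t)) = Real.exp (-(4 * h)) ^ 2 ^ k := by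
        rw [← Real.exp_nat_mul]
        congr 1
        push_cast
        rw [← hte]
        ring
    _ ≤ _ := pow_le_pow_left₀ (Real.exp_pos _).le hlow _

/-- Spin reversal. -/
def negConf (x : Conf n) : Conf n := fun i => !x i

lemma negConf_negConf (x : Conf n) : negConf (negConf x) = x := by
  funext i
  simp [negConf]

lemma gibbsWeight_neg (A : Matrix (Fin n) (Fin n) ℝ) (x : Conf n) :
    gibbsWeight A (negConf x) = gibbsWeight A x := by
  unfold gibbsWeight negConf
  simp only [spin_not]
  congr 2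
  refine Finset.sum_congr rfl fun i _ => Finset.sum_congr rfl fun j _ => ?_
  ring

lemma gibbs_neg (A : Matrix (Fin n) (Fin n) ℝ) (x : Conf n) :
    gibbs A (negConf x) = gibbs A x := by
  unfold gibbs
  rw [gibbsWeight_neg]

/-- A general lower bound on the total variation distance: at each time some start is far. -/
theorem exists_tvDist_ge {A : Matrix (Fin n) (Fin n) ℝ} (hA : IsCoupling A) {K : ℝ}
    (hK : ∀ x u, restTerm (flipRate A) x u ≤ K * ∑ i, u i ^ 2) (hK2 : 0 ≤ K) (hn : 0 < n) {t : ℝ}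
    (ht : 0 ≤ t) :
    ∃ x₀ : Conf n, 1 / 2 - 4 * t * Real.exp ((K + 8) * t) / n ≤ tvDist A t x₀ := by
  classical
  have hμ := isRevProb_gibbs hA
  have hR := isRateGen_generator hA
  set L := generator A with hL
  set μ := gibbs A with hμdef
  have hnpos : (0 : ℝ) < n := by exact_mod_cast hn
  set fn : Conf n → Conf n → ℝ := fun a y => ∑ i, spin (a i) * spin (y i) with hfn
  have hact : ∀ a x, (semi L t *ᵥ fn a) x = ∑ i, spin (a i) * (semi L t *ᵥ coordFn i) x := by
    intro a x
    simp only [Matrix.mulVec, dotProduct, hfn, coordFn, Finset.mul_sum]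
    rw [Finset.sum_comm]
    refine Finset.sum_congr rfl fun y _ => Finset.sum_congr rfl fun i _ => ?_
    ring
  -- choice of the start
  have havg : ∑ x, μ x * (semi L t *ᵥ fn x) x = ∑ i, autoCorr L μ (coordFn i) t := by
    simp only [hact, autoCorr, Finset.mul_sum]
    rw [Finset.sum_comm]
    refine Finset.sum_congr rfl fun i _ => Finset.sum_congr rfl fun x _ => ?_
    simp only [coordFn]
    ring
  have hlow : n * Real.exp (-(4 * t)) ≤ ∑ x, μ x * (semi L t *ᵥ fn x) x := by
    rw [havg]
    calc (n : ℝ) * Real.exp (-(4 * t)) = ∑ _i : Fin n, Real.exp (-(4 * t)) := by simp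
      _ ≤ _ := Finset.sum_le_sum fun i _ => autoCorr_coord_ge hA i ht
  obtain ⟨x₀, hx₀⟩ : ∃ x₀, n * Real.exp (-(4 * t)) ≤ (semi L t *ᵥ fn x₀) x₀ := by
    by_contra hcon
    push Not at hcon
    have : ∑ x, μ x * (semi L t *ᵥ fn x) x < ∑ x, μ x * (n * Real.exp (-(4 * t))) :=
      Finset.sum_lt_sum_of_nonempty ⟨fun _ => true, Finset.mem_univ _⟩ fun x _ =>
        mul_lt_mul_of_pos_left (hcon x) (hμ.pos x)
    rw [← Finset.sum_mul, hμ.total, one_mul] at this
    linarith
  refine ⟨x₀, ?_⟩
  set f := fn x₀ with hf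
  set m := (semi L t *ᵥ f) x₀ with hm
  have hEpos : 0 < Real.exp (-(4 * t)) := Real.exp_pos _
  have hmpos : 0 < m := lt_of_lt_of_le (by positivity) hx₀
  -- gradient of the test function
  have hg0 : ∀ y, gradSq f y ≤ 4 * n := by
    intro y
    have : ∀ i, (f (flipAt y i) - f y) ^ 2 = 4 := by
      intro i
      have e : f (flipAt y i) - f y = - (2 * (spin (x₀ i) * spin (y i))) := by
        simp only [hf, hfn]
        rw [← Finset.sum_sub_distrib, Finset.sum_eq_single i]
        · rw [spin_flipAt_same]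
          ring
        · intro k _ hk
          rw [spin_flipAt_ne y hk]
          ring
        · simp
      rw [e, neg_sq, mul_pow, mul_pow, spin_sq, spin_sq]
      norm_num
    unfold gradSq
    simp only [this]
    simp
    linarith
  have hKr : ∀ x u, restTerm (flipRate A) x u ≤ K * ∑ i, u i ^ 2 := hK
  have hgrad : ∀ r, 0 ≤ r → r ≤ t → ∀ y,
      gradSq (semi L r *ᵥ f) y ≤ Real.exp (K * t) * (4 * n) := by
    intro r h0 hr y
    have h1 := hR.gradSq_semi_le hKr hg0 h0 y
    refine h1.trans (mul_le_mul_of_nonneg_right (Real.exp_le_exp.2 ?_) (by positivity))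
    nlinarith
  have hvar := hR.variance_le (M₀ := Real.exp (K * t) * (4 * n)) ht hgrad x₀
  -- the test set
  set S : Finset (Conf n) := Finset.univ.filter fun y => 0 < f y with hS
  -- Chebyshev
  have hP := semi_nonneg L hR.offdiag t ht x₀
  have hrow := semi_rowsum L hR.row t x₀
  have hcheb : m ^ 2 * ∑ y ∈ Sᶜ, semi L t x₀ y ≤ Real.exp (K * t) * (4 * n) * t := by
    have h1 : ∑ y, semi L t x₀ y * (f y - m) ^ 2
        = (semi L t *ᵥ fun y => f y ^ 2) x₀ - m ^ 2 := by
      have : ∀ y, semi L t x₀ y * (f y - m) ^ 2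
          = semi L t x₀ y * f y ^ 2 - 2 * m * (semi L t x₀ y * f y) + m ^ 2 * semi L t x₀ y := by
        intro y; ring
      simp only [this, Finset.sum_add_distrib, Finset.sum_sub_distrib, ← Finset.mul_sum, hrow]
      have hm' : ∑ y, semi L t x₀ y * f y = m := rfl
      rw [hm']
      simp only [Matrix.mulVec, dotProduct]
      ring
    have h2 : m ^ 2 * ∑ y ∈ Sᶜ, semi L t x₀ y ≤ ∑ y, semi L t x₀ y * (f y - m) ^ 2 := by
      rw [Finset.mul_sum]
      calc ∑ y ∈ Sᶜ, m ^ 2 * semi L t x₀ y
          ≤ ∑ y ∈ Sᶜ, semi L t x₀ y * (f y - m) ^ 2 := by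
            refine Finset.sum_le_sum fun y hy => ?_
            have hy' : f y ≤ 0 := by simpa [hS] using hy
            have : m ^ 2 ≤ (f y - m) ^ 2 := by nlinarith
            nlinarith [hP y]
        _ ≤ ∑ y, semi L t x₀ y * (f y - m) ^ 2 :=
            Finset.sum_le_sum_of_subset_of_nonneg (Finset.subset_univ _)
              fun y _ _ => mul_nonneg (hP y) (sq_nonneg _)
    linarith
  -- symmetry of the Gibbs measure
  have hneg : ∀ y, f (negConf y) = - f y := by
    intro y
    simp only [hf, hfn, negConf, spin_not, mul_neg, Finset.sum_neg_distrib]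
  have hμS : ∑ y ∈ S, μ y ≤ 1 / 2 := by
    let e : Conf n ≃ Conf n := Function.Involutive.toPerm negConf negConf_negConf
    have h1 : ∑ y ∈ S, μ y = ∑ y ∈ S.map e.toEmbedding, μ y := by
      rw [Finset.sum_map]
      refine Finset.sum_congr rfl fun y _ => ?_
      exact (gibbs_neg A y).symm
    have hdisj : Disjoint S (S.map e.toEmbedding) := by
      rw [Finset.disjoint_left]
      intro y hy hy'
      rw [Finset.mem_map] at hy'
      obtain ⟨w, hw, hwy⟩ := hy'
      have h2 : 0 < f w := by simpa [hS] using hw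
      have h3 : 0 < f y := by simpa [hS] using hy
      have h4 : y = negConf w := hwy.symm
      rw [h4, hneg] at h3
      linarith
    have h2 : ∑ y ∈ S, μ y + ∑ y ∈ S.map e.toEmbedding, μ y ≤ 1 := by
      rw [← Finset.sum_union hdisj, ← hμ.total]
      exact Finset.sum_le_sum_of_subset_of_nonneg (Finset.subset_univ _)
        fun y _ _ => (hμ.pos y).le
    linarith
  -- total variation lower bound
  have htv : ∑ y ∈ S, (semi L t x₀ y - μ y) ≤ tvDist A t x₀ := by
    unfold tvDist
    have hsum0 : ∑ y, (semi L t x₀ y - μ y) = 0 := by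
      rw [Finset.sum_sub_distrib, hrow, hμ.total, sub_self]
    have hsplit := Finset.sum_add_sum_compl S (fun y => semi L t x₀ y - μ y)
    rw [hsum0] at hsplit
    have habs := Finset.sum_add_sum_compl S (fun y => |semi L t x₀ y - μ y|)
    have h1 : ∑ y ∈ S, (semi L t x₀ y - μ y) ≤ ∑ y ∈ S, |semi L t x₀ y - μ y| :=
      Finset.sum_le_sum fun y _ => le_abs_self _
    have h2 : - ∑ y ∈ Sᶜ, (semi L t x₀ y - μ y) ≤ ∑ y ∈ Sᶜ, |semi L t x₀ y - μ y| := by
      rw [← Finset.sum_neg_distrib]
      exact Finset.sum_le_sum fun y _ => neg_le_abs _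
    change _ ≤ (1 / 2) * ∑ y, |semi L t x₀ y - μ y|
    linarith
  have hcompl : ∑ y ∈ S, semi L t x₀ y = 1 - ∑ y ∈ Sᶜ, semi L t x₀ y := by
    have := Finset.sum_add_sum_compl S (fun y => semi L t x₀ y)
    rw [hrow] at this
    linarith
  have hfinal : ∑ y ∈ Sᶜ, semi L t x₀ y ≤ 4 * t * Real.exp ((K + 8) * t) / n := by
    have hm2 : (n * Real.exp (-(4 * t))) ^ 2 ≤ m ^ 2 :=
      pow_le_pow_left₀ (by positivity) hx₀ 2
    have hQ0 : 0 ≤ ∑ y ∈ Sᶜ, semi L t x₀ y := Finset.sum_nonneg fun y _ => hP y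
    have h1 : (n * Real.exp (-(4 * t))) ^ 2 * ∑ y ∈ Sᶜ, semi L t x₀ y
        ≤ Real.exp (K * t) * (4 * n) * t :=
      (mul_le_mul_of_nonneg_right hm2 hQ0).trans hcheb
    have e : Real.exp ((K + 8) * t) = Real.exp (K * t) * Real.exp (8 * t) := by
      rw [← Real.exp_add]
      congr 1
      ring
    have he2 : Real.exp (-(4 * t)) ^ 2 * Real.exp (8 * t) = 1 := by
      rw [← Real.exp_nat_mul, ← Real.exp_add]
      simp only [Nat.cast_ofNat]
      rw [show (2 : ℝ) * -(4 * t) + 8 * t = 0 by ring, Real.exp_zero]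
    rw [le_div_iff₀ hnpos, e]
    have hpos8 := Real.exp_pos (8 * t)
    have h2 := mul_le_mul_of_nonneg_right h1 hpos8.le
    have hl : (n * Real.exp (-(4 * t))) ^ 2 * (∑ y ∈ Sᶜ, semi L t x₀ y) * Real.exp (8 * t)
        = n ^ 2 * ∑ y ∈ Sᶜ, semi L t x₀ y := by
      calc _ = n ^ 2 * (∑ y ∈ Sᶜ, semi L t x₀ y) * (Real.exp (-(4 * t)) ^ 2 * Real.exp (8 * t)) := by
            ring
        _ = _ := by rw [he2, mul_one]
    rw [hl] at h2
    have h3 : (n : ℝ) * (n * ∑ y ∈ Sᶜ, semi L t x₀ y)
        ≤ n * (4 * t * (Real.exp (K * t) * Real.exp (8 * t))) := by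
      calc _ = (n : ℝ) ^ 2 * ∑ y ∈ Sᶜ, semi L t x₀ y := by ring
        _ ≤ _ := h2
        _ = _ := by ring
    have h4 := le_of_mul_le_mul_left h3 hnpos
    linarith
  have hsplit2 : ∑ y ∈ S, (semi L t x₀ y - μ y) = ∑ y ∈ S, semi L t x₀ y - ∑ y ∈ S, μ y :=
    Finset.sum_sub_distrib _ _
  linarith

end Vale.Agent.Lib.P150
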