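import Vale.Agent.Lib.P150.Tensor

/-!
Second order calculus along lines for a backward parabolic operator.
-/

open scoped BigOperators Matrix
open Filter Topology

namespace Vale.Agent.Lib.P150

variable {n m : ℕ}

/-- First and second derivatives at a point: in the time variable, and along the lines in the
directions `r a`. -/
def HasJet (r : Fin m → Fin n → ℝ) (G : ℝ → (Fin n → ℝ) → ℝ) (s : ℝ) (y : Fin n → ℝ)
    (gs : ℝ) (g1 g2 : Fin m → ℝ) : Prop :=
  HasDerivAt (fun s' => G s' y) gs s ∧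
  ∀ a, ∃ D : ℝ → ℝ, (∀ τ, HasDerivAt (fun τ' => G s (y + τ' • r a)) (D τ) τ) ∧ D 0 = g1 a ∧
    HasDerivAt D (g2 a) 0

variable {r : Fin m → Fin n → ℝ} {G H : ℝ → (Fin n → ℝ) → ℝ} {s : ℝ} {y : Fin n → ℝ}
  {gs hs : ℝ} {g1 g2 h1 h2 : Fin m → ℝ}

lemma HasJet.add (hG : HasJet r G s y gs g1 g2) (hH : HasJet r H s y hs h1 h2) :
    HasJet r (fun s y => G s y + H s y) s y (gs + hs) (fun a => g1 a + h1 a)
      (fun a => g2 a + h2 a) := by
  refine ⟨hG.1.fun_add hH.1, fun a => ?_⟩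
  obtain ⟨D, hD, hD0, hD2⟩ := hG.2 a
  obtain ⟨E, hE, hE0, hE2⟩ := hH.2 a
  exact ⟨fun τ => D τ + E τ, fun τ => (hD τ).fun_add (hE τ), by simp only [hD0, hE0],
    hD2.fun_add hE2⟩

lemma HasJet.sub (hG : HasJet r G s y gs g1 g2) (hH : HasJet r H s y hs h1 h2) :
    HasJet r (fun s y => G s y - H s y) s y (gs - hs) (fun a => g1 a - h1 a)
      (fun a => g2 a - h2 a) := by
  refine ⟨hG.1.fun_sub hH.1, fun a => ?_⟩
  obtain ⟨D, hD, hD0, hD2⟩ := hG.2 a
  obtain ⟨E, hE, hE0, hE2⟩ := hH.2 a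
  exact ⟨fun τ => D τ - E τ, fun τ => (hD τ).fun_sub (hE τ), by simp only [hD0, hE0],
    hD2.fun_sub hE2⟩

lemma HasJet.const_mul (c : ℝ) (hG : HasJet r G s y gs g1 g2) :
    HasJet r (fun s y => c * G s y) s y (c * gs) (fun a => c * g1 a) (fun a => c * g2 a) := by
  refine ⟨hG.1.const_mul c, fun a => ?_⟩
  obtain ⟨D, hD, hD0, hD2⟩ := hG.2 a
  exact ⟨fun τ => c * D τ, fun τ => (hD τ).const_mul c, by simp only [hD0], hD2.const_mul c⟩

lemma HasJet.time_mul {T : ℝ → ℝ} {T' : ℝ} (hT : HasDerivAt T T' s)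
    (hG : HasJet r G s y gs g1 g2) :
    HasJet r (fun s y => T s * G s y) s y (T' * G s y + T s * gs) (fun a => T s * g1 a)
      (fun a => T s * g2 a) := by
  refine ⟨hT.mul hG.1, fun a => ?_⟩
  obtain ⟨D, hD, hD0, hD2⟩ := hG.2 a
  exact ⟨fun τ => T s * D τ, fun τ => (hD τ).const_mul _, by simp only [hD0], hD2.const_mul _⟩

/-- The value of the parabolic operator on a function at a point. -/
def JetP (r : Fin m → Fin n → ℝ) (G : ℝ → (Fin n → ℝ) → ℝ) (s : ℝ) (y : Fin n → ℝ) (p : ℝ) : Prop :=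
  ∃ gs g1 g2, HasJet r G s y gs g1 g2 ∧ gs + (1 / 2) * ∑ a, g2 a = p

variable {p q : ℝ}

lemma JetP.add (hG : JetP r G s y p) (hH : JetP r H s y q) :
    JetP r (fun s y => G s y + H s y) s y (p + q) := by
  obtain ⟨gs, g1, g2, hj, hp⟩ := hG
  obtain ⟨hs, h1, h2, hj', hq⟩ := hH
  refine ⟨_, _, _, hj.add hj', ?_⟩
  rw [← hp, ← hq, Finset.sum_add_distrib]
  ring

lemma JetP.sub (hG : JetP r G s y p) (hH : JetP r H s y q) :
    JetP r (fun s y => G s y - H s y) s y (p - q) := by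
  obtain ⟨gs, g1, g2, hj, hp⟩ := hG
  obtain ⟨hs, h1, h2, hj', hq⟩ := hH
  refine ⟨_, _, _, hj.sub hj', ?_⟩
  rw [← hp, ← hq, Finset.sum_sub_distrib]
  ring

lemma JetP.const_mul (c : ℝ) (hG : JetP r G s y p) :
    JetP r (fun s y => c * G s y) s y (c * p) := by
  obtain ⟨gs, g1, g2, hj, hp⟩ := hG
  refine ⟨_, _, _, hj.const_mul c, ?_⟩
  rw [← hp, ← Finset.mul_sum]
  ring

lemma JetP.time_mul {T : ℝ → ℝ} {T' : ℝ} (hT : HasDerivAt T T' s) (hG : JetP r G s y p) :
    JetP r (fun s y => T s * G s y) s y (T' * G s y + T s * p) := by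
  obtain ⟨gs, g1, g2, hj, hp⟩ := hG
  refine ⟨_, _, _, hj.time_mul hT, ?_⟩
  rw [← hp, ← Finset.mul_sum]
  ring

lemma JetP.sum {ι : Type*} (S : Finset ι) {F : ι → ℝ → (Fin n → ℝ) → ℝ} {P : ι → ℝ}
    (hF : ∀ i ∈ S, JetP r (F i) s y (P i)) :
    JetP r (fun s y => ∑ i ∈ S, F i s y) s y (∑ i ∈ S, P i) := by
  classical
  induction S using Finset.induction_on with
  | empty =>
    refine ⟨0, 0, 0, ⟨by simpa using hasDerivAt_const s (0 : ℝ), fun a => ?_⟩, by simp⟩
    refine ⟨fun _ => 0, fun τ => ?_, rfl, hasDerivAt_const _ _⟩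
    simpa using hasDerivAt_const τ (0 : ℝ)
  | insert j S hj ih =>
    have h1 := hF j (Finset.mem_insert_self _ _)
    have h2 := ih fun i hi => hF i (Finset.mem_insert_of_mem hi)
    have h3 := h1.add h2
    rw [Finset.sum_insert hj]
    have e : (fun s y => ∑ i ∈ insert j S, F i s y) = fun s y => F j s y + ∑ i ∈ S, F i s y := by
      funext s y
      rw [Finset.sum_insert hj]
    rw [e]
    exact h3

/-- Derivative of `lamF`. -/
lemma hasDerivAt_lamF {u v : ℝ → ℝ} {u' v' τ : ℝ} (hu : HasDerivAt u u' τ) (hv : HasDerivAt v v' τ)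
    (hu0 : 0 < u τ) (hv0 : 0 < v τ) :
    HasDerivAt (fun t => lamF (u t) (v t))
      ((Real.log (u τ / v τ) + 1) * u' - u τ / v τ * v') τ := by
  unfold lamF
  have h1 : HasDerivAt (fun t => u t / v t) ((u' * v τ - u τ * v') / v τ ^ 2) τ := hu.div hv hv0.ne'
  have h2 := h1.log (div_pos hu0 hv0).ne'
  have h3 := hu.mul h2
  refine h3.congr_deriv ?_
  field_simp
  ring

/-- Jets of `lamF`. -/
theorem JetP_lam {U Z : ℝ → (Fin n → ℝ) → ℝ} {us zs : ℝ} {u1 u2 z1 z2 : Fin m → ℝ}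
    (hU : HasJet r U s y us u1 u2) (hZ : HasJet r Z s y zs z1 z2)
    (hU0 : ∀ s y, 0 < U s y) (hZ0 : ∀ s y, 0 < Z s y)
    (hPU : us + (1 / 2) * ∑ a, u2 a = 0) (hPZ : zs + (1 / 2) * ∑ a, z2 a = 0) :
    JetP r (fun s y => lamF (U s y) (Z s y)) s y
      ((1 / 2) * ∑ a, (u1 a - U s y / Z s y * z1 a) ^ 2 / U s y) := by
  obtain ⟨R, hR⟩ : ∃ R, R = U s y / Z s y := ⟨_, rfl⟩
  obtain ⟨ρ, hρ⟩ : ∃ ρ, ρ = Real.log (U s y / Z s y) + 1 := ⟨_, rfl⟩
  refine ⟨ρ * us - R * zs, fun a => ρ * u1 a - R * z1 a,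
    fun a => ρ * u2 a - R * z2 a + (u1 a - R * z1 a) ^ 2 / U s y, ⟨?_, ?_⟩, ?_⟩
  · rw [hρ, hR]
    exact hasDerivAt_lamF hU.1 hZ.1 (hU0 _ _) (hZ0 _ _)
  · intro a
    obtain ⟨D, hD, hD0, hD2⟩ := hU.2 a
    obtain ⟨E, hE, hE0, hE2⟩ := hZ.2 a
    have hpos1 : ∀ τ : ℝ, 0 < U s (y + τ • r a) := fun τ => hU0 _ _
    have hpos2 : ∀ τ : ℝ, 0 < Z s (y + τ • r a) := fun τ => hZ0 _ _
    refine ⟨fun τ => (Real.log (U s (y + τ • r a) / Z s (y + τ • r a)) + 1) * D τ
        - U s (y + τ • r a) / Z s (y + τ • r a) * E τ, ?_, ?_, ?_⟩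
    · intro τ
      exact hasDerivAt_lamF (hD τ) (hE τ) (hpos1 τ) (hpos2 τ)
    · simp only [zero_smul, add_zero, hD0, hE0, hρ, hR]
    · have hu0 : 0 < U s (y + (0 : ℝ) • r a) := hpos1 0
      have hv0 : 0 < Z s (y + (0 : ℝ) • r a) := hpos2 0
      simp only [zero_smul, add_zero] at hu0 hv0
      have h1 : HasDerivAt (fun τ : ℝ => U s (y + τ • r a) / Z s (y + τ • r a))
          ((u1 a * Z s y - U s y * z1 a) / Z s y ^ 2) 0 := by
        have := (hD 0).div (hE 0) (hpos2 0).ne'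
        simp only [zero_smul, add_zero, hD0, hE0] at this
        exact this
      have h2 := h1.log (by
        simp only [zero_smul, add_zero]
        exact (div_pos hu0 hv0).ne')
      have h3 := (h2.add_const 1).mul hD2
      have h4 := h1.mul hE2
      have h5 := h3.fun_sub h4
      refine h5.congr_deriv ?_
      simp only [zero_smul, add_zero, hD0, hE0, Pi.add_apply, Pi.mul_apply, hρ, hR]
      field_simp
      ring
  · have e1 : ∑ a, (ρ * u2 a - R * z2 a + (u1 a - R * z1 a) ^ 2 / U s y)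
        = ρ * ∑ a, u2 a - R * ∑ a, z2 a + ∑ a, (u1 a - R * z1 a) ^ 2 / U s y := by
      rw [Finset.sum_add_distrib, Finset.sum_sub_distrib, Finset.mul_sum, Finset.mul_sum]
    rw [e1, ← hR]
    linear_combination ρ * hPU - R * hPZ

/-- The elementary solutions. -/
noncomputable def solF (r : Fin m → Fin n → ℝ) (w : Fin n → ℝ) (t : ℝ) (s : ℝ) (y : Fin n → ℝ) : ℝ :=
  Real.exp (∑ i, y i * w i - s / 2 * ∑ a, (∑ i, r a i * w i) ^ 2 + t)

/-- The jet of an elementary solution. -/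
lemma hasJet_solF (w : Fin n → ℝ) (t : ℝ) (s : ℝ) (y : Fin n → ℝ) :
    HasJet r (solF r w t) s y (-(1 / 2) * (∑ a, (∑ i, r a i * w i) ^ 2) * solF r w t s y)
      (fun a => (∑ i, r a i * w i) * solF r w t s y)
      (fun a => (∑ i, r a i * w i) ^ 2 * solF r w t s y) := by
  constructor
  · unfold solF
    have h1 : HasDerivAt (fun s' : ℝ => ∑ i, y i * w i - s' / 2 * ∑ a, (∑ i, r a i * w i) ^ 2 + t)
        (-(1 / 2) * ∑ a, (∑ i, r a i * w i) ^ 2) s := by
      have := (((hasDerivAt_id' s).div_const 2).mul_const (∑ a, (∑ i, r a i * w i) ^ 2)).const_sub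
        (∑ i, y i * w i)
      refine (this.add_const t).congr_deriv ?_
      ring
    have := h1.exp
    refine this.congr_deriv ?_
    ring
  · intro a
    obtain ⟨l, hl⟩ : ∃ l, l = ∑ i, r a i * w i := ⟨_, rfl⟩
    have hline : ∀ τ : ℝ, solF r w t s (y + τ • r a) = solF r w t s y * Real.exp (τ * l) := by
      intro τ
      unfold solF
      rw [← Real.exp_add]
      congr 1
      simp only [Pi.add_apply, Pi.smul_apply, smul_eq_mul, add_mul, Finset.sum_add_distrib]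
      have : ∑ i, τ * r a i * w i = τ * l := by
        rw [hl, Finset.mul_sum]
        refine Finset.sum_congr rfl fun i _ => ?_
        ring
      rw [this]
      ring
    simp only [hline, ← hl]
    have hexp : ∀ τ : ℝ, HasDerivAt (fun τ => Real.exp (τ * l)) (l * Real.exp (τ * l)) τ := by
      intro τ
      have := ((hasDerivAt_id' τ).mul_const l).exp
      refine this.congr_deriv ?_
      ring
    refine ⟨fun τ => solF r w t s y * (l * Real.exp (τ * l)), fun τ => (hexp τ).const_mul _, ?_, ?_⟩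
    · simp only [zero_mul, Real.exp_zero]
      ring
    · have := ((hexp 0).const_mul l).const_mul (solF r w t s y)
      refine this.congr_deriv ?_
      simp only [zero_mul, Real.exp_zero]
      ring

lemma solF_pos (w : Fin n → ℝ) (t s : ℝ) (y : Fin n → ℝ) : 0 < solF r w t s y := Real.exp_pos _

lemma solF_pop (w : Fin n → ℝ) (t s : ℝ) (y : Fin n → ℝ) :
    -(1 / 2) * (∑ a, (∑ i, r a i * w i) ^ 2) * solF r w t s y
      + (1 / 2) * ∑ a, (∑ i, r a i * w i) ^ 2 * solF r w t s y = 0 := by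
  rw [← Finset.sum_mul]
  ring

/-- The second derivative test at a maximum. -/
theorem jet_max_test {ρ : ℝ} (hG : JetP r G s y ρ) (hs0 : 0 ≤ s) (hs1 : s < 1)
    (hmax : ∀ s' y', 0 ≤ s' → s' ≤ 1 → G s' y' ≤ G s y) : ρ ≤ 0 := by
  obtain ⟨gs, g1, g2, ⟨hts, hline⟩, hp⟩ := hG
  rw [← hp]
  -- the time derivative
  have h1 : gs ≤ 0 := by
    by_contra hcon
    push Not at hcon
    have h2 := hts.hasDerivWithinAt (s := Set.Ioi s)
    have h3 := (hasDerivWithinAt_iff_tendsto_slope' (by simp)).1 h2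
    have h4 : ∀ᶠ z in 𝓝[>] s, 0 < slope (fun s' => G s' y) s z := h3.eventually (lt_mem_nhds hcon)
    have h5 : ∀ᶠ z in 𝓝[>] s, z < 1 := by
      filter_upwards [Ioo_mem_nhdsGT hs1] with z hz using hz.2
    obtain ⟨z, ⟨hz, hz2⟩, hz3⟩ := ((h4.and h5).and self_mem_nhdsWithin).exists
    have hz4 : s < z := hz3
    have h6 := hmax z y (by linarith) hz2.le
    unfold slope at hz
    simp only [vsub_eq_sub, smul_eq_mul] at hz
    have h7 : 0 < z - s := by linarith
    have h8 : (z - s)⁻¹ * (G z y - G s y) ≤ 0 :=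
      mul_nonpos_of_nonneg_of_nonpos (inv_nonneg.2 h7.le) (by linarith)
    linarith
  -- the second derivatives
  have h2 : ∀ a, g2 a ≤ 0 := by
    intro a
    obtain ⟨D, hD, hD0, hD2⟩ := hline a
    have hlm : IsLocalMax (fun τ : ℝ => G s (y + τ • r a)) 0 := by
      refine Filter.Eventually.of_forall fun τ => ?_
      simp only [zero_smul, add_zero]
      exact hmax _ _ hs0 hs1.le
    have hD00 : D 0 = 0 := hlm.hasDerivAt_eq_zero (hD 0)
    by_contra hcon
    push Not at hcon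
    have h3 := hD2.hasDerivWithinAt (s := Set.Ioi 0)
    have h4 := (hasDerivWithinAt_iff_tendsto_slope' (by simp)).1 h3
    have h5 : ∀ᶠ z in 𝓝[>] (0 : ℝ), 0 < slope D 0 z := h4.eventually (lt_mem_nhds hcon)
    obtain ⟨δ, hδ0, hδ⟩ : ∃ δ > 0, ∀ z, 0 < z → z < δ → 0 < slope D 0 z := by
      rcases (mem_nhdsGT_iff_exists_Ioo_subset).1 h5 with ⟨u, hu, hsub⟩
      exact ⟨u, hu, fun z hz hz' => hsub ⟨hz, hz'⟩⟩
    have hDpos : ∀ z, 0 < z → z < δ → 0 < D z := by
      intro z hz hz'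
      have := hδ z hz hz'
      unfold slope at this
      simp only [vsub_eq_sub, smul_eq_mul, sub_zero] at this
      rw [hD00, sub_zero] at this
      exact (pos_iff_pos_of_mul_pos this).1 (inv_pos.2 hz)
    -- strict increase
    have hmono : StrictMonoOn (fun τ : ℝ => G s (y + τ • r a)) (Set.Icc 0 (δ / 2)) := by
      apply strictMonoOn_of_deriv_pos (convex_Icc _ _)
      · exact fun t _ => (hD t).continuousAt.continuousWithinAt
      · intro t ht
        rw [interior_Icc] at ht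
        rw [(hD t).deriv]
        exact hDpos t ht.1 (by linarith [ht.2])
    have h6 := hmono (Set.left_mem_Icc.2 (by positivity)) (Set.right_mem_Icc.2 (by positivity))
      (by positivity)
    simp only [zero_smul, add_zero] at h6
    have h7 := hmax s (y + (δ / 2) • r a) hs0 hs1.le
    linarith
  have h3 : ∑ a, g2 a ≤ 0 := Finset.sum_nonpos fun a _ => h2 a
  linarith

end Vale.Agent.Lib.P150
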