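import Vale.Agent.Lib.P150.Jet

/-!
The entropy functionals along the flow of the coupling: jets and the comparison argument.
-/

open scoped BigOperators Matrix
open Filter Topology

namespace Vale.Agent.Lib.P150

variable {n m : ℕ}

/-- The vector of spins. -/
noncomputable def spinV (x : Conf n) : Fin n → ℝ := fun i => spin (x i)

/-- The quadratic form of the coupling. -/
noncomputable def quadA (A : Matrix (Fin n) (Fin n) ℝ) (x : Conf n) : ℝ :=
  ∑ i, ∑ j, A i j * spin (x i) * spin (x j)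

/-- The weight along the flow. -/
noncomputable def wSol (r : Fin m → Fin n → ℝ) (A : Matrix (Fin n) (Fin n) ℝ) (s : ℝ)
    (y : Fin n → ℝ) (x : Conf n) : ℝ :=
  solF r (spinV x) ((1 / 2) * quadA A x) s y

/-- The value of a direction on a configuration. -/
noncomputable def dirL (r : Fin m → Fin n → ℝ) (a : Fin m) (x : Conf n) : ℝ :=
  ∑ i, r a i * spinV x i

variable {r : Fin m → Fin n → ℝ} {A : Matrix (Fin n) (Fin n) ℝ}

lemma wSol_pos (s : ℝ) (y : Fin n → ℝ) (x : Conf n) : 0 < wSol r A s y x := solF_pos _ _ _ _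

/-- Jet of a single weight. -/
lemma hasJet_wSol (s : ℝ) (y : Fin n → ℝ) (x : Conf n) :
    HasJet r (fun s y => wSol r A s y x) s y
      (-(1 / 2) * (∑ a, dirL r a x ^ 2) * wSol r A s y x)
      (fun a => dirL r a x * wSol r A s y x)
      (fun a => dirL r a x ^ 2 * wSol r A s y x) :=
  hasJet_solF (r := r) (spinV x) _ s y

lemma wSol_pop (s : ℝ) (y : Fin n → ℝ) (x : Conf n) :
    -(1 / 2) * (∑ a, dirL r a x ^ 2) * wSol r A s y x
      + (1 / 2) * ∑ a, dirL r a x ^ 2 * wSol r A s y x = 0 := by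
  rw [← Finset.sum_mul]
  ring

/-- Jet of a linear combination of weights. -/
lemma hasJet_sum_wSol (c : Conf n → ℝ) (s : ℝ) (y : Fin n → ℝ) (S : Finset (Conf n)) :
    HasJet r (fun s y => ∑ x ∈ S, wSol r A s y x * c x) s y
      (∑ x ∈ S, c x * (-(1 / 2) * (∑ a, dirL r a x ^ 2) * wSol r A s y x))
      (fun a => ∑ x ∈ S, c x * (dirL r a x * wSol r A s y x))
      (fun a => ∑ x ∈ S, c x * (dirL r a x ^ 2 * wSol r A s y x)) := by
  classical
  induction S using Finset.induction_on with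
  | empty =>
    simp only [Finset.sum_empty]
    refine ⟨by simpa using hasDerivAt_const s (0 : ℝ), fun a => ?_⟩
    refine ⟨fun _ => 0, fun τ => ?_, rfl, hasDerivAt_const _ _⟩
    simpa using hasDerivAt_const τ (0 : ℝ)
  | insert j S hj ih =>
    have h1 := (hasJet_wSol (r := r) (A := A) s y j).const_mul (c j)
    have h2 := h1.add ih
    simp only [Finset.sum_insert hj]
    have e : (fun s y => wSol r A s y j * c j + ∑ x ∈ S, wSol r A s y x * c x)
        = fun s y => c j * wSol r A s y j + ∑ x ∈ S, wSol r A s y x * c x := by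
      funext s y
      ring
    rw [e]
    exact h2

lemma sum_wSol_pop (c : Conf n → ℝ) (s : ℝ) (y : Fin n → ℝ) (S : Finset (Conf n)) :
    (∑ x ∈ S, c x * (-(1 / 2) * (∑ a, dirL r a x ^ 2) * wSol r A s y x))
      + (1 / 2) * ∑ a, (∑ x ∈ S, c x * (dirL r a x ^ 2 * wSol r A s y x)) = 0 := by
  rw [Finset.sum_comm, Finset.mul_sum, ← Finset.sum_add_distrib]
  refine Finset.sum_eq_zero fun x _ => ?_
  rw [← Finset.mul_sum]
  have := wSol_pop (r := r) (A := A) s y x
  linear_combination c x * this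

lemma sum_wSol_pos {c : Conf n → ℝ} (hc : ∀ x, 0 < c x) (s : ℝ) (y : Fin n → ℝ) :
    0 < ∑ x, wSol r A s y x * c x :=
  Finset.sum_pos (fun x _ => mul_pos (wSol_pos s y x) (hc x)) ⟨fun _ => true, Finset.mem_univ _⟩

/-- The quantity `½ ∑ₐ (u₁ - (U/Z) z₁)² / U` for the full sums. -/
noncomputable def popE (r : Fin m → Fin n → ℝ) (A : Matrix (Fin n) (Fin n) ℝ) (f : Conf n → ℝ)
    (s : ℝ) (y : Fin n → ℝ) : ℝ :=
  (1 / 2) * ∑ a, (∑ x, f x * (dirL r a x * wSol r A s y x)
      - (∑ x, wSol r A s y x * f x) / (∑ x, wSol r A s y x * 1)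
        * ∑ x, (1 : ℝ) * (dirL r a x * wSol r A s y x)) ^ 2 / ∑ x, wSol r A s y x * f x

lemma popE_nonneg {f : Conf n → ℝ} (hf : ∀ x, 0 < f x) (s : ℝ) (y : Fin n → ℝ) :
    0 ≤ popE r A f s y := by
  unfold popE
  have := sum_wSol_pos (r := r) (A := A) hf s y
  positivity

lemma entW_wSol_eq (f : Conf n → ℝ) (s : ℝ) (y : Fin n → ℝ) :
    entW (wSol r A s y) f
      = ∑ x, wSol r A s y x * xlogx (f x)
        - lamF (∑ x, wSol r A s y x * f x) (∑ x, wSol r A s y x * 1) := by
  unfold entW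
  simp only [mul_one]

/-- The parabolic operator on the entropy functional. -/
lemma jetP_entW {f : Conf n → ℝ} (hf : ∀ x, 0 < f x) (s : ℝ) (y : Fin n → ℝ) :
    JetP r (fun s y => entW (wSol r A s y) f) s y (-popE r A f s y) := by
  have e : (fun s y => entW (wSol r A s y) f)
      = fun s y => ∑ x, wSol r A s y x * xlogx (f x)
        - lamF (∑ x, wSol r A s y x * f x) (∑ x, wSol r A s y x * 1) := by
    funext s y
    exact entW_wSol_eq f s y
  rw [e]
  have h1 : JetP r (fun s y => ∑ x, wSol r A s y x * xlogx (f x)) s y 0 :=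
    ⟨_, _, _, hasJet_sum_wSol _ s y Finset.univ, sum_wSol_pop _ s y Finset.univ⟩
  have h2 := JetP_lam (hasJet_sum_wSol (r := r) (A := A) f s y Finset.univ)
    (hasJet_sum_wSol (r := r) (A := A) (fun _ => 1) s y Finset.univ)
    (fun s y => sum_wSol_pos hf s y) (fun s y => sum_wSol_pos (fun _ => one_pos) s y)
    (sum_wSol_pop _ s y Finset.univ) (sum_wSol_pop _ s y Finset.univ)
  have h3 := h1.sub h2
  rw [zero_sub] at h3
  exact h3

/-- The parabolic operator on the term of an edge. -/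
lemma jetP_qTerm {f : Conf n → ℝ} (hf : ∀ x, 0 < f x) (s : ℝ) (y : Fin n → ℝ) (i : Fin n)
    (x : Conf n) :
    ∃ q : ℝ, q ≤ 0 ∧ JetP r (fun s y => qTerm (wSol r A s y) f i x) s y q := by
  have hL : ∀ c c' : ℝ, ∃ us u1 u2, HasJet r (fun s y => wSol r A s y x * c
        + wSol r A s y (flipAt x i) * c') s y us u1 u2 ∧ us + (1 / 2) * ∑ a, u2 a = 0 := by
    intro c c'
    have h1 := (hasJet_wSol (r := r) (A := A) s y x).const_mul c
    have h2 := (hasJet_wSol (r := r) (A := A) s y (flipAt x i)).const_mul c'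
    have h3 := h1.add h2
    have e : (fun s y => wSol r A s y x * c + wSol r A s y (flipAt x i) * c')
        = fun s y => c * wSol r A s y x + c' * wSol r A s y (flipAt x i) := by
      funext s y
      ring
    rw [e]
    refine ⟨_, _, _, h3, ?_⟩
    rw [Finset.sum_add_distrib, ← Finset.mul_sum, ← Finset.mul_sum]
    have p1 := wSol_pop (r := r) (A := A) s y x
    have p2 := wSol_pop (r := r) (A := A) s y (flipAt x i)
    linear_combination c * p1 + c' * p2
  obtain ⟨ls, l1, l2, hlj, hlp⟩ := hL (xlogx (f x)) (xlogx (f (flipAt x i)))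
  obtain ⟨us, u1, u2, huj, hup⟩ := hL (f x) (f (flipAt x i))
  obtain ⟨zs, z1, z2, hzj, hzp⟩ := hL 1 1
  have hU0 : ∀ s y, 0 < wSol r A s y x * f x + wSol r A s y (flipAt x i) * f (flipAt x i) :=
    fun s y => add_pos (mul_pos (wSol_pos s y x) (hf x)) (mul_pos (wSol_pos s y _) (hf _))
  have hZ0 : ∀ s y, 0 < wSol r A s y x * 1 + wSol r A s y (flipAt x i) * 1 :=
    fun s y => add_pos (mul_pos (wSol_pos s y x) one_pos) (mul_pos (wSol_pos s y _) one_pos)
  have h2 := JetP_lam huj hzj hU0 hZ0 hup hzp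
  have h1 : JetP r _ s y 0 := ⟨_, _, _, hlj, hlp⟩
  have h3 := h1.sub h2
  have e : (fun s y => qTerm (wSol r A s y) f i x) = fun s y =>
      wSol r A s y x * xlogx (f x) + wSol r A s y (flipAt x i) * xlogx (f (flipAt x i))
        - lamF (wSol r A s y x * f x + wSol r A s y (flipAt x i) * f (flipAt x i))
            (wSol r A s y x * 1 + wSol r A s y (flipAt x i) * 1) := by
    funext s y
    unfold qTerm
    simp only [mul_one]
  rw [e]
  refine ⟨_, ?_, h3⟩
  have := hU0 s y
  have h4 : 0 ≤ (1 / 2) * ∑ a, (u1 a - (wSol r A s y x * f x + wSol r A s y (flipAt x i)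
      * f (flipAt x i)) / (wSol r A s y x * 1 + wSol r A s y (flipAt x i) * 1) * z1 a) ^ 2
        / (wSol r A s y x * f x + wSol r A s y (flipAt x i) * f (flipAt x i)) := by
    positivity
  linarith

/-- The parabolic operator on the sum of the site entropies. -/
lemma jetP_qQ {f : Conf n → ℝ} (hf : ∀ x, 0 < f x) (s : ℝ) (y : Fin n → ℝ) :
    ∃ q : ℝ, q ≤ 0 ∧ JetP r (fun s y => qQ (wSol r A s y) f) s y q := by
  choose q hq hJ using fun (p : Fin n × Conf n) =>
    jetP_qTerm (r := r) (A := A) hf s y p.1 p.2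
  refine ⟨(1 / 2) * ∑ i, ∑ x, q (i, x), ?_, ?_⟩
  · have : ∑ i, ∑ x, q (i, x) ≤ 0 :=
      Finset.sum_nonpos fun i _ => Finset.sum_nonpos fun x _ => hq (i, x)
    linarith
  · have h1 : JetP r (fun s y => ∑ i, ∑ x, qTerm (wSol r A s y) f i x) s y (∑ i, ∑ x, q (i, x)) :=
      JetP.sum _ fun i _ => JetP.sum _ fun x _ => hJ (i, x)
    exact h1.const_mul (1 / 2)

/-- The comparison function. -/
noncomputable def compP (r : Fin m → Fin n → ℝ) (s : ℝ) (y : Fin n → ℝ) : ℝ :=
  ∑ σ : Conf n, solF r (fun i => 2 * spinV σ i) 0 s y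

lemma jetP_compP (s : ℝ) (y : Fin n → ℝ) : JetP r (compP r) s y 0 := by
  have h : ∀ σ : Conf n, JetP r (solF r (fun i => 2 * spinV σ i) 0) s y 0 := fun σ =>
    ⟨_, _, _, hasJet_solF _ _ s y, solF_pop _ _ s y⟩
  have h2 := JetP.sum (r := r) (s := s) (y := y) (Finset.univ : Finset (Conf n))
    (F := fun σ => solF r (fun i => 2 * spinV σ i) 0) (P := fun _ => 0) (fun σ _ => h σ)
  have e : compP r = fun s y => ∑ σ : Conf n, solF r (fun i => 2 * spinV σ i) 0 s y := rfl
  rw [e]
  simpa using h2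

/-- The function to which the maximum principle applies. -/
noncomputable def mainG (r : Fin m → Fin n → ℝ) (A : Matrix (Fin n) (Fin n) ℝ) (f : Conf n → ℝ)
    (θ δ : ℝ) (s : ℝ) (y : Fin n → ℝ) : ℝ :=
  Real.exp (-(θ * (1 - s))) * entW (wSol r A s y) f - qQ (wSol r A s y) f - δ * compP r s y

/-- The parabolic operator on the main function: the lower bound. -/
lemma mainG_pop {f : Conf n → ℝ} (hf : ∀ x, 0 < f x) (θ δ : ℝ) {s : ℝ} {y : Fin n → ℝ}
    (hmax : 0 ≤ s ∧ s < 1 ∧ ∀ s' y', 0 ≤ s' → s' ≤ 1 → mainG r A f θ δ s' y' ≤ mainG r A f θ δ s y) :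
    θ * entW (wSol r A s y) f ≤ popE r A f s y := by
  obtain ⟨q, hq, hJq⟩ := jetP_qQ (r := r) (A := A) hf s y
  have hT : HasDerivAt (fun s => Real.exp (-(θ * (1 - s))))
      (θ * Real.exp (-(θ * (1 - s)))) s := by
    have h1 : HasDerivAt (fun s : ℝ => -(θ * (1 - s))) θ s := by
      have := (((hasDerivAt_id' s).const_sub 1).const_mul θ).neg
      refine this.congr_deriv ?_
      ring
    have := h1.exp
    refine this.congr_deriv ?_
    ring
  have h1 := (jetP_entW (r := r) (A := A) hf s y).time_mul hT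
  have h2 := (h1.sub hJq).sub ((jetP_compP (r := r) s y).const_mul δ)
  have h3 : JetP r (mainG r A f θ δ) s y _ := h2
  have h4 := jet_max_test h3 hmax.1 hmax.2.1 hmax.2.2
  have hTpos := Real.exp_pos (-(θ * (1 - s)))
  have h5 : Real.exp (-(θ * (1 - s))) * (θ * entW (wSol r A s y) f - popE r A f s y) ≤ 0 := by
    nlinarith
  have h6 : θ * entW (wSol r A s y) f - popE r A f s y ≤ 0 := by
    by_contra hcon
    push Not at hcon
    have := mul_pos hTpos hcon
    linarith
  linarith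

end Vale.Agent.Lib.P150
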