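import Vale.Agent.Lib.P150.MaxPr

/-!
The maximum principle for the entropy functionals: conclusion.
-/

open scoped BigOperators Matrix
open Filter Topology

namespace Vale.Agent.Lib.P150

variable {n m : ℕ}

variable {r : Fin m → Fin n → ℝ} {A : Matrix (Fin n) (Fin n) ℝ} {c : ℝ}

lemma sum_spinV_sq (x : Conf n) : ∑ i, spinV x i ^ 2 = n := by
  simp [spinV, spin_sq]

/-- The weight along the flow is a multiple of the Gibbs weight of a scaled coupling. -/
lemma wSol_eq (hB : ∀ v : Fin n → ℝ, ∑ a, (∑ i, r a i * v i) ^ 2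
      = ∑ i, ∑ k, A i k * v i * v k + c * ∑ i, v i ^ 2) (s : ℝ) (y : Fin n → ℝ) (x : Conf n) :
    wSol r A s y x = Real.exp (-(s * c * n / 2)) * wtF ((1 - s) • A) y x := by
  unfold wSol solF wtF
  rw [← Real.exp_add]
  congr 1
  rw [hB (spinV x), sum_spinV_sq]
  have e1 : ∑ i, ∑ j, ((1 - s) • A) i j * spin (x i) * spin (x j) = (1 - s) * quadA A x := by
    unfold quadA
    rw [Finset.mul_sum]
    refine Finset.sum_congr rfl fun i _ => ?_
    rw [Finset.mul_sum]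
    refine Finset.sum_congr rfl fun j _ => ?_
    simp only [Matrix.smul_apply, smul_eq_mul]
    ring
  have e2 : ∑ i, ∑ k, A i k * spinV x i * spinV x k = quadA A x := rfl
  have e3 : ∑ i, y i * spinV x i = ∑ i, y i * spin (x i) := rfl
  rw [e1, e2, e3]
  ring

lemma wSol_div (hB : ∀ v : Fin n → ℝ, ∑ a, (∑ i, r a i * v i) ^ 2
      = ∑ i, ∑ k, A i k * v i * v k + c * ∑ i, v i ^ 2) (s : ℝ) (y : Fin n → ℝ) (x : Conf n) :
    wSol r A s y x = (∑ z, wSol r A s y z) * gibF ((1 - s) • A) y x := by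
  simp only [wSol_eq hB, gibF, ← Finset.mul_sum]
  have h := (sum_wtF_pos ((1 - s) • A) y).ne'
  field_simp

/-- Homogeneity of the entropy functional. -/
lemma entW_eq_mul {W ν f : Conf n → ℝ} {Z : ℝ} (hZ : 0 < Z) (hW : ∀ x, W x = Z * ν x)
    (hν : ∑ x, ν x = 1) : entW W f = Z * entF ν f := by
  unfold entW entF lamF xlogx
  have e1 : ∑ x, W x * f x = Z * ∑ x, ν x * f x := by
    rw [Finset.mul_sum]
    refine Finset.sum_congr rfl fun x _ => ?_
    rw [hW]
    ring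
  have e2 : ∑ x, W x = Z := by
    simp only [hW, ← Finset.mul_sum, hν, mul_one]
  have e3 : ∑ x, W x * (f x * Real.log (f x)) = Z * ∑ x, ν x * (f x * Real.log (f x)) := by
    rw [Finset.mul_sum]
    refine Finset.sum_congr rfl fun x _ => ?_
    rw [hW]
    ring
  rw [e1, e2, e3]
  have : (Z * ∑ x, ν x * f x) / Z = ∑ x, ν x * f x := mul_div_cancel_left₀ _ hZ.ne'
  rw [this]
  ring

/-- The bound for the parabolic operator coming from entropic stability. -/
lemma popE_le (hB : ∀ v : Fin n → ℝ, ∑ a, (∑ i, r a i * v i) ^ 2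
      = ∑ i, ∑ k, A i k * v i * v k + c * ∑ i, v i ^ 2) {C α : ℝ} (hα : 0 < α) (hCc : 0 ≤ C + c)
    (hC : ∀ z : Fin n → ℝ, ∑ i, ∑ k, A i k * z i * z k ≤ C * ∑ i, z i ^ 2)
    {f : Conf n → ℝ} (hf : ∀ x, 0 < f x) (s : ℝ) (y : Fin n → ℝ)
    (hvar : ∀ (y' w : Fin n → ℝ), varF (gibF ((1 - s) • A) y') (linF w) ≤ α * ∑ i, w i ^ 2) :
    popE r A f s y ≤ α * (C + c) * entW (wSol r A s y) f := by
  obtain ⟨ν, hν⟩ : ∃ ν, ν = gibF ((1 - s) • A) y := ⟨_, rfl⟩
  obtain ⟨W, hWdef⟩ : ∃ W, W = wSol r A s y := ⟨_, rfl⟩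
  obtain ⟨Z, hZdef⟩ : ∃ Z, Z = ∑ x, W x := ⟨_, rfl⟩
  have hWpos : ∀ x, 0 < W x := fun x => by rw [hWdef]; exact wSol_pos s y x
  have hZ : 0 < Z := by
    rw [hZdef]
    exact Finset.sum_pos (fun x _ => hWpos x) ⟨fun _ => true, Finset.mem_univ _⟩
  have hWν : ∀ x, W x = Z * ν x := by
    intro x
    rw [hWdef, hZdef, hWdef, hν]
    exact wSol_div hB s y x
  have hν1 : ∑ x, ν x = 1 := by rw [hν]; exact gibF_total _ y
  have hν0 : ∀ x, 0 ≤ ν x := fun x => by rw [hν]; exact (gibF_pos _ y x).le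
  obtain ⟨φ, hφ⟩ : ∃ φ, φ = ∑ x, ν x * f x := ⟨_, rfl⟩
  have hφ0 : 0 < φ := by rw [hφ]; exact sum_pos_of_prob hν0 hν1 hf
  have hU : ∑ x, W x * f x = Z * φ := by
    rw [hφ, Finset.mul_sum]
    refine Finset.sum_congr rfl fun x _ => ?_
    rw [hWν]
    ring
  have hZ1 : ∑ x, W x * 1 = Z := by simp only [mul_one, hZdef]
  have hstab := ent_stab (B := (1 - s) • A) (y := y) hα hf hvar
  rw [← hν, ← hφ] at hstab
  obtain ⟨v, hv⟩ : ∃ v, v = covV ν f := ⟨_, rfl⟩
  rw [← hv] at hstab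
  have hent := entW_eq_mul (f := f) hZ hWν hν1
  rw [← hWdef, hent]
  unfold popE
  rw [← hWdef, hU, hZ1]
  have hterm : ∀ a, ∑ x, f x * (dirL r a x * W x) - Z * φ / Z * ∑ x, (1 : ℝ) * (dirL r a x * W x)
      = Z * ∑ i, r a i * v i := by
    intro a
    have e1 : Z * φ / Z = φ := by field_simp
    rw [e1, Finset.mul_sum, ← Finset.sum_sub_distrib, Finset.mul_sum]
    have e2 : ∀ i, Z * (r a i * v i) = ∑ x, Z * (r a i * (ν x * (f x - φ) * spin (x i))) := by
      intro i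
      rw [hv]
      unfold covV
      rw [← hφ, ← Finset.mul_sum, ← Finset.mul_sum]
    simp only [e2]
    rw [Finset.sum_comm]
    refine Finset.sum_congr rfl fun x _ => ?_
    unfold dirL spinV
    rw [hWν]
    have e3 : ∑ i, Z * (r a i * (ν x * (f x - φ) * spin (x i)))
        = Z * ν x * (f x - φ) * ∑ i, r a i * spin (x i) := by
      rw [Finset.mul_sum]
      refine Finset.sum_congr rfl fun i _ => ?_
      ring
    rw [e3]
    ring
  simp only [hterm]
  have e4 : ∑ a, (Z * ∑ i, r a i * v i) ^ 2 / (Z * φ) = Z / φ * ∑ a, (∑ i, r a i * v i) ^ 2 := by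
    rw [Finset.mul_sum]
    refine Finset.sum_congr rfl fun a _ => ?_
    field_simp
  rw [e4, hB v]
  have h1 : ∑ i, ∑ k, A i k * v i * v k + c * ∑ i, v i ^ 2 ≤ (C + c) * ∑ i, v i ^ 2 := by
    have := hC v
    linarith
  have h2 : (C + c) * ∑ i, v i ^ 2 ≤ (C + c) * (2 * α * φ * entF ν f) :=
    mul_le_mul_of_nonneg_left hstab hCc
  have h3 : 0 ≤ Z / φ := by positivity
  have h4 := mul_le_mul_of_nonneg_left (h1.trans h2) h3
  have e5 : Z / φ * ((C + c) * (2 * α * φ * entF ν f)) = 2 * (α * (C + c) * (Z * entF ν f)) := by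
    field_simp
  rw [e5] at h4
  linarith

/-- The terminal inequality. -/
lemma terminal_ineq (hB : ∀ v : Fin n → ℝ, ∑ a, (∑ i, r a i * v i) ^ 2
      = ∑ i, ∑ k, A i k * v i * v k + c * ∑ i, v i ^ 2) {f : Conf n → ℝ} (hf : ∀ x, 0 < f x)
    (y : Fin n → ℝ) : entW (wSol r A 1 y) f ≤ qQ (wSol r A 1 y) f := by
  refine tensor_prod (fun x => wSol_pos 1 y x) ?_ hf
  intro x i j hij
  simp only [wSol_eq hB]
  have e : ∀ z : Conf n, wtF ((1 - (1 : ℝ)) • A) y z = Real.exp (∑ i, y i * spin (z i)) := by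
    intro z
    unfold wtF
    simp
  simp only [e, linF_flip]
  have hji : j ≠ i := hij.symm
  have h1 : spin (flipAt x i j) = spin (x j) := spin_flipAt_ne x hji
  obtain ⟨K, hK⟩ : ∃ K, K = Real.exp (-(1 * c * n / 2)) := ⟨_, rfl⟩
  rw [← hK, h1]
  have e2 : ∀ a b : ℝ, K * Real.exp a * (K * Real.exp b) = K ^ 2 * Real.exp (a + b) := by
    intro a b
    rw [Real.exp_add]
    ring
  rw [e2, e2]
  congr 2
  ring

end Vale.Agent.Lib.P150
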