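import Vale.Agent.Lib.P150.MaxPr2

/-!
The maximum principle for the entropy functionals: existence of a maximum and conclusion.
-/

open scoped BigOperators Matrix
open Filter Topology

namespace Vale.Agent.Lib.P150

variable {n m : ℕ}

variable {r : Fin m → Fin n → ℝ} {A : Matrix (Fin n) (Fin n) ℝ} {c : ℝ}

lemma continuous_solF (w : Fin n → ℝ) (t : ℝ) :
    Continuous fun p : ℝ × (Fin n → ℝ) => solF r w t p.1 p.2 := by
  unfold solF
  fun_prop

lemma continuous_lamF {α : Type*} [TopologicalSpace α] {u v : α → ℝ} (hu : Continuous u)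
    (hv : Continuous v) (hu0 : ∀ p, 0 < u p) (hv0 : ∀ p, 0 < v p) :
    Continuous fun p => lamF (u p) (v p) := by
  unfold lamF
  exact hu.mul ((hu.div hv fun p => (hv0 p).ne').log fun p => (div_pos (hu0 p) (hv0 p)).ne')

lemma continuous_wSol (x : Conf n) :
    Continuous fun p : ℝ × (Fin n → ℝ) => wSol r A p.1 p.2 x := continuous_solF _ _

lemma continuous_entW {f : Conf n → ℝ} (hf : ∀ x, 0 < f x) :
    Continuous fun p : ℝ × (Fin n → ℝ) => entW (wSol r A p.1 p.2) f := by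
  unfold entW
  refine Continuous.sub ?_ (continuous_lamF ?_ ?_ ?_ ?_)
  · exact continuous_finsetSum _ fun x _ => (continuous_wSol x).mul continuous_const
  · exact continuous_finsetSum _ fun x _ => (continuous_wSol x).mul continuous_const
  · exact continuous_finsetSum _ fun x _ => continuous_wSol x
  · intro p
    exact sum_wSol_pos hf p.1 p.2
  · intro p
    exact Finset.sum_pos (fun x _ => wSol_pos _ _ x) ⟨fun _ => true, Finset.mem_univ _⟩

lemma continuous_qQ {f : Conf n → ℝ} (hf : ∀ x, 0 < f x) :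
    Continuous fun p : ℝ × (Fin n → ℝ) => qQ (wSol r A p.1 p.2) f := by
  unfold qQ
  refine continuous_const.mul ?_
  refine continuous_finsetSum _ fun i _ => continuous_finsetSum _ fun x _ => ?_
  unfold qTerm
  refine Continuous.sub ?_ (continuous_lamF ?_ ?_ ?_ ?_)
  · exact ((continuous_wSol x).mul continuous_const).add
      ((continuous_wSol _).mul continuous_const)
  · exact ((continuous_wSol x).mul continuous_const).add
      ((continuous_wSol _).mul continuous_const)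
  · exact (continuous_wSol x).add (continuous_wSol _)
  · intro p
    exact add_pos (mul_pos (wSol_pos _ _ _) (hf _)) (mul_pos (wSol_pos _ _ _) (hf _))
  · intro p
    exact add_pos (wSol_pos _ _ _) (wSol_pos _ _ _)

lemma continuous_compP : Continuous fun p : ℝ × (Fin n → ℝ) => compP r p.1 p.2 := by
  unfold compP
  exact continuous_finsetSum _ fun σ _ => continuous_solF _ _

lemma continuous_mainG {f : Conf n → ℝ} (hf : ∀ x, 0 < f x) (θ δ : ℝ) :
    Continuous fun p : ℝ × (Fin n → ℝ) => mainG r A f θ δ p.1 p.2 := by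
  unfold mainG
  refine ((Continuous.mul ?_ (continuous_entW hf)).sub (continuous_qQ hf)).sub
    (continuous_const.mul continuous_compP)
  fun_prop

lemma qTerm_nonneg {W f : Conf n → ℝ} (hW : ∀ x, 0 < W x) (hf : ∀ x, 0 < f x) (i : Fin n)
    (x : Conf n) : 0 ≤ qTerm W f i x := by
  have h := two_point_dv (hW x) (hW (flipAt x i)) (hf x) (hf (flipAt x i)) one_pos one_pos
  have e : (W x * 1 + W (flipAt x i) * 1) / (W x + W (flipAt x i)) = 1 := by
    have := hW x
    have := hW (flipAt x i)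
    field_simp
  rw [e] at h
  simp only [Real.log_one, sub_self, mul_zero, add_zero] at h
  exact h

lemma qQ_nonneg {W f : Conf n → ℝ} (hW : ∀ x, 0 < W x) (hf : ∀ x, 0 < f x) : 0 ≤ qQ W f := by
  unfold qQ
  exact mul_nonneg (by norm_num) (Finset.sum_nonneg fun i _ => Finset.sum_nonneg fun x _ =>
    qTerm_nonneg hW hf i x)

/-- Upper bound of the entropy functional by the total mass. -/
lemma entW_le_mass {W f : Conf n → ℝ} (hW : ∀ x, 0 < W x) (hf : ∀ x, 0 < f x) {K : ℝ}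
    (hK : ∀ x, xlogx (f x) ≤ K) : entW W f ≤ (K + 1) * ∑ x, W x := by
  unfold entW
  have hU : 0 < ∑ x, W x * f x :=
    Finset.sum_pos (fun x _ => mul_pos (hW x) (hf x)) ⟨fun _ => true, Finset.mem_univ _⟩
  have hZ : 0 < ∑ x, W x :=
    Finset.sum_pos (fun x _ => hW x) ⟨fun _ => true, Finset.mem_univ _⟩
  have h1 : ∑ x, W x * xlogx (f x) ≤ K * ∑ x, W x := by
    rw [Finset.mul_sum]
    refine Finset.sum_le_sum fun x _ => ?_
    rw [mul_comm]
    exact mul_le_mul_of_nonneg_right (hK x) (hW x).le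
  have h2 : -(∑ x, W x) ≤ lamF (∑ x, W x * f x) (∑ x, W x) := by
    unfold lamF
    have h3 := Real.one_sub_inv_le_log_of_pos (div_pos hU hZ)
    rw [inv_div] at h3
    have h4 := mul_le_mul_of_nonneg_left h3 hU.le
    have e : (∑ x, W x * f x) * (1 - (∑ x, W x) / ∑ x, W x * f x)
        = (∑ x, W x * f x) - ∑ x, W x := by
      field_simp
    rw [e] at h4
    linarith
  linarith

/-- Lower bound for the comparison function. -/
lemma compP_ge (s : ℝ) (hs0 : 0 ≤ s) (hs1 : s ≤ 1) (y : Fin n → ℝ) :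
    Real.exp (2 * ∑ i, |y i| - 2 * ∑ σ : Conf n, ∑ a, dirL r a σ ^ 2) ≤ compP r s y := by
  classical
  obtain ⟨σ, hσ⟩ : ∃ σ : Conf n, σ = fun i => decide (0 ≤ y i) := ⟨_, rfl⟩
  have h1 : solF r (fun i => 2 * spinV σ i) 0 s y ≤ compP r s y :=
    Finset.single_le_sum (f := fun σ : Conf n => solF r (fun i => 2 * spinV σ i) 0 s y)
      (fun σ _ => (solF_pos _ _ _ _).le) (Finset.mem_univ σ)
  refine le_trans ?_ h1
  unfold solF
  apply Real.exp_le_exp.2
  have e1 : ∑ i, y i * (2 * spinV σ i) = 2 * ∑ i, |y i| := by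
    rw [Finset.mul_sum]
    refine Finset.sum_congr rfl fun i _ => ?_
    rw [hσ]
    simp only [spinV, spin]
    by_cases hi : 0 ≤ y i
    · simp [hi, abs_of_nonneg hi]
      ring
    · push Not at hi
      have : ¬ 0 ≤ y i := not_le.2 hi
      simp [this, abs_of_neg hi]
      ring
  have e2 : ∑ a, (∑ i, r a i * (2 * spinV σ i)) ^ 2 = 4 * ∑ a, dirL r a σ ^ 2 := by
    rw [Finset.mul_sum]
    refine Finset.sum_congr rfl fun a _ => ?_
    unfold dirL
    have : ∑ i, r a i * (2 * spinV σ i) = 2 * ∑ i, r a i * spinV σ i := by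
      rw [Finset.mul_sum]
      refine Finset.sum_congr rfl fun i _ => ?_
      ring
    rw [this]
    ring
  rw [e1, e2]
  have h2 : ∑ a, dirL r a σ ^ 2 ≤ ∑ σ : Conf n, ∑ a, dirL r a σ ^ 2 :=
    Finset.single_le_sum (f := fun σ : Conf n => ∑ a, dirL r a σ ^ 2)
      (fun σ _ => Finset.sum_nonneg fun a _ => sq_nonneg _) (Finset.mem_univ σ)
  have h3 : 0 ≤ ∑ a, dirL r a σ ^ 2 := Finset.sum_nonneg fun a _ => sq_nonneg _
  have h4 : s * ∑ a, dirL r a σ ^ 2 ≤ 1 * ∑ σ : Conf n, ∑ a, dirL r a σ ^ 2 :=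
    mul_le_mul hs1 h2 h3 zero_le_one
  nlinarith

/-- Upper bound for a weight along the flow. -/
lemma wSol_le (s : ℝ) (hs0 : 0 ≤ s) (y : Fin n → ℝ) (x : Conf n) :
    wSol r A s y x ≤ Real.exp (∑ i, |y i|) * Real.exp ((1 / 2) * quadA A x) := by
  unfold wSol solF
  rw [← Real.exp_add]
  apply Real.exp_le_exp.2
  have h1 : ∑ i, y i * spinV x i ≤ ∑ i, |y i| := by
    refine Finset.sum_le_sum fun i _ => ?_
    calc y i * spinV x i ≤ |y i * spinV x i| := le_abs_self _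
      _ = |y i| := by rw [abs_mul, show spinV x i = spin (x i) from rfl, spin_abs, mul_one]
  have h2 : 0 ≤ s / 2 * ∑ a, (∑ i, r a i * spinV x i) ^ 2 := by positivity
  linarith

/-- A quadratic function of `t ≥ 1` is eventually below any level. -/
lemma quad_below {A₁ δ₁ M t : ℝ} (hA : 0 ≤ A₁) (hδ : 0 < δ₁) (ht1 : 1 ≤ t)
    (ht : (A₁ + |M| + 1) / δ₁ < t) : A₁ * t - δ₁ * t ^ 2 < M := by
  have h1 : A₁ + |M| + 1 < δ₁ * t := by
    rw [div_lt_iff₀ hδ] at ht
    linarith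
  have h2 : (A₁ + |M| + 1) * t ≤ δ₁ * t * t :=
    mul_le_mul_of_nonneg_right h1.le (by linarith)
  have h3 : -|M| ≤ M := neg_abs_le M
  have h4 := abs_nonneg M
  nlinarith

/-- Existence of a maximum. -/
theorem exists_max_mainG {f : Conf n → ℝ} (hf : ∀ x, 0 < f x) {θ δ : ℝ} (hθ : 0 ≤ θ) (hδ : 0 < δ) :
    ∃ s y, 0 ≤ s ∧ s ≤ 1 ∧ ∀ s' y', 0 ≤ s' → s' ≤ 1 →
      mainG r A f θ δ s' y' ≤ mainG r A f θ δ s y := by
  classical
  obtain ⟨K, hK⟩ : ∃ K, K = ∑ x, |xlogx (f x)| := ⟨_, rfl⟩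
  have hK0 : 0 ≤ K := by rw [hK]; exact Finset.sum_nonneg fun x _ => abs_nonneg _
  have hKle : ∀ x, xlogx (f x) ≤ K := by
    intro x
    rw [hK]
    exact (le_abs_self _).trans (Finset.single_le_sum (f := fun x => |xlogx (f x)|)
      (fun x _ => abs_nonneg _) (Finset.mem_univ x))
  obtain ⟨Zm, hZm⟩ : ∃ Zm, Zm = ∑ x : Conf n, Real.exp ((1 / 2) * quadA A x) := ⟨_, rfl⟩
  have hZm0 : 0 ≤ Zm := by rw [hZm]; positivity
  obtain ⟨bm, hbm⟩ : ∃ bm, bm = ∑ σ : Conf n, ∑ a, dirL r a σ ^ 2 := ⟨_, rfl⟩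
  obtain ⟨A₁, hA₁⟩ : ∃ A₁, A₁ = (K + 1) * Zm := ⟨_, rfl⟩
  have hA₁0 : 0 ≤ A₁ := by rw [hA₁]; positivity
  obtain ⟨δ₁, hδ₁⟩ : ∃ δ₁, δ₁ = δ * Real.exp (-(2 * bm)) := ⟨_, rfl⟩
  have hδ₁0 : 0 < δ₁ := by rw [hδ₁]; positivity
  -- the bound
  have hbound : ∀ s y, 0 ≤ s → s ≤ 1 → mainG r A f θ δ s y
      ≤ A₁ * Real.exp (∑ i, |y i|) - δ₁ * Real.exp (∑ i, |y i|) ^ 2 := by
    intro s y hs0 hs1
    unfold mainG
    have hW : ∀ x, 0 < wSol r A s y x := wSol_pos s y
    have h1 := entW_le_mass hW hf hKle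
    have h2 : ∑ x, wSol r A s y x ≤ Real.exp (∑ i, |y i|) * Zm := by
      rw [hZm, Finset.mul_sum]
      exact Finset.sum_le_sum fun x _ => wSol_le s hs0 y x
    have hZpos : 0 < ∑ x, wSol r A s y x :=
      Finset.sum_pos (fun x _ => hW x) ⟨fun _ => true, Finset.mem_univ _⟩
    have h3 := qQ_nonneg hW hf
    have hT0 := Real.exp_pos (-(θ * (1 - s)))
    have hT1 : Real.exp (-(θ * (1 - s))) ≤ 1 := by
      rw [Real.exp_le_one_iff]
      have : 0 ≤ θ * (1 - s) := mul_nonneg hθ (by linarith)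
      linarith
    have h4 : Real.exp (-(θ * (1 - s))) * entW (wSol r A s y) f ≤ A₁ * Real.exp (∑ i, |y i|) := by
      calc Real.exp (-(θ * (1 - s))) * entW (wSol r A s y) f
          ≤ Real.exp (-(θ * (1 - s))) * ((K + 1) * ∑ x, wSol r A s y x) :=
            mul_le_mul_of_nonneg_left h1 hT0.le
        _ ≤ 1 * ((K + 1) * ∑ x, wSol r A s y x) :=
            mul_le_mul_of_nonneg_right hT1 (by positivity)
        _ ≤ (K + 1) * (Real.exp (∑ i, |y i|) * Zm) := by
            rw [one_mul]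
            exact mul_le_mul_of_nonneg_left h2 (by positivity)
        _ = A₁ * Real.exp (∑ i, |y i|) := by rw [hA₁]; ring
    have h5 := compP_ge (r := r) s hs0 hs1 y
    rw [← hbm] at h5
    have e : δ₁ * Real.exp (∑ i, |y i|) ^ 2
        = δ * Real.exp (2 * ∑ i, |y i| - 2 * bm) := by
      rw [hδ₁, sub_eq_add_neg, Real.exp_add, pow_two, ← Real.exp_add]
      rw [show ∑ i, |y i| + ∑ i, |y i| = 2 * ∑ i, |y i| by ring]
      ring
    rw [e]
    have h6 := mul_le_mul_of_nonneg_left h5 hδ.le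
    linarith
  -- compactness
  obtain ⟨M, hM⟩ : ∃ M, M = mainG r A f θ δ 0 0 := ⟨_, rfl⟩
  obtain ⟨ρ, hρ⟩ : ∃ ρ, ρ = (A₁ + |M| + 1) / δ₁ := ⟨_, rfl⟩
  have hρ0 : 0 ≤ ρ := by rw [hρ]; positivity
  have hcomp : IsCompact (Set.Icc (0 : ℝ) 1 ×ˢ Metric.closedBall (0 : Fin n → ℝ) ρ) :=
    isCompact_Icc.prod (isCompact_closedBall _ _)
  have hne : (Set.Icc (0 : ℝ) 1 ×ˢ Metric.closedBall (0 : Fin n → ℝ) ρ).Nonempty :=
    ⟨(0, 0), ⟨by simp, by simp [hρ0]⟩⟩
  obtain ⟨⟨s, y⟩, hmem, hmax⟩ := hcomp.exists_isMaxOn hne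
    (continuous_mainG (r := r) (A := A) hf θ δ).continuousOn
  refine ⟨s, y, hmem.1.1, hmem.1.2, ?_⟩
  have hmax' := isMaxOn_iff.1 hmax
  intro s' y' hs0 hs1
  by_cases hy : ‖y'‖ ≤ ρ
  · exact hmax' (s', y') ⟨⟨hs0, hs1⟩, by simpa using hy⟩
  · push Not at hy
    have h1 : mainG r A f θ δ 0 0 ≤ mainG r A f θ δ s y :=
      hmax' (0, 0) ⟨by simp, by simp [hρ0]⟩
    refine le_trans ?_ h1
    rw [← hM]
    refine (hbound s' y' hs0 hs1).trans ?_
    have hY : ‖y'‖ ≤ ∑ i, |y' i| := by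
      refine (pi_norm_le_iff_of_nonneg (Finset.sum_nonneg fun i _ => abs_nonneg _)).2 fun i => ?_
      rw [Real.norm_eq_abs]
      exact Finset.single_le_sum (f := fun i => |y' i|) (fun i _ => abs_nonneg _)
        (Finset.mem_univ i)
    have ht1 : 1 ≤ Real.exp (∑ i, |y' i|) :=
      Real.one_le_exp (Finset.sum_nonneg fun i _ => abs_nonneg _)
    have ht2 : ρ < Real.exp (∑ i, |y' i|) := by
      have := Real.add_one_le_exp (∑ i, |y' i|)
      linarith
    rw [hρ] at ht2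
    exact (quad_below hA₁0 hδ₁0 ht1 ht2).le

/-- The maximum principle. -/
theorem max_principle (hB : ∀ v : Fin n → ℝ, ∑ a, (∑ i, r a i * v i) ^ 2
      = ∑ i, ∑ k, A i k * v i * v k + c * ∑ i, v i ^ 2) {C α θ : ℝ} (hα : 0 < α) (hCc : 0 ≤ C + c)
    (hC : ∀ z : Fin n → ℝ, ∑ i, ∑ k, A i k * z i * z k ≤ C * ∑ i, z i ^ 2)
    (hθ : α * (C + c) < θ) {f : Conf n → ℝ} (hf : ∀ x, 0 < f x)
    (hvar : ∀ s : ℝ, 0 ≤ s → s < 1 → ∀ (y' w : Fin n → ℝ),
      varF (gibF ((1 - s) • A) y') (linF w) ≤ α * ∑ i, w i ^ 2)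
    (s : ℝ) (hs0 : 0 ≤ s) (hs1 : s ≤ 1) (y : Fin n → ℝ) :
    Real.exp (-(θ * (1 - s))) * entW (wSol r A s y) f ≤ qQ (wSol r A s y) f := by
  have hθ0 : 0 ≤ θ := le_trans (by positivity) hθ.le
  have key : ∀ δ, 0 < δ → Real.exp (-(θ * (1 - s))) * entW (wSol r A s y) f
      ≤ qQ (wSol r A s y) f + δ * compP r s y := by
    intro δ hδ
    obtain ⟨s₀, y₀, h0, h1, hmax⟩ := exists_max_mainG (r := r) (A := A) hf hθ0 hδ
    have hnonpos : mainG r A f θ δ s₀ y₀ ≤ 0 := by
      have hQ := qQ_nonneg (fun x => wSol_pos (r := r) (A := A) s₀ y₀ x) hf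
      have hP : 0 ≤ compP r s₀ y₀ :=
        Finset.sum_nonneg fun σ _ => (solF_pos _ _ _ _).le
      have hδP : 0 ≤ δ * compP r s₀ y₀ := mul_nonneg hδ.le hP
      unfold mainG
      rcases h1.eq_or_lt with h1' | h1'
      · subst h1'
        have := terminal_ineq (r := r) (A := A) (c := c) hB hf y₀
        simp only [sub_self, mul_zero, neg_zero, Real.exp_zero, one_mul]
        linarith
      · have h3 := mainG_pop (r := r) (A := A) hf θ δ ⟨h0, h1', hmax⟩
        have h4 := popE_le (r := r) (A := A) hB hα hCc hC hf s₀ y₀ (hvar s₀ h0 h1')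
        have h5 : entW (wSol r A s₀ y₀) f ≤ 0 := by
          by_contra hcon
          push Not at hcon
          have := mul_lt_mul_of_pos_right hθ hcon
          linarith
        have hT := Real.exp_pos (-(θ * (1 - s₀)))
        have h6 := mul_nonpos_of_nonneg_of_nonpos hT.le h5
        linarith
    have := (hmax s y hs0 hs1).trans hnonpos
    unfold mainG at this
    linarith
  refine le_of_forall_pos_le_add fun ε hε => ?_
  have hP0 : 0 ≤ compP r s y := Finset.sum_nonneg fun σ _ => (solF_pos _ _ _ _).le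
  have hP : 0 < compP r s y + 1 := by linarith
  have h := key (ε / (compP r s y + 1)) (by positivity)
  have h2 : ε / (compP r s y + 1) * compP r s y ≤ ε := by
    rw [div_mul_eq_mul_div, div_le_iff₀ hP]
    nlinarith
  linarith

end Vale.Agent.Lib.P150
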