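import Vale.Agent.Lib.P150.Grad

/-!
Mixing and Poincaré consequences of the gradient estimate, for an abstract reversible flip chain.
-/

open scoped BigOperators Matrix
open Filter Topology

namespace Vale.Agent.Lib.P150

variable {n : ℕ}

/-- Oscillation is controlled by the sup of the `ℓ²` gradient. -/
lemma abs_sub_le_of_gradSq (g : Conf n → ℝ) {ℓ : ℝ} (hℓ : 0 ≤ ℓ)
    (hg : ∀ z, gradSq g z ≤ ℓ ^ 2) (x y : Conf n) : |g x - g y| ≤ n * ℓ := by
  classical
  have key : ∀ S : Finset (Fin n), ∀ x : Conf n, (∀ j, j ∈ S ↔ x j ≠ y j) →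
      |g x - g y| ≤ (S.card : ℝ) * ℓ := by
    intro S
    induction S using Finset.induction_on with
    | empty =>
      intro x hx
      have : x = y := by
        funext j
        by_contra hne
        exact absurd ((hx j).2 hne) (by simp)
      subst this
      simp
    | insert i S hi ih =>
      intro x hx
      have hxi : x i ≠ y i := (hx i).1 (Finset.mem_insert_self _ _)
      have hx' : ∀ j, j ∈ S ↔ flipAt x i j ≠ y j := by
        intro j
        by_cases hj : j = i
        · subst hj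
          simp only [hi, false_iff, not_not, flipAt_apply_same]
          cases hxj : x j <;> cases hyj : y j <;> simp_all
        · rw [flipAt_apply_ne x hj, ← hx j]
          simp [hj]
      have h1 := ih (flipAt x i) hx'
      have h2 : |g (flipAt x i) - g x| ≤ ℓ := by
        have hle : (g (flipAt x i) - g x) ^ 2 ≤ gradSq g x :=
          Finset.single_le_sum (f := fun i => (g (flipAt x i) - g x) ^ 2)
            (fun _ _ => sq_nonneg _) (Finset.mem_univ i)
        exact abs_le_of_sq_le_sq (hle.trans (hg x)) hℓ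
      have hcard : ((insert i S).card : ℝ) = S.card + 1 := by
        rw [Finset.card_insert_of_notMem hi]; push_cast; ring
      rw [hcard]
      have htri : |g x - g y| ≤ |g (flipAt x i) - g x| + |g (flipAt x i) - g y| := by
        have : g x - g y = -(g (flipAt x i) - g x) + (g (flipAt x i) - g y) := by ring
        rw [this]
        exact (abs_add_le _ _).trans (by rw [abs_neg])
      nlinarith
  have h := key (Finset.univ.filter fun j => x j ≠ y j) x (by simp)
  refine h.trans (mul_le_mul_of_nonneg_right ?_ hℓ)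
  have := Finset.card_le_univ (Finset.univ.filter fun j => x j ≠ y j)
  simp only [Fintype.card_fin] at this
  exact_mod_cast this

section reversible

variable {L : Matrix (Conf n) (Conf n) ℝ} {c : Conf n → Fin n → ℝ} {μ : Conf n → ℝ}

/-- A reversible probability measure for the chain. -/
structure IsRevProb (L : Matrix (Conf n) (Conf n) ℝ) (μ : Conf n → ℝ) : Prop where
  pos : ∀ x, 0 < μ x
  total : ∑ x, μ x = 1
  rev : ∀ x y, μ x * L x y = μ y * L y x

lemma IsRevProb.selfadj (hμ : IsRevProb L μ) (t : ℝ) (f g : Conf n → ℝ) :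
    ∑ x, μ x * f x * (semi L t *ᵥ g) x = ∑ x, μ x * (semi L t *ᵥ f) x * g x := by
  have hr := semi_reversible L μ hμ.pos hμ.rev t
  calc ∑ x, μ x * f x * (semi L t *ᵥ g) x
      = ∑ x, ∑ y, f x * g y * (μ x * semi L t x y) := by
        refine Finset.sum_congr rfl fun x _ => ?_
        simp only [Matrix.mulVec, dotProduct, Finset.mul_sum]
        refine Finset.sum_congr rfl fun y _ => ?_
        ring
    _ = ∑ y, ∑ x, f x * g y * (μ y * semi L t y x) := by
        rw [Finset.sum_comm]
        refine Finset.sum_congr rfl fun y _ => Finset.sum_congr rfl fun x _ => ?_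
        rw [hr]
    _ = ∑ x, μ x * (semi L t *ᵥ f) x * g x := by
        refine Finset.sum_congr rfl fun y _ => ?_
        simp only [Matrix.mulVec, dotProduct, Finset.mul_sum, Finset.sum_mul]
        refine Finset.sum_congr rfl fun x _ => ?_
        ring

lemma IsRevProb.stationary (hμ : IsRevProb L μ) (hrow : ∀ x, ∑ y, L x y = 0) (t : ℝ)
    (f : Conf n → ℝ) : ∑ x, μ x * (semi L t *ᵥ f) x = ∑ x, μ x * f x := by
  have h := hμ.selfadj t (fun _ => 1) f
  have h1 : ∀ x, (semi L t *ᵥ fun _ => (1 : ℝ)) x = 1 := by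
    intro x
    simpa [Matrix.mulVec, dotProduct] using semi_rowsum L hrow t x
  simp only [mul_one, h1] at h
  exact h

lemma semi_mulVec_add (t s : ℝ) (f : Conf n → ℝ) :
    semi L (t + s) *ᵥ f = semi L t *ᵥ (semi L s *ᵥ f) := by
  rw [semi_add, Matrix.mulVec_mulVec]

/-- The autocorrelation function. -/
noncomputable def autoCorr (L : Matrix (Conf n) (Conf n) ℝ) (μ : Conf n → ℝ)
    (g : Conf n → ℝ) (t : ℝ) : ℝ := ∑ x, μ x * g x * (semi L t *ᵥ g) x

lemma autoCorr_double (hμ : IsRevProb L μ) (g : Conf n → ℝ) (t : ℝ) :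
    autoCorr L μ g (t + t) = ∑ x, μ x * ((semi L t *ᵥ g) x) ^ 2 := by
  unfold autoCorr
  rw [semi_mulVec_add, hμ.selfadj]
  refine Finset.sum_congr rfl fun x _ => ?_
  ring

lemma autoCorr_nonneg (hμ : IsRevProb L μ) (g : Conf n → ℝ) {t : ℝ} :
    0 ≤ autoCorr L μ g t := by
  have : t = t / 2 + t / 2 := by ring
  rw [this, autoCorr_double hμ]
  exact Finset.sum_nonneg fun x _ => mul_nonneg (hμ.pos x).le (sq_nonneg _)

lemma autoCorr_zero (g : Conf n → ℝ) : autoCorr L μ g 0 = ∑ x, μ x * g x ^ 2 := by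
  unfold autoCorr
  simp only [semi_zero, Matrix.one_mulVec]
  refine Finset.sum_congr rfl fun x _ => ?_
  ring

/-- Cauchy-Schwarz doubling. -/
lemma autoCorr_sq_le (hμ : IsRevProb L μ) (g : Conf n → ℝ) (t : ℝ) :
    autoCorr L μ g t ^ 2 ≤ autoCorr L μ g 0 * autoCorr L μ g (t + t) := by
  rw [autoCorr_double hμ, autoCorr_zero]
  unfold autoCorr
  have := Finset.sum_mul_sq_le_sq_mul_sq Finset.univ
    (fun x => Real.sqrt (μ x) * g x) (fun x => Real.sqrt (μ x) * (semi L t *ᵥ g) x)
  have hs : ∀ x, Real.sqrt (μ x) * Real.sqrt (μ x) = μ x := fun x =>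
    Real.mul_self_sqrt (hμ.pos x).le
  have e1 : ∀ x, (Real.sqrt (μ x) * g x) * (Real.sqrt (μ x) * (semi L t *ᵥ g) x)
      = μ x * g x * (semi L t *ᵥ g) x := by
    intro x
    calc _ = (Real.sqrt (μ x) * Real.sqrt (μ x)) * g x * (semi L t *ᵥ g) x := by ring
      _ = _ := by rw [hs x]
  have e2 : ∀ x, (Real.sqrt (μ x) * g x) ^ 2 = μ x * g x ^ 2 := by
    intro x
    calc _ = (Real.sqrt (μ x) * Real.sqrt (μ x)) * g x ^ 2 := by ring
      _ = _ := by rw [hs x]
  have e3 : ∀ x, (Real.sqrt (μ x) * (semi L t *ᵥ g) x) ^ 2 = μ x * ((semi L t *ᵥ g) x) ^ 2 := by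
    intro x
    calc _ = (Real.sqrt (μ x) * Real.sqrt (μ x)) * ((semi L t *ᵥ g) x) ^ 2 := by ring
      _ = _ := by rw [hs x]
  simp only [e1, e2, e3] at this
  exact this

/-- Iterated doubling, normalized form: with `φ(0) = a > 0`, `φ(2^k h) / a ≥ (φ(h)/a)^(2^k)`. -/
lemma autoCorr_iter (hμ : IsRevProb L μ) (g : Conf n → ℝ) {a : ℝ} (ha : 0 < a)
    (h0 : autoCorr L μ g 0 = a) (h : ℝ) (k : ℕ) :
    (autoCorr L μ g h / a) ^ (2 ^ k) ≤ autoCorr L μ g (2 ^ k * h) / a := by
  induction k with
  | zero => simp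
  | succ k ih =>
    have hs := autoCorr_sq_le hμ g (2 ^ k * h)
    rw [h0] at hs
    have e : (2 : ℝ) ^ (k + 1) * h = 2 ^ k * h + 2 ^ k * h := by
      rw [pow_succ]; ring
    rw [e, pow_succ 2 k, pow_mul]
    have hnn : 0 ≤ autoCorr L μ g h / a := div_nonneg (autoCorr_nonneg hμ g) ha.le
    have h1 : ((autoCorr L μ g h / a) ^ 2 ^ k) ^ 2 ≤ (autoCorr L μ g (2 ^ k * h) / a) ^ 2 :=
      pow_le_pow_left₀ (pow_nonneg hnn _) ih 2
    refine h1.trans ?_
    rw [div_pow, div_le_div_iff₀ (by positivity) ha]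
    nlinarith

/-- Derivative of the autocorrelation at time zero. -/
lemma hasDerivAt_autoCorr (g : Conf n → ℝ) (t : ℝ) :
    HasDerivAt (autoCorr L μ g) (∑ x, μ x * g x * (semi L t *ᵥ (L *ᵥ g)) x) t := by
  unfold autoCorr
  exact HasDerivAt.fun_sum fun x _ => (hasDerivAt_semi_mulVec L g t x).const_mul _

/-- The spectral consequence: pointwise exponential decay of `φ` forces a Poincaré bound. -/
theorem poincare_of_decay (hμ : IsRevProb L μ) (g : Conf n → ℝ) {κ C : ℝ}
    (hdec : ∀ t, 0 ≤ t → autoCorr L μ g t ≤ C * Real.exp (-(κ * t))) :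
    κ * autoCorr L μ g 0 ≤ - ∑ x, μ x * g x * (L *ᵥ g) x := by
  classical
  rcases (autoCorr_nonneg hμ g (t := 0)).eq_or_lt with h0 | hpos
  · rw [← h0, mul_zero]
    -- `g` vanishes, so the right side is zero
    have hg : ∀ x, g x = 0 := by
      intro x
      rw [autoCorr_zero] at h0
      have hall := (Finset.sum_eq_zero_iff_of_nonneg
        (fun x _ => mul_nonneg (hμ.pos x).le (sq_nonneg (g x)))).1 h0.symm x (Finset.mem_univ x)
      have := (mul_eq_zero.1 hall).resolve_left (hμ.pos x).ne'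
      exact pow_eq_zero_iff (two_ne_zero) |>.1 this
    simp [hg]
  set a := autoCorr L μ g 0 with ha
  -- Step A: `φ(t)/a ≤ exp(-κ t)` for all `t > 0`
  have hA : ∀ t, 0 < t → autoCorr L μ g t / a ≤ Real.exp (-(κ * t)) := by
    intro t ht
    by_contra hcon
    push Not at hcon
    set e := Real.exp (-(κ * t)) with he
    have hepos : 0 < e := Real.exp_pos _
    set x := autoCorr L μ g t / a with hx
    have hq : 1 < x / e := (one_lt_div hepos).2 hcon
    have hb : ∀ k : ℕ, (x / e) ^ (2 ^ k) ≤ |C| / a := by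
      intro k
      have h1 := autoCorr_iter hμ g hpos rfl t k
      have h2 := hdec (2 ^ k * t) (by positivity)
      have h3 : Real.exp (-(κ * (2 ^ k * t))) = e ^ (2 ^ k) := by
        rw [he, ← Real.exp_nat_mul]
        congr 1
        push_cast
        ring
      rw [h3] at h2
      rw [div_pow]
      have hepow : 0 < e ^ (2 ^ k) := by positivity
      rw [div_le_iff₀ hepow]
      calc x ^ 2 ^ k ≤ autoCorr L μ g (2 ^ k * t) / a := h1
        _ ≤ C * e ^ 2 ^ k / a := by gcongr
        _ ≤ |C| * e ^ 2 ^ k / a := by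
            gcongr
            exact le_abs_self C
        _ = |C| / a * e ^ 2 ^ k := by ring
    have htend : Tendsto (fun k : ℕ => (x / e) ^ (2 ^ k)) atTop atTop :=
      (tendsto_pow_atTop_atTop_of_one_lt hq).comp
        (tendsto_pow_atTop_atTop_of_one_lt (by norm_num : 1 < 2))
    obtain ⟨k, hk⟩ := (htend.eventually (eventually_gt_atTop (|C| / a))).exists
    exact absurd (hb k) (not_le.2 hk)
  -- Step B: compare derivatives at zero
  have hd := hasDerivAt_autoCorr (L := L) (μ := μ) g 0
  simp only [semi_zero, Matrix.one_mulVec] at hd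
  set D := ∑ x, μ x * g x * (L *ᵥ g) x with hD
  have hψ : HasDerivAt (fun t => a * Real.exp (-(κ * t)) - autoCorr L μ g t)
      (a * (Real.exp (-(κ * 0)) * (-κ)) - D) 0 := by
    have h1 : HasDerivAt (fun t : ℝ => -(κ * t)) (-κ) 0 := by
      simpa using ((hasDerivAt_id' (0 : ℝ)).const_mul κ).fun_neg
    exact (h1.exp.const_mul a).fun_sub hd
  have hslope := hψ.tendsto_slope_zero_right
  have hnonneg : ∀ᶠ t in 𝓝[>] (0 : ℝ),
      0 ≤ t⁻¹ • ((a * Real.exp (-(κ * (0 + t))) - autoCorr L μ g (0 + t))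
        - (a * Real.exp (-(κ * 0)) - autoCorr L μ g 0)) := by
    filter_upwards [self_mem_nhdsWithin] with t ht
    have ht' : (0 : ℝ) < t := ht
    simp only [zero_add, mul_zero, neg_zero, Real.exp_zero, mul_one, ← ha, sub_self, sub_zero]
    have := hA t ht'
    rw [div_le_iff₀ hpos] at this
    simp only [smul_eq_mul]
    refine mul_nonneg (inv_nonneg.2 ht'.le) ?_
    linarith
  have hge := ge_of_tendsto hslope hnonneg
  simp only [mul_zero, neg_zero, Real.exp_zero, one_mul] at hge
  nlinarith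

/-- Total variation bound from the gradient estimate. -/
theorem IsRevProb.tv_le (hμ : IsRevProb L μ) (h : IsRateGen L c) {K : ℝ}
    (hK : ∀ x u, restTerm c x u ≤ K * ∑ i, u i ^ 2) {t : ℝ} (ht : 0 ≤ t) (x : Conf n) :
    (1 / 2) * ∑ y, |semi L t x y - μ y|
      ≤ n * (Real.exp ((K - 2) * t / 2) * Real.sqrt n) := by
  classical
  set B : Finset (Conf n) := Finset.univ.filter fun y => μ y < semi L t x y with hB
  set f : Conf n → ℝ := fun y => if y ∈ B then 1 else 0 with hf
  set a : Conf n → ℝ := fun y => semi L t x y - μ y with ha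
  have hsum0 : ∑ y, a y = 0 := by
    simp only [ha, Finset.sum_sub_distrib, semi_rowsum L h.row, hμ.total, sub_self]
  -- half the `ℓ¹` norm is the mass of the positive part
  have hhalf : (1 / 2) * ∑ y, |a y| = ∑ y, f y * a y := by
    have h1 : ∀ y, |a y| = 2 * (f y * a y) - a y := by
      intro y
      by_cases hy : y ∈ B
      · have hpos : μ y < semi L t x y := by simpa [hB] using hy
        simp only [hf, hy, if_true, one_mul]
        rw [abs_of_pos (by simp only [ha]; linarith)]
        ring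
      · have hneg : semi L t x y ≤ μ y := by simpa [hB] using hy
        simp only [hf, hy, if_false, zero_mul, mul_zero]
        rw [abs_of_nonpos (by simp only [ha]; linarith)]
        ring
    simp only [h1, Finset.sum_sub_distrib, hsum0, sub_zero, ← Finset.mul_sum]
    ring
  have hmean : ∑ y, f y * a y = (semi L t *ᵥ f) x - ∑ y, μ y * f y := by
    simp only [ha, mul_sub, Finset.sum_sub_distrib, Matrix.mulVec, dotProduct]
    congr 1
    · exact Finset.sum_congr rfl fun y _ => mul_comm _ _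
    · exact Finset.sum_congr rfl fun y _ => mul_comm _ _
  have hstat := hμ.stationary h.row t f
  -- gradient bound
  have hf0 : ∀ y, gradSq f y ≤ n := by
    intro y
    have : ∀ i, (f (flipAt y i) - f y) ^ 2 ≤ 1 := by
      intro i
      simp only [hf]
      split_ifs <;> norm_num
    calc gradSq f y ≤ ∑ _i : Fin n, (1 : ℝ) := Finset.sum_le_sum fun i _ => this i
      _ = n := by simp
  set ℓ := Real.exp ((K - 2) * t / 2) * Real.sqrt n with hℓ
  have hℓnn : 0 ≤ ℓ := by positivity
  have hgrad : ∀ z, gradSq (semi L t *ᵥ f) z ≤ ℓ ^ 2 := by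
    intro z
    have := h.gradSq_semi_le hK hf0 ht z
    have e : ℓ ^ 2 = Real.exp ((K - 2) * t) * n := by
      rw [hℓ, mul_pow, Real.sq_sqrt (Nat.cast_nonneg n), ← Real.exp_nat_mul]
      congr 2
      push_cast
      ring
    rw [e]
    exact this
  have hosc := abs_sub_le_of_gradSq (semi L t *ᵥ f) hℓnn hgrad
  rw [show (1 / 2) * ∑ y, |semi L t x y - μ y| = (1 / 2) * ∑ y, |a y| from rfl, hhalf, hmean,
    ← hstat]
  have e : (semi L t *ᵥ f) x - ∑ y, μ y * (semi L t *ᵥ f) y
      = ∑ y, μ y * ((semi L t *ᵥ f) x - (semi L t *ᵥ f) y) := by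
    simp only [mul_sub, Finset.sum_sub_distrib, ← Finset.sum_mul, hμ.total, one_mul]
  rw [e]
  calc ∑ y, μ y * ((semi L t *ᵥ f) x - (semi L t *ᵥ f) y)
      ≤ ∑ y, μ y * (n * ℓ) := Finset.sum_le_sum fun y _ =>
        mul_le_mul_of_nonneg_left ((le_abs_self _).trans (hosc x y)) (hμ.pos y).le
    _ = n * ℓ := by rw [← Finset.sum_mul, hμ.total, one_mul]

end reversible

end Vale.Agent.Lib.P150
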