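import Vale.Agent.Lib.P150.MaxPr3

/-!
The modified logarithmic Sobolev inequality for Ising models.
-/

open scoped BigOperators Matrix
open Filter Topology

namespace Vale.Agent.Lib.P150

variable {n : ℕ}

/-- Factorization of `A + c I`. -/
lemma exists_factor {A : Matrix (Fin n) (Fin n) ℝ} (hs : ∀ i k, A i k = A k i) {c : ℝ}
    (hlow : ∀ z : Fin n → ℝ, -(c * ∑ i, z i ^ 2) ≤ ∑ i, ∑ k, A i k * z i * z k) :
    ∃ (m : ℕ) (r : Fin m → Fin n → ℝ), ∀ v : Fin n → ℝ, ∑ a, (∑ i, r a i * v i) ^ 2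
      = ∑ i, ∑ k, A i k * v i * v k + c * ∑ i, v i ^ 2 := by
  classical
  have hexp : ∀ v : Fin n → ℝ, star v ⬝ᵥ ((A + c • (1 : Matrix (Fin n) (Fin n) ℝ)) *ᵥ v)
      = ∑ i, ∑ k, A i k * v i * v k + c * ∑ i, v i ^ 2 := by
    intro v
    rw [Matrix.add_mulVec, Matrix.smul_mulVec, Matrix.one_mulVec, dotProduct_add, dotProduct_smul]
    congr 1
    · simp only [dotProduct, Matrix.mulVec, star_trivial, Finset.mul_sum]
      refine Finset.sum_congr rfl fun i _ => Finset.sum_congr rfl fun k _ => ?_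
      ring
    · simp only [dotProduct, star_trivial, smul_eq_mul, pow_two]
  have hP : (A + c • (1 : Matrix (Fin n) (Fin n) ℝ)).PosSemidef := by
    refine Matrix.PosSemidef.of_dotProduct_mulVec_nonneg ?_ ?_
    · ext i k
      simp only [Matrix.conjTranspose_apply, star_trivial, Matrix.add_apply, Matrix.smul_apply,
        smul_eq_mul, Matrix.one_apply]
      rw [hs k i]
      by_cases h : i = k
      · simp [h]
      · have h' : ¬ k = i := fun e => h e.symm
        simp [h, h']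
    · intro v
      rw [hexp]
      linarith [hlow v]
  obtain ⟨m, r, hr⟩ := Matrix.posSemidef_iff_eq_sum_vecMulVec.1 hP
  refine ⟨m, r, fun v => ?_⟩
  rw [← hexp, hr]
  simp only [Matrix.sum_mulVec, dotProduct_sum]
  refine Finset.sum_congr rfl fun a _ => ?_
  simp only [dotProduct, Matrix.mulVec, star_trivial, Matrix.vecMulVec_apply, pow_two, Finset.sum_mul,
    Finset.mul_sum, Pi.star_apply]
  refine Finset.sum_congr rfl fun i _ => Finset.sum_congr rfl fun k _ => ?_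
  ring

lemma isCoupling_smul {A : Matrix (Fin n) (Fin n) ℝ} (hA : IsCoupling A) (t : ℝ) :
    IsCoupling (t • A) where
  symm := fun i j => by simp only [Matrix.smul_apply, hA.symm i j]
  diag := fun i => by simp only [Matrix.smul_apply, hA.diag i, smul_zero]

/-- The Dirichlet form of a linear function. -/
lemma dirAbs_linF_le {A : Matrix (Fin n) (Fin n) ℝ} (hA : IsCoupling A) (y w : Fin n → ℝ) :
    dirAbs (gibF A y) (rateF A y) (linF w) ≤ ∑ i, w i ^ 2 := by
  have hR := isRateGen_genF hA y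
  rw [dirAbs_eq_eF _ (gibF_rate_balance hA y) hR.sum_one]
  have hi : ∀ i, eF (gibF A y) (rateF A y) (linF w) i ≤ 4 * w i ^ 2 := by
    intro i
    unfold eF
    have hu : ∀ x, uF (linF w) x i ^ 2 = 4 * w i ^ 2 := by
      intro x
      unfold uF linF
      rw [linF_flip]
      have := spin_sq (x i)
      calc (∑ a, w a * spin (x a) - 2 * (w i * spin (x i)) - ∑ i, w i * spin (x i)) ^ 2
          = 4 * w i ^ 2 * spin (x i) ^ 2 := by ring
        _ = 4 * w i ^ 2 := by rw [this]; ring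
    calc ∑ x, gibF A y x * ((1 - (1 - 2 * rateF A y x i) ^ 2) * uF (linF w) x i ^ 2)
        ≤ ∑ x, gibF A y x * (4 * w i ^ 2) := by
          refine Finset.sum_le_sum fun x _ => mul_le_mul_of_nonneg_left ?_ (gibF_pos A y x).le
          rw [hu]
          have h1 : 0 ≤ 4 * w i ^ 2 := by positivity
          nlinarith [sq_nonneg (1 - 2 * rateF A y x i)]
      _ = 4 * w i ^ 2 := by rw [← Finset.sum_mul, gibF_total, one_mul]
  have := Finset.sum_le_sum (s := Finset.univ) fun i _ => hi i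
  rw [← Finset.mul_sum] at this
  linarith

/-- The uniform covariance bound along the flow of the coupling. -/
lemma uniform_cov {A : Matrix (Fin n) (Fin n) ℝ} (hA : IsCoupling A) {C ρ ε κ : ℝ}
    (hC : ∀ z : Fin n → ℝ, ∑ i, ∑ k, A i k * z i * z k ≤ C * ∑ i, z i ^ 2)
    (hρ : ∀ i, ∑ k, A i k ^ 2 ≤ ρ) (hε : ∀ i k, |A i k| ≤ ε) (hρ0 : 0 ≤ ρ) (hε0 : 0 ≤ ε)
    (hε1 : ε ≤ 1 / 100) (hρC : 2 * ρ ≤ C) (hκ0 : 0 < κ) (hκ : κ ≤ 1 - C - 16 * ε * ρ)
    (s : ℝ) (hs0 : 0 ≤ s) (hs1 : s < 1) (y' w : Fin n → ℝ) :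
    varF (gibF ((1 - s) • A) y') (linF w) ≤ κ⁻¹ * ∑ i, w i ^ 2 := by
  obtain ⟨t, ht⟩ : ∃ t, t = 1 - s := ⟨_, rfl⟩
  have ht0 : 0 < t := by rw [ht]; linarith
  have ht1 : t ≤ 1 := by rw [ht]; linarith
  rw [← ht]
  have hA' := isCoupling_smul hA t
  have hC0 : 0 ≤ C := by linarith
  have hP := poincare_field hA' y' (C := t * C) (ρ := t ^ 2 * ρ) (ε := t * ε)
    (by
      intro z
      have e : ∑ i, ∑ k, (t • A) i k * z i * z k = t * ∑ i, ∑ k, A i k * z i * z k := by
        rw [Finset.mul_sum]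
        refine Finset.sum_congr rfl fun i _ => ?_
        rw [Finset.mul_sum]
        refine Finset.sum_congr rfl fun k _ => ?_
        simp only [Matrix.smul_apply, smul_eq_mul]
        ring
      rw [e, mul_assoc]
      exact mul_le_mul_of_nonneg_left (hC z) ht0.le)
    (by
      intro i
      have e : ∑ k, (t • A) i k ^ 2 = t ^ 2 * ∑ k, A i k ^ 2 := by
        rw [Finset.mul_sum]
        refine Finset.sum_congr rfl fun k _ => ?_
        simp only [Matrix.smul_apply, smul_eq_mul]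
        ring
      rw [e]
      exact mul_le_mul_of_nonneg_left (hρ i) (by positivity))
    (by
      intro i k
      simp only [Matrix.smul_apply, smul_eq_mul, abs_mul, abs_of_pos ht0]
      exact mul_le_mul_of_nonneg_left (hε i k) ht0.le)
    (by positivity) (by positivity)
    (by nlinarith)
    (by nlinarith [mul_nonneg ht0.le hρ0, mul_nonneg (mul_nonneg ht0.le hρ0) (sub_nonneg.2 ht1)])
    (by
      have h1 : t * C ≤ C := by nlinarith
      have h2 : 0 ≤ ε * ρ := by positivity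
      have h3 : t * ε * (t ^ 2 * ρ) ≤ ε * ρ := by
        have : t * ε * (t ^ 2 * ρ) = t ^ 3 * (ε * ρ) := by ring
        rw [this]
        have : t ^ 3 ≤ 1 := pow_le_one₀ ht0.le ht1
        nlinarith
      nlinarith)
    (linF w)
  have hκs : κ ≤ 1 - t * C - 16 * (t * ε) * (t ^ 2 * ρ) := by
    have h1 : t * C ≤ C := by nlinarith
    have h2 : 0 ≤ ε * ρ := by positivity
    have h3 : t * ε * (t ^ 2 * ρ) ≤ ε * ρ := by
      have : t * ε * (t ^ 2 * ρ) = t ^ 3 * (ε * ρ) := by ring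
      rw [this]
      have : t ^ 3 ≤ 1 := pow_le_one₀ ht0.le ht1
      nlinarith
    nlinarith
  have hv0 : 0 ≤ varF (gibF (t • A) y') (linF w) := by
    rw [← sum_sub_sq_eq (gibF_total _ _)]
    exact Finset.sum_nonneg fun x _ => mul_nonneg (gibF_pos _ _ x).le (sq_nonneg _)
  have hD := dirAbs_linF_le hA' y' w
  have h2 : κ * varF (gibF (t • A) y') (linF w) ≤ ∑ i, w i ^ 2 :=
    (mul_le_mul_of_nonneg_right hκs hv0).trans (hP.trans hD)
  rw [inv_mul_eq_div, le_div_iff₀ hκ0]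
  linarith

/-- Homogeneity of the sum of the site entropies. -/
lemma qQ_eq_mul {W ν f : Conf n → ℝ} {Z : ℝ} (hZ : 0 < Z) (hW : ∀ x, W x = Z * ν x) :
    qQ W f = Z * qQ ν f := by
  have hpt : ∀ i x, qTerm W f i x = Z * qTerm ν f i x := by
    intro i x
    unfold qTerm lamF
    simp only [hW]
    have e : (Z * ν x * f x + Z * ν (flipAt x i) * f (flipAt x i)) / (Z * ν x + Z * ν (flipAt x i))
        = (ν x * f x + ν (flipAt x i) * f (flipAt x i)) / (ν x + ν (flipAt x i)) := by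
      have : Z * ν x * f x + Z * ν (flipAt x i) * f (flipAt x i)
          = Z * (ν x * f x + ν (flipAt x i) * f (flipAt x i)) := by ring
      rw [this, ← mul_add, mul_div_mul_left _ _ hZ.ne']
    rw [e]
    ring
  unfold qQ
  simp only [hpt, ← Finset.mul_sum]
  ring

/-- Approximate tensorization of entropy, uniformly in the external field. -/
theorem approx_tensor {A : Matrix (Fin n) (Fin n) ℝ} (hA : IsCoupling A) {C ρ ε κ θ : ℝ}
    (hC : ∀ z : Fin n → ℝ, |∑ i, ∑ k, A i k * z i * z k| ≤ C * ∑ i, z i ^ 2)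
    (hρ : ∀ i, ∑ k, A i k ^ 2 ≤ ρ) (hε : ∀ i k, |A i k| ≤ ε) (hρ0 : 0 ≤ ρ) (hε0 : 0 ≤ ε)
    (hε1 : ε ≤ 1 / 100) (hρC : 2 * ρ ≤ C) (hκ0 : 0 < κ) (hκ : κ ≤ 1 - C - 16 * ε * ρ)
    (hθ : κ⁻¹ * (C + C) < θ) (y : Fin n → ℝ) {f : Conf n → ℝ} (hf : ∀ x, 0 < f x) :
    entF (gibF A y) f ≤ Real.exp θ * qQ (gibF A y) f := by
  have hC0 : 0 ≤ C := by linarith
  have hup : ∀ z : Fin n → ℝ, ∑ i, ∑ k, A i k * z i * z k ≤ C * ∑ i, z i ^ 2 :=
    fun z => (le_abs_self _).trans (hC z)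
  obtain ⟨m, r, hB⟩ := exists_factor hA.symm (A := A) (c := C)
    (fun z => (abs_le.1 (hC z)).1)
  have hvar := uniform_cov hA hup hρ hε hρ0 hε0 hε1 hρC hκ0 hκ
  have hmp := max_principle (r := r) (A := A) (c := C) hB (α := κ⁻¹) (C := C) (θ := θ)
    (inv_pos.2 hκ0) (by linarith) hup hθ hf hvar 0 le_rfl zero_le_one y
  obtain ⟨W, hWdef⟩ : ∃ W, W = wSol r A 0 y := ⟨_, rfl⟩
  rw [← hWdef] at hmp
  obtain ⟨Z, hZdef⟩ : ∃ Z, Z = ∑ x, W x := ⟨_, rfl⟩
  have hZ : 0 < Z := by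
    rw [hZdef, hWdef]
    exact Finset.sum_pos (fun x _ => wSol_pos 0 y x) ⟨fun _ => true, Finset.mem_univ _⟩
  have hWν : ∀ x, W x = Z * gibF A y x := by
    intro x
    have := wSol_div hB (0 : ℝ) y x
    rw [sub_zero, one_smul] at this
    rw [hZdef, hWdef]
    exact this
  rw [entW_eq_mul hZ hWν (gibF_total A y), qQ_eq_mul hZ hWν] at hmp
  simp only [sub_zero, mul_one] at hmp
  have h1 : Real.exp (-θ) * entF (gibF A y) f ≤ qQ (gibF A y) f := by
    have e : Real.exp (-θ) * (Z * entF (gibF A y) f) = Z * (Real.exp (-θ) * entF (gibF A y) f) := by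
      ring
    rw [e] at hmp
    exact le_of_mul_le_mul_left hmp hZ
  have h2 := mul_le_mul_of_nonneg_left h1 (Real.exp_pos θ).le
  rw [← mul_assoc, ← Real.exp_add, add_neg_cancel, Real.exp_zero, one_mul] at h2
  exact h2

end Vale.Agent.Lib.P150
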