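import Vale.Agent.Lib.P150.RandBasic
import Vale.Agent.Lib.P150.GaussN

/-!
A PAC-Bayes bound on the quadratic form of the disorder matrix: with overwhelming probability
`|zᵀ G z| ≤ 2.23 √n |z|²` for all `z`.
-/

open scoped BigOperators NNReal ENNReal
open MeasureTheory ProbabilityTheory

namespace Vale.Agent.Lib.P150

variable {n : ℕ}

instance instProbDisorder : IsProbabilityMeasure (disorder n) := by
  unfold disorder
  infer_instance

/-- The bilinear form on edges. -/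
noncomputable def edgeForm (g : Edge n → ℝ) (z : Fin n → ℝ) : ℝ :=
  ∑ e : Edge n, g e * (z e.1.1 * z e.1.2)

/-- The variance proxy. -/
noncomputable def edgePen (z : Fin n → ℝ) : ℝ :=
  ∑ e : Edge n, (z e.1.1 * z e.1.2) ^ 2

lemma exp_edgeForm_eq (b : ℝ) (g : Edge n → ℝ) (z : Fin n → ℝ) :
    Real.exp (b * edgeForm g z) = ∏ e : Edge n, Real.exp (b * (z e.1.1 * z e.1.2) * g e) := by
  rw [← Real.exp_sum]
  congr 1
  simp only [edgeForm, Finset.mul_sum]
  refine Finset.sum_congr rfl fun e _ => ?_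
  ring

lemma integrable_exp_edgeForm (b : ℝ) (z : Fin n → ℝ) :
    Integrable (fun g => Real.exp (b * edgeForm g z)) (disorder n) := by
  simp only [exp_edgeForm_eq]
  unfold disorder
  exact Integrable.fintype_prod (μ := fun _ => gaussianReal 0 1)
    (f := fun (e : Edge n) x => Real.exp (b * (z e.1.1 * z e.1.2) * x))
    fun e => integrable_exp_mul_gaussianReal _

lemma integral_exp_edgeForm (b : ℝ) (z : Fin n → ℝ) :
    ∫ g, Real.exp (b * edgeForm g z) ∂(disorder n) = Real.exp (b ^ 2 / 2 * edgePen z) := by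
  simp only [exp_edgeForm_eq]
  unfold disorder
  rw [integral_fintype_prod_eq_prod (𝕜 := ℝ)
    (fun (e : Edge n) x => Real.exp (b * (z e.1.1 * z e.1.2) * x))]
  have h1 : ∀ t : ℝ, ∫ x, Real.exp (t * x) ∂(gaussianReal 0 1) = Real.exp (t ^ 2 / 2) := by
    intro t
    have := congrFun (mgf_id_gaussianReal (μ := 0) (v := 1)) t
    simp only [mgf, id] at this
    rw [this]
    congr 1
    push_cast
    ring
  simp only [h1]
  rw [← Real.exp_sum]
  congr 1
  simp only [edgePen, Finset.mul_sum]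
  refine Finset.sum_congr rfl fun e _ => ?_
  ring

/-- The integrand of the PAC-Bayes partition function. -/
noncomputable def pacW (s l : ℝ) (v₀ : ℝ≥0) (g : Edge n → ℝ) (z : Fin n → ℝ) : ℝ :=
  Real.exp (s * l * (2 * edgeForm g z) - 2 * l ^ 2 * edgePen z) * prodPdf 0 v₀ z

lemma pacW_nonneg (s l : ℝ) {v₀ : ℝ≥0} (hv₀ : v₀ ≠ 0) (g : Edge n → ℝ) (z : Fin n → ℝ) :
    0 ≤ pacW s l v₀ g z :=
  mul_nonneg (Real.exp_pos _).le (prodPdf_pos 0 hv₀ z).le

/-- The PAC-Bayes partition function. -/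
noncomputable def pacZ (s l : ℝ) (v₀ : ℝ≥0) (g : Edge n → ℝ) : ℝ≥0∞ :=
  ∫⁻ z, ENNReal.ofReal (pacW s l v₀ g z)

lemma measurable_pacW (s l : ℝ) (v₀ : ℝ≥0) :
    Measurable (fun p : (Edge n → ℝ) × (Fin n → ℝ) => pacW s l v₀ p.1 p.2) := by
  unfold pacW edgeForm edgePen
  refine Measurable.mul ?_ ((measurable_prodPdf 0 v₀).comp measurable_snd)
  refine Real.measurable_exp.comp ?_
  fun_prop

lemma integral_pacW_g (s l : ℝ) (hs : s ^ 2 = 1) (v₀ : ℝ≥0) (z : Fin n → ℝ) :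
    ∫ g, pacW s l v₀ g z ∂(disorder n) = prodPdf 0 v₀ z := by
  have h : ∀ g : Edge n → ℝ, pacW s l v₀ g z
      = Real.exp (-(2 * l ^ 2 * edgePen z)) * prodPdf 0 v₀ z
        * Real.exp ((2 * s * l) * edgeForm g z) := by
    intro g
    unfold pacW
    rw [sub_eq_add_neg, Real.exp_add]
    have : s * l * (2 * edgeForm g z) = 2 * s * l * edgeForm g z := by ring
    rw [this]
    ring
  simp only [h]
  rw [integral_const_mul, integral_exp_edgeForm, mul_assoc, mul_comm (prodPdf 0 v₀ z), ← mul_assoc,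
    ← Real.exp_add]
  have : -(2 * l ^ 2 * edgePen z) + (2 * s * l) ^ 2 / 2 * edgePen z = 0 := by
    have e : (2 * s * l) ^ 2 = 4 * s ^ 2 * l ^ 2 := by ring
    rw [e, hs]
    ring
  rw [this, Real.exp_zero, one_mul]

lemma integrable_pacW_g (s l : ℝ) (v₀ : ℝ≥0) (z : Fin n → ℝ) :
    Integrable (fun g => pacW s l v₀ g z) (disorder n) := by
  have h : ∀ g : Edge n → ℝ, pacW s l v₀ g z
      = Real.exp (-(2 * l ^ 2 * edgePen z)) * prodPdf 0 v₀ z
        * Real.exp ((2 * s * l) * edgeForm g z) := by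
    intro g
    unfold pacW
    rw [sub_eq_add_neg, Real.exp_add]
    have : s * l * (2 * edgeForm g z) = 2 * s * l * edgeForm g z := by ring
    rw [this]
    ring
  simp only [h]
  exact (integrable_exp_edgeForm _ z).const_mul _

/-- The expectation of the partition function is one. -/
theorem lintegral_pacZ (s l : ℝ) (hs : s ^ 2 = 1) {v₀ : ℝ≥0} (hv₀ : v₀ ≠ 0) :
    ∫⁻ g, pacZ s l v₀ g ∂(disorder n) = 1 := by
  unfold pacZ
  have hmeas : AEMeasurable (Function.uncurry fun (g : Edge n → ℝ) (z : Fin n → ℝ) =>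
      ENNReal.ofReal (pacW s l v₀ g z)) ((disorder n).prod volume) :=
    ((measurable_pacW s l v₀).ennreal_ofReal).aemeasurable
  rw [lintegral_lintegral_swap hmeas]
  have h1 : ∀ z : Fin n → ℝ, ∫⁻ g, ENNReal.ofReal (pacW s l v₀ g z) ∂(disorder n)
      = ENNReal.ofReal (prodPdf 0 v₀ z) := by
    intro z
    rw [← ofReal_integral_eq_lintegral_ofReal (integrable_pacW_g s l v₀ z)
      (Filter.Eventually.of_forall fun g => pacW_nonneg s l hv₀ g z), integral_pacW_g s l hs]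
  simp only [h1]
  rw [← ofReal_integral_eq_lintegral_ofReal (integrable_prodPdf 0 v₀)
    (Filter.Eventually.of_forall fun z => (prodPdf_pos 0 hv₀ z).le), integral_prodPdf 0 hv₀]
  simp

lemma measurable_pacZ (s l : ℝ) (v₀ : ℝ≥0) : Measurable (pacZ (n := n) s l v₀) := by
  unfold pacZ
  exact ((measurable_pacW s l v₀).ennreal_ofReal).lintegral_prod_right'

/-- Polynomial integrals in one variable. -/
lemma integrable_poly_pdf (A B C m : ℝ) {v : ℝ≥0} (hv : v ≠ 0) :
    Integrable (fun x => (A + B * x + C * x ^ 2) * gaussianPDFReal m v x) := by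
  apply integrable_mul_pdf hv
  exact ((integrable_const A).add ((integrable_id_gauss m v).const_mul B)).add
    ((integrable_sq_gauss m v).const_mul C)

lemma integral_poly_pdf (A B C m : ℝ) {v : ℝ≥0} (hv : v ≠ 0) :
    ∫ x, (A + B * x + C * x ^ 2) * gaussianPDFReal m v x = A + B * m + C * (m ^ 2 + v) := by
  rw [integral_mul_pdf _ m hv]
  have h1 : Integrable (fun x : ℝ => A + B * x) (gaussianReal m v) :=
    (integrable_const A).add ((integrable_id_gauss m v).const_mul B)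
  rw [integral_add h1 ((integrable_sq_gauss m v).const_mul C),
    integral_add (integrable_const A) ((integrable_id_gauss m v).const_mul B),
    integral_const_mul, integral_const_mul, integral_sq_gauss]
  have hi : ∫ x, x ∂(gaussianReal m v) = m := integral_id_gaussianReal
  rw [hi]
  simp

lemma integrable_id_pdf (m : ℝ) {v : ℝ≥0} (hv : v ≠ 0) :
    Integrable (fun x => x * gaussianPDFReal m v x) :=
  integrable_mul_pdf hv (integrable_id_gauss m v)

lemma integral_id_pdf (m : ℝ) {v : ℝ≥0} (hv : v ≠ 0) :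
    ∫ x, x * gaussianPDFReal m v x = m := by
  rw [integral_mul_pdf _ m hv]
  exact integral_id_gaussianReal

lemma integrable_sq_pdf (m : ℝ) {v : ℝ≥0} (hv : v ≠ 0) :
    Integrable (fun x => x ^ 2 * gaussianPDFReal m v x) :=
  integrable_mul_pdf hv (integrable_sq_gauss m v)

lemma integral_sq_pdf (m : ℝ) {v : ℝ≥0} (hv : v ≠ 0) :
    ∫ x, x ^ 2 * gaussianPDFReal m v x = m ^ 2 + v := by
  rw [integral_mul_pdf _ m hv]
  exact integral_sq_gauss m v

/-- Density ratio in one variable. -/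
lemma pdf_ratio (m x : ℝ) {v v₀ : ℝ≥0} (hv : v ≠ 0) (hv₀ : v₀ ≠ 0) :
    Real.exp ((1 / 2) * Real.log ((v : ℝ) / v₀) + m ^ 2 / (2 * v) + (-(m / v)) * x
        + (1 / (2 * (v : ℝ)) - 1 / (2 * v₀)) * x ^ 2) * gaussianPDFReal m v x
      = gaussianPDFReal 0 v₀ x := by
  have hvp : (0 : ℝ) < v := by positivity
  have hv₀p : (0 : ℝ) < v₀ := by positivity
  rw [gaussianPDFReal_def, gaussianPDFReal_def]
  have e1 : Real.exp ((1 / 2) * Real.log ((v : ℝ) / v₀) + m ^ 2 / (2 * v) + (-(m / v)) * x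
        + (1 / (2 * (v : ℝ)) - 1 / (2 * v₀)) * x ^ 2)
      = Real.sqrt ((v : ℝ) / v₀) * Real.exp (m ^ 2 / (2 * v) + (-(m / v)) * x
        + (1 / (2 * (v : ℝ)) - 1 / (2 * v₀)) * x ^ 2) := by
    have : (1 / 2) * Real.log ((v : ℝ) / v₀) + m ^ 2 / (2 * v) + (-(m / v)) * x
        + (1 / (2 * (v : ℝ)) - 1 / (2 * v₀)) * x ^ 2
        = Real.log (Real.sqrt ((v : ℝ) / v₀)) + (m ^ 2 / (2 * v) + (-(m / v)) * x
        + (1 / (2 * (v : ℝ)) - 1 / (2 * v₀)) * x ^ 2) := by
      rw [Real.log_sqrt (by positivity)]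
      ring
    rw [this, Real.exp_add, Real.exp_log (by positivity)]
  rw [e1]
  have e2 : Real.sqrt ((v : ℝ) / v₀) * (Real.sqrt (2 * Real.pi * v))⁻¹
      = (Real.sqrt (2 * Real.pi * v₀))⁻¹ := by
    have : (2 * Real.pi * (v : ℝ)) = (2 * Real.pi * v₀) * ((v : ℝ) / v₀) := by
      field_simp
    rw [this, Real.sqrt_mul (by positivity), mul_inv]
    have hs : Real.sqrt ((v : ℝ) / v₀) ≠ 0 := by positivity
    field_simp
  have e3 : Real.exp (m ^ 2 / (2 * v) + (-(m / v)) * x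
        + (1 / (2 * (v : ℝ)) - 1 / (2 * v₀)) * x ^ 2) * Real.exp (-(x - m) ^ 2 / (2 * v))
      = Real.exp (-(x - 0) ^ 2 / (2 * v₀)) := by
    rw [← Real.exp_add]
    congr 1
    field_simp
    ring
  calc _ = (Real.sqrt ((v : ℝ) / v₀) * (Real.sqrt (2 * Real.pi * v))⁻¹)
        * (Real.exp (m ^ 2 / (2 * v) + (-(m / v)) * x
        + (1 / (2 * (v : ℝ)) - 1 / (2 * v₀)) * x ^ 2) * Real.exp (-(x - m) ^ 2 / (2 * v))) := by
        ring
    _ = _ := by rw [e2, e3]

/-- The log density ratio in one coordinate. -/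
noncomputable def logRatio (u : Fin n → ℝ) (v v₀ : ℝ≥0) (i : Fin n) (x : ℝ) : ℝ :=
  ((1 / 2) * Real.log ((v : ℝ) / v₀) + u i ^ 2 / (2 * v)) + (-(u i / v)) * x
    + (1 / (2 * (v : ℝ)) - 1 / (2 * v₀)) * x ^ 2

/-- The exponent in the PAC-Bayes partition function. -/
noncomputable def pacF (s l : ℝ) (g : Edge n → ℝ) (z : Fin n → ℝ) : ℝ :=
  s * l * (2 * edgeForm g z) - 2 * l ^ 2 * edgePen z

lemma pacW_eq (s l : ℝ) (u : Fin n → ℝ) {v v₀ : ℝ≥0} (hv : v ≠ 0) (hv₀ : v₀ ≠ 0)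
    (g : Edge n → ℝ) (z : Fin n → ℝ) :
    Real.exp (pacF s l g z + ∑ i, logRatio u v v₀ i (z i)) * prodPdf u v z = pacW s l v₀ g z := by
  unfold pacW prodPdf pacF
  rw [Real.exp_add, Real.exp_sum, mul_assoc, ← Finset.prod_mul_distrib]
  congr 1
  refine Finset.prod_congr rfl fun i _ => ?_
  have := pdf_ratio (u i) (z i) hv hv₀
  simpa [logRatio, add_assoc] using this

lemma edge_ne (e : Edge n) : e.1.1 ≠ e.1.2 := ne_of_lt e.2

lemma integrable_T1 (g : Edge n → ℝ) (u : Fin n → ℝ) {v : ℝ≥0} (hv : v ≠ 0) :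
    Integrable (fun z : Fin n → ℝ => ∑ e : Edge n, g e * (z e.1.1 * z e.1.2 * prodPdf u v z)) := by
  refine integrable_finsetSum _ fun e _ => Integrable.const_mul ?_ _
  exact integrable_two u (edge_ne e) (integrable_id_pdf _ hv) (integrable_id_pdf _ hv)

lemma integral_T1 (g : Edge n → ℝ) (u : Fin n → ℝ) {v : ℝ≥0} (hv : v ≠ 0) :
    ∫ z : Fin n → ℝ, ∑ e : Edge n, g e * (z e.1.1 * z e.1.2 * prodPdf u v z) = edgeForm g u := by
  rw [integral_finsetSum _ fun e _ => Integrable.const_mul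
    (integrable_two u (edge_ne e) (integrable_id_pdf _ hv) (integrable_id_pdf _ hv)) _]
  refine Finset.sum_congr rfl fun e _ => ?_
  rw [integral_const_mul]
  have := integral_two u hv (edge_ne e) (fun x => x) (fun x => x)
  simp only [integral_id_pdf _ hv] at this
  rw [this]

lemma integrable_T2 (u : Fin n → ℝ) {v : ℝ≥0} (hv : v ≠ 0) :
    Integrable (fun z : Fin n → ℝ => ∑ e : Edge n, z e.1.1 ^ 2 * z e.1.2 ^ 2 * prodPdf u v z) := by
  refine integrable_finsetSum _ fun e _ => ?_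
  exact integrable_two u (edge_ne e) (integrable_sq_pdf _ hv) (integrable_sq_pdf _ hv)

lemma integral_T2 (u : Fin n → ℝ) {v : ℝ≥0} (hv : v ≠ 0) :
    ∫ z : Fin n → ℝ, ∑ e : Edge n, z e.1.1 ^ 2 * z e.1.2 ^ 2 * prodPdf u v z
      = ∑ e : Edge n, (u e.1.1 ^ 2 + v) * (u e.1.2 ^ 2 + v) := by
  rw [integral_finsetSum _ fun e _ =>
    integrable_two u (edge_ne e) (integrable_sq_pdf _ hv) (integrable_sq_pdf _ hv)]
  refine Finset.sum_congr rfl fun e _ => ?_
  have := integral_two u hv (edge_ne e) (fun x => x ^ 2) (fun x => x ^ 2)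
  simp only [integral_sq_pdf _ hv] at this
  exact this

lemma integrable_logRatio (u : Fin n → ℝ) {v : ℝ≥0} (hv : v ≠ 0) (v₀ : ℝ≥0) (i : Fin n) :
    Integrable (fun z : Fin n → ℝ => logRatio u v v₀ i (z i) * prodPdf u v z) :=
  integrable_coord u i (α := logRatio u v v₀ i) (integrable_poly_pdf _ _ _ _ hv)

lemma integrable_T3 (u : Fin n → ℝ) {v : ℝ≥0} (hv : v ≠ 0) (v₀ : ℝ≥0) :
    Integrable (fun z : Fin n → ℝ => ∑ i, logRatio u v v₀ i (z i) * prodPdf u v z) :=
  integrable_finsetSum _ fun i _ => integrable_logRatio u hv v₀ i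

lemma integral_logRatio (u : Fin n → ℝ) {v v₀ : ℝ≥0} (hv : v ≠ 0) (hv₀ : v₀ ≠ 0) (i : Fin n) :
    ∫ z : Fin n → ℝ, logRatio u v v₀ i (z i) * prodPdf u v z
      = (1 / 2) * Real.log ((v : ℝ) / v₀) + 1 / 2 - (u i ^ 2 + v) / (2 * v₀) := by
  have hvp : (0 : ℝ) < v := by positivity
  have hv₀p : (0 : ℝ) < v₀ := by positivity
  have := integral_coord u hv i (logRatio u v v₀ i)
  rw [this]
  unfold logRatio
  rw [integral_poly_pdf _ _ _ _ hv]
  field_simp
  ring

lemma integral_T3 (u : Fin n → ℝ) {v v₀ : ℝ≥0} (hv : v ≠ 0) (hv₀ : v₀ ≠ 0)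
    (hu : ∑ i, u i ^ 2 = 1) (hrel : (n : ℝ) * v₀ = 1 + n * v) :
    ∫ z : Fin n → ℝ, ∑ i, logRatio u v v₀ i (z i) * prodPdf u v z
      = n * ((1 / 2) * Real.log ((v : ℝ) / v₀)) := by
  have hv₀p : (0 : ℝ) < v₀ := by positivity
  rw [integral_finsetSum _ fun i _ => integrable_logRatio u hv v₀ i]
  simp only [integral_logRatio u hv hv₀]
  have h2 : ∑ i : Fin n, (u i ^ 2 + (v : ℝ)) / (2 * v₀) = (1 + (n : ℝ) * v) / (2 * v₀) := by
    rw [← Finset.sum_div, Finset.sum_add_distrib, hu]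
    simp
  rw [Finset.sum_sub_distrib, Finset.sum_add_distrib, h2]
  simp only [Finset.sum_const, Finset.card_univ, Fintype.card_fin, nsmul_eq_mul]
  have h3 : (1 + (n : ℝ) * v) / (2 * v₀) = n / 2 := by
    rw [← hrel]
    field_simp
  rw [h3]
  ring

lemma fD_decomp (s l : ℝ) (g : Edge n → ℝ) (u : Fin n → ℝ) (v v₀ : ℝ≥0) (z : Fin n → ℝ) :
    (pacF s l g z + ∑ i, logRatio u v v₀ i (z i)) * prodPdf u v z
      = s * l * 2 * (∑ e : Edge n, g e * (z e.1.1 * z e.1.2 * prodPdf u v z))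
        - 2 * l ^ 2 * (∑ e : Edge n, z e.1.1 ^ 2 * z e.1.2 ^ 2 * prodPdf u v z)
        + ∑ i, logRatio u v v₀ i (z i) * prodPdf u v z := by
  unfold pacF edgeForm edgePen
  rw [add_mul, sub_mul, Finset.sum_mul]
  congr 1
  have e1 : ∑ e : Edge n, g e * (z e.1.1 * z e.1.2 * prodPdf u v z)
      = (∑ e : Edge n, g e * (z e.1.1 * z e.1.2)) * prodPdf u v z := by
    rw [Finset.sum_mul]
    refine Finset.sum_congr rfl fun e _ => ?_
    ring
  have e2 : ∑ e : Edge n, z e.1.1 ^ 2 * z e.1.2 ^ 2 * prodPdf u v z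
      = (∑ e : Edge n, (z e.1.1 * z e.1.2) ^ 2) * prodPdf u v z := by
    rw [Finset.sum_mul]
    refine Finset.sum_congr rfl fun e _ => ?_
    ring
  rw [e1, e2]
  ring

/-- The mean of the exponent against the posterior. -/
lemma integral_fD (s l : ℝ) (g : Edge n → ℝ) (u : Fin n → ℝ) {v v₀ : ℝ≥0} (hv : v ≠ 0)
    (hv₀ : v₀ ≠ 0) (hu : ∑ i, u i ^ 2 = 1) (hrel : (n : ℝ) * v₀ = 1 + n * v) :
    Integrable (fun z => (pacF s l g z + ∑ i, logRatio u v v₀ i (z i)) * prodPdf u v z) ∧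
    ∫ z, (pacF s l g z + ∑ i, logRatio u v v₀ i (z i)) * prodPdf u v z
      = s * l * 2 * edgeForm g u
        - 2 * l ^ 2 * (∑ e : Edge n, (u e.1.1 ^ 2 + v) * (u e.1.2 ^ 2 + v))
        + n * ((1 / 2) * Real.log ((v : ℝ) / v₀)) := by
  simp only [fD_decomp]
  have h1 := integrable_T1 g u hv
  have h2 := integrable_T2 u hv
  have h3 := integrable_T3 u hv v₀
  have h12 : Integrable (fun z : Fin n → ℝ =>
      s * l * 2 * (∑ e : Edge n, g e * (z e.1.1 * z e.1.2 * prodPdf u v z))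
        - 2 * l ^ 2 * (∑ e : Edge n, z e.1.1 ^ 2 * z e.1.2 ^ 2 * prodPdf u v z)) :=
    (h1.const_mul _).sub (h2.const_mul _)
  refine ⟨h12.add h3, ?_⟩
  rw [integral_add h12 h3, integral_sub (h1.const_mul _) (h2.const_mul _), integral_const_mul,
    integral_const_mul, integral_T1 g u hv, integral_T2 u hv, integral_T3 u hv hv₀ hu hrel]

/-- The bound on the penalty. -/
lemma penalty_le (X : Fin n → ℝ) (hX : ∀ i, 0 ≤ X i) :
    2 * ∑ e : Edge n, X e.1.1 * X e.1.2 ≤ (∑ i, X i) ^ 2 := by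
  classical
  have h1 := sum_symm_eq_two_edge (fun a b => if a = b then 0 else X a * X b)
    (fun a b => by
      by_cases h : a = b
      · subst h; rfl
      · simp [h, Ne.symm h, mul_comm])
    (fun a => by simp)
  have h2 : ∑ e : Edge n, (if e.1.1 = e.1.2 then (0 : ℝ) else X e.1.1 * X e.1.2)
      = ∑ e : Edge n, X e.1.1 * X e.1.2 :=
    Finset.sum_congr rfl fun e _ => by simp [edge_ne e]
  simp only [h2] at h1
  rw [← h1, sq, Finset.sum_mul_sum]
  refine Finset.sum_le_sum fun a _ => Finset.sum_le_sum fun b _ => ?_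
  by_cases h : a = b
  · simp [h, mul_nonneg (hX b) (hX b)]
  · simp [h]

/-- Finite partition function gives integrability and the bound on the integral. -/
lemma pacW_integral_le (s l a : ℝ) {v₀ : ℝ≥0} (hv₀ : v₀ ≠ 0) (g : Edge n → ℝ)
    (hZ : pacZ s l v₀ g ≤ ENNReal.ofReal (Real.exp a)) :
    Integrable (fun z => pacW s l v₀ g z) ∧ ∫ z, pacW s l v₀ g z ≤ Real.exp a := by
  have hZfin : pacZ s l v₀ g < ⊤ := lt_of_le_of_lt hZ ENNReal.ofReal_lt_top
  have hWmeas : Measurable (fun z => pacW s l v₀ g z) :=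
    (measurable_pacW s l v₀).comp (f := fun z => (g, z)) (by fun_prop)
  have hnn : 0 ≤ᵐ[volume] fun z => pacW s l v₀ g z :=
    Filter.Eventually.of_forall fun z => pacW_nonneg s l hv₀ g z
  have hZe : ∫⁻ z, ENNReal.ofReal (pacW s l v₀ g z) = pacZ s l v₀ g := rfl
  constructor
  · refine ⟨hWmeas.aestronglyMeasurable, ?_⟩
    rw [hasFiniteIntegral_iff_ofReal hnn, hZe]
    exact hZfin
  · rw [integral_eq_lintegral_of_nonneg_ae hnn hWmeas.aestronglyMeasurable, hZe]
    exact ENNReal.toReal_le_of_le_ofReal (Real.exp_pos a).le hZ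

/-- The deterministic PAC-Bayes inequality. -/
theorem pac_det (s l a : ℝ) {v v₀ : ℝ≥0} (hv : v ≠ 0) (hv₀ : v₀ ≠ 0) (g : Edge n → ℝ)
    (hZ : pacZ s l v₀ g ≤ ENNReal.ofReal (Real.exp a)) (u : Fin n → ℝ)
    (hu : ∑ i, u i ^ 2 = 1) (hrel : (n : ℝ) * v₀ = 1 + n * v) :
    s * l * (2 * edgeForm g u)
      ≤ a + l ^ 2 * (1 + n * v) ^ 2 + (n / 2) * Real.log ((v₀ : ℝ) / v) := by
  obtain ⟨hWi, hWv⟩ := pacW_integral_le s l a hv₀ g hZ
  obtain ⟨hfi, hfv⟩ := integral_fD s l g u hv hv₀ hu hrel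
  have hpt := pacW_eq s l u hv hv₀ g
  have hexpInt : Integrable
      (fun z => Real.exp (pacF s l g z + ∑ i, logRatio u v v₀ i (z i)) * prodPdf u v z) :=
    hWi.congr (Filter.Eventually.of_forall fun z => (hpt z).symm)
  have hJ := exp_integral_le (μ := volume)
    (f := fun z => pacF s l g z + ∑ i, logRatio u v v₀ i (z i)) (D := prodPdf u v)
    (fun z => (prodPdf_pos u hv z).le) (integral_prodPdf u hv) (integrable_prodPdf u v)
    hfi hexpInt
  have hWval2 : ∫ z, Real.exp (pacF s l g z + ∑ i, logRatio u v v₀ i (z i)) * prodPdf u v z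
      ≤ Real.exp a := by
    simp only [hpt]
    exact hWv
  have hle := Real.exp_le_exp.1 (hJ.trans hWval2)
  rw [hfv] at hle
  have hX0 : ∀ i, 0 ≤ u i ^ 2 + (v : ℝ) := fun i => by positivity
  have hXsum : ∑ i, (u i ^ 2 + (v : ℝ)) = 1 + n * v := by
    simp only [Finset.sum_add_distrib, hu]
    simp
  have hpen := penalty_le (fun i => u i ^ 2 + (v : ℝ)) hX0
  rw [hXsum] at hpen
  have hlog : Real.log ((v : ℝ) / v₀) = - Real.log ((v₀ : ℝ) / v) := by
    rw [← Real.log_inv, inv_div]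
  rw [hlog] at hle
  have hl2 : 0 ≤ l ^ 2 := sq_nonneg l
  have hpen' : 2 * l ^ 2 * (∑ e : Edge n, (u e.1.1 ^ 2 + (v : ℝ)) * (u e.1.2 ^ 2 + v))
      ≤ l ^ 2 * (1 + n * v) ^ 2 := by
    have := mul_le_mul_of_nonneg_left hpen hl2
    linarith
  nlinarith

lemma log_seven_half_le : Real.log (7 / 2) ≤ 63 / 50 := by
  rw [Real.log_le_iff_le_exp (by norm_num)]
  have h1 := Real.exp_one_gt_d9
  have h2 : 1 + 13 / 50 + (13 / 50) ^ 2 / 2 ≤ Real.exp (13 / 50) :=
    Real.quadratic_le_exp_of_nonneg (by norm_num)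
  have h3 : Real.exp (63 / 50) = Real.exp 1 * Real.exp (13 / 50) := by
    rw [← Real.exp_add]
    norm_num
  rw [h3]
  nlinarith

/-- The probability of a large quadratic form. -/
theorem op_bound_event (hn : 0 < n) (s : ℝ) (hs : s ^ 2 = 1) :
    (disorder n) {g | ∃ u : Fin n → ℝ, ∑ i, u i ^ 2 = 1 ∧
        223 / 100 * Real.sqrt n < s * (2 * edgeForm g u)}
      ≤ ENNReal.ofReal (Real.exp (-(n / 1000 : ℝ))) := by
  have hnp : (0 : ℝ) < n := by exact_mod_cast hn
  have hsq : Real.sqrt n ^ 2 = n := Real.sq_sqrt hnp.le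
  have hsp : 0 < Real.sqrt n := Real.sqrt_pos.2 hnp
  set l : ℝ := 57 / 100 * Real.sqrt n with hl
  set a : ℝ := n / 1000 with ha
  set v : ℝ≥0 := ⟨(2 / 5) / n, by positivity⟩ with hv
  set v₀ : ℝ≥0 := ⟨(7 / 5) / n, by positivity⟩ with hv₀
  have hvr : (v : ℝ) = (2 / 5) / n := rfl
  have hv₀r : (v₀ : ℝ) = (7 / 5) / n := rfl
  have hv0 : v ≠ 0 := by
    intro h
    have : (v : ℝ) = 0 := by rw [h]; rfl
    rw [hvr] at this
    have : (0 : ℝ) < (2 / 5) / n := by positivity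
    linarith
  have hv₀0 : v₀ ≠ 0 := by
    intro h
    have : (v₀ : ℝ) = 0 := by rw [h]; rfl
    rw [hv₀r] at this
    have : (0 : ℝ) < (7 / 5) / n := by positivity
    linarith
  have hrel : (n : ℝ) * v₀ = 1 + n * v := by
    rw [hvr, hv₀r]
    field_simp
    try norm_num
  have hsub : {g : Edge n → ℝ | ∃ u : Fin n → ℝ, ∑ i, u i ^ 2 = 1 ∧
        223 / 100 * Real.sqrt n < s * (2 * edgeForm g u)}
      ⊆ {g | ENNReal.ofReal (Real.exp a) ≤ pacZ s l v₀ g} := by
    intro g hg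
    obtain ⟨u, hu, hlt⟩ := hg
    by_contra hcon
    have hZ : pacZ s l v₀ g ≤ ENNReal.ofReal (Real.exp a) := le_of_lt (not_le.1 hcon)
    have hdet := pac_det s l a hv0 hv₀0 g hZ u hu hrel
    have hrat : (v₀ : ℝ) / v = 7 / 2 := by
      rw [hvr, hv₀r]
      field_simp
      try norm_num
    have hnv : (n : ℝ) * v = 2 / 5 := by
      rw [hvr]
      field_simp
    rw [hrat, hnv] at hdet
    have hlog := log_seven_half_le
    have hup : a + l ^ 2 * (1 + 2 / 5) ^ 2 + (n / 2) * Real.log (7 / 2)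
        ≤ 57 / 100 * Real.sqrt n * (223 / 100 * Real.sqrt n) := by
      have e1 : l ^ 2 = (57 / 100) ^ 2 * n := by
        rw [hl, mul_pow, hsq]
      have e2 : 57 / 100 * Real.sqrt n * (223 / 100 * Real.sqrt n)
          = 57 / 100 * (223 / 100) * n := by
        calc _ = 57 / 100 * (223 / 100) * Real.sqrt n ^ 2 := by ring
          _ = _ := by rw [hsq]
      rw [e1, e2, ha]
      have : (n / 2 : ℝ) * Real.log (7 / 2) ≤ (n / 2) * (63 / 50) :=
        mul_le_mul_of_nonneg_left hlog (by positivity)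
      nlinarith
    have hlpos : 0 < 57 / 100 * Real.sqrt n := by positivity
    have h3 : s * l * (2 * edgeForm g u) = (57 / 100 * Real.sqrt n) * (s * (2 * edgeForm g u)) := by
      rw [hl]
      ring
    rw [h3] at hdet
    have h4 : (57 / 100 * Real.sqrt n) * (223 / 100 * Real.sqrt n)
        < (57 / 100 * Real.sqrt n) * (s * (2 * edgeForm g u)) :=
      mul_lt_mul_of_pos_left hlt hlpos
    linarith
  refine (measure_mono hsub).trans ?_
  have hE : ENNReal.ofReal (Real.exp a) ≠ 0 := by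
    simpa using Real.exp_pos a
  have hM := meas_ge_le_lintegral_div (μ := disorder n)
    (measurable_pacZ (n := n) s l v₀).aemeasurable hE ENNReal.ofReal_ne_top
  rw [lintegral_pacZ s l hs hv₀0] at hM
  refine hM.trans (le_of_eq ?_)
  rw [Real.exp_neg, ENNReal.ofReal_inv_of_pos (Real.exp_pos a), one_div]

end Vale.Agent.Lib.P150
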