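import Vale.Agent.Lib.P150.Gamma2Sum

/-!
From the integrated second order inequality to the Poincaré inequality.
-/

open scoped BigOperators Matrix
open Filter Topology

namespace Vale.Agent.Lib.P150

variable {n : ℕ}

section abstract

variable {L : Matrix (Conf n) (Conf n) ℝ} {c : Conf n → Fin n → ℝ} {μ : Conf n → ℝ}

lemma selfadj_gen (hμ : IsRevProb L μ) (a b : Conf n → ℝ) :
    ∑ x, μ x * a x * (L *ᵥ b) x = ∑ x, μ x * (L *ᵥ a) x * b x := by
  calc ∑ x, μ x * a x * (L *ᵥ b) x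
      = ∑ x, ∑ y, a x * b y * (μ x * L x y) := by
        refine Finset.sum_congr rfl fun x _ => ?_
        simp only [Matrix.mulVec, dotProduct, Finset.mul_sum]
        refine Finset.sum_congr rfl fun y _ => ?_
        ring
    _ = ∑ y, ∑ x, a x * b y * (μ y * L y x) := by
        rw [Finset.sum_comm]
        refine Finset.sum_congr rfl fun y _ => Finset.sum_congr rfl fun x _ => ?_
        rw [hμ.rev]
    _ = ∑ x, μ x * (L *ᵥ a) x * b x := by
        refine Finset.sum_congr rfl fun y _ => ?_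
        simp only [Matrix.mulVec, dotProduct, Finset.mul_sum, Finset.sum_mul]
        refine Finset.sum_congr rfl fun x _ => ?_
        ring

lemma dirAbs_nonneg (hμ : ∀ x, 0 < μ x) (hc : ∀ x i, 0 < c x i) (h : Conf n → ℝ) :
    0 ≤ dirAbs μ c h := by
  unfold dirAbs
  refine mul_nonneg (by norm_num) (Finset.sum_nonneg fun x _ => mul_nonneg (hμ x).le
    (Finset.sum_nonneg fun i _ => mul_nonneg (hc x i).le (sq_nonneg _)))

/-- A crude Poincaré bound with a constant depending on the chain. -/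
lemma crude_bound (hμ : IsRevProb L μ) (hc : ∀ x i, 0 < c x i) :
    ∃ C₀ : ℝ, 0 ≤ C₀ ∧ ∀ h : Conf n → ℝ, ∑ x, μ x * h x = 0 →
      ∑ x, μ x * h x ^ 2 ≤ C₀ * dirAbs μ c h := by
  obtain ⟨K, hK⟩ : ∃ K : ℝ, K = ∑ z, ∑ i, (μ z * c z i)⁻¹ := ⟨_, rfl⟩
  have hμp := hμ.pos
  have hterm : ∀ z i, 0 ≤ (μ z * c z i)⁻¹ := fun z i =>
    inv_nonneg.2 (mul_pos (hμp z) (hc z i)).le
  have hKle : ∀ z i, (μ z * c z i)⁻¹ ≤ K := by
    intro z i
    rw [hK]
    calc (μ z * c z i)⁻¹ ≤ ∑ i, (μ z * c z i)⁻¹ :=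
          Finset.single_le_sum (f := fun i => (μ z * c z i)⁻¹) (fun i _ => hterm z i)
            (Finset.mem_univ i)
      _ ≤ ∑ z, ∑ i, (μ z * c z i)⁻¹ :=
          Finset.single_le_sum (f := fun z => ∑ i, (μ z * c z i)⁻¹)
            (fun z _ => Finset.sum_nonneg fun i _ => hterm z i) (Finset.mem_univ z)
  have hK0 : 0 ≤ K := by
    rw [hK]
    exact Finset.sum_nonneg fun z _ => Finset.sum_nonneg fun i _ => hterm z i
  refine ⟨(n : ℝ) ^ 2 * (2 * K), by positivity, ?_⟩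
  intro h hmean
  obtain ⟨d, hd⟩ : ∃ d, d = dirAbs μ c h := ⟨_, rfl⟩
  have hd0 : 0 ≤ d := by rw [hd]; exact dirAbs_nonneg hμp hc h
  have hgr : ∀ z, gradSq h z ≤ (Real.sqrt (2 * K * d)) ^ 2 := by
    intro z
    rw [Real.sq_sqrt (by positivity)]
    have h1 : ∀ i, (h (flipAt z i) - h z) ^ 2 ≤ K * (μ z * (c z i * (h (flipAt z i) - h z) ^ 2)) := by
      intro i
      have hp := mul_pos (hμp z) (hc z i)
      have h2 := hKle z i
      have h3 : 1 ≤ K * (μ z * c z i) := by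
        have := mul_le_mul_of_nonneg_right h2 hp.le
        rwa [inv_mul_cancel₀ hp.ne'] at this
      have h4 := mul_le_mul_of_nonneg_right h3 (sq_nonneg (h (flipAt z i) - h z))
      nlinarith
    have h2 : gradSq h z ≤ K * (μ z * ∑ i, c z i * (h (flipAt z i) - h z) ^ 2) := by
      unfold gradSq
      rw [Finset.mul_sum, Finset.mul_sum]
      exact Finset.sum_le_sum fun i _ => h1 i
    have h3 : μ z * ∑ i, c z i * (h (flipAt z i) - h z) ^ 2
        ≤ ∑ z, μ z * ∑ i, c z i * (h (flipAt z i) - h z) ^ 2 :=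
      Finset.single_le_sum (f := fun z => μ z * ∑ i, c z i * (h (flipAt z i) - h z) ^ 2)
        (fun z _ => mul_nonneg (hμp z).le
          (Finset.sum_nonneg fun i _ => mul_nonneg (hc z i).le (sq_nonneg _))) (Finset.mem_univ z)
    have h4 : d = (1 / 2) * ∑ z, μ z * ∑ i, c z i * (h (flipAt z i) - h z) ^ 2 := hd
    have h5 := mul_le_mul_of_nonneg_left h3 hK0
    nlinarith
  have hosc := abs_sub_le_of_gradSq h (Real.sqrt_nonneg _) hgr
  have hsup : ∀ x, h x ^ 2 ≤ (n : ℝ) ^ 2 * (2 * K * d) := by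
    intro x
    have e : h x = ∑ w, μ w * (h x - h w) := by
      simp only [mul_sub, Finset.sum_sub_distrib, ← Finset.sum_mul, hμ.total, one_mul, hmean,
        sub_zero]
    have h1 : |h x| ≤ n * Real.sqrt (2 * K * d) := by
      rw [e]
      calc |∑ w, μ w * (h x - h w)| ≤ ∑ w, |μ w * (h x - h w)| := Finset.abs_sum_le_sum_abs _ _
        _ ≤ ∑ w, μ w * (n * Real.sqrt (2 * K * d)) := by
            refine Finset.sum_le_sum fun w _ => ?_
            rw [abs_mul, abs_of_pos (hμp w)]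
            exact mul_le_mul_of_nonneg_left (hosc x w) (hμp w).le
        _ = n * Real.sqrt (2 * K * d) := by rw [← Finset.sum_mul, hμ.total, one_mul]
    have h2 : h x ^ 2 ≤ (n * Real.sqrt (2 * K * d)) ^ 2 := sq_le_sq' (by
      have := (abs_le.1 h1).1
      linarith) (abs_le.1 h1).2
    rw [mul_pow, Real.sq_sqrt (by positivity)] at h2
    exact h2
  calc ∑ x, μ x * h x ^ 2 ≤ ∑ x, μ x * ((n : ℝ) ^ 2 * (2 * K * d)) :=
        Finset.sum_le_sum fun x _ => mul_le_mul_of_nonneg_left (hsup x) (hμp x).le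
    _ = (n : ℝ) ^ 2 * (2 * K * d) := by rw [← Finset.sum_mul, hμ.total, one_mul]
    _ = (n : ℝ) ^ 2 * (2 * K) * dirAbs μ c h := by rw [← hd]; ring

lemma decay_of_deriv {D D' : ℝ → ℝ} {κ : ℝ} (hd : ∀ t, HasDerivAt D (D' t) t)
    (hle : ∀ t, D' t ≤ -(2 * κ * D t)) {t : ℝ} (ht : 0 ≤ t) :
    D t ≤ D 0 * Real.exp (-(2 * κ * t)) := by
  have hE : ∀ t, HasDerivAt (fun t => D t * Real.exp (2 * κ * t))
      ((D' t + 2 * κ * D t) * Real.exp (2 * κ * t)) t := by
    intro t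
    have h1 : HasDerivAt (fun t => Real.exp (2 * κ * t)) (Real.exp (2 * κ * t) * (2 * κ)) t := by
      have := ((hasDerivAt_id' t).const_mul (2 * κ)).exp
      simpa using this
    have := (hd t).mul h1
    refine this.congr_deriv ?_
    ring
  have hanti : Antitone (fun t => D t * Real.exp (2 * κ * t)) := by
    apply antitone_of_deriv_nonpos (fun t => (hE t).differentiableAt)
    intro t
    rw [(hE t).deriv]
    exact mul_nonpos_of_nonpos_of_nonneg (by linarith [hle t]) (Real.exp_pos _).le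
  have h := hanti ht
  simp only [mul_zero, Real.exp_zero, mul_one] at h
  have e : D t = D t * Real.exp (2 * κ * t) * Real.exp (-(2 * κ * t)) := by
    rw [mul_assoc, ← Real.exp_add]
    simp
  rw [e]
  exact mul_le_mul_of_nonneg_right h (Real.exp_pos _).le

/-- The Poincaré inequality from the integrated second order inequality. -/
theorem poincare_mean_zero (hμ : IsRevProb L μ) (hR : IsRateGen L c)
    (hbal : ∀ x i, μ x * c x i = μ (flipAt x i) * c (flipAt x i) i) {κ : ℝ} (hκ : 0 < κ)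
    (hΓ : ∀ f : Conf n → ℝ, κ * dirAbs μ c f ≤ ∑ x, μ x * (rateAct c f x) ^ 2)
    (G : Conf n → ℝ) (hG : ∑ x, μ x * G x = 0) :
    κ * ∑ x, μ x * G x ^ 2 ≤ dirAbs μ c G := by
  obtain ⟨C₀, hC₀, hcrude⟩ := crude_bound hμ hR.pos
  -- the functions
  have hV : ∀ t, HasDerivAt (fun s => ∑ x, μ x * (semi L s *ᵥ G) x ^ 2)
      (-(2 * dirAbs μ c (semi L t *ᵥ G))) t := by
    intro t
    have h1 : HasDerivAt (fun s => ∑ x, μ x * (semi L s *ᵥ G) x ^ 2)
        (∑ x, μ x * (2 * (semi L t *ᵥ G) x * (L *ᵥ (semi L t *ᵥ G)) x)) t := by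
      refine HasDerivAt.fun_sum fun x _ => ?_
      have := ((hasDerivAt_semi_mulVec' L G t x).fun_pow 2).const_mul (μ x)
      refine this.congr_deriv ?_
      simp
    refine h1.congr_deriv ?_
    rw [← dirAbs_eq hR.act hbal]
    rw [mul_neg, neg_neg, Finset.mul_sum]
    refine Finset.sum_congr rfl fun x _ => ?_
    ring
  have hD : ∀ t, HasDerivAt (fun s => dirAbs μ c (semi L s *ᵥ G))
      (-(2 * ∑ x, μ x * (rateAct c (semi L t *ᵥ G) x) ^ 2)) t := by
    intro t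
    have e : (fun s => dirAbs μ c (semi L s *ᵥ G))
        = fun s => - ∑ x, μ x * (semi L s *ᵥ G) x * (L *ᵥ (semi L s *ᵥ G)) x := by
      funext s
      rw [dirAbs_eq hR.act hbal]
    rw [e]
    have h2 : ∀ x, HasDerivAt (fun s => (L *ᵥ (semi L s *ᵥ G)) x)
        ((L *ᵥ (L *ᵥ (semi L t *ᵥ G))) x) t := by
      intro x
      have : (fun s => (L *ᵥ (semi L s *ᵥ G)) x) = fun s => ∑ y, L x y * (semi L s *ᵥ G) y := by
        funext s
        rfl
      rw [this]
      exact HasDerivAt.fun_sum fun y _ => (hasDerivAt_semi_mulVec' L G t y).const_mul _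
    have h1 : HasDerivAt (fun s => ∑ x, μ x * (semi L s *ᵥ G) x * (L *ᵥ (semi L s *ᵥ G)) x)
        (∑ x, (μ x * (L *ᵥ (semi L t *ᵥ G)) x * (L *ᵥ (semi L t *ᵥ G)) x
          + μ x * (semi L t *ᵥ G) x * (L *ᵥ (L *ᵥ (semi L t *ᵥ G))) x)) t := by
      refine HasDerivAt.fun_sum fun x _ => ?_
      exact ((hasDerivAt_semi_mulVec' L G t x).const_mul (μ x)).mul (h2 x)
    refine h1.neg.congr_deriv ?_
    rw [Finset.sum_add_distrib, selfadj_gen hμ (semi L t *ᵥ G) (L *ᵥ (semi L t *ᵥ G))]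
    simp only [hR.act]
    have e3 : ∀ x, μ x * rateAct c (semi L t *ᵥ G) x * rateAct c (semi L t *ᵥ G) x
        = μ x * rateAct c (semi L t *ᵥ G) x ^ 2 := fun x => by ring
    simp only [e3]
    ring
  have hD0 : ∀ t, 0 ≤ dirAbs μ c (semi L t *ᵥ G) := fun t => dirAbs_nonneg hμ.pos hR.pos _
  -- decay
  have hdec : ∀ t, 0 ≤ t → dirAbs μ c (semi L t *ᵥ G)
      ≤ dirAbs μ c (semi L 0 *ᵥ G) * Real.exp (-(2 * κ * t)) := by
    intro t ht
    refine decay_of_deriv (D := fun s => dirAbs μ c (semi L s *ᵥ G)) (κ := κ) hD ?_ ht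
    intro s
    have := hΓ (semi L s *ᵥ G)
    try simp only
    linarith
  have h0 : semi L 0 *ᵥ G = G := by
    rw [semi_zero, Matrix.one_mulVec]
  rw [h0] at hdec
  obtain ⟨d₀, hd₀⟩ : ∃ d₀, d₀ = dirAbs μ c G := ⟨_, rfl⟩
  rw [← hd₀] at hdec ⊢
  have hd₀0 : 0 ≤ d₀ := by rw [hd₀]; exact dirAbs_nonneg hμ.pos hR.pos _
  -- monotone quantity
  have hW : ∀ t, HasDerivAt (fun s => ∑ x, μ x * (semi L s *ᵥ G) x ^ 2
        - d₀ / κ * Real.exp (-(2 * κ * s)))
      (-(2 * dirAbs μ c (semi L t *ᵥ G)) + 2 * d₀ * Real.exp (-(2 * κ * t))) t := by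
    intro t
    have h1 : HasDerivAt (fun s => Real.exp (-(2 * κ * s)))
        (Real.exp (-(2 * κ * t)) * (-(2 * κ))) t := by
      have := (((hasDerivAt_id' t).const_mul (2 * κ)).neg).exp
      simpa using this
    have := (hV t).fun_sub (h1.const_mul (d₀ / κ))
    refine this.congr_deriv ?_
    field_simp
    ring
  have hmono : MonotoneOn (fun s => ∑ x, μ x * (semi L s *ᵥ G) x ^ 2
        - d₀ / κ * Real.exp (-(2 * κ * s))) (Set.Ici 0) := by
    apply monotoneOn_of_deriv_nonneg (convex_Ici 0)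
    · exact fun t _ => (hW t).continuousAt.continuousWithinAt
    · exact fun t _ => (hW t).differentiableAt.differentiableWithinAt
    · intro t ht
      rw [interior_Ici] at ht
      rw [(hW t).deriv]
      have := hdec t (le_of_lt ht)
      linarith
  -- the limit
  have hmean : ∀ t, ∑ x, μ x * (semi L t *ᵥ G) x = 0 := by
    intro t
    rw [hμ.stationary hR.row t G, hG]
  have hup : ∀ t, 0 ≤ t → ∑ x, μ x * G x ^ 2 - d₀ / κ ≤ C₀ * (d₀ * Real.exp (-(2 * κ * t))) := by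
    intro t ht
    have h1 := hmono (Set.self_mem_Ici) (Set.mem_Ici.2 ht) ht
    simp only [semi_zero, Matrix.one_mulVec, mul_zero, neg_zero, Real.exp_zero, mul_one] at h1
    have h2 := hcrude _ (hmean t)
    have h3 := mul_le_mul_of_nonneg_left (hdec t ht) hC₀
    have h4 : 0 ≤ d₀ / κ * Real.exp (-(2 * κ * t)) := by positivity
    linarith
  have hlim : Tendsto (fun t : ℝ => C₀ * (d₀ * Real.exp (-(2 * κ * t)))) atTop (𝓝 (C₀ * (d₀ * 0))) := by
    refine (Tendsto.const_mul _ (Tendsto.const_mul _ ?_))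
    have h1 : Tendsto (fun t : ℝ => 2 * κ * t) atTop atTop :=
      tendsto_id.const_mul_atTop (by positivity)
    exact Real.tendsto_exp_neg_atTop_nhds_zero.comp h1
  have hfin : ∑ x, μ x * G x ^ 2 - d₀ / κ ≤ C₀ * (d₀ * 0) := by
    refine ge_of_tendsto hlim ?_
    filter_upwards [eventually_ge_atTop 0] with t ht
    exact hup t ht
  simp only [mul_zero] at hfin
  have h5 : ∑ x, μ x * G x ^ 2 ≤ d₀ / κ := by linarith
  calc κ * ∑ x, μ x * G x ^ 2 ≤ κ * (d₀ / κ) := mul_le_mul_of_nonneg_left h5 hκ.le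
    _ = d₀ := by field_simp

end abstract

/-- The variance. -/
noncomputable def varF (μ : Conf n → ℝ) (g : Conf n → ℝ) : ℝ :=
  ∑ x, μ x * g x ^ 2 - (∑ x, μ x * g x) ^ 2

lemma dirAbs_sub_const (μ : Conf n → ℝ) (c : Conf n → Fin n → ℝ) (g : Conf n → ℝ) (m : ℝ) :
    dirAbs μ c (fun x => g x - m) = dirAbs μ c g := by
  unfold dirAbs
  congr 1
  refine Finset.sum_congr rfl fun x _ => ?_
  congr 1
  refine Finset.sum_congr rfl fun i _ => ?_
  congr 2
  ring

/-- The Poincaré inequality for all functions. -/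
theorem poincare_of_gamma2 {L : Matrix (Conf n) (Conf n) ℝ} {c : Conf n → Fin n → ℝ}
    {μ : Conf n → ℝ} (hμ : IsRevProb L μ) (hR : IsRateGen L c)
    (hbal : ∀ x i, μ x * c x i = μ (flipAt x i) * c (flipAt x i) i) {κ : ℝ} (hκ : 0 < κ)
    (hΓ : ∀ f : Conf n → ℝ, κ * dirAbs μ c f ≤ ∑ x, μ x * (rateAct c f x) ^ 2)
    (g : Conf n → ℝ) : κ * varF μ g ≤ dirAbs μ c g := by
  obtain ⟨m, hm⟩ : ∃ m, m = ∑ x, μ x * g x := ⟨_, rfl⟩
  have hG : ∑ x, μ x * (g x - m) = 0 := by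
    simp only [mul_sub, Finset.sum_sub_distrib, ← Finset.sum_mul, hμ.total, one_mul, ← hm, sub_self]
  have h := poincare_mean_zero hμ hR hbal hκ hΓ (fun x => g x - m) hG
  rw [dirAbs_sub_const] at h
  have e : ∑ x, μ x * (g x - m) ^ 2 = varF μ g := by
    unfold varF
    rw [← hm]
    have : ∀ x, μ x * (g x - m) ^ 2 = μ x * g x ^ 2 - 2 * m * (μ x * g x) + m ^ 2 * μ x := by
      intro x
      ring
    simp only [this, Finset.sum_add_distrib, Finset.sum_sub_distrib, ← Finset.mul_sum, hμ.total,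
      ← hm]
    ring
  rw [e] at h
  exact h

lemma sum_sub_sq_eq {μ : Conf n → ℝ} (hμ : ∑ x, μ x = 1) (g : Conf n → ℝ) :
    ∑ x, μ x * (g x - ∑ z, μ z * g z) ^ 2 = varF μ g := by
  unfold varF
  obtain ⟨m, hm⟩ : ∃ m, m = ∑ x, μ x * g x := ⟨_, rfl⟩
  rw [← hm]
  have : ∀ x, μ x * (g x - m) ^ 2 = μ x * g x ^ 2 - 2 * m * (μ x * g x) + m ^ 2 * μ x := by
    intro x
    ring
  simp only [this, Finset.sum_add_distrib, Finset.sum_sub_distrib, ← Finset.mul_sum, hμ, ← hm]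
  ring

lemma varF_nonneg {μ : Conf n → ℝ} (hμ0 : ∀ x, 0 ≤ μ x) (hμ : ∑ x, μ x = 1) (g : Conf n → ℝ) :
    0 ≤ varF μ g := by
  rw [← sum_sub_sq_eq hμ]
  exact Finset.sum_nonneg fun x _ => mul_nonneg (hμ0 x) (sq_nonneg _)

/-- The Poincaré inequality for Ising models, uniform in the external field. -/
theorem poincare_field {A : Matrix (Fin n) (Fin n) ℝ} (hA : IsCoupling A) (y : Fin n → ℝ)
    {C ρ ε : ℝ}
    (hC : ∀ z : Fin n → ℝ, ∑ i, ∑ k, A i k * z i * z k ≤ C * ∑ i, z i ^ 2)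
    (hρ : ∀ i, ∑ k, A i k ^ 2 ≤ ρ) (hε : ∀ i k, |A i k| ≤ ε) (hρ0 : 0 ≤ ρ) (hε0 : 0 ≤ ε)
    (hε1 : ε ≤ 1 / 100) (hρC : 2 * ρ ≤ C) (hκ : 0 < 1 - C - 16 * ε * ρ) (g : Conf n → ℝ) :
    (1 - C - 16 * ε * ρ) * varF (gibF A y) g ≤ dirAbs (gibF A y) (rateF A y) g :=
  poincare_of_gamma2 (isRevProb_gibF hA y) (isRateGen_genF hA y) (gibF_rate_balance hA y) hκ
    (fun f => gamma2_bound hA y f hC hρ hε hρ0 hε0 hε1 hρC) g

end Vale.Agent.Lib.P150
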