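import Vale.Agent.Lib.P150.Ising

/-!
Bridges between the upper triangular disorder and the symmetric matrix.
-/

open scoped BigOperators

namespace Vale.Agent.Lib.P150

variable {n : ℕ}

lemma symG_symm (g : Edge n → ℝ) (i j : Fin n) : symG g i j = symG g j i := by
  unfold symG
  rcases lt_trichotomy i j with h | h | h
  · simp [h, not_lt.2 h.le]
  · subst h; simp
  · simp [h, not_lt.2 h.le]

lemma symG_diag (g : Edge n → ℝ) (i : Fin n) : symG g i i = 0 := by
  simp [symG]

lemma symG_edge (g : Edge n → ℝ) (e : Edge n) : symG g e.1.1 e.1.2 = g e := by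
  have h : e.1.1 < e.1.2 := e.2
  simp [symG, h]

lemma isCoupling_skMatrix (β : ℝ) (g : Edge n → ℝ) : IsCoupling (skMatrix β g) where
  symm i j := by simp only [skMatrix]; rw [symG_symm]
  diag i := by simp [skMatrix, symG_diag]

/-- Sums over edges as sums over ordered pairs. -/
lemma sum_edge (F : Fin n → Fin n → ℝ) :
    ∑ e : Edge n, F e.1.1 e.1.2 = ∑ i, ∑ k, if i < k then F i k else 0 := by
  classical
  have h1 : ∑ e : Edge n, F e.1.1 e.1.2
      = ∑ p ∈ Finset.univ.filter (fun p : Fin n × Fin n => p.1 < p.2), F p.1 p.2 := by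
    rw [Finset.sum_subtype (p := fun p : Fin n × Fin n => p.1 < p.2)]
    simp
  rw [h1, Finset.sum_filter, Fintype.sum_prod_type]

/-- Splitting a symmetric double sum with zero diagonal. -/
lemma sum_symm_eq_two_edge (F : Fin n → Fin n → ℝ) (hs : ∀ i k, F i k = F k i)
    (hd : ∀ i, F i i = 0) :
    ∑ i, ∑ k, F i k = 2 * ∑ e : Edge n, F e.1.1 e.1.2 := by
  rw [sum_edge]
  have h1 : ∀ i k, F i k = (if i < k then F i k else 0) + (if k < i then F k i else 0) := by
    intro i k
    rcases lt_trichotomy i k with h | h | h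
    · simp [h, not_lt.2 h.le]
    · subst h; simp [hd]
    · simp [h, not_lt.2 h.le, hs i k]
  have h2 : ∑ i, ∑ k, (if k < i then F k i else 0) = ∑ i, ∑ k, if i < k then F i k else 0 := by
    rw [Finset.sum_comm]
  calc ∑ i, ∑ k, F i k
      = ∑ i, ∑ k, ((if i < k then F i k else 0) + (if k < i then F k i else 0)) :=
        Finset.sum_congr rfl fun i _ => Finset.sum_congr rfl fun k _ => h1 i k
    _ = _ := by
        simp only [Finset.sum_add_distrib]
        rw [h2]
        ring

/-- The quadratic form in terms of the edges. -/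
lemma quad_symG (g : Edge n → ℝ) (z : Fin n → ℝ) :
    ∑ i, ∑ k, symG g i k * z i * z k = 2 * ∑ e : Edge n, g e * (z e.1.1 * z e.1.2) := by
  have := sum_symm_eq_two_edge (fun i k => symG g i k * z i * z k)
    (fun i k => by rw [symG_symm g i k]; ring) (fun i => by simp [symG_diag])
  rw [this]
  congr 1
  refine Finset.sum_congr rfl fun e _ => ?_
  simp only [symG_edge]
  ring

/-- Row sums in terms of edges. -/
lemma row_symG (g : Edge n → ℝ) (i : Fin n) :
    ∑ k, symG g i k ^ 2
      = ∑ e : Edge n, if e.1.1 = i ∨ e.1.2 = i then g e ^ 2 else 0 := by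
  classical
  have h0 : ∑ e : Edge n, (if e.1.1 = i ∨ e.1.2 = i then g e ^ 2 else 0)
      = ∑ e : Edge n, (fun a b => if a = i ∨ b = i then symG g a b ^ 2 else 0) e.1.1 e.1.2 := by
    refine Finset.sum_congr rfl fun e _ => ?_
    simp only [symG_edge]
  rw [h0, sum_edge (fun a b => if a = i ∨ b = i then symG g a b ^ 2 else 0)]
  have h1 : ∀ a b, (if a < b then (if a = i ∨ b = i then symG g a b ^ 2 else 0) else 0)
      = (if a = i then (if i < b then symG g i b ^ 2 else 0) else 0)
        + (if b = i then (if a < i then symG g i a ^ 2 else 0) else 0) := by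
    intro a b
    by_cases ha : a = i
    · subst ha
      by_cases hb : b = a
      · subst hb; simp
      · simp [hb]
    · by_cases hb : b = i
      · subst hb
        simp [ha, symG_symm g a b]
      · simp [ha, hb]
  simp only [h1, Finset.sum_add_distrib]
  have h2 : ∑ a, ∑ b, (if a = i then (if i < b then symG g i b ^ 2 else 0) else 0)
      = ∑ k, if i < k then symG g i k ^ 2 else 0 := by
    rw [Finset.sum_eq_single i]
    · simp
    · intro a _ ha
      simp [ha]
    · simp
  have h3 : ∑ a, ∑ b, (if b = i then (if a < i then symG g i a ^ 2 else 0) else 0)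
      = ∑ k, if k < i then symG g i k ^ 2 else 0 := by
    simp
  rw [h2, h3, ← Finset.sum_add_distrib]
  refine Finset.sum_congr rfl fun k _ => ?_
  rcases lt_trichotomy i k with h | h | h
  · simp [h, not_lt.2 h.le]
  · subst h; simp [symG_diag]
  · simp [h, not_lt.2 h.le]

/-- The number of edges at a vertex is at most `n`. -/
lemma card_incident (i : Fin n) :
    ((Finset.univ.filter fun e : Edge n => e.1.1 = i ∨ e.1.2 = i).card : ℝ) ≤ n := by
  classical
  have h := row_symG (fun _ : Edge n => (1 : ℝ)) i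
  have h2 : ∑ e : Edge n, (if e.1.1 = i ∨ e.1.2 = i then ((1 : ℝ)) ^ 2 else 0)
      = ((Finset.univ.filter fun e : Edge n => e.1.1 = i ∨ e.1.2 = i).card : ℝ) := by
    simp
  rw [h2] at h
  rw [← h]
  have h3 : ∀ k, symG (fun _ : Edge n => (1 : ℝ)) i k ^ 2 ≤ 1 := by
    intro k
    unfold symG
    split_ifs <;> norm_num
  calc ∑ k, symG (fun _ : Edge n => (1 : ℝ)) i k ^ 2 ≤ ∑ _k : Fin n, (1 : ℝ) :=
        Finset.sum_le_sum fun k _ => h3 k
    _ = n := by simp

/-- An entry of `symG` is zero or an edge variable. -/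
lemma abs_symG_le (g : Edge n → ℝ) {R : ℝ} (hR : 0 ≤ R) (h : ∀ e, |g e| ≤ R) (i k : Fin n) :
    |symG g i k| ≤ R := by
  unfold symG
  split_ifs
  · exact h _
  · exact h _
  · simpa using hR

end Vale.Agent.Lib.P150
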