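import Vale.Agent.Lib.P150.PoincareF
import Vale.Agent.Lib.P150.Final

/-!
The hypotheses of the second order inequality for the SK matrix on the good event.
-/

open scoped BigOperators Matrix Topology
open Filter MeasureTheory

namespace Vale.Agent.Lib.P150

variable {n : ℕ}

lemma sk_hyps {β r : ℝ} (hβ : 0 ≤ β) (hr0 : 0 ≤ r) (hn : 0 < n) {g : Edge n → ℝ}
    (hg : GoodDisorder r g) :
    (∀ z : Fin n → ℝ, |∑ i, ∑ k, skMatrix β g i k * z i * z k| ≤ 223 / 100 * β * ∑ i, z i ^ 2) ∧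
    (∀ i, ∑ k, skMatrix β g i k ^ 2 ≤ 101 / 100 * β ^ 2) ∧
    (∀ i k, |skMatrix β g i k| ≤ β * r) := by
  obtain ⟨hg1, hg2, hg3⟩ := hg
  have hnp : (0 : ℝ) < n := by exact_mod_cast hn
  have hsp : 0 < Real.sqrt n := Real.sqrt_pos.2 hnp
  refine ⟨?_, ?_, ?_⟩
  · intro z
    have e : ∑ i, ∑ k, skMatrix β g i k * z i * z k
        = β / Real.sqrt n * ∑ i, ∑ k, symG g i k * z i * z k := by
      simp only [skMatrix, Finset.mul_sum]
      refine Finset.sum_congr rfl fun i _ => Finset.sum_congr rfl fun k _ => ?_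
      ring
    rw [e, abs_mul, abs_of_nonneg (by positivity)]
    calc β / Real.sqrt n * |∑ i, ∑ k, symG g i k * z i * z k|
        ≤ β / Real.sqrt n * (223 / 100 * Real.sqrt n * ∑ i, z i ^ 2) :=
          mul_le_mul_of_nonneg_left (hg1 z) (by positivity)
      _ = 223 / 100 * β * ∑ i, z i ^ 2 := by
          field_simp
  · intro i
    have e : ∑ k, skMatrix β g i k ^ 2 = β ^ 2 / n * ∑ k, symG g i k ^ 2 := by
      simp only [skMatrix, Finset.mul_sum, mul_pow, div_pow, Real.sq_sqrt hnp.le]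
    rw [e]
    calc β ^ 2 / n * ∑ k, symG g i k ^ 2 ≤ β ^ 2 / n * (101 / 100 * n) :=
          mul_le_mul_of_nonneg_left (hg2 i) (by positivity)
      _ = 101 / 100 * β ^ 2 := by
          field_simp
  · intro i k
    simp only [skMatrix, abs_mul, abs_of_nonneg (div_nonneg hβ hsp.le)]
    have h1 := abs_symG_le g (mul_nonneg hr0 hsp.le) hg3 i k
    calc β / Real.sqrt n * |symG g i k| ≤ β / Real.sqrt n * (r * Real.sqrt n) :=
          mul_le_mul_of_nonneg_left h1 (by positivity)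
      _ = β * r := by field_simp

/-- Choice of the entrywise bound. -/
lemma exists_r {β κ : ℝ} (hβ : 0 ≤ β) (hκ0 : 0 < κ) (hκ : κ < 1 - 223 / 100 * β) :
    ∃ r : ℝ, 0 < r ∧ β * r ≤ 1 / 100 ∧
      κ ≤ 1 - 223 / 100 * β - 16 * (β * r) * (101 / 100 * β ^ 2) := by
  obtain ⟨δ, hδ⟩ : ∃ δ, δ = 1 - 223 / 100 * β - κ := ⟨_, rfl⟩
  have hδ0 : 0 < δ := by rw [hδ]; linarith
  have hδ1 : δ ≤ 1 := by
    rw [hδ]
    have : 0 ≤ 223 / 100 * β := by positivity
    linarith
  have hP1 : 1 ≤ (1 + β) ^ 3 := one_le_pow₀ (by linarith)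
  have hPpos : 0 < (1 + β) ^ 3 := by positivity
  have hP2 : β ≤ (1 + β) ^ 3 := by nlinarith [pow_pos (show 0 < 1 + β by linarith) 2]
  have hP3 : β ^ 3 ≤ (1 + β) ^ 3 := pow_le_pow_left₀ hβ (by linarith) 3
  refine ⟨δ / ((1 + β) ^ 3 * 100), by positivity, ?_, ?_⟩
  · rw [← mul_div_assoc, div_le_iff₀ (by positivity)]
    nlinarith
  · have e : 16 * (β * (δ / ((1 + β) ^ 3 * 100))) * (101 / 100 * β ^ 2)
        = (404 / 2500) * δ * (β ^ 3 / (1 + β) ^ 3) := by
      field_simp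
      ring
    have h1 : β ^ 3 / (1 + β) ^ 3 ≤ 1 := (div_le_one hPpos).2 hP3
    have h2 : 0 ≤ β ^ 3 / (1 + β) ^ 3 := by positivity
    rw [e]
    have h3 : (404 / 2500) * δ * (β ^ 3 / (1 + β) ^ 3) ≤ δ := by nlinarith
    rw [hδ] at h3 ⊢
    linarith

/-- The Poincaré inequality for the SK matrix on the good event, uniform in the field. -/
theorem poincare_sk {β r κ : ℝ} (hβ : 0 ≤ β) (hr0 : 0 ≤ r) (hn : 0 < n) {g : Edge n → ℝ}
    (hg : GoodDisorder r g) (hr1 : β * r ≤ 1 / 100) (hκ0 : 0 < κ)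
    (hκ : κ ≤ 1 - 223 / 100 * β - 16 * (β * r) * (101 / 100 * β ^ 2))
    (hβ2 : 101 / 100 * β ≤ 223 / 200) (y : Fin n → ℝ) (f : Conf n → ℝ) :
    κ * varF (gibF (skMatrix β g) y) f ≤ dirAbs (gibF (skMatrix β g) y) (rateF (skMatrix β g) y) f := by
  obtain ⟨h1, h2, h3⟩ := sk_hyps hβ hr0 hn hg
  have hA := isCoupling_skMatrix (n := n) β g
  have hvar : 0 ≤ varF (gibF (skMatrix β g) y) f :=
    varF_nonneg (fun x => (gibF_pos _ y x).le) (gibF_total _ y) f
  have hP := poincare_field hA y (C := 223 / 100 * β) (ρ := 101 / 100 * β ^ 2) (ε := β * r)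
    (fun z => (le_abs_self _).trans (h1 z)) h2 h3 (by positivity) (by positivity) hr1
    (by nlinarith [mul_nonneg hβ hβ]) (by linarith) f
  exact (mul_le_mul_of_nonneg_right hκ hvar).trans hP

/-- The gap bound with high probability. -/
theorem gap_whp {β κ : ℝ} (hβ : 0 ≤ β) (hκ0 : 0 < κ) (hκ : κ < 1 - 223 / 100 * β) :
    Tendsto (fun n : ℕ => disorder n {g | ¬ ∀ (y : Fin n → ℝ) (f : Conf n → ℝ),
        κ * varF (gibF (skMatrix β g) y) f
          ≤ - ∑ x, gibF (skMatrix β g) y x * f x * (genF (skMatrix β g) y *ᵥ f) x})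
      atTop (𝓝 0) := by
  obtain ⟨r, hr0, hr1, hr2⟩ := exists_r hβ hκ0 hκ
  have hβ2 : 101 / 100 * β ≤ 223 / 200 := by
    have : 223 / 100 * β < 1 := by linarith
    nlinarith
  refine tendsto_of_tendsto_of_tendsto_of_le_of_le' tendsto_const_nhds
    (tendsto_bad hr0) (Eventually.of_forall fun _ => bot_le) ?_
  filter_upwards [eventually_gt_atTop 0] with n hn
  apply measure_mono
  intro g hg
  simp only [Set.mem_setOf_eq] at hg ⊢
  intro hgood
  apply hg
  intro y f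
  have hA := isCoupling_skMatrix (n := n) β g
  rw [dirAbs_eq (genF_mulVec _ y) (gibF_rate_balance hA y)]
  exact poincare_sk hβ hr0.le hn hgood hr1 hκ0 hr2 hβ2 y f

end Vale.Agent.Lib.P150
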