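import Vale.Agent.Lib.P150.SlepEvent
import Vale.Agent.Lib.P150.Final

/-!
The two Gaussian families of the comparison for the quadratic form of the disorder matrix.
-/

open scoped BigOperators NNReal ENNReal Topology
open MeasureTheory ProbabilityTheory Filter

namespace Vale.Agent.Lib.P150

variable {n : ℕ}

/-- The index set of the comparison. -/
abbrev jE (n : ℕ) := (Edge n ⊕ Unit) ⊕ Fin n

/-- The extra coefficient. -/
noncomputable def cV (v : Fin n → ℝ) : ℝ := Real.sqrt (2 + 2 * ∑ i, v i ^ 4)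

/-- The family for the quadratic form. -/
noncomputable def aV (s : ℝ) (v : Fin n → ℝ) : jE n → ℝ :=
  Sum.elim (Sum.elim (fun e => s * (2 * (v e.1.1 * v e.1.2))) (fun _ => cV v)) (fun _ => 0)

/-- The family for the linear form. -/
noncomputable def bV (v : Fin n → ℝ) : jE n → ℝ :=
  Sum.elim (fun _ => 0) (fun i => 2 * v i)

lemma sum_jE (f : jE n → ℝ) :
    ∑ j, f j = ∑ e, f (Sum.inl (Sum.inl e)) + f (Sum.inl (Sum.inr ())) + ∑ i, f (Sum.inr i) := by
  simp [Fintype.sum_sum_type]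

lemma form_aV (s : ℝ) (v : Fin n → ℝ) (ω : jE n → ℝ) :
    ∑ j, aV s v j * ω j = s * (2 * edgeForm (fun e => ω (Sum.inl (Sum.inl e))) v)
      + cV v * ω (Sum.inl (Sum.inr ())) := by
  rw [sum_jE]
  simp only [aV, Sum.elim_inl, Sum.elim_inr, zero_mul, Finset.sum_const_zero, add_zero]
  congr 1
  unfold edgeForm
  rw [Finset.mul_sum, Finset.mul_sum]
  refine Finset.sum_congr rfl fun e _ => ?_
  ring

lemma form_bV (v : Fin n → ℝ) (ω : jE n → ℝ) :
    ∑ j, bV v j * ω j = 2 * ∑ i, v i * ω (Sum.inr i) := by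
  rw [sum_jE]
  simp only [bV, Sum.elim_inl, Sum.elim_inr, zero_mul, Finset.sum_const_zero, zero_add]
  rw [Finset.mul_sum]
  refine Finset.sum_congr rfl fun i _ => ?_
  ring

lemma ortho_ab (s : ℝ) (u v : Fin n → ℝ) : ∑ j, aV s u j * bV v j = 0 := by
  rw [sum_jE]
  simp [aV, bV]

lemma pair_bb (u v : Fin n → ℝ) : ∑ j, bV u j * bV v j = 4 * ∑ i, u i * v i := by
  rw [sum_jE]
  simp only [bV, Sum.elim_inl, Sum.elim_inr, zero_mul, Finset.sum_const_zero, zero_add]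
  rw [Finset.mul_sum]
  refine Finset.sum_congr rfl fun i _ => ?_
  ring

/-- The sum over the edges of a product. -/
lemma edge_prod_sum (p : Fin n → ℝ) :
    2 * ∑ e : Edge n, p e.1.1 * p e.1.2 = (∑ i, p i) ^ 2 - ∑ i, p i ^ 2 := by
  classical
  have h := quad_symG (fun _ : Edge n => (1 : ℝ)) p
  have h1 : ∀ i k, symG (fun _ : Edge n => (1 : ℝ)) i k = if i = k then 0 else 1 := by
    intro i k
    unfold symG
    rcases lt_trichotomy i k with h | h | h
    · simp [h, ne_of_lt h]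
    · subst h; simp
    · simp [h, not_lt.2 h.le, (ne_of_lt h).symm]
  have h2 : ∑ i, ∑ k, symG (fun _ : Edge n => (1 : ℝ)) i k * p i * p k
      = (∑ i, p i) ^ 2 - ∑ i, p i ^ 2 := by
    rw [sq, Finset.sum_mul_sum, ← Finset.sum_sub_distrib]
    refine Finset.sum_congr rfl fun i _ => ?_
    have e : p i ^ 2 = ∑ k, if i = k then p i * p k else 0 := by
      simp [sq]
    rw [e, ← Finset.sum_sub_distrib]
    refine Finset.sum_congr rfl fun k _ => ?_
    rw [h1]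
    by_cases hik : i = k
    · simp [hik]
    · simp [hik]
  rw [h2] at h
  rw [h]
  simp

lemma pair_aa {s : ℝ} (hs : s ^ 2 = 1) (u v : Fin n → ℝ) :
    ∑ j, aV s u j * aV s v j
      = 2 * ((∑ i, u i * v i) ^ 2 - ∑ i, (u i * v i) ^ 2) + cV u * cV v := by
  rw [sum_jE]
  simp only [aV, Sum.elim_inl, Sum.elim_inr, mul_zero, Finset.sum_const_zero, add_zero]
  congr 1
  rw [← edge_prod_sum, ← mul_assoc]
  norm_num
  rw [Finset.mul_sum]
  refine Finset.sum_congr rfl fun e _ => ?_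
  linear_combination (4 * (u e.1.1 * u e.1.2) * (v e.1.1 * v e.1.2)) * hs

lemma sum_four_le {v : Fin n → ℝ} (hv : ∑ i, v i ^ 2 = 1) : ∑ i, v i ^ 4 ≤ 1 := by
  rw [← hv]
  refine Finset.sum_le_sum fun i _ => ?_
  have h1 : v i ^ 2 ≤ ∑ i, v i ^ 2 :=
    Finset.single_le_sum (f := fun i => v i ^ 2) (fun i _ => sq_nonneg _) (Finset.mem_univ i)
  rw [hv] at h1
  nlinarith [sq_nonneg (v i)]

lemma sum_four_nonneg (v : Fin n → ℝ) : 0 ≤ ∑ i, v i ^ 4 :=
  Finset.sum_nonneg fun i _ => by positivity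

lemma cV_sq (v : Fin n → ℝ) : cV v ^ 2 = 2 + 2 * ∑ i, v i ^ 4 := by
  unfold cV
  rw [Real.sq_sqrt]
  have := sum_four_nonneg v
  linarith

lemma cV_nonneg (v : Fin n → ℝ) : 0 ≤ cV v := Real.sqrt_nonneg _

lemma cV_le_two {v : Fin n → ℝ} (hv : ∑ i, v i ^ 2 = 1) : cV v ≤ 2 := by
  have h := cV_sq v
  have h1 := sum_four_le hv
  have h2 := cV_nonneg v
  nlinarith

/-- The product of the extra coefficients. -/
lemma two_add_le_cV_mul (u v : Fin n → ℝ) :
    2 + 2 * ∑ i, (u i * v i) ^ 2 ≤ cV u * cV v := by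
  obtain ⟨U, hU⟩ : ∃ U, U = ∑ i, u i ^ 4 := ⟨_, rfl⟩
  obtain ⟨V, hV⟩ : ∃ V, V = ∑ i, v i ^ 4 := ⟨_, rfl⟩
  obtain ⟨W, hW⟩ : ∃ W, W = ∑ i, (u i * v i) ^ 2 := ⟨_, rfl⟩
  rw [← hW]
  have hU0 : 0 ≤ U := hU ▸ sum_four_nonneg u
  have hV0 : 0 ≤ V := hV ▸ sum_four_nonneg v
  have hW0 : 0 ≤ W := hW ▸ Finset.sum_nonneg fun i _ => sq_nonneg _
  have hCS : W ^ 2 ≤ U * V := by
    have h := Finset.sum_mul_sq_le_sq_mul_sq Finset.univ (fun i => u i ^ 2) (fun i => v i ^ 2)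
    have e1 : ∑ i, u i ^ 2 * v i ^ 2 = W := by
      rw [hW]
      refine Finset.sum_congr rfl fun i _ => ?_
      ring
    have e2 : ∑ i, (u i ^ 2) ^ 2 = U := by
      rw [hU]
      refine Finset.sum_congr rfl fun i _ => ?_
      ring
    have e3 : ∑ i, (v i ^ 2) ^ 2 = V := by
      rw [hV]
      refine Finset.sum_congr rfl fun i _ => ?_
      ring
    rwa [e1, e2, e3] at h
  have hAM : 2 * W ≤ U + V := by
    have h0 : 0 ≤ ∑ i, (u i ^ 2 - v i ^ 2) ^ 2 := Finset.sum_nonneg fun i _ => sq_nonneg _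
    have e : ∑ i, (u i ^ 2 - v i ^ 2) ^ 2 = U + V - 2 * W := by
      rw [hU, hV, hW, Finset.mul_sum, ← Finset.sum_add_distrib, ← Finset.sum_sub_distrib]
      refine Finset.sum_congr rfl fun i _ => ?_
      ring
    linarith
  have hcu := cV_sq u
  have hcv := cV_sq v
  rw [← hU] at hcu
  rw [← hV] at hcv
  have h0 := mul_nonneg (cV_nonneg u) (cV_nonneg v)
  have hsq : (2 + 2 * W) ^ 2 ≤ (cV u * cV v) ^ 2 := by
    rw [mul_pow, hcu, hcv]
    nlinarith
  exact (pow_le_pow_iff_left₀ (by positivity) h0 two_ne_zero).1 hsq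

lemma pair_aa_self {s : ℝ} (hs : s ^ 2 = 1) {v : Fin n → ℝ} (hv : ∑ i, v i ^ 2 = 1) :
    ∑ j, aV s v j * aV s v j = 4 := by
  rw [pair_aa hs]
  have e1 : ∑ i, v i * v i = 1 := by
    rw [← hv]
    refine Finset.sum_congr rfl fun i _ => ?_
    ring
  have e2 : ∑ i, (v i * v i) ^ 2 = ∑ i, v i ^ 4 :=
    Finset.sum_congr rfl fun i _ => by ring
  have e3 : cV v * cV v = 2 + 2 * ∑ i, v i ^ 4 := by
    rw [← cV_sq]
    ring
  rw [e1, e2, e3]
  ring

lemma pair_bb_self {v : Fin n → ℝ} (hv : ∑ i, v i ^ 2 = 1) : ∑ j, bV v j * bV v j = 4 := by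
  rw [pair_bb]
  have e1 : ∑ i, v i * v i = 1 := by
    rw [← hv]
    refine Finset.sum_congr rfl fun i _ => ?_
    ring
  rw [e1]
  ring

/-- The comparison of the covariances. -/
lemma cov_compare {s : ℝ} (hs : s ^ 2 = 1) (u v : Fin n → ℝ) :
    ∑ j, bV u j * bV v j ≤ ∑ j, aV s u j * aV s v j := by
  rw [pair_aa hs, pair_bb]
  have h := two_add_le_cV_mul u v
  nlinarith [sq_nonneg (∑ i, u i * v i - 1)]

end Vale.Agent.Lib.P150
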