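import Vale.Agent.Lib.P150.Slepian

/-!
Slepian's comparison for the events of the largest value of a finite family.
-/

open scoped BigOperators NNReal ENNReal Topology
open MeasureTheory ProbabilityTheory Filter

namespace Vale.Agent.Lib.P150

variable {T J : Type*} [Fintype T] [Fintype J]

lemma softF_le_of_exists {l c : ℝ} (hl : 0 ≤ l) {z : T → ℝ} {t : T} (ht : c + 1 ≤ z t) :
    softF l c z ≤ Real.exp (-l) := by
  unfold softF
  apply Real.exp_le_exp.2
  have h1 : softE l c z t ≤ ∑ t, softE l c z t :=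
    Finset.single_le_sum (f := fun t => softE l c z t) (fun t _ => (softE_pos l c z t).le)
      (Finset.mem_univ t)
  have h2 : l ≤ softE l c z t := by
    unfold softE
    have h3 := Real.add_one_le_exp (l * (z t - c))
    have h4 : l * 1 ≤ l * (z t - c) := mul_le_mul_of_nonneg_left (by linarith) hl
    linarith
  linarith

lemma one_sub_le_softF {l c : ℝ} (hl : 0 ≤ l) {z : T → ℝ} (hz : ∀ t, z t ≤ c - 1) :
    1 - Fintype.card T * Real.exp (-l) ≤ softF l c z := by
  unfold softF
  have h1 := Real.add_one_le_exp (-∑ t, softE l c z t)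
  have h2 : ∑ t, softE l c z t ≤ Fintype.card T * Real.exp (-l) := by
    calc ∑ t, softE l c z t ≤ ∑ _t : T, Real.exp (-l) := by
          refine Finset.sum_le_sum fun t _ => ?_
          unfold softE
          apply Real.exp_le_exp.2
          have := hz t
          nlinarith
      _ = _ := by simp
  linarith

variable [DecidableEq J]

instance instProbGamJ : IsProbabilityMeasure (gamJ J) := by infer_instance

lemma measurable_event_le (a : T → J → ℝ) (c : ℝ) :
    MeasurableSet {ω : J → ℝ | ∃ t, c ≤ ∑ j, a t j * ω j} := by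
  have e : {ω : J → ℝ | ∃ t, c ≤ ∑ j, a t j * ω j} = ⋃ t, {ω | c ≤ ∑ j, a t j * ω j} := by
    ext ω
    simp
  rw [e]
  exact MeasurableSet.iUnion fun t =>
    (isClosed_le continuous_const (continuous_form (a t))).measurableSet

lemma measurable_event_lt (a : T → J → ℝ) (c : ℝ) :
    MeasurableSet {ω : J → ℝ | ∃ t, c < ∑ j, a t j * ω j} := by
  have e : {ω : J → ℝ | ∃ t, c < ∑ j, a t j * ω j} = ⋃ t, {ω | c < ∑ j, a t j * ω j} := by
    ext ω
    simp
  rw [e]
  exact MeasurableSet.iUnion fun t =>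
    (isOpen_lt continuous_const (continuous_form (a t))).measurableSet

/-- The upper bound for the integral by the event. -/
lemma integral_softF_le {l c : ℝ} (hl : 0 ≤ l) (a : T → J → ℝ) :
    ∫ ω, softF l c (fun t => ∑ j, a t j * ω j) ∂(gamJ J)
      ≤ 1 - (gamJ J).real {ω | ∃ t, c + 1 ≤ ∑ j, a t j * ω j} * (1 - Real.exp (-l)) := by
  obtain ⟨A, hA⟩ : ∃ A, A = {ω : J → ℝ | ∃ t, c + 1 ≤ ∑ j, a t j * ω j} := ⟨_, rfl⟩
  have hAm : MeasurableSet A := hA ▸ measurable_event_le a (c + 1)
  rw [← hA]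
  have hpt : ∀ ω, softF l c (fun t => ∑ j, a t j * ω j)
      ≤ 1 - A.indicator (fun _ => 1 - Real.exp (-l)) ω := by
    intro ω
    by_cases hω : ω ∈ A
    · rw [Set.indicator_of_mem hω]
      rw [hA] at hω
      obtain ⟨t, ht⟩ := hω
      have := softF_le_of_exists (z := fun t => ∑ j, a t j * ω j) hl ht
      linarith
    · rw [Set.indicator_of_notMem hω]
      have := softF_le_one l c (fun t => ∑ j, a t j * ω j)
      linarith
  have hi1 : Integrable (fun ω => softF l c (fun t => ∑ j, a t j * ω j)) (gamJ J) := by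
    refine Integrable.of_bound (continuous_softF_comp fun t => continuous_form (a t)).aestronglyMeasurable 1 ?_
    refine Eventually.of_forall fun ω => ?_
    rw [Real.norm_eq_abs, abs_of_pos (softF_pos _ _ _)]
    exact softF_le_one _ _ _
  have hi2 : Integrable (A.indicator fun _ => 1 - Real.exp (-l)) (gamJ J) :=
    (integrable_const _).indicator hAm
  have hi3 : Integrable (fun ω => (1 : ℝ) - A.indicator (fun _ => 1 - Real.exp (-l)) ω) (gamJ J) :=
    (integrable_const _).sub hi2
  refine (integral_mono hi1 hi3 hpt).trans (le_of_eq ?_)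
  rw [integral_sub (integrable_const _) hi2, integral_const, integral_indicator_const _ hAm]
  simp

/-- The lower bound for the integral by the event. -/
lemma le_integral_softF {l c : ℝ} (hl : 0 ≤ l) (b : T → J → ℝ) :
    (1 - (gamJ J).real {ω | ∃ t, c - 1 < ∑ j, b t j * ω j}) * (1 - Fintype.card T * Real.exp (-l))
      ≤ ∫ ω, softF l c (fun t => ∑ j, b t j * ω j) ∂(gamJ J) := by
  obtain ⟨B, hB⟩ : ∃ B, B = {ω : J → ℝ | ∃ t, c - 1 < ∑ j, b t j * ω j} := ⟨_, rfl⟩
  have hBm : MeasurableSet B := hB ▸ measurable_event_lt b (c - 1)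
  rw [← hB]
  have hpt : ∀ ω, Bᶜ.indicator (fun _ => 1 - Fintype.card T * Real.exp (-l)) ω
      ≤ softF l c (fun t => ∑ j, b t j * ω j) := by
    intro ω
    by_cases hω : ω ∈ B
    · rw [Set.indicator_of_notMem (by simpa using hω)]
      exact (softF_pos _ _ _).le
    · rw [Set.indicator_of_mem (by simpa using hω)]
      rw [hB] at hω
      simp only [Set.mem_ofPred_eq, not_exists, not_lt] at hω
      exact one_sub_le_softF hl hω
  have hi1 : Integrable (fun ω => softF l c (fun t => ∑ j, b t j * ω j)) (gamJ J) := by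
    refine Integrable.of_bound (continuous_softF_comp fun t => continuous_form (b t)).aestronglyMeasurable 1 ?_
    refine Eventually.of_forall fun ω => ?_
    rw [Real.norm_eq_abs, abs_of_pos (softF_pos _ _ _)]
    exact softF_le_one _ _ _
  have hi2 : Integrable (Bᶜ.indicator fun _ => 1 - Fintype.card T * Real.exp (-l)) (gamJ J) :=
    (integrable_const _).indicator hBm.compl
  refine le_trans (le_of_eq ?_) (integral_mono hi2 hi1 hpt)
  rw [integral_indicator_const _ hBm.compl, measureReal_compl hBm]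
  simp

/-- Slepian's comparison for events, real form. -/
theorem slepian_event_real (a b : T → J → ℝ) (hortho : ∀ s t, ∑ j, a s j * b t j = 0)
    (hvar : ∀ t, ∑ j, b t j * b t j = ∑ j, a t j * a t j)
    (hcov : ∀ s t, ∑ j, b s j * b t j ≤ ∑ j, a s j * a t j) (c : ℝ) :
    (gamJ J).real {ω | ∃ t, c + 1 ≤ ∑ j, a t j * ω j}
      ≤ (gamJ J).real {ω | ∃ t, c - 1 < ∑ j, b t j * ω j} := by
  obtain ⟨p, hp⟩ : ∃ p, p = (gamJ J).real {ω | ∃ t, c + 1 ≤ ∑ j, a t j * ω j} := ⟨_, rfl⟩
  obtain ⟨q, hq⟩ : ∃ q, q = (gamJ J).real {ω | ∃ t, c - 1 < ∑ j, b t j * ω j} := ⟨_, rfl⟩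
  rw [← hp, ← hq]
  have hp1 : p ≤ 1 := hp ▸ measureReal_le_one
  have hp0 : 0 ≤ p := hp ▸ measureReal_nonneg
  have hq1 : q ≤ 1 := hq ▸ measureReal_le_one
  have hq0 : 0 ≤ q := hq ▸ measureReal_nonneg
  have key : ∀ l : ℝ, 0 ≤ l → p ≤ q + (Fintype.card T + 1) * Real.exp (-l) := by
    intro l hl
    have h1 := integral_softF_le (c := c) hl a
    have h2 := le_integral_softF (c := c) hl b
    have h3 := slepian_soft (c := c) hl a b hortho hvar hcov
    rw [← hp] at h1
    rw [← hq] at h2
    have he := Real.exp_pos (-l)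
    have hc : (0 : ℝ) ≤ Fintype.card T := Nat.cast_nonneg _
    have h4 : (1 - q) * (1 - Fintype.card T * Real.exp (-l)) ≤ 1 - p * (1 - Real.exp (-l)) := by
      linarith
    nlinarith [mul_nonneg hq0 (mul_nonneg hc he.le), mul_nonneg hp0 he.le,
      mul_nonneg (sub_nonneg.2 hp1) he.le, mul_nonneg (sub_nonneg.2 hq1) (mul_nonneg hc he.le)]
  have hlim : Tendsto (fun l : ℝ => q + (Fintype.card T + 1) * Real.exp (-l)) atTop (𝓝 (q + (Fintype.card T + 1) * 0)) :=
    tendsto_const_nhds.add (Real.tendsto_exp_neg_atTop_nhds_zero.const_mul _)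
  simp only [mul_zero, add_zero] at hlim
  exact ge_of_tendsto hlim (by
    filter_upwards [eventually_ge_atTop 0] with l hl using key l hl)

/-- Slepian's comparison for events. -/
theorem slepian_event (a b : T → J → ℝ) (hortho : ∀ s t, ∑ j, a s j * b t j = 0)
    (hvar : ∀ t, ∑ j, b t j * b t j = ∑ j, a t j * a t j)
    (hcov : ∀ s t, ∑ j, b s j * b t j ≤ ∑ j, a s j * a t j) (c : ℝ) :
    (gamJ J) {ω | ∃ t, c + 1 ≤ ∑ j, a t j * ω j}
      ≤ (gamJ J) {ω | ∃ t, c - 1 < ∑ j, b t j * ω j} := by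
  have h := slepian_event_real a b hortho hvar hcov c
  exact (ENNReal.toReal_le_toReal (measure_ne_top _ _) (measure_ne_top _ _)).1 h

/-- Marginal on the left summand. -/
lemma map_comp_inl (A B : Type*) [Fintype A] [Fintype B] :
    MeasurePreserving (fun ω : A ⊕ B → ℝ => fun a => ω (Sum.inl a)) (gamJ (A ⊕ B)) (gamJ A) := by
  have h := measurePreserving_sumPiEquivProdPi (X := fun _ : A ⊕ B => ℝ)
    (fun _ : A ⊕ B => gam1)
  have h2 : MeasurePreserving (Prod.fst : (A → ℝ) × (B → ℝ) → A → ℝ)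
      ((gamJ A).prod (gamJ B)) (gamJ A) := by
    refine ⟨measurable_fst, ?_⟩
    rw [Measure.map_fst_prod]
    simp
  exact h2.comp h

/-- Marginal on the right summand. -/
lemma map_comp_inr (A B : Type*) [Fintype A] [Fintype B] :
    MeasurePreserving (fun ω : A ⊕ B → ℝ => fun b => ω (Sum.inr b)) (gamJ (A ⊕ B)) (gamJ B) := by
  have h := measurePreserving_sumPiEquivProdPi (X := fun _ : A ⊕ B => ℝ)
    (fun _ : A ⊕ B => gam1)
  have h2 : MeasurePreserving (Prod.snd : (A → ℝ) × (B → ℝ) → B → ℝ)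
      ((gamJ A).prod (gamJ B)) (gamJ B) := by
    refine ⟨measurable_snd, ?_⟩
    rw [Measure.map_snd_prod]
    simp
  exact h2.comp h

end Vale.Agent.Lib.P150
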