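import Vale.Agent.Lib.P150.SlepAlg

/-!
The comparison on a net, tails of the sum of squares.
-/

open scoped BigOperators NNReal ENNReal Topology
open MeasureTheory ProbabilityTheory Filter

namespace Vale.Agent.Lib.P150

variable {n : ℕ}

/-- Exponential moments of the sum of squares. -/
lemma chi_mgf (I : Type*) [Fintype I] {θ : ℝ} (hθ : θ < 1 / 2) :
    Integrable (fun ω : I → ℝ => Real.exp (θ * ∑ i, ω i ^ 2)) (gamJ I) ∧
    ∫ ω, Real.exp (θ * ∑ i, ω i ^ 2) ∂(gamJ I) = Real.sqrt (1 / (1 - 2 * θ)) ^ Fintype.card I := by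
  have hprod : ∀ ω : I → ℝ, Real.exp (θ * ∑ i, ω i ^ 2) = ∏ i, Real.exp (θ * ω i ^ 2) := by
    intro ω
    rw [Finset.mul_sum, Real.exp_sum]
  simp only [hprod]
  obtain ⟨hi, hv⟩ := integral_exp_sq_pdf hθ
  constructor
  · exact Integrable.fintype_prod (μ := fun _ : I => gaussianReal 0 1)
      (f := fun _ x => Real.exp (θ * x ^ 2)) fun _ => hi
  · have := integral_fintype_prod_eq_prod (𝕜 := ℝ) (μ := fun _ : I => gaussianReal 0 1)
      (fun _ x => Real.exp (θ * x ^ 2))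
    simp only [hv] at this
    rw [this]
    simp [Finset.card_univ]

/-- The tail of the sum of squares. -/
theorem chi_event (I : Type*) [Fintype I] {θ : ℝ} (hθ0 : 0 ≤ θ) (hθ1 : θ ≤ 1 / 8) (R : ℝ) :
    (gamJ I) {ω | R ≤ ∑ i, ω i ^ 2}
      ≤ ENNReal.ofReal (Real.exp (Fintype.card I * (θ + 2 * θ ^ 2) - θ * R)) := by
  obtain ⟨hi, hv⟩ := chi_mgf I (θ := θ) (by linarith)
  have hsub : {ω : I → ℝ | R ≤ ∑ i, ω i ^ 2}
      ⊆ {ω | Real.exp (θ * R) ≤ Real.exp (θ * ∑ i, ω i ^ 2)} := by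
    intro ω hω
    exact Real.exp_le_exp.2 (mul_le_mul_of_nonneg_left hω hθ0)
  refine (measure_mono hsub).trans ?_
  refine (markov_real (fun _ => (Real.exp_pos _).le) hi (Real.exp_pos _)).trans ?_
  apply ENNReal.ofReal_le_ofReal
  rw [div_le_iff₀ (Real.exp_pos _), hv]
  have hb := log_bound_aux hθ0 hθ1
  have hnn : 0 ≤ Real.sqrt (1 / (1 - 2 * θ)) := Real.sqrt_nonneg _
  refine (pow_le_pow_left₀ hnn hb _).trans ?_
  rw [← Real.exp_nat_mul, ← Real.exp_add]
  apply Real.exp_le_exp.2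
  linarith

lemma continuous_edgeForm_left (v : Fin n → ℝ) : Continuous fun g : Edge n → ℝ => edgeForm g v := by
  unfold edgeForm
  exact continuous_finsetSum _ fun e _ => (continuous_apply e).mul continuous_const

lemma continuous_edgeForm_right (g : Edge n → ℝ) : Continuous fun v : Fin n → ℝ => edgeForm g v := by
  unfold edgeForm
  exact continuous_finsetSum _ fun e _ => continuous_const.mul
    ((continuous_apply e.1.1).mul (continuous_apply e.1.2))

lemma measurable_net_event (T : Finset (Fin n → ℝ)) (s t : ℝ) :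
    MeasurableSet {g : Edge n → ℝ | ∃ v ∈ T, t ≤ s * (2 * edgeForm g v)} := by
  have e : {g : Edge n → ℝ | ∃ v ∈ T, t ≤ s * (2 * edgeForm g v)}
      = ⋃ v ∈ T, {g | t ≤ s * (2 * edgeForm g v)} := by
    ext g
    simp
  rw [e]
  refine Finset.measurableSet_biUnion _ fun v _ => ?_
  exact (isClosed_le continuous_const
    (continuous_const.mul (continuous_const.mul (continuous_edgeForm_left v)))).measurableSet

lemma measurable_chi (I : Type*) [Fintype I] (R : ℝ) :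
    MeasurableSet {ω : I → ℝ | R ≤ ∑ i, ω i ^ 2} := by
  refine (isClosed_le continuous_const ?_).measurableSet
  exact continuous_finsetSum _ fun i _ => (continuous_apply i).pow 2

/-- The comparison on a finite subset of the unit sphere. -/
theorem net_event (T : Finset (Fin n → ℝ)) (hT : ∀ v ∈ T, ∑ i, v i ^ 2 = 1) {s : ℝ} (hs : s ^ 2 = 1)
    {c ξ₀ : ℝ} (hξ₀ : 0 ≤ ξ₀) (hc : 1 ≤ c) :
    (disorder n) {g | ∃ v ∈ T, c + 1 + 2 * ξ₀ ≤ s * (2 * edgeForm g v)}
      ≤ (gamJ Unit) {x | ξ₀ ^ 2 ≤ ∑ i, x i ^ 2} + (gamJ (Fin n)) {h | ((c - 1) / 2) ^ 2 ≤ ∑ i, h i ^ 2} := by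
  classical
  have hmE : MeasurePreserving (fun (ω : jE n → ℝ) (e : Edge n) => ω (Sum.inl (Sum.inl e)))
      (gamJ (jE n)) (disorder n) :=
    (map_comp_inl (Edge n) Unit).comp (map_comp_inl (Edge n ⊕ Unit) (Fin n))
  have hmU : MeasurePreserving (fun (ω : jE n → ℝ) (i : Unit) => ω (Sum.inl (Sum.inr i)))
      (gamJ (jE n)) (gamJ Unit) :=
    (map_comp_inr (Edge n) Unit).comp (map_comp_inl (Edge n ⊕ Unit) (Fin n))
  have hmH : MeasurePreserving (fun (ω : jE n → ℝ) (i : Fin n) => ω (Sum.inr i))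
      (gamJ (jE n)) (gamJ (Fin n)) :=
    map_comp_inr (Edge n ⊕ Unit) (Fin n)
  rw [← hmE.measure_preimage (measurable_net_event T s _).nullMeasurableSet,
    ← hmU.measure_preimage (measurable_chi Unit _).nullMeasurableSet,
    ← hmH.measure_preimage (measurable_chi (Fin n) _).nullMeasurableSet]
  obtain ⟨A, hA⟩ : ∃ A, A = {ω : jE n → ℝ | ∃ t : T, c + 1 ≤ ∑ j, aV s t.1 j * ω j} := ⟨_, rfl⟩
  obtain ⟨B, hB⟩ : ∃ B, B = {ω : jE n → ℝ | ∃ t : T, c - 1 < ∑ j, bV t.1 j * ω j} := ⟨_, rfl⟩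
  have hAB : (gamJ (jE n)) A ≤ (gamJ (jE n)) B := by
    rw [hA, hB]
    refine slepian_event (fun t : T => aV s t.1) (fun t : T => bV t.1)
      (fun u v => ortho_ab s u.1 v.1) ?_ (fun u v => cov_compare hs u.1 v.1) c
    intro t
    rw [pair_aa_self hs (hT t.1 t.2), pair_bb_self (hT t.1 t.2)]
  have hsub1 : (fun (ω : jE n → ℝ) (e : Edge n) => ω (Sum.inl (Sum.inl e))) ⁻¹'
        {g | ∃ v ∈ T, c + 1 + 2 * ξ₀ ≤ s * (2 * edgeForm g v)}
      ⊆ A ∪ (fun (ω : jE n → ℝ) (i : Unit) => ω (Sum.inl (Sum.inr i))) ⁻¹'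
        {x | ξ₀ ^ 2 ≤ ∑ i, x i ^ 2} := by
    rintro ω ⟨v, hv, hω⟩
    by_cases hξ : ξ₀ ^ 2 ≤ ω (Sum.inl (Sum.inr ())) ^ 2
    · right
      simpa using hξ
    · left
      rw [hA]
      refine ⟨⟨v, hv⟩, ?_⟩
      rw [form_aV]
      have hξ' : |ω (Sum.inl (Sum.inr ()))| ≤ ξ₀ := by
        apply abs_le_of_sq_le_sq _ hξ₀
        exact (not_le.1 hξ).le
      have h1 := cV_le_two (hT v hv)
      have h0 := cV_nonneg v
      have h2 : -(cV v * ξ₀) ≤ cV v * ω (Sum.inl (Sum.inr ())) := by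
        have := (abs_le.1 hξ').1
        nlinarith
      have h3 : cV v * ξ₀ ≤ 2 * ξ₀ := mul_le_mul_of_nonneg_right h1 hξ₀
      simp only at hω
      linarith
  have hsub2 : B ⊆ (fun (ω : jE n → ℝ) (i : Fin n) => ω (Sum.inr i)) ⁻¹'
      {h | ((c - 1) / 2) ^ 2 ≤ ∑ i, h i ^ 2} := by
    intro ω hω
    rw [hB] at hω
    obtain ⟨t, ht⟩ := hω
    rw [form_bV] at ht
    have hCS := Finset.sum_mul_sq_le_sq_mul_sq Finset.univ t.1 (fun i => ω (Sum.inr i))
    rw [hT t.1 t.2, one_mul] at hCS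
    simp only [Set.mem_preimage, Set.mem_ofPred_eq]
    refine le_trans ?_ hCS
    have h1 : 0 ≤ (c - 1) / 2 := by linarith
    exact pow_le_pow_left₀ h1 (by linarith) 2
  refine (measure_mono hsub1).trans ((measure_union_le _ _).trans ?_)
  rw [add_comm]
  exact add_le_add_right (hAB.trans (measure_mono hsub2)) _

/-- A finite net of the unit sphere. -/
theorem exists_net (n : ℕ) {η : ℝ} (hη : 0 < η) :
    ∃ T : Finset (Fin n → ℝ), (∀ v ∈ T, ∑ i, v i ^ 2 = 1) ∧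
      ∀ u : Fin n → ℝ, ∑ i, u i ^ 2 = 1 → ∃ v ∈ T, ∑ i, (u i - v i) ^ 2 ≤ η ^ 2 := by
  classical
  obtain ⟨K, hK⟩ : ∃ K, K = {u : Fin n → ℝ | ∑ i, u i ^ 2 = 1} := ⟨_, rfl⟩
  have hKc : IsCompact K := by
    have hcl : IsClosed K := by
      rw [hK]
      exact isClosed_eq (continuous_finsetSum _ fun i _ => (continuous_apply i).pow 2)
        continuous_const
    refine (isCompact_closedBall (0 : Fin n → ℝ) 1).of_isClosed_subset hcl ?_
    intro u hu
    rw [hK] at hu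
    rw [mem_closedBall_zero_iff, pi_norm_le_iff_of_nonneg (by norm_num)]
    intro i
    rw [Real.norm_eq_abs]
    have h1 : u i ^ 2 ≤ ∑ i, u i ^ 2 :=
      Finset.single_le_sum (f := fun i => u i ^ 2) (fun i _ => sq_nonneg _) (Finset.mem_univ i)
    rw [hu] at h1
    exact abs_le_of_sq_le_sq (by linarith) (by norm_num)
  obtain ⟨r, hr⟩ : ∃ r, r = η / (Real.sqrt n + 1) := ⟨_, rfl⟩
  have hs0 := Real.sqrt_nonneg (n : ℝ)
  have hr0 : 0 < r := by rw [hr]; positivity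
  obtain ⟨t, htK, htf, hcov⟩ := hKc.finite_cover_balls hr0
  refine ⟨htf.toFinset, ?_, ?_⟩
  · intro v hv
    have := htK (htf.mem_toFinset.1 hv)
    rw [hK] at this
    exact this
  · intro u hu
    have huK : u ∈ K := by rw [hK]; exact hu
    have := hcov huK
    simp only [Set.mem_iUnion, Metric.mem_ball, exists_prop] at this
    obtain ⟨v, hvt, hv⟩ := this
    refine ⟨v, htf.mem_toFinset.2 hvt, ?_⟩
    have hi : ∀ i, (u i - v i) ^ 2 ≤ r ^ 2 := by
      intro i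
      have h1 : dist (u i) (v i) ≤ dist u v := dist_le_pi_dist u v i
      rw [Real.dist_eq] at h1
      apply sq_le_sq' <;> [skip; skip]
      · have := (abs_le.1 (h1.trans hv.le)).1
        linarith
      · exact (abs_le.1 (h1.trans hv.le)).2
    calc ∑ i, (u i - v i) ^ 2 ≤ ∑ _i : Fin n, r ^ 2 := Finset.sum_le_sum fun i _ => hi i
      _ = n * r ^ 2 := by simp
      _ ≤ η ^ 2 := by
        rw [hr, div_pow, ← mul_div_assoc, div_le_iff₀ (by positivity)]
        have hn := Real.sq_sqrt (Nat.cast_nonneg n : (0 : ℝ) ≤ n)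
        have : (n : ℝ) ≤ (Real.sqrt n + 1) ^ 2 := by nlinarith
        nlinarith [sq_nonneg η]

/-- A bound on a net gives a bound on the form. -/
theorem form_of_net (hn : 0 < n) {T : Finset (Fin n → ℝ)} {η : ℝ} (hη : 0 < η) (hη2 : 2 * η < 1)
    (hcov : ∀ u : Fin n → ℝ, ∑ i, u i ^ 2 = 1 → ∃ v ∈ T, ∑ i, (u i - v i) ^ 2 ≤ η ^ 2)
    (hT : ∀ v ∈ T, ∑ i, v i ^ 2 = 1) {g : Edge n → ℝ} {R : ℝ}
    (hR : ∀ v ∈ T, |2 * edgeForm g v| ≤ R) (z : Fin n → ℝ) :
    |2 * edgeForm g z| * (1 - 2 * η) ≤ R * ∑ i, z i ^ 2 := by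
  classical
  obtain ⟨K, hK⟩ : ∃ K, K = {u : Fin n → ℝ | ∑ i, u i ^ 2 = 1} := ⟨_, rfl⟩
  have hKc : IsCompact K := by
    have hcl : IsClosed K := by
      rw [hK]
      exact isClosed_eq (continuous_finsetSum _ fun i _ => (continuous_apply i).pow 2)
        continuous_const
    refine (isCompact_closedBall (0 : Fin n → ℝ) 1).of_isClosed_subset hcl ?_
    intro u hu
    rw [hK] at hu
    rw [mem_closedBall_zero_iff, pi_norm_le_iff_of_nonneg (by norm_num)]
    intro i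
    rw [Real.norm_eq_abs]
    have h1 : u i ^ 2 ≤ ∑ i, u i ^ 2 :=
      Finset.single_le_sum (f := fun i => u i ^ 2) (fun i _ => sq_nonneg _) (Finset.mem_univ i)
    rw [hu] at h1
    exact abs_le_of_sq_le_sq (by linarith) (by norm_num)
  have hKne : K.Nonempty := by
    refine ⟨Pi.single ⟨0, hn⟩ 1, ?_⟩
    rw [hK]
    simp only [Set.mem_ofPred_eq]
    rw [Finset.sum_eq_single ⟨0, hn⟩]
    · simp
    · intro k _ hk
      simp [hk]
    · simp
  obtain ⟨w, hwK, hw⟩ := hKc.exists_isMaxOn hKne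
    (f := fun u => |2 * edgeForm g u|)
    (continuous_const.mul (continuous_edgeForm_right g)).abs.continuousOn
  obtain ⟨M, hM⟩ : ∃ M, M = |2 * edgeForm g w| := ⟨_, rfl⟩
  have hM0 : 0 ≤ M := hM ▸ abs_nonneg _
  have hsphere : ∀ u, ∑ i, u i ^ 2 = 1 → |2 * edgeForm g u| ≤ M := by
    intro u hu
    have huK : u ∈ K := by rw [hK]; exact hu
    have := hw huK
    simp only [Set.mem_ofPred_eq, hM] at this ⊢
    exact this
  have hall : ∀ z : Fin n → ℝ, |2 * edgeForm g z| ≤ M * ∑ i, z i ^ 2 := by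
    intro z
    obtain ⟨Z, hZ⟩ : ∃ Z, Z = ∑ i, z i ^ 2 := ⟨_, rfl⟩
    rw [← hZ]
    have hZ0 : 0 ≤ Z := hZ ▸ Finset.sum_nonneg fun _ _ => sq_nonneg _
    rcases hZ0.eq_or_lt with h0 | hpos
    · have hz : ∀ i, z i = 0 := by
        intro i
        have := (Finset.sum_eq_zero_iff_of_nonneg (fun i _ => sq_nonneg (z i))).1 (hZ ▸ h0.symm) i
          (Finset.mem_univ i)
        exact pow_eq_zero_iff (two_ne_zero) |>.1 this
      simp [hz, edgeForm, ← h0]
    · obtain ⟨a, ha⟩ : ∃ a, a = (Real.sqrt Z)⁻¹ := ⟨_, rfl⟩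
      have hsZ : 0 < Real.sqrt Z := Real.sqrt_pos.2 hpos
      have ha2 : a ^ 2 = Z⁻¹ := by
        rw [ha, inv_pow, Real.sq_sqrt hZ0]
      have hu : ∑ i, (a * z i) ^ 2 = 1 := by
        simp only [mul_pow, ← Finset.mul_sum, ha2, ← hZ]
        exact inv_mul_cancel₀ hpos.ne'
      have h1 := hsphere (fun i => a * z i) hu
      rw [edgeForm_smul, ha2] at h1
      have e : 2 * (Z⁻¹ * edgeForm g z) = Z⁻¹ * (2 * edgeForm g z) := by ring
      rw [e, abs_mul, abs_of_pos (inv_pos.2 hpos), inv_mul_le_iff₀ hpos] at h1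
      linarith
  have hw1 : ∑ i, w i ^ 2 = 1 := by
    rw [hK] at hwK
    exact hwK
  obtain ⟨v, hvT, hv⟩ := hcov w hw1
  have hv1 := hT v hvT
  -- the scaling
  obtain ⟨α, hα⟩ : ∃ α, α = Real.sqrt (2 / η) := ⟨_, rfl⟩
  obtain ⟨α', hα'⟩ : ∃ α', α' = Real.sqrt (η / 2) := ⟨_, rfl⟩
  have hαsq : α ^ 2 = 2 / η := by rw [hα, Real.sq_sqrt (by positivity)]
  have hα'sq : α' ^ 2 = η / 2 := by rw [hα', Real.sq_sqrt (by positivity)]
  have hαα' : α * α' = 1 := by
    rw [hα, hα', ← Real.sqrt_mul (by positivity)]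
    have : 2 / η * (η / 2) = 1 := by field_simp
    rw [this, Real.sqrt_one]
  obtain ⟨x, hx⟩ : ∃ x : Fin n → ℝ, x = fun i => α * (w i - v i) + α' * (w i + v i) := ⟨_, rfl⟩
  obtain ⟨y, hy⟩ : ∃ y : Fin n → ℝ, y = fun i => α * (w i - v i) - α' * (w i + v i) := ⟨_, rfl⟩
  have hid : edgeForm g x - edgeForm g y = 4 * (edgeForm g w - edgeForm g v) := by
    unfold edgeForm
    rw [← Finset.sum_sub_distrib, ← Finset.sum_sub_distrib, Finset.mul_sum]
    refine Finset.sum_congr rfl fun e _ => ?_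
    rw [hx, hy]
    simp only
    linear_combination
      (4 * g e * (w e.1.1 * w e.1.2 - v e.1.1 * v e.1.2)) * hαα'
  have hsq : ∑ i, x i ^ 2 + ∑ i, y i ^ 2 ≤ 8 * η := by
    have e1 : ∑ i, x i ^ 2 + ∑ i, y i ^ 2
        = 2 * (α ^ 2 * ∑ i, (w i - v i) ^ 2 + α' ^ 2 * ∑ i, (w i + v i) ^ 2) := by
      rw [Finset.mul_sum, Finset.mul_sum, ← Finset.sum_add_distrib, ← Finset.sum_add_distrib,
        Finset.mul_sum]
      refine Finset.sum_congr rfl fun i _ => ?_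
      rw [hx, hy]
      ring
    have e2 : ∑ i, (w i + v i) ^ 2 ≤ 4 := by
      have : ∑ i, (w i + v i) ^ 2 + ∑ i, (w i - v i) ^ 2 = 2 * ∑ i, w i ^ 2 + 2 * ∑ i, v i ^ 2 := by
        rw [← Finset.sum_add_distrib, Finset.mul_sum, Finset.mul_sum, ← Finset.sum_add_distrib]
        refine Finset.sum_congr rfl fun i _ => ?_
        ring
      have h0 : 0 ≤ ∑ i, (w i - v i) ^ 2 := Finset.sum_nonneg fun _ _ => sq_nonneg _
      rw [hw1, hv1] at this
      linarith
    rw [e1, hαsq, hα'sq]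
    have h1 : 2 / η * ∑ i, (w i - v i) ^ 2 ≤ 2 / η * η ^ 2 :=
      mul_le_mul_of_nonneg_left hv (by positivity)
    have h2 : 2 / η * η ^ 2 = 2 * η := by field_simp
    have h3 : η / 2 * ∑ i, (w i + v i) ^ 2 ≤ η / 2 * 4 :=
      mul_le_mul_of_nonneg_left e2 (by positivity)
    linarith
  have hdiff : |2 * edgeForm g w - 2 * edgeForm g v| ≤ 2 * η * M := by
    have h1 := hall x
    have h2 := hall y
    have h3 : |2 * edgeForm g x - 2 * edgeForm g y| ≤ M * (8 * η) := by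
      refine (abs_sub _ _).trans ?_
      calc |2 * edgeForm g x| + |2 * edgeForm g y|
          ≤ M * ∑ i, x i ^ 2 + M * ∑ i, y i ^ 2 := add_le_add h1 h2
        _ = M * (∑ i, x i ^ 2 + ∑ i, y i ^ 2) := by ring
        _ ≤ _ := mul_le_mul_of_nonneg_left hsq hM0
    have e : 2 * edgeForm g x - 2 * edgeForm g y = 4 * (2 * edgeForm g w - 2 * edgeForm g v) := by
      linear_combination 2 * hid
    rw [e, abs_mul, abs_of_pos (by norm_num : (0 : ℝ) < 4)] at h3
    linarith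
  have hMb : M * (1 - 2 * η) ≤ R := by
    have h1 : M ≤ |2 * edgeForm g v| + |2 * edgeForm g w - 2 * edgeForm g v| := by
      rw [hM]
      have := abs_add_le (2 * edgeForm g v) (2 * edgeForm g w - 2 * edgeForm g v)
      simpa using this
    have h2 := hR v hvT
    nlinarith
  have hZ0 : 0 ≤ ∑ i, z i ^ 2 := Finset.sum_nonneg fun _ _ => sq_nonneg _
  calc |2 * edgeForm g z| * (1 - 2 * η) ≤ (M * ∑ i, z i ^ 2) * (1 - 2 * η) :=
        mul_le_mul_of_nonneg_right (hall z) (by linarith)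
    _ = (M * (1 - 2 * η)) * ∑ i, z i ^ 2 := by ring
    _ ≤ R * ∑ i, z i ^ 2 := mul_le_mul_of_nonneg_right hMb hZ0

end Vale.Agent.Lib.P150
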