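import Vale.Agent.Lib.P150.GaussIBP

/-!
Slepian's comparison inequality for a finite family of linear forms in a Gaussian vector.
-/

open scoped BigOperators NNReal ENNReal Topology
open MeasureTheory ProbabilityTheory Filter

namespace Vale.Agent.Lib.P150

variable {T J : Type*} [Fintype T] [Fintype J]

/-- The soft cutoff: exponentials. -/
noncomputable def softE (l c : ℝ) (z : T → ℝ) (t : T) : ℝ := Real.exp (l * (z t - c))

/-- The soft cutoff function. -/
noncomputable def softF (l c : ℝ) (z : T → ℝ) : ℝ := Real.exp (-∑ t, softE l c z t)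

lemma softE_pos (l c : ℝ) (z : T → ℝ) (t : T) : 0 < softE l c z t := Real.exp_pos _

lemma softF_pos (l c : ℝ) (z : T → ℝ) : 0 < softF l c z := Real.exp_pos _

lemma softF_le_one (l c : ℝ) (z : T → ℝ) : softF l c z ≤ 1 := by
  unfold softF
  rw [Real.exp_le_one_iff]
  have : 0 ≤ ∑ t, softE l c z t := Finset.sum_nonneg fun t _ => (softE_pos l c z t).le
  linarith

variable {l c : ℝ}

lemma curve_softE {z : ℝ → T → ℝ} {d : T → ℝ} {x : ℝ} (h : ∀ t, HasDerivAt (fun x => z x t) (d t) x)
    (t : T) : HasDerivAt (fun x => softE l c (z x) t) (l * d t * softE l c (z x) t) x := by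
  unfold softE
  have := (((h t).sub_const c).const_mul l).exp
  refine this.congr_deriv ?_
  ring

lemma curve_softF {z : ℝ → T → ℝ} {d : T → ℝ} {x : ℝ} (h : ∀ t, HasDerivAt (fun x => z x t) (d t) x) :
    HasDerivAt (fun x => softF l c (z x))
      (-(l * ∑ t, softE l c (z x) t * d t) * softF l c (z x)) x := by
  unfold softF
  have h1 : HasDerivAt (fun x => ∑ t, softE l c (z x) t) (∑ t, l * d t * softE l c (z x) t) x :=
    HasDerivAt.fun_sum fun t _ => curve_softE h t
  have := h1.fun_neg.exp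
  refine this.congr_deriv ?_
  rw [Finset.mul_sum]
  have e : ∀ t, l * (softE l c (z x) t * d t) = l * d t * softE l c (z x) t := fun t => by ring
  simp only [e]
  ring

lemma curve_psi {z : ℝ → T → ℝ} {d : T → ℝ} {x : ℝ} (h : ∀ t, HasDerivAt (fun x => z x t) (d t) x)
    (w : T → ℝ) :
    HasDerivAt (fun x => -l * softF l c (z x) * ∑ t, softE l c (z x) t * w t)
      (l ^ 2 * softF l c (z x) * ((∑ t, softE l c (z x) t * d t) * (∑ t, softE l c (z x) t * w t)
        - ∑ t, softE l c (z x) t * d t * w t)) x := by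
  have h1 := curve_softF (l := l) (c := c) h
  have h2 : HasDerivAt (fun x => ∑ t, softE l c (z x) t * w t)
      (∑ t, l * d t * softE l c (z x) t * w t) x :=
    HasDerivAt.fun_sum fun t _ => (curve_softE h t).mul_const (w t)
  have := (h1.const_mul (-l)).mul h2
  refine this.congr_deriv ?_
  have e : ∑ t, l * d t * softE l c (z x) t * w t = l * ∑ t, softE l c (z x) t * d t * w t := by
    rw [Finset.mul_sum]
    refine Finset.sum_congr rfl fun t _ => ?_
    ring
  rw [e]
  ring

lemma exp_neg_mul_le {S : ℝ} (hS : 0 ≤ S) : Real.exp (-S) * S ≤ 1 := by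
  have h := Real.add_one_le_exp S
  have h1 : S ≤ Real.exp S := by linarith
  rw [Real.exp_neg, inv_mul_le_iff₀ (Real.exp_pos S)]
  linarith

lemma exp_neg_mul_sq_le {S : ℝ} (hS : 0 ≤ S) : Real.exp (-S) * S ^ 2 ≤ 2 := by
  have h := Real.quadratic_le_exp_of_nonneg hS
  rw [Real.exp_neg, inv_mul_le_iff₀ (Real.exp_pos S)]
  nlinarith

lemma softE_mul_softF_le (l c : ℝ) (z : T → ℝ) (t : T) : softE l c z t * softF l c z ≤ 1 := by
  have hS : 0 ≤ ∑ t, softE l c z t := Finset.sum_nonneg fun t _ => (softE_pos l c z t).le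
  have h1 : softE l c z t ≤ ∑ t, softE l c z t :=
    Finset.single_le_sum (f := fun t => softE l c z t) (fun t _ => (softE_pos l c z t).le)
      (Finset.mem_univ t)
  have h2 := exp_neg_mul_le hS
  unfold softF
  nlinarith [Real.exp_pos (-∑ t, softE l c z t)]

lemma softE_mul_softE_mul_softF_le (l c : ℝ) (z : T → ℝ) (s t : T) :
    softE l c z s * softE l c z t * softF l c z ≤ 2 := by
  have hS : 0 ≤ ∑ t, softE l c z t := Finset.sum_nonneg fun t _ => (softE_pos l c z t).le
  have h1 : softE l c z s ≤ ∑ t, softE l c z t :=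
    Finset.single_le_sum (f := fun t => softE l c z t) (fun t _ => (softE_pos l c z t).le)
      (Finset.mem_univ s)
  have h1' : softE l c z t ≤ ∑ t, softE l c z t :=
    Finset.single_le_sum (f := fun t => softE l c z t) (fun t _ => (softE_pos l c z t).le)
      (Finset.mem_univ t)
  have h2 := exp_neg_mul_sq_le hS
  have h3 : softE l c z s * softE l c z t ≤ (∑ t, softE l c z t) ^ 2 := by
    rw [pow_two]
    exact mul_le_mul h1 h1' (softE_pos l c z t).le hS
  unfold softF
  have h4 := Real.exp_pos (-∑ t, softE l c z t)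
  nlinarith

variable [DecidableEq J]

/-- The derivative of a linear form along a coordinate. -/
lemma hasDerivAt_form_update (v : J → ℝ) (ω : J → ℝ) (j : J) (x : ℝ) :
    HasDerivAt (fun x => ∑ i, v i * Function.update ω j x i) (v j) x := by
  have h : ∀ i, HasDerivAt (fun x => v i * Function.update ω j x i) (if i = j then v j else 0) x := by
    intro i
    by_cases hi : i = j
    · subst hi
      simp only [Function.update_self, if_true]
      simpa using (hasDerivAt_id' x).const_mul (v i)
    · simp only [Function.update_of_ne hi, if_neg hi]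
      exact hasDerivAt_const _ _
  have := HasDerivAt.fun_sum (u := Finset.univ) fun i _ => h i
  simpa using this

/-- The interpolating forms. -/
noncomputable def cF (a b : T → J → ℝ) (θ : ℝ) (t : T) (j : J) : ℝ :=
  Real.cos θ * a t j + Real.sin θ * b t j

/-- The derivatives of the interpolating forms. -/
noncomputable def dF (a b : T → J → ℝ) (θ : ℝ) (t : T) (j : J) : ℝ :=
  -Real.sin θ * a t j + Real.cos θ * b t j

/-- The interpolating values. -/
noncomputable def zF (a b : T → J → ℝ) (θ : ℝ) (ω : J → ℝ) (t : T) : ℝ :=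
  ∑ j, cF a b θ t j * ω j

lemma continuous_form (v : J → ℝ) : Continuous fun ω : J → ℝ => ∑ j, v j * ω j :=
  continuous_finsetSum _ fun j _ => continuous_const.mul (continuous_apply j)

lemma continuous_softE_comp {z : (J → ℝ) → T → ℝ} (hz : ∀ t, Continuous fun ω => z ω t) (t : T) :
    Continuous fun ω => softE l c (z ω) t := by
  unfold softE
  exact Real.continuous_exp.comp (continuous_const.mul ((hz t).sub continuous_const))

lemma continuous_softF_comp {z : (J → ℝ) → T → ℝ} (hz : ∀ t, Continuous fun ω => z ω t) :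
    Continuous fun ω => softF l c (z ω) := by
  unfold softF
  exact Real.continuous_exp.comp
    (continuous_finsetSum _ fun t _ => continuous_softE_comp hz t).neg

/-- The integrand of the coordinate `j`. -/
noncomputable def psiF (l c : ℝ) (a b : T → J → ℝ) (θ : ℝ) (j : J) (ω : J → ℝ) : ℝ :=
  -l * softF l c (zF a b θ ω) * ∑ t, softE l c (zF a b θ ω) t * dF a b θ t j

/-- The derivative of the integrand of the coordinate `j` in that coordinate. -/
noncomputable def psiF' (l c : ℝ) (a b : T → J → ℝ) (θ : ℝ) (j : J) (ω : J → ℝ) : ℝ :=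
  l ^ 2 * softF l c (zF a b θ ω) *
    ((∑ t, softE l c (zF a b θ ω) t * cF a b θ t j) * (∑ t, softE l c (zF a b θ ω) t * dF a b θ t j)
      - ∑ t, softE l c (zF a b θ ω) t * cF a b θ t j * dF a b θ t j)

lemma continuous_zF (a b : T → J → ℝ) (θ : ℝ) (t : T) :
    Continuous fun ω => zF a b θ ω t := continuous_form _

lemma continuous_psiF (a b : T → J → ℝ) (θ : ℝ) (j : J) : Continuous (psiF l c a b θ j) := by
  unfold psiF
  refine (continuous_const.mul (continuous_softF_comp (continuous_zF a b θ))).mul ?_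
  exact continuous_finsetSum _ fun t _ =>
    (continuous_softE_comp (continuous_zF a b θ) t).mul continuous_const

lemma continuous_psiF' (a b : T → J → ℝ) (θ : ℝ) (j : J) : Continuous (psiF' l c a b θ j) := by
  unfold psiF'
  refine (continuous_const.mul (continuous_softF_comp (continuous_zF a b θ))).mul ?_
  refine ((continuous_finsetSum _ fun t _ =>
    (continuous_softE_comp (continuous_zF a b θ) t).mul continuous_const).mul
    (continuous_finsetSum _ fun t _ =>
    (continuous_softE_comp (continuous_zF a b θ) t).mul continuous_const)).sub ?_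
  exact continuous_finsetSum _ fun t _ =>
    ((continuous_softE_comp (continuous_zF a b θ) t).mul continuous_const).mul continuous_const

lemma psiF_bound (hl : 0 ≤ l) (a b : T → J → ℝ) (θ : ℝ) (j : J) (ω : J → ℝ) :
    |psiF l c a b θ j ω| ≤ l * ∑ t, |dF a b θ t j| := by
  unfold psiF
  have e : -l * softF l c (zF a b θ ω) * ∑ t, softE l c (zF a b θ ω) t * dF a b θ t j
      = -l * ∑ t, (softE l c (zF a b θ ω) t * softF l c (zF a b θ ω)) * dF a b θ t j := by
    rw [mul_assoc, Finset.mul_sum]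
    congr 1
    refine Finset.sum_congr rfl fun t _ => ?_
    ring
  rw [e, abs_mul, abs_neg, abs_of_nonneg hl]
  apply mul_le_mul_of_nonneg_left _ hl
  refine (Finset.abs_sum_le_sum_abs _ _).trans (Finset.sum_le_sum fun t _ => ?_)
  rw [abs_mul]
  have h0 := mul_pos (softE_pos l c (zF a b θ ω) t) (softF_pos l c (zF a b θ ω))
  rw [abs_of_pos h0]
  exact mul_le_of_le_one_left (abs_nonneg _) (softE_mul_softF_le l c _ t)

lemma psiF'_bound (a b : T → J → ℝ) (θ : ℝ) (j : J) (ω : J → ℝ) :
    |psiF' l c a b θ j ω| ≤ l ^ 2 * (2 * ((∑ t, |cF a b θ t j|) * (∑ t, |dF a b θ t j|))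
      + ∑ t, |cF a b θ t j * dF a b θ t j|) := by
  unfold psiF'
  obtain ⟨F, hF⟩ : ∃ F, F = softF l c (zF a b θ ω) := ⟨_, rfl⟩
  obtain ⟨E, hE⟩ : ∃ E, E = softE l c (zF a b θ ω) := ⟨_, rfl⟩
  rw [← hF, ← hE]
  have hF0 : 0 < F := by rw [hF]; exact softF_pos _ _ _
  have hE0 : ∀ t, 0 < E t := fun t => by rw [hE]; exact softE_pos _ _ _ _
  have hEF : ∀ t, E t * F ≤ 1 := fun t => by rw [hE, hF]; exact softE_mul_softF_le _ _ _ _
  have hEEF : ∀ s t, E s * E t * F ≤ 2 := fun s t => by
    rw [hE, hF]; exact softE_mul_softE_mul_softF_le _ _ _ _ _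
  have e : l ^ 2 * F * ((∑ t, E t * cF a b θ t j) * (∑ t, E t * dF a b θ t j)
        - ∑ t, E t * cF a b θ t j * dF a b θ t j)
      = l ^ 2 * (∑ s, ∑ t, (E s * E t * F) * (cF a b θ s j * dF a b θ t j)
        - ∑ t, (E t * F) * (cF a b θ t j * dF a b θ t j)) := by
    rw [Finset.sum_mul_sum, mul_assoc, mul_sub, Finset.mul_sum, Finset.mul_sum]
    congr 2
    · refine Finset.sum_congr rfl fun s _ => ?_
      rw [Finset.mul_sum]
      refine Finset.sum_congr rfl fun t _ => ?_
      ring
    · refine Finset.sum_congr rfl fun t _ => ?_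
      ring
  rw [e, abs_mul, abs_of_nonneg (sq_nonneg l)]
  apply mul_le_mul_of_nonneg_left _ (sq_nonneg l)
  refine (abs_sub _ _).trans (add_le_add ?_ ?_)
  · rw [Finset.sum_mul_sum, Finset.mul_sum]
    refine (Finset.abs_sum_le_sum_abs _ _).trans (Finset.sum_le_sum fun s _ => ?_)
    rw [Finset.mul_sum]
    refine (Finset.abs_sum_le_sum_abs _ _).trans (Finset.sum_le_sum fun t _ => ?_)
    rw [abs_mul, abs_of_nonneg (by have := hE0 s; have := hE0 t; positivity), abs_mul]
    exact mul_le_mul_of_nonneg_right (hEEF s t) (by positivity)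
  · refine (Finset.abs_sum_le_sum_abs _ _).trans (Finset.sum_le_sum fun t _ => ?_)
    rw [abs_mul, abs_of_nonneg (by have := hE0 t; positivity)]
    exact mul_le_of_le_one_left (abs_nonneg _) (hEF t)

/-- Integration by parts for the coordinate function. -/
lemma ibp_psi (hl : 0 ≤ l) (a b : T → J → ℝ) (θ : ℝ) (j : J) :
    ∫ ω, ω j * psiF l c a b θ j ω ∂(gamJ J) = ∫ ω, psiF' l c a b θ j ω ∂(gamJ J) := by
  refine ibp_pi j (continuous_psiF a b θ j) (continuous_psiF' a b θ j) ?_
    (psiF_bound hl a b θ j) (psiF'_bound a b θ j)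
  intro ω x
  have hz : ∀ t, HasDerivAt (fun x => zF a b θ (Function.update ω j x) t) (cF a b θ t j) x :=
    fun t => hasDerivAt_form_update _ ω j x
  exact curve_psi (l := l) (c := c) hz (fun t => dF a b θ t j)

lemma hasDerivAt_cF (a b : T → J → ℝ) (θ : ℝ) (t : T) (j : J) :
    HasDerivAt (fun θ => cF a b θ t j) (dF a b θ t j) θ := by
  unfold cF dF
  have := ((Real.hasDerivAt_cos θ).mul_const (a t j)).add ((Real.hasDerivAt_sin θ).mul_const (b t j))
  exact this

lemma hasDerivAt_zF (a b : T → J → ℝ) (θ : ℝ) (ω : J → ℝ) (t : T) :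
    HasDerivAt (fun θ => zF a b θ ω t) (∑ j, dF a b θ t j * ω j) θ := by
  unfold zF
  exact HasDerivAt.fun_sum fun j _ => (hasDerivAt_cF a b θ t j).mul_const (ω j)

/-- The derivative of the integrand in the angle. -/
lemma hasDerivAt_theta (a b : T → J → ℝ) (θ : ℝ) (ω : J → ℝ) :
    HasDerivAt (fun θ => softF l c (zF a b θ ω)) (∑ j, ω j * psiF l c a b θ j ω) θ := by
  have h := curve_softF (l := l) (c := c) (z := fun θ => zF a b θ ω)
    (d := fun t => ∑ j, dF a b θ t j * ω j) (x := θ) (hasDerivAt_zF a b θ ω)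
  refine h.congr_deriv ?_
  unfold psiF
  have e1 : ∑ t, softE l c (zF a b θ ω) t * ∑ j, dF a b θ t j * ω j
      = ∑ j, ω j * ∑ t, softE l c (zF a b θ ω) t * dF a b θ t j := by
    simp only [Finset.mul_sum]
    rw [Finset.sum_comm]
    refine Finset.sum_congr rfl fun j _ => Finset.sum_congr rfl fun t _ => ?_
    ring
  rw [e1, Finset.mul_sum, neg_mul, Finset.sum_mul, ← Finset.sum_neg_distrib]
  refine Finset.sum_congr rfl fun j _ => ?_
  ring

lemma abs_dF_le (a b : T → J → ℝ) (θ : ℝ) (t : T) (j : J) :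
    |dF a b θ t j| ≤ |a t j| + |b t j| := by
  unfold dF
  refine (abs_add_le _ _).trans (add_le_add ?_ ?_)
  · rw [abs_mul, abs_neg]
    exact mul_le_of_le_one_left (abs_nonneg _) (Real.abs_sin_le_one θ)
  · rw [abs_mul]
    exact mul_le_of_le_one_left (abs_nonneg _) (Real.abs_cos_le_one θ)

/-- The dominating function. -/
noncomputable def domF (l : ℝ) (a b : T → J → ℝ) (ω : J → ℝ) : ℝ :=
  ∑ j, |ω j| * (l * ∑ t, (|a t j| + |b t j|))

lemma integrable_domF (l : ℝ) (a b : T → J → ℝ) : Integrable (domF l a b) (gamJ J) := by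
  unfold domF
  refine integrable_finsetSum _ fun j _ => ?_
  exact (integrable_coord_gamJ j).abs.mul_const _

lemma deriv_bound (hl : 0 ≤ l) (a b : T → J → ℝ) (θ : ℝ) (ω : J → ℝ) :
    ‖∑ j, ω j * psiF l c a b θ j ω‖ ≤ domF l a b ω := by
  rw [Real.norm_eq_abs]
  unfold domF
  refine (Finset.abs_sum_le_sum_abs _ _).trans (Finset.sum_le_sum fun j _ => ?_)
  rw [abs_mul]
  apply mul_le_mul_of_nonneg_left _ (abs_nonneg _)
  refine (psiF_bound hl a b θ j ω).trans ?_
  apply mul_le_mul_of_nonneg_left _ hl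
  exact Finset.sum_le_sum fun t _ => abs_dF_le a b θ t j

/-- The interpolating function. -/
noncomputable def slepF (l c : ℝ) (a b : T → J → ℝ) (θ : ℝ) : ℝ :=
  ∫ ω, softF l c (zF a b θ ω) ∂(gamJ J)

lemma integrable_softF (a b : T → J → ℝ) (θ : ℝ) :
    Integrable (fun ω => softF l c (zF a b θ ω)) (gamJ J) := by
  refine Integrable.of_bound (continuous_softF_comp (continuous_zF a b θ)).aestronglyMeasurable 1 ?_
  refine Eventually.of_forall fun ω => ?_
  rw [Real.norm_eq_abs, abs_of_pos (softF_pos _ _ _)]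
  exact softF_le_one _ _ _

lemma hasDerivAt_slepF (hl : 0 ≤ l) (a b : T → J → ℝ) (θ : ℝ) :
    HasDerivAt (slepF l c a b) (∫ ω, ∑ j, ω j * psiF l c a b θ j ω ∂(gamJ J)) θ := by
  have hmeas : AEStronglyMeasurable (fun ω : J → ℝ => ∑ j, ω j * psiF l c a b θ j ω) (gamJ J) := by
    refine Continuous.aestronglyMeasurable ?_
    exact continuous_finsetSum _ fun j _ => (continuous_apply j).mul (continuous_psiF a b θ j)
  exact (hasDerivAt_integral_of_dominated_loc_of_deriv_le (μ := gamJ J) (s := Set.univ)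
    (F := fun θ ω => softF l c (zF a b θ ω))
    (F' := fun θ ω => ∑ j, ω j * psiF l c a b θ j ω)
    (bound := domF l a b) Filter.univ_mem
    (Eventually.of_forall fun θ => (integrable_softF a b θ).aestronglyMeasurable)
    (integrable_softF a b θ) hmeas
    (Eventually.of_forall fun ω θ _ => deriv_bound hl a b θ ω)
    (integrable_domF l a b)
    (Eventually.of_forall fun ω θ _ => hasDerivAt_theta a b θ ω)).2

lemma integrable_coord_psi (hl : 0 ≤ l) (a b : T → J → ℝ) (θ : ℝ) (j : J) :
    Integrable (fun ω => ω j * psiF l c a b θ j ω) (gamJ J) := by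
  refine (integrable_coord_gamJ j).mul_bdd (c := l * ∑ t, |dF a b θ t j|)
    (continuous_psiF a b θ j).aestronglyMeasurable ?_
  exact Eventually.of_forall fun ω => by
    simpa [Real.norm_eq_abs] using psiF_bound hl a b θ j ω

lemma integrable_psiF' (a b : T → J → ℝ) (θ : ℝ) (j : J) :
    Integrable (psiF' l c a b θ j) (gamJ J) := by
  refine Integrable.of_bound (continuous_psiF' a b θ j).aestronglyMeasurable
    (l ^ 2 * (2 * ((∑ t, |cF a b θ t j|) * (∑ t, |dF a b θ t j|))
      + ∑ t, |cF a b θ t j * dF a b θ t j|)) ?_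
  exact Eventually.of_forall fun ω => by
    simpa [Real.norm_eq_abs] using psiF'_bound a b θ j ω

/-- The derivative of the interpolating function after integration by parts. -/
lemma deriv_slepF_eq (hl : 0 ≤ l) (a b : T → J → ℝ) (θ : ℝ) :
    ∫ ω, ∑ j, ω j * psiF l c a b θ j ω ∂(gamJ J) = ∫ ω, ∑ j, psiF' l c a b θ j ω ∂(gamJ J) := by
  rw [integral_finsetSum _ fun j _ => integrable_coord_psi hl a b θ j,
    integral_finsetSum _ fun j _ => integrable_psiF' a b θ j]
  exact Finset.sum_congr rfl fun j _ => ibp_psi hl a b θ j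

/-- The pairing of the forms and the derivatives. -/
lemma pair_cd (a b : T → J → ℝ) (hortho : ∀ s t, ∑ j, a s j * b t j = 0) (θ : ℝ) (s t : T) :
    ∑ j, cF a b θ s j * dF a b θ t j
      = Real.sin θ * Real.cos θ * (∑ j, b s j * b t j - ∑ j, a s j * a t j) := by
  have e : ∀ j, cF a b θ s j * dF a b θ t j
      = Real.sin θ * Real.cos θ * (b s j * b t j) - Real.sin θ * Real.cos θ * (a s j * a t j)
        + Real.cos θ ^ 2 * (a s j * b t j) - Real.sin θ ^ 2 * (a t j * b s j) := by
    intro j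
    unfold cF dF
    ring
  simp only [e]
  rw [Finset.sum_sub_distrib, Finset.sum_add_distrib, Finset.sum_sub_distrib, ← Finset.mul_sum,
    ← Finset.mul_sum, ← Finset.mul_sum, ← Finset.mul_sum, hortho s t, hortho t s]
  ring

/-- The pointwise formula for the sum of the second derivatives. -/
lemma sum_psiF' (a b : T → J → ℝ) (hortho : ∀ s t, ∑ j, a s j * b t j = 0)
    (hvar : ∀ t, ∑ j, b t j * b t j = ∑ j, a t j * a t j) (θ : ℝ) (ω : J → ℝ) :
    ∑ j, psiF' l c a b θ j ω = l ^ 2 * softF l c (zF a b θ ω) * (Real.sin θ * Real.cos θ *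
      ∑ s, ∑ t, softE l c (zF a b θ ω) s * softE l c (zF a b θ ω) t *
        (∑ j, b s j * b t j - ∑ j, a s j * a t j)) := by
  unfold psiF'
  obtain ⟨E, hE⟩ : ∃ E, E = softE l c (zF a b θ ω) := ⟨_, rfl⟩
  rw [← hE, ← Finset.mul_sum, Finset.sum_sub_distrib]
  congr 1
  have h1 : ∑ j, (∑ t, E t * cF a b θ t j) * (∑ t, E t * dF a b θ t j)
      = ∑ s, ∑ t, E s * E t * ∑ j, cF a b θ s j * dF a b θ t j := by
    have h0 : ∀ j, (∑ t, E t * cF a b θ t j) * (∑ t, E t * dF a b θ t j)
        = ∑ s, ∑ t, E s * E t * (cF a b θ s j * dF a b θ t j) := by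
      intro j
      rw [Finset.sum_mul_sum]
      refine Finset.sum_congr rfl fun s _ => Finset.sum_congr rfl fun t _ => ?_
      ring
    simp only [h0]
    rw [Finset.sum_comm]
    refine Finset.sum_congr rfl fun s _ => ?_
    rw [Finset.sum_comm]
    refine Finset.sum_congr rfl fun t _ => ?_
    rw [Finset.mul_sum]
  have h2 : ∑ j, ∑ t, E t * cF a b θ t j * dF a b θ t j = 0 := by
    rw [Finset.sum_comm]
    refine Finset.sum_eq_zero fun t _ => ?_
    have : ∑ j, E t * cF a b θ t j * dF a b θ t j = E t * ∑ j, cF a b θ t j * dF a b θ t j := by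
      rw [Finset.mul_sum]
      refine Finset.sum_congr rfl fun j _ => ?_
      ring
    rw [this, pair_cd a b hortho, hvar t]
    ring
  rw [h1, h2, sub_zero, Finset.mul_sum]
  refine Finset.sum_congr rfl fun s _ => ?_
  rw [Finset.mul_sum]
  refine Finset.sum_congr rfl fun t _ => ?_
  rw [pair_cd a b hortho]
  ring

/-- Slepian's inequality for the soft cutoff. -/
theorem slepian_soft (hl : 0 ≤ l) (a b : T → J → ℝ) (hortho : ∀ s t, ∑ j, a s j * b t j = 0)
    (hvar : ∀ t, ∑ j, b t j * b t j = ∑ j, a t j * a t j)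
    (hcov : ∀ s t, ∑ j, b s j * b t j ≤ ∑ j, a s j * a t j) :
    ∫ ω, softF l c (fun t => ∑ j, b t j * ω j) ∂(gamJ J)
      ≤ ∫ ω, softF l c (fun t => ∑ j, a t j * ω j) ∂(gamJ J) := by
  have hd := fun θ => hasDerivAt_slepF (c := c) hl a b θ
  have hanti : AntitoneOn (slepF l c a b) (Set.Icc 0 (Real.pi / 2)) := by
    refine antitoneOn_of_deriv_nonpos (convex_Icc _ _)
      (fun θ _ => (hd θ).continuousAt.continuousWithinAt)
      (fun θ _ => (hd θ).differentiableAt.differentiableWithinAt) ?_
    intro θ hθ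
    rw [interior_Icc] at hθ
    rw [(hd θ).deriv, deriv_slepF_eq hl]
    refine integral_nonpos fun ω => ?_
    simp only [Pi.zero_apply]
    rw [sum_psiF' a b hortho hvar]
    have hs : 0 ≤ Real.sin θ := Real.sin_nonneg_of_nonneg_of_le_pi hθ.1.le
      (by linarith [hθ.2, Real.pi_pos])
    have hc : 0 ≤ Real.cos θ := Real.cos_nonneg_of_neg_pi_div_two_le_of_le
      (by linarith [hθ.1, Real.pi_pos]) hθ.2.le
    have hsum : ∑ s, ∑ t, softE l c (zF a b θ ω) s * softE l c (zF a b θ ω) t *
        (∑ j, b s j * b t j - ∑ j, a s j * a t j) ≤ 0 := by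
      refine Finset.sum_nonpos fun s _ => Finset.sum_nonpos fun t _ => ?_
      refine mul_nonpos_of_nonneg_of_nonpos ?_ (sub_nonpos.2 (hcov s t))
      exact (mul_pos (softE_pos _ _ _ _) (softE_pos _ _ _ _)).le
    refine mul_nonpos_of_nonneg_of_nonpos ?_ (mul_nonpos_of_nonneg_of_nonpos (mul_nonneg hs hc) hsum)
    exact mul_nonneg (sq_nonneg l) (softF_pos _ _ _).le
  have h := hanti (Set.left_mem_Icc.2 (by positivity)) (Set.right_mem_Icc.2 (by positivity))
    (by positivity : (0 : ℝ) ≤ Real.pi / 2)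
  unfold slepF at h
  have e0 : ∀ ω, zF a b 0 ω = fun t => ∑ j, a t j * ω j := by
    intro ω
    funext t
    simp [zF, cF]
  have e1 : ∀ ω, zF a b (Real.pi / 2) ω = fun t => ∑ j, b t j * ω j := by
    intro ω
    funext t
    simp [zF, cF]
  simp only [e0, e1] at h
  exact h

end Vale.Agent.Lib.P150
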