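import Vale.Agent.Lib.P150.EntStab

/-!
Homogeneous entropy functionals, and tensorization of entropy for product weights.
-/

open scoped BigOperators Matrix
open Filter Topology

namespace Vale.Agent.Lib.P150

variable {n : ℕ}

/-- The function `u log (u / v)`. -/
noncomputable def lamF (u v : ℝ) : ℝ := u * Real.log (u / v)

/-- The function `t log t`. -/
noncomputable def xlogx (t : ℝ) : ℝ := t * Real.log t

/-- The entropy functional of a positive weight. -/
noncomputable def entW (W f : Conf n → ℝ) : ℝ :=
  ∑ x, W x * xlogx (f x) - lamF (∑ x, W x * f x) (∑ x, W x)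

/-- The entropy on the edge between `x` and its flip at `i`. -/
noncomputable def qTerm (W f : Conf n → ℝ) (i : Fin n) (x : Conf n) : ℝ :=
  W x * xlogx (f x) + W (flipAt x i) * xlogx (f (flipAt x i))
    - lamF (W x * f x + W (flipAt x i) * f (flipAt x i)) (W x + W (flipAt x i))

/-- The sum of the single site entropies. -/
noncomputable def qQ (W f : Conf n → ℝ) : ℝ := (1 / 2) * ∑ i, ∑ x, qTerm W f i x

/-- The heat bath average at a site. -/
noncomputable def heatQ (W : Conf n → ℝ) (i : Fin n) (h : Conf n → ℝ) (x : Conf n) : ℝ :=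
  (W x * h x + W (flipAt x i) * h (flipAt x i)) / (W x + W (flipAt x i))

lemma heatQ_flip (W : Conf n → ℝ) (i : Fin n) (h : Conf n → ℝ) (x : Conf n) :
    heatQ W i h (flipAt x i) = heatQ W i h x := by
  unfold heatQ
  rw [flipAt_flipAt]
  congr 1 <;> ring

lemma heatQ_pos {W h : Conf n → ℝ} (hW : ∀ x, 0 < W x) (hh : ∀ x, 0 < h x) (i : Fin n)
    (x : Conf n) : 0 < heatQ W i h x := by
  unfold heatQ
  have h1 := hW x
  have h2 := hW (flipAt x i)
  have h3 := hh x
  have h4 := hh (flipAt x i)
  positivity

lemma sum_half_flip (i : Fin n) (Φ : Conf n → ℝ) :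
    ∑ x, Φ x = (1 / 2) * ∑ x, (Φ x + Φ (flipAt x i)) := by
  rw [Finset.sum_add_distrib, sum_flip Φ i]
  ring

lemma sum_heatQ {W : Conf n → ℝ} (hW : ∀ x, 0 < W x) (i : Fin n) (h : Conf n → ℝ) :
    ∑ x, W x * heatQ W i h x = ∑ x, W x * h x := by
  rw [sum_half_flip i (fun x => W x * heatQ W i h x), sum_half_flip i (fun x => W x * h x)]
  congr 1
  refine Finset.sum_congr rfl fun x _ => ?_
  rw [heatQ_flip]
  unfold heatQ
  have h1 := hW x
  have h2 := hW (flipAt x i)
  field_simp

/-- The two point variational inequality. -/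
lemma two_point_dv {w w' a b g g' : ℝ} (hw : 0 < w) (hw' : 0 < w') (ha : 0 < a) (hb : 0 < b)
    (hg : 0 < g) (hg' : 0 < g') :
    w * a * (Real.log g - Real.log ((w * g + w' * g') / (w + w')))
      + w' * b * (Real.log g' - Real.log ((w * g + w' * g') / (w + w')))
    ≤ w * xlogx a + w' * xlogx b - lamF (w * a + w' * b) (w + w') := by
  obtain ⟨m, hm⟩ : ∃ m, m = (w * g + w' * g') / (w + w') := ⟨_, rfl⟩
  obtain ⟨A, hA⟩ : ∃ A, A = (w * a + w' * b) / (w + w') := ⟨_, rfl⟩
  have hm0 : 0 < m := by rw [hm]; positivity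
  have hA0 : 0 < A := by rw [hA]; positivity
  have hs : 0 < w + w' := by positivity
  have em : w * g + w' * g' = (w + w') * m := by rw [hm]; field_simp
  have eA : w * a + w' * b = (w + w') * A := by rw [hA]; field_simp
  rw [← hm]
  unfold lamF xlogx
  rw [← hA]
  -- the inequalities for the logarithm
  have h1 : 1 - (A * g) / (a * m) ≤ Real.log (a * m / (A * g)) := by
    have := Real.one_sub_inv_le_log_of_pos (show 0 < a * m / (A * g) by positivity)
    rwa [inv_div] at this
  have h2 : 1 - (A * g') / (b * m) ≤ Real.log (b * m / (A * g')) := by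
    have := Real.one_sub_inv_le_log_of_pos (show 0 < b * m / (A * g') by positivity)
    rwa [inv_div] at this
  have e1 : Real.log (a * m / (A * g))
      = Real.log a + Real.log m - Real.log A - Real.log g := by
    rw [Real.log_div (by positivity) (by positivity), Real.log_mul ha.ne' hm0.ne',
      Real.log_mul hA0.ne' hg.ne']
    ring
  have e2 : Real.log (b * m / (A * g'))
      = Real.log b + Real.log m - Real.log A - Real.log g' := by
    rw [Real.log_div (by positivity) (by positivity), Real.log_mul hb.ne' hm0.ne',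
      Real.log_mul hA0.ne' hg'.ne']
    ring
  rw [e1] at h1
  rw [e2] at h2
  have h3 := mul_le_mul_of_nonneg_left h1 (show 0 ≤ w * a by positivity)
  have h4 := mul_le_mul_of_nonneg_left h2 (show 0 ≤ w' * b by positivity)
  have e3 : w * a * (1 - (A * g) / (a * m)) = w * a - A / m * (w * g) := by
    field_simp
  have e4 : w' * b * (1 - (A * g') / (b * m)) = w' * b - A / m * (w' * g') := by
    field_simp
  rw [e3] at h3
  rw [e4] at h4
  have e5 : A / m * (w * g) + A / m * (w' * g') = (w + w') * A := by
    have : A / m * (w * g) + A / m * (w' * g') = A / m * (w * g + w' * g') := by ring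
    rw [this, em]
    field_simp
  have e6 : (w * a + w' * b) * Real.log A = w * a * Real.log A + w' * b * Real.log A := by ring
  nlinarith

/-- Product structure of a weight. -/
def IsProd (W : Conf n → ℝ) : Prop :=
  ∀ (x : Conf n) (i j : Fin n), i ≠ j → W (flipAt (flipAt x i) j) * W x = W (flipAt x i) * W (flipAt x j)

lemma heatQ_invariant {W h : Conf n → ℝ} (hW : ∀ x, 0 < W x) (hP : IsProd W) {i j : Fin n}
    (hij : i ≠ j) (hh : ∀ x, h (flipAt x j) = h x) (x : Conf n) :
    heatQ W i h (flipAt x j) = heatQ W i h x := by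
  unfold heatQ
  rw [flipAt_comm x j i, hh, hh (flipAt x i)]
  have h1 := hP x i j hij
  have p1 := hW x
  have p2 := hW (flipAt x i)
  have p3 := hW (flipAt x j)
  have p4 := hW (flipAt (flipAt x i) j)
  rw [div_eq_div_iff (by positivity) (by positivity)]
  have e : W (flipAt (flipAt x i) j) = W (flipAt x i) * W (flipAt x j) / W x := by
    field_simp
    linarith
  rw [e]
  field_simp

/-- The telescoping bound over a set of sites. -/
lemma tensor_step {W f : Conf n → ℝ} (hW : ∀ x, 0 < W x) (hP : IsProd W) (hf : ∀ x, 0 < f x)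
    (S : Finset (Fin n)) :
    ∃ G : Conf n → ℝ, (∀ x, 0 < G x) ∧ (∀ j ∈ S, ∀ x, G (flipAt x j) = G x) ∧
      ∑ x, W x * G x = ∑ x, W x * f x ∧
      ∑ x, W x * f x * (Real.log (f x) - Real.log (G x))
        ≤ (1 / 2) * ∑ i ∈ S, ∑ x, qTerm W f i x := by
  classical
  induction S using Finset.induction_on with
  | empty =>
    refine ⟨f, hf, by simp, rfl, by simp⟩
  | insert j S hj ih =>
    obtain ⟨G, hG0, hGinv, hGsum, hGent⟩ := ih
    refine ⟨heatQ W j G, heatQ_pos hW hG0 j, ?_, (sum_heatQ hW j G).trans hGsum, ?_⟩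
    · intro k hk x
      rcases Finset.mem_insert.1 hk with rfl | hk'
      · exact heatQ_flip W k G x
      · refine heatQ_invariant hW hP ?_ (hGinv k hk') x
        intro h
        exact hj (h ▸ hk')
    · rw [Finset.sum_insert hj]
      have hstep : ∑ x, W x * f x * (Real.log (G x) - Real.log (heatQ W j G x))
          ≤ (1 / 2) * ∑ x, qTerm W f j x := by
        rw [sum_half_flip j (fun x => W x * f x * (Real.log (G x) - Real.log (heatQ W j G x)))]
        apply mul_le_mul_of_nonneg_left _ (by norm_num)
        refine Finset.sum_le_sum fun x _ => ?_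
        have h1 := two_point_dv (hW x) (hW (flipAt x j)) (hf x) (hf (flipAt x j)) (hG0 x)
          (hG0 (flipAt x j))
        rw [heatQ_flip]
        unfold qTerm
        unfold heatQ
        exact h1
      have e : ∑ x, W x * f x * (Real.log (f x) - Real.log (heatQ W j G x))
          = ∑ x, W x * f x * (Real.log (f x) - Real.log (G x))
            + ∑ x, W x * f x * (Real.log (G x) - Real.log (heatQ W j G x)) := by
        rw [← Finset.sum_add_distrib]
        refine Finset.sum_congr rfl fun x _ => ?_
        ring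
      rw [e, mul_add]
      linarith

/-- A function invariant under all flips is constant. -/
lemma const_of_invariant {G : Conf n → ℝ} (hG : ∀ j x, G (flipAt x j) = G x) (x y : Conf n) :
    G x = G y := by
  have h := abs_sub_le_of_gradSq G (ℓ := 0) le_rfl (by
    intro z
    unfold gradSq
    simp [hG]) x y
  simp only [mul_zero] at h
  have := abs_nonpos_iff.1 h
  linarith

/-- Tensorization of entropy for product weights. -/
theorem tensor_prod {W f : Conf n → ℝ} (hW : ∀ x, 0 < W x) (hP : IsProd W) (hf : ∀ x, 0 < f x) :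
    entW W f ≤ qQ W f := by
  obtain ⟨G, hG0, hGinv, hGsum, hGent⟩ := tensor_step hW hP hf Finset.univ
  have hconst : ∀ x, G x = G (fun _ => true) := fun x =>
    const_of_invariant (fun j z => hGinv j (Finset.mem_univ j) z) x _
  obtain ⟨c, hc⟩ : ∃ c, c = G (fun _ => true) := ⟨_, rfl⟩
  rw [← hc] at hconst
  have hZ : 0 < ∑ x, W x := Finset.sum_pos (fun x _ => hW x) ⟨fun _ => true, Finset.mem_univ _⟩
  have hU : 0 < ∑ x, W x * f x :=
    Finset.sum_pos (fun x _ => mul_pos (hW x) (hf x)) ⟨fun _ => true, Finset.mem_univ _⟩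
  have hcval : c = (∑ x, W x * f x) / ∑ x, W x := by
    simp only [hconst, ← Finset.sum_mul] at hGsum
    rw [← hGsum]
    field_simp
  unfold entW qQ
  have e : ∑ x, W x * f x * (Real.log (f x) - Real.log (G x))
      = ∑ x, W x * xlogx (f x) - lamF (∑ x, W x * f x) (∑ x, W x) := by
    unfold xlogx lamF
    rw [← hcval]
    simp only [hconst]
    rw [Finset.sum_mul, ← Finset.sum_sub_distrib]
    refine Finset.sum_congr rfl fun x _ => ?_
    ring
  rw [← e]
  exact hGent

end Vale.Agent.Lib.P150
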